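import Vale.Agent.Lib.P162.LpRec

/-!
# The moments of the two sided kernel: solving the recursion
-/

namespace Vale.Agent.Lib.P162

open Equiv Finset

set_option linter.unusedSectionVars false
set_option linter.unusedSimpArgs false
set_option linter.unusedVariables false

variable {ι : Type*} [Fintype ι] [DecidableEq ι]

/-- the fourth root -/
noncomputable def rtt (D : ℕ) : ℝ := Real.sqrt (Real.sqrt D)

lemma rtt_nonneg (D : ℕ) : 0 ≤ rtt D := Real.sqrt_nonneg _

lemma rtt_sq (D : ℕ) : rtt D ^ 2 = Real.sqrt D := by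
  unfold rtt
  exact Real.sq_sqrt (Real.sqrt_nonneg _)

lemma rtt_four (D : ℕ) : rtt D ^ 4 = D := by
  have h : rtt D ^ 4 = (rtt D ^ 2) ^ 2 := by ring
  rw [h, rtt_sq]
  exact Real.sq_sqrt (Nat.cast_nonneg _)

lemma rtt_ge_six {D : ℕ} (hD : 1296 ≤ D) : 6 ≤ rtt D := by
  have h0 := rtt_nonneg D
  have h1 := rtt_four D
  by_contra hlt
  push Not at hlt
  have h2 : rtt D ^ 4 < 6 ^ 4 := pow_lt_pow_left₀ hlt h0 (by norm_num)
  rw [h1] at h2
  have h3 : (1296 : ℝ) ≤ D := by exact_mod_cast hD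
  norm_num at h2
  linarith

/-- the growth rates -/
noncomputable def gSeq (D : ℕ) : ℝ :=
  if D ≤ 1296 then 1200 else 100 * (rtt D ^ 2 - 4 * rtt D)

lemma rtt_1296 : rtt 1296 = 6 := by
  have h0 := rtt_nonneg 1296
  have h1 := rtt_four 1296
  have h2 : (rtt 1296) ^ 4 = 6 ^ 4 := by
    rw [h1]; norm_num
  exact (pow_left_inj₀ h0 (by norm_num) (by norm_num)).mp h2

lemma gSeq_eq {D : ℕ} (hD : 1296 ≤ D) : gSeq D = 100 * (rtt D ^ 2 - 4 * rtt D) := by
  unfold gSeq
  by_cases h : D ≤ 1296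
  · have : D = 1296 := le_antisymm h hD
    subst this
    rw [if_pos h, rtt_1296]
    norm_num
  · rw [if_neg h]

lemma gSeq_le (D : ℕ) : gSeq D ≤ 1200 * Real.sqrt (D + 1) := by
  have h1 : (1:ℝ) ≤ Real.sqrt (D + 1) := by
    rw [Real.one_le_sqrt]
    have : (0:ℝ) ≤ D := Nat.cast_nonneg _
    linarith
  unfold gSeq
  split_ifs with h
  · linarith
  · rw [rtt_sq]
    have h2 : Real.sqrt D ≤ Real.sqrt (D + 1) := Real.sqrt_le_sqrt (by linarith)
    have h3 := rtt_nonneg D
    nlinarith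

lemma gSeq_ge (D : ℕ) : 1200 ≤ gSeq D := by
  unfold gSeq
  split_ifs with h
  · exact le_refl _
  · have hD : 1296 ≤ D := by omega
    have h6 := rtt_ge_six hD
    have h4 := rtt_four D
    -- monotonicity of `t^2 - 4 t` for `t ≥ 6`
    nlinarith

/-- elementary exponential bound -/
lemma exp_le_quad {x : ℝ} (h0 : 0 ≤ x) (h1 : x ≤ 1) : Real.exp x ≤ 1 + x + x ^ 2 := by
  have h := Real.abs_exp_sub_one_sub_id_le (x := x) (by rw [abs_of_nonneg h0]; exact h1)
  have := (abs_le.mp h).2
  linarith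

/-- convexity of the exponential at the origin -/
lemma exp_mul_le {θ y : ℝ} (h0 : 0 ≤ θ) (h1 : θ ≤ 1) :
    Real.exp (θ * y) - 1 ≤ θ * (Real.exp y - 1) := by
  have h := convexOn_exp.2 (Set.mem_univ y) (Set.mem_univ 0) h0 (by linarith : 0 ≤ 1 - θ)
    (by ring)
  simp only [smul_eq_mul, mul_zero, add_zero, Real.exp_zero, mul_one] at h
  linarith

section numeric

lemma incr_lower {t t' : ℝ} (ht : 6 ≤ t) (ht' : 0 < t') (htt : t' ^ 4 = t ^ 4 + 1) :
    t ≤ t' ∧ (t - 3) / (2 * t ^ 3) ≤ (t' ^ 2 - t ^ 2) - 4 * (t' - t) := by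
  have ht0 : 0 < t := by linarith
  have htt' : t ≤ t' := by
    by_contra hlt
    push Not at hlt
    have : t' ^ 4 < t ^ 4 := pow_lt_pow_left₀ hlt ht'.le (by norm_num)
    linarith
  refine ⟨htt', ?_⟩
  set A := t' ^ 2 - t ^ 2 with hA
  set d := t' - t with hd
  have hd0 : 0 ≤ d := by rw [hd]; linarith
  have hA0 : 0 ≤ A := by rw [hA]; nlinarith
  have h1 : A * (2 * t ^ 2 + A) = 1 := by
    rw [hA]
    nlinarith
  have h2 : d * (t' + t) = A := by
    rw [hd, hA]; ring
  have hA2 : A * (2 * t ^ 2) ≤ 1 := by nlinarith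
  have hA3 : 1 - 1 / (4 * t ^ 4) ≤ A * (2 * t ^ 2) := by
    have h5 : A ≤ 1 / (2 * t ^ 2) := by
      rw [le_div_iff₀ (by positivity)]
      exact hA2
    have h6 : A ^ 2 ≤ (1 / (2 * t ^ 2)) ^ 2 := pow_le_pow_left₀ hA0 h5 2
    have h7 : (1 / (2 * t ^ 2)) ^ 2 = 1 / (4 * t ^ 4) := by
      field_simp
      ring
    rw [h7] at h6
    nlinarith
  have hd2 : d * (2 * t) ≤ A := by
    rw [← h2]
    apply mul_le_mul_of_nonneg_left _ hd0
    linarith
  have h5 : 4 * d ≤ A * (2 / t) := by
    have : d ≤ A / (2 * t) := by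
      rw [le_div_iff₀ (by positivity)]
      exact hd2
    calc 4 * d ≤ 4 * (A / (2 * t)) := by linarith
      _ = A * (2 / t) := by field_simp; ring
  have h6 : (t - 3) / (2 * t ^ 3) ≤ A * (1 - 2 / t) := by
    have h7 : (1 - 1 / (4 * t ^ 4)) / (2 * t ^ 2) ≤ A := by
      rw [div_le_iff₀ (by positivity)]
      exact hA3
    have h8 : 0 ≤ 1 - 2 / t := by
      rw [sub_nonneg, div_le_one ht0]
      linarith
    have h9 : (t - 3) / (2 * t ^ 3) ≤ (1 - 1 / (4 * t ^ 4)) / (2 * t ^ 2) * (1 - 2 / t) := by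
      have e : (1 - 1 / (4 * t ^ 4)) / (2 * t ^ 2) * (1 - 2 / t) =
          (t - 2 - (t - 2) / (4 * t ^ 4)) / (2 * t ^ 3) := by
        field_simp
      rw [e]
      apply div_le_div_of_nonneg_right _ (by positivity)
      have h10 : (t - 2) / (4 * t ^ 4) ≤ 1 := by
        rw [div_le_one (by positivity)]
        have h11 : (6:ℝ) ^ 3 ≤ t ^ 3 := pow_le_pow_left₀ (by norm_num) ht 3
        have h12 : t ^ 4 = t * t ^ 3 := by ring
        nlinarith
      linarith
    exact h9.trans (mul_le_mul_of_nonneg_right h7 h8)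
  linarith

lemma numbers_bound {t : ℝ} (ht : 6 ≤ t) :
    (t ^ 2 - 3.9 * t - 0.4) * 100 / (2 * (t ^ 4 - 101 / 100)) + 1 / (4 * (t ^ 4 - 1)) ≤
      100 * ((t - 3) / (2 * t ^ 3)) := by
  have ht0 : 0 < t := by linarith
  have h4 : 1296 ≤ t ^ 4 := by
    have : (6:ℝ) ^ 4 ≤ t ^ 4 := pow_le_pow_left₀ (by norm_num) ht 4
    norm_num at this
    exact this
  have hEq1 : 0 < t ^ 4 - 101 / 100 := by linarith
  have hE1 : 0 < t ^ 4 - 1 := by linarith
  have h6 : t ^ 4 * 6 ≤ t ^ 5 := by
    have : t ^ 5 = t ^ 4 * t := by ring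
    rw [this]
    exact mul_le_mul_of_nonneg_left ht (by positivity)
  have hnum1 : (t ^ 2 - 3.9 * t - 0.4) * 100 / (2 * (t ^ 4 - 101 / 100)) ≤
      100 * ((t ^ 2 - 3.5 * t) / (2 * t ^ 4)) := by
    rw [← mul_div_assoc, div_le_div_iff₀ (by positivity) (by positivity)]
    have h5 : t ^ 2 ≤ t ^ 4 := by nlinarith [sq_nonneg t]
    have e : (t ^ 2 - 3.9 * t - 0.4) * 100 * (2 * t ^ 4) =
        200 * (t ^ 2 * t ^ 4) - 780 * t ^ 5 - 80 * t ^ 4 := by ring
    have e2 : 100 * (t ^ 2 - 3.5 * t) * (2 * (t ^ 4 - 101 / 100)) =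
        200 * (t ^ 2 * t ^ 4) - 700 * t ^ 5 - 202 * t ^ 2 + 707 * t := by ring
    rw [e, e2]
    nlinarith
  have hnum2 : 1 / (4 * (t ^ 4 - 1)) ≤ 100 * ((0.5 * t) / (2 * t ^ 4)) := by
    rw [← mul_div_assoc, div_le_div_iff₀ (by positivity) (by positivity)]
    have e : 100 * (0.5 * t) * (4 * (t ^ 4 - 1)) = 200 * t ^ 5 - 200 * t := by ring
    rw [e]
    nlinarith
  have hnum3 : (t ^ 2 - 3.5 * t) / (2 * t ^ 4) + (0.5 * t) / (2 * t ^ 4) = (t - 3) / (2 * t ^ 3) := by
    field_simp
    ring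
  calc _ ≤ 100 * ((t ^ 2 - 3.5 * t) / (2 * t ^ 4)) + 100 * ((0.5 * t) / (2 * t ^ 4)) :=
        add_le_add hnum1 hnum2
    _ = _ := by rw [← mul_add, hnum3]

lemma delta_bound {t q g G : ℝ} (ht : 6 ≤ t) (hq : 0 < q) (hqG : q * G < t)
    (hgt : (100 / 3) * t ^ 2 ≤ g) (hgG : g ≤ G) :
    let E := t ^ 4 - 1
    let δ := q * g * (1 + q) / (E - q)
    0 ≤ δ ∧ δ ≤ 1 ∧ q < E ∧ t ^ 4 - 101 / 100 ≤ E - q ∧ (1 + q) * (1 + δ) ≤ 1 + 1 / (10 * t) := by
  intro E δ
  have ht0 : 0 < t := by linarith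
  have h4 : 1296 ≤ t ^ 4 := by
    have : (6:ℝ) ^ 4 ≤ t ^ 4 := pow_le_pow_left₀ (by norm_num) ht 4
    norm_num at this
    exact this
  have hg0 : 0 ≤ g := le_trans (by positivity) hgt
  have hGt : (100 / 3) * t ^ 2 ≤ G := by linarith
  have hqt : q * t ≤ 3 / 100 := by
    have h5 : q * ((100 / 3) * t ^ 2) ≤ t := by
      have : q * ((100 / 3) * t ^ 2) ≤ q * G := mul_le_mul_of_nonneg_left hGt hq.le
      linarith
    by_contra hlt
    push Not at hlt
    have : t < q * ((100 / 3) * t ^ 2) := by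
      have e : q * ((100 / 3) * t ^ 2) = (q * t) * ((100 / 3) * t) := by ring
      rw [e]
      nlinarith
    linarith
  have hq1 : q ≤ 1 / 200 := by
    have : q * 6 ≤ q * t := mul_le_mul_of_nonneg_left ht hq.le
    linarith
  have hE : E = t ^ 4 - 1 := rfl
  have hE0 : 1295 ≤ E := by rw [hE]; linarith
  have hqE : q < E := by linarith
  have hEq : t ^ 4 - 101 / 100 ≤ E - q := by
    rw [hE]; linarith
  have hEq0 : 0 < E - q := by linarith
  have hEq1 : 0 < t ^ 4 - 101 / 100 := by linarith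
  have hqg : q * g ≤ t := by
    have : q * g ≤ q * G := mul_le_mul_of_nonneg_left hgG hq.le
    linarith
  have hδ0 : 0 ≤ δ := by
    simp only [δ]
    apply div_nonneg _ hEq0.le
    exact mul_nonneg (mul_nonneg hq.le hg0) (by linarith)
  have hδt : δ * t ^ 3 ≤ 103 / 100 := by
    have h5 : δ ≤ t * (201 / 200) / (t ^ 4 - 101 / 100) := by
      simp only [δ]
      apply div_le_div₀ (by positivity) _ hEq1 hEq
      apply mul_le_mul hqg (by linarith) (by linarith) ht0.le
    have h6 : t * (201 / 200) / (t ^ 4 - 101 / 100) * t ^ 3 ≤ 103 / 100 := by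
      rw [div_mul_eq_mul_div, div_le_iff₀ hEq1]
      have e : t * (201 / 200) * t ^ 3 = (201 / 200) * t ^ 4 := by ring
      rw [e]
      linarith
    have h7 : δ * t ^ 3 ≤ t * (201 / 200) / (t ^ 4 - 101 / 100) * t ^ 3 :=
      mul_le_mul_of_nonneg_right h5 (by positivity)
    linarith
  have ht3' : (216 : ℝ) ≤ t ^ 3 := by
    have : (6:ℝ) ^ 3 ≤ t ^ 3 := pow_le_pow_left₀ (by norm_num) ht 3
    norm_num at this
    exact this
  have hδ1 : δ ≤ 1 / 100 := by
    by_contra hlt
    push Not at hlt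
    have : (1 / 100 : ℝ) * 216 ≤ δ * t ^ 3 := mul_le_mul hlt.le ht3' (by norm_num) hδ0
    linarith
  refine ⟨hδ0, by linarith, hqE, hEq, ?_⟩
  have h5 : q ≤ (3 / 100) / t := by
    rw [le_div_iff₀ ht0]; exact hqt
  have h6 : δ ≤ (3 / 100) / t := by
    rw [le_div_iff₀ ht0]
    have h7 : δ * t * 36 ≤ δ * t ^ 3 := by
      have h8 : t * 36 ≤ t ^ 3 := by
        have : t ^ 3 = t * t ^ 2 := by ring
        rw [this]
        apply mul_le_mul_of_nonneg_left _ ht0.le
        nlinarith
      calc δ * t * 36 = δ * (t * 36) := by ring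
        _ ≤ δ * t ^ 3 := mul_le_mul_of_nonneg_left h8 hδ0
    linarith
  set y := (1:ℝ) / t with hy
  have hy0 : 0 < y := by positivity
  have hy1 : y ≤ 1 / 6 := by
    rw [hy]
    exact one_div_le_one_div_of_le (by norm_num) ht
  have e1 : (3 / 100) / t = (3 / 100) * y := by
    rw [hy]; ring
  have e2 : 1 / (10 * t) = y / 10 := by
    rw [hy]; field_simp
  rw [e1] at h5 h6
  rw [e2]
  have hq0 : 0 < q := hq
  have : q * δ ≤ (3 / 100 * y) * (3 / 100 * y) := mul_le_mul h5 h6 hδ0 (by positivity)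
  nlinarith

/-- the purely numerical inequality for the increments of the rates -/
lemma numeric_increment {t t' q κ : ℝ} (ht : 6 ≤ t) (ht' : 0 < t') (htt : t' ^ 4 = t ^ 4 + 1)
    (hq : 0 < q) (hqG : q * (100 * (t' ^ 2 - 4 * t')) < t) (hκ0 : 0 ≤ κ) (hκ : κ ≤ 1 / 2) :
    let g := 100 * (t ^ 2 - 4 * t)
    let G := 100 * (t' ^ 2 - 4 * t')
    let E := t ^ 4 - 1
    let δ := q * g * (1 + q) / (E - q)
    0 ≤ δ ∧ δ ≤ 1 ∧ q < E ∧ g ≤ G ∧ 0 ≤ g ∧ (δ + δ ^ 2) / 2 + q / (2 * E) * κ ≤ q * (G - g) := by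
  intro g G E δ
  have ht0 : 0 < t := by linarith
  have h4 : 1296 ≤ t ^ 4 := by
    have : (6:ℝ) ^ 4 ≤ t ^ 4 := pow_le_pow_left₀ (by norm_num) ht 4
    norm_num at this
    exact this
  obtain ⟨htt', hinc⟩ := incr_lower ht ht' htt
  have ht3 : 0 < (t - 3) / (2 * t ^ 3) := by
    apply div_pos <;> [linarith; positivity]
  have hGg : G - g = 100 * ((t' ^ 2 - t ^ 2) - 4 * (t' - t)) := by
    simp only [G, g]
    ring
  have hg0 : 0 ≤ g := by
    simp only [g]
    nlinarith
  have hgG : g ≤ G := by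
    have : 0 < (t' ^ 2 - t ^ 2) - 4 * (t' - t) := by linarith
    linarith
  have hgt : (100 / 3) * t ^ 2 ≤ g := by
    simp only [g]
    nlinarith
  obtain ⟨hδ0, hδ1, hqE, hEq, hprod⟩ := delta_bound ht hq hqG hgt hgG
  have hE : E = t ^ 4 - 1 := rfl
  have hE0 : 1295 ≤ E := by rw [hE]; linarith
  have hEq0 : 0 < E - q := by
    have : q < E := hqE
    linarith
  have hEq1 : 0 < t ^ 4 - 101 / 100 := by linarith
  refine ⟨hδ0, hδ1, hqE, hgG, hg0, ?_⟩
  have hδq : δ = q * (g * (1 + q) / (E - q)) := by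
    simp only [δ]
    ring
  set Z := g * (1 + q) / (E - q) with hZ
  have hκE : κ / (2 * E) ≤ 1 / (4 * (t ^ 4 - 1)) := by
    have hE3 : 0 < t ^ 4 - 1 := by linarith
    have e : 1 / (4 * (t ^ 4 - 1)) = (1 / 2) / (2 * (t ^ 4 - 1)) := by
      field_simp
      ring
    rw [hE, e]
    exact div_le_div_of_nonneg_right hκ (by positivity)
  have hZ1 : Z * (1 + δ) / 2 ≤ (t ^ 2 - 3.9 * t - 0.4) * 100 / (2 * (t ^ 4 - 101 / 100)) := by
    have e1 : Z * (1 + δ) = g * ((1 + q) * (1 + δ)) / (E - q) := by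
      rw [hZ]; ring
    rw [e1]
    have h5 : g * ((1 + q) * (1 + δ)) ≤ g * (1 + 1 / (10 * t)) :=
      mul_le_mul_of_nonneg_left hprod hg0
    have e2 : g * (1 + 1 / (10 * t)) = (t ^ 2 - 3.9 * t - 0.4) * 100 := by
      simp only [g]
      field_simp
      ring
    rw [e2] at h5
    have h6 : 0 ≤ (t ^ 2 - 3.9 * t - 0.4) * 100 := by
      have : 0 ≤ t ^ 2 - 3.9 * t - 0.4 := by nlinarith
      positivity
    have h7 : g * ((1 + q) * (1 + δ)) / (E - q) ≤ (t ^ 2 - 3.9 * t - 0.4) * 100 / (t ^ 4 - 101 / 100) :=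
      div_le_div₀ h6 h5 hEq1 hEq
    have e3 : (t ^ 2 - 3.9 * t - 0.4) * 100 / (2 * (t ^ 4 - 101 / 100)) =
        (t ^ 2 - 3.9 * t - 0.4) * 100 / (t ^ 4 - 101 / 100) / 2 := by
      field_simp
    rw [e3]
    linarith
  have hnum := numbers_bound ht
  have hfinal : Z * (1 + δ) / 2 + κ / (2 * E) ≤ G - g := by
    rw [hGg]
    have : 100 * ((t - 3) / (2 * t ^ 3)) ≤ 100 * ((t' ^ 2 - t ^ 2) - 4 * (t' - t)) := by linarith
    linarith
  have e : (δ + δ ^ 2) / 2 + q / (2 * E) * κ = q * (Z * (1 + δ) / 2 + κ / (2 * E)) := by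
    have hq2 : δ + δ ^ 2 = q * Z * (1 + δ) := by
      rw [hδq]; ring
    rw [hq2]
    field_simp
  rw [e]
  exact mul_le_mul_of_nonneg_left hfinal hq.le

/-- the exponential inequality for one step -/
lemma exp_step {g G E q δ κ : ℝ} (hq : 0 < q) (hE : q < E) (hg : 0 ≤ g) (hκ0 : 0 ≤ κ)
    (hδ0 : 0 ≤ δ) (hδ1 : δ ≤ 1)
    (hmain : (δ + δ ^ 2) / 2 + q / (2 * E) * κ ≤ q * (G - g)) :
    (Real.exp (q * g) - 1 + ((1 - q / E) * (Real.exp (q * g + δ) - 1) + (q / E) * κ)) / 2 ≤
      Real.exp (q * G) - 1 := by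
  set X := Real.exp (q * g) with hX
  have hE0 : 0 < E := by linarith
  have hX1 : 1 ≤ X := by
    rw [hX]
    exact Real.one_le_exp (mul_nonneg hq.le hg)
  have h1 : Real.exp (q * g + δ) = X * Real.exp δ := Real.exp_add _ _
  have h2 : Real.exp δ ≤ 1 + δ + δ ^ 2 := exp_le_quad hδ0 hδ1
  have h3 : 1 ≤ Real.exp δ := Real.one_le_exp hδ0
  have hqE : 0 < q / E := div_pos hq hE0
  have hqE1 : q / E ≤ 1 := by
    rw [div_le_one hE0]; exact hE.le
  have h4 : (1 - q / E) * (X * Real.exp δ - 1) ≤ X * (1 + δ + δ ^ 2) - 1 := by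
    have h5 : 0 ≤ X * Real.exp δ - 1 := by nlinarith
    have h6 : X * Real.exp δ ≤ X * (1 + δ + δ ^ 2) := mul_le_mul_of_nonneg_left h2 (by linarith)
    nlinarith
  have h5 : Real.exp (q * G) = X * Real.exp (q * (G - g)) := by
    rw [hX, ← Real.exp_add]
    congr 1
    ring
  have h6 : X * (1 + q * (G - g)) ≤ Real.exp (q * G) := by
    rw [h5]
    apply mul_le_mul_of_nonneg_left _ (by linarith)
    linarith [Real.add_one_le_exp (q * (G - g))]
  rw [h1]
  have e : q / E * κ = 2 * (q / (2 * E) * κ) := by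
    field_simp
  have h7 : X * ((δ + δ ^ 2) / 2 + q / (2 * E) * κ) ≤ X * (q * (G - g)) :=
    mul_le_mul_of_nonneg_left hmain (by linarith)
  have h8 : 0 ≤ q / (2 * E) * κ := by positivity
  nlinarith

end numeric

/-- the bound for the moments of the two sided kernel -/
theorem moment_bound (D : ℕ) : ∀ (S : Finset ι) (x : ι → Pos D), InjF x S → ∀ q : ℝ, 0 < q →
    normP D S x (1 + q) ≤ Real.exp (S.card * (Real.exp (q * gSeq D) - 1)) := by
  have htriv : ∀ (D : ℕ) (S : Finset ι) (x : ι → Pos D) (q G : ℝ), 0 < q →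
      q * ((D : ℝ) * Real.log 2) ≤ Real.exp (q * G) - 1 →
      normP D S x (1 + q) ≤ Real.exp (S.card * (Real.exp (q * G) - 1)) := by
    intro D S x q G hq h
    refine (normP_trivial D S x hq.le).trans ?_
    have h2 : (0:ℝ) < 2 := by norm_num
    have e : (((2 : ℝ) ^ D) ^ S.card) ^ q = Real.exp (S.card * (q * ((D : ℝ) * Real.log 2))) := by
      rw [← Real.rpow_natCast, ← Real.rpow_natCast, ← Real.rpow_mul h2.le, ← Real.rpow_mul h2.le,
        Real.rpow_def_of_pos h2]
      congr 1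
      ring
    rw [e]
    apply Real.exp_le_exp.mpr
    exact mul_le_mul_of_nonneg_left h (Nat.cast_nonneg _)
  have hlog : Real.log 2 ≤ 0.7 := by
    have := Real.log_two_lt_d9
    linarith
  have hlog0 : 0 < Real.log 2 := Real.log_pos (by norm_num)
  induction D with
  | zero =>
    intro S x hx q hq
    apply htriv 0 S x q _ hq
    have h1 := gSeq_ge 0
    have h2 : 0 ≤ q * gSeq 0 := by positivity
    have h3 := Real.one_le_exp h2
    simp only [Nat.cast_zero, zero_mul, mul_zero]
    linarith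
  | succ D ih =>
    intro S x hx q hq
    by_cases hD : D + 1 ≤ 1296
    · apply htriv (D + 1) S x q _ hq
      have h1 : gSeq (D + 1) = 1200 := by
        unfold gSeq
        rw [if_pos hD]
      rw [h1]
      have h2 := Real.add_one_le_exp (q * 1200)
      have h3 : ((D + 1 : ℕ) : ℝ) ≤ 1296 := by exact_mod_cast hD
      have h4 : ((D + 1 : ℕ) : ℝ) * Real.log 2 ≤ 1200 := by
        have : (0:ℝ) ≤ ((D + 1 : ℕ) : ℝ) := Nat.cast_nonneg _
        nlinarith
      have := mul_le_mul_of_nonneg_left h4 hq.le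
      linarith
    · have hD1 : 1296 ≤ D := by omega
      have hD2 : 1296 ≤ D + 1 := by omega
      set t := rtt D with ht
      set t' := rtt (D + 1) with ht'
      have ht6 : 6 ≤ t := rtt_ge_six hD1
      have ht'6 : 6 ≤ t' := rtt_ge_six hD2
      have ht4 : t ^ 4 = D := rtt_four D
      have ht'4 : t' ^ 4 = t ^ 4 + 1 := by
        rw [ht4, ht', rtt_four]
        push_cast
        ring
      have hG : gSeq (D + 1) = 100 * (t' ^ 2 - 4 * t') := gSeq_eq hD2
      have hg : gSeq D = 100 * (t ^ 2 - 4 * t) := gSeq_eq hD1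
      have hG1200 := gSeq_ge (D + 1)
      by_cases hc : t ≤ q * gSeq (D + 1)
      · -- the trivial bound wins
        apply htriv (D + 1) S x q _ hq
        set G := gSeq (D + 1) with hGdef
        set u := q * G with hu
        have hu6 : 6 ≤ u := by linarith
        have h1 := Real.pow_div_factorial_le_exp u (by linarith) 5
        have h2 : (5 : ℕ).factorial = 120 := by norm_num [Nat.factorial]
        rw [h2] at h1
        have h3 : 2 ≤ Real.exp u := by
          have := Real.add_one_le_exp u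
          linarith
        have h4 : u ^ 5 / 240 ≤ Real.exp u - 1 := by
          push_cast at h1
          linarith
        have h5 : u * t ^ 4 ≤ u ^ 5 := by
          have h6 : t ^ 4 ≤ u ^ 4 := pow_le_pow_left₀ (by linarith) hc 4
          have : u ^ 5 = u * u ^ 4 := by ring
          rw [this]
          exact mul_le_mul_of_nonneg_left h6 (by linarith)
        have h6 : q * (((D + 1 : ℕ) : ℝ) * Real.log 2) ≤ u * t ^ 4 / 240 := by
          rw [ht4, hu]
          have hDr : (1296 : ℝ) ≤ D := by exact_mod_cast hD1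
          push_cast
          have h7 : ((D : ℝ) + 1) * Real.log 2 ≤ G * D / 240 := by
            have h8 : ((D : ℝ) + 1) * Real.log 2 ≤ ((D : ℝ) + 1) * 0.7 :=
              mul_le_mul_of_nonneg_left hlog (by linarith)
            have h9 : 1200 * (D : ℝ) ≤ G * D :=
              mul_le_mul_of_nonneg_right hG1200 (by linarith)
            linarith
          have := mul_le_mul_of_nonneg_left h7 hq.le
          calc _ ≤ q * (G * D / 240) := this
            _ = _ := by ring
        linarith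
      · -- the recursion
        push Not at hc
        rw [hG] at hc
        set e : ℕ := D - 1 with he
        have heE : (e : ℝ) = t ^ 4 - 1 := by
          rw [he, ht4, Nat.cast_sub (by omega)]
          simp
        set κ : ℝ := ((2 : ℝ) ^ e - 1) / 2 ^ D with hκ
        have hκ0 : 0 ≤ κ := by
          have he1 : (1 : ℝ) ≤ 2 ^ e := one_le_pow₀ (by norm_num)
          exact div_nonneg (by linarith) (by positivity)
        have hκ1 : κ ≤ 1 / 2 := by
          rw [hκ, div_le_iff₀ (by positivity)]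
          have : (2:ℝ) ^ D = 2 * 2 ^ e := by
            rw [← pow_succ']
            congr 1
            omega
          rw [this]
          linarith
        obtain ⟨hδ0, hδ1, hqE, hgG, hg0, hmain⟩ :=
          numeric_increment ht6 (by linarith) ht'4 hq hc hκ0 hκ1
        set g := 100 * (t ^ 2 - 4 * t) with hgdef
        set G := 100 * (t' ^ 2 - 4 * t') with hGdef
        set E := t ^ 4 - 1 with hEdef
        set δ := q * g * (1 + q) / (E - q) with hδdef
        rw [← heE] at hqE hδdef hmain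
        have hE0 : (0:ℝ) < e := by linarith
        have hEq : 0 < (e : ℝ) - q := by linarith
        -- the raised exponent
        set q' := q * (1 + e) / (e - q) with hq'
        have hq'0 : 0 < q' := by
          rw [hq']
          positivity
        have hq'e : (1 + q) * ((e : ℝ) / (e - q)) = 1 + q' := by
          rw [hq']
          field_simp
          ring
        have hq'g : q' * g = q * g + δ := by
          rw [hq', hδdef]
          field_simp
          ring
        -- the two induction hypotheses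
        have h0 : ∀ (S : Finset ι) (x : ι → Pos D), InjF x S →
            normP D S x (1 + q) ≤ Real.exp (S.card * (Real.exp (q * g) - 1)) := by
          intro S x hx
          have := ih S x hx q hq
          rwa [hg] at this
        have h1 : ∀ (S : Finset ι) (x : ι → Pos D), InjF x S →
            normP D S x ((1 + q) * ((e : ℝ) / (e - q))) ≤
              Real.exp (S.card * (Real.exp (q * g + δ) - 1)) := by
          intro S x hx
          rw [hq'e]
          have := ih S x hx q' hq'0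
          rwa [hg, hq'g] at this
        -- the convexity condition
        have hqq : q / (e:ℝ) < 1 := by
          rw [div_lt_one hE0]; exact hqE
        have hθ : q * g = ((e - q) / (1 + e)) * (q * g + δ) := by
          rw [← hq'g, hq']
          field_simp
        have hθ0 : 0 ≤ ((e:ℝ) - q) / (1 + e) := by positivity
        have hθ1 : ((e:ℝ) - q) / (1 + e) ≤ 1 - q / e := by
          have e3 : 1 - q / (e:ℝ) = (e - q) / e := by
            field_simp
          rw [e3]
          apply div_le_div_of_nonneg_left hEq.le hE0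
          linarith
        have hconv : Real.exp (q * g) - 1 ≤ (1 - q / e) * (Real.exp (q * g + δ) - 1) := by
          have h3 : 0 ≤ Real.exp (q * g + δ) - 1 := by
            have : 0 ≤ q * g + δ := by positivity
            linarith [Real.one_le_exp this]
          have h4 := exp_mul_le (y := q * g + δ) hθ0 (hθ1.trans (by
            have : 0 ≤ q / (e:ℝ) := by positivity
            linarith))
          rw [← hθ] at h4
          exact h4.trans (mul_le_mul_of_nonneg_right hθ1 h3)
        have hφ : Real.exp (q * g) - 1 ≤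
            (1 - q / e) * (Real.exp (q * g + δ) - 1) + (q / e) * κ := by
          have : 0 ≤ q / (e:ℝ) * κ := by positivity
          linarith
        have hrec := rec_bound D e hq hqE hφ h0 h1 S x hx
        refine hrec.trans ?_
        apply Real.exp_le_exp.mpr
        apply mul_le_mul_of_nonneg_left _ (Nat.cast_nonneg _)
        rw [hG]
        exact exp_step hq hqE hg0 hκ0 hδ0 hδ1 hmain

end Vale.Agent.Lib.P162
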