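import Mathlib

/-!
# Uniform averages over finite types
-/

namespace Vale.Agent.Lib.P162

open Finset

set_option linter.unusedSectionVars false
set_option linter.unusedSimpArgs false
set_option linter.unusedVariables false

/-- the uniform average over a finite type -/
noncomputable def avg {Y : Type*} [Fintype Y] (F : Y → ℝ) : ℝ :=
  (Fintype.card Y : ℝ)⁻¹ * ∑ y, F y

section basic

variable {Y : Type*} [Fintype Y]

lemma avg_eq (F : Y → ℝ) : avg F = (Fintype.card Y : ℝ)⁻¹ * ∑ y, F y := rfl

lemma avg_add (F G : Y → ℝ) : avg (fun y => F y + G y) = avg F + avg G := by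
  simp [avg, sum_add_distrib, mul_add]

lemma avg_sub (F G : Y → ℝ) : avg (fun y => F y - G y) = avg F - avg G := by
  simp [avg, sum_sub_distrib, mul_sub]

lemma avg_neg (F : Y → ℝ) : avg (fun y => - F y) = - avg F := by
  simp [avg, sum_neg_distrib]

lemma avg_mul_left (c : ℝ) (F : Y → ℝ) : avg (fun y => c * F y) = c * avg F := by
  simp only [avg, ← mul_sum]
  ring

lemma avg_mul_right (c : ℝ) (F : Y → ℝ) : avg (fun y => F y * c) = avg F * c := by
  simp only [avg, ← sum_mul]
  ring

lemma avg_mono {F G : Y → ℝ} (h : ∀ y, F y ≤ G y) : avg F ≤ avg G := by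
  unfold avg
  apply mul_le_mul_of_nonneg_left (sum_le_sum fun y _ => h y) (by positivity)

lemma avg_nonneg {F : Y → ℝ} (h : ∀ y, 0 ≤ F y) : 0 ≤ avg F := by
  unfold avg
  exact mul_nonneg (by positivity) (sum_nonneg fun y _ => h y)

lemma avg_congr {F G : Y → ℝ} (h : ∀ y, F y = G y) : avg F = avg G := by
  rw [funext h]

lemma avg_const [Nonempty Y] (c : ℝ) : avg (fun _ : Y => c) = c := by
  have : (Fintype.card Y : ℝ) ≠ 0 := by
    exact_mod_cast Fintype.card_ne_zero
  simp [avg, card_univ]

lemma avg_sum {κ : Type*} (s : Finset κ) (F : κ → Y → ℝ) :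
    avg (fun y => ∑ k ∈ s, F k y) = ∑ k ∈ s, avg (F k) := by
  simp only [avg, ← mul_sum]
  rw [sum_comm]

lemma avg_comm {Z : Type*} [Fintype Z] (F : Y → Z → ℝ) :
    avg (fun y => avg (fun z => F y z)) = avg (fun z => avg (fun y => F y z)) := by
  simp only [avg, ← mul_sum]
  rw [mul_left_comm, sum_comm]

lemma avg_equiv {Z : Type*} [Fintype Z] (e : Y ≃ Z) (F : Z → ℝ) :
    avg (fun y => F (e y)) = avg F := by
  unfold avg
  rw [Fintype.card_congr e]
  congr 1
  exact Fintype.sum_equiv e _ _ fun _ => rfl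

lemma avg_prod {Z : Type*} [Fintype Z] (F : Y × Z → ℝ) :
    avg F = avg (fun y => avg (fun z => F (y, z))) := by
  unfold avg
  rw [Fintype.card_prod, Fintype.sum_prod_type]
  simp only [← mul_sum]
  push_cast
  rw [mul_inv, mul_assoc]

lemma avg_le_of_le [Nonempty Y] {F : Y → ℝ} {c : ℝ} (h : ∀ y, F y ≤ c) : avg F ≤ c := by
  calc avg F ≤ avg (fun _ : Y => c) := avg_mono h
    _ = c := avg_const c

lemma abs_avg_le (F : Y → ℝ) : |avg F| ≤ avg (fun y => |F y|) := by
  unfold avg
  rw [abs_mul, abs_of_nonneg (by positivity : (0:ℝ) ≤ (Fintype.card Y : ℝ)⁻¹)]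
  exact mul_le_mul_of_nonneg_left (abs_sum_le_sum_abs _ _) (by positivity)

/-- weighted bound: `E[w F] ≤ c` if `E w = 1`, `w ≥ 0`, and `F ≤ c` where `w ≠ 0` -/
lemma avg_weight_le {w F : Y → ℝ} {c : ℝ} (hw : ∀ y, 0 ≤ w y) (h1 : avg w = 1)
    (h : ∀ y, w y ≠ 0 → F y ≤ c) : avg (fun y => w y * F y) ≤ c := by
  have h2 : avg (fun y => w y * F y) ≤ avg (fun y => w y * c) := by
    apply avg_mono
    intro y
    by_cases hy : w y = 0
    · simp [hy]
    · exact mul_le_mul_of_nonneg_left (h y hy) (hw y)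
  rw [avg_mul_right, h1, one_mul] at h2
  exact h2

end basic

section holder

variable {Y : Type*} [Fintype Y]

/-- Hölder's inequality for uniform averages -/
lemma avg_holder [Nonempty Y] {s s' : ℝ} (h : s.HolderConjugate s') {f g : Y → ℝ}
    (hf : ∀ y, 0 ≤ f y) (hg : ∀ y, 0 ≤ g y) :
    avg (fun y => f y * g y) ≤
      avg (fun y => f y ^ s) ^ (1 / s) * avg (fun y => g y ^ s') ^ (1 / s') := by
  have hc : (0 : ℝ) < Fintype.card Y := by exact_mod_cast Fintype.card_pos
  have h0 := Real.inner_le_Lp_mul_Lq (Finset.univ) f g h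
  simp only [abs_of_nonneg (hf _), abs_of_nonneg (hg _)] at h0
  have hs : 0 < s := h.pos
  have hs' : 0 < s' := h.symm.pos
  have e1 : 1 / s + 1 / s' = 1 := by
    have := h.inv_add_inv_eq_one
    simpa [one_div] using this
  unfold avg
  rw [Real.mul_rpow (by positivity) (sum_nonneg fun y _ => Real.rpow_nonneg (hf y) _),
    Real.mul_rpow (by positivity) (sum_nonneg fun y _ => Real.rpow_nonneg (hg y) _)]
  have e2 : ((Fintype.card Y : ℝ)⁻¹) ^ (1 / s) * ((Fintype.card Y : ℝ)⁻¹) ^ (1 / s') =
      (Fintype.card Y : ℝ)⁻¹ := by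
    rw [← Real.rpow_add (by positivity), e1, Real.rpow_one]
  calc (Fintype.card Y : ℝ)⁻¹ * ∑ y, f y * g y
      ≤ (Fintype.card Y : ℝ)⁻¹ * ((∑ y, f y ^ s) ^ (1 / s) * (∑ y, g y ^ s') ^ (1 / s')) :=
        mul_le_mul_of_nonneg_left h0 (by positivity)
    _ = (((Fintype.card Y : ℝ)⁻¹) ^ (1 / s) * ((Fintype.card Y : ℝ)⁻¹) ^ (1 / s')) *
          ((∑ y, f y ^ s) ^ (1 / s) * (∑ y, g y ^ s') ^ (1 / s')) := by rw [e2]
    _ = _ := by ring

/-- the weighted power mean inequality -/
lemma avg_jensen [Nonempty Y] {p : ℝ} (hp : 1 < p) {w u : Y → ℝ} (hw : ∀ y, 0 ≤ w y)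
    (hu : ∀ y, 0 ≤ u y) :
    avg (fun y => w y * u y) ^ p ≤ avg w ^ (p - 1) * avg (fun y => w y * u y ^ p) := by
  have hH : p.HolderConjugate (p / (p - 1)) := Real.HolderConjugate.conjExponent hp
  have hH' := hH.symm
  set p' := p / (p - 1) with hp'
  have hp'0 : 0 < p' := hH.symm.pos
  have hp0 : 0 < p := by linarith
  have hi : 1 / p + 1 / p' = 1 := by
    have := hH.inv_add_inv_eq_one
    simpa [one_div] using this
  have h1 := avg_holder hH (f := fun y => w y ^ (1 / p) * u y) (g := fun y => w y ^ (1 / p'))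
    (fun y => mul_nonneg (Real.rpow_nonneg (hw y) _) (hu y)) (fun y => Real.rpow_nonneg (hw y) _)
  have e1 : ∀ y, w y ^ (1 / p) * u y * w y ^ (1 / p') = w y * u y := by
    intro y
    by_cases hy : w y = 0
    · have h2 : (0:ℝ) ^ (1 / p) = 0 := Real.zero_rpow (by positivity)
      rw [hy, h2]
      simp
    · have hy' : 0 < w y := lt_of_le_of_ne (hw y) (Ne.symm hy)
      calc w y ^ (1 / p) * u y * w y ^ (1 / p') = (w y ^ (1 / p) * w y ^ (1 / p')) * u y := by ring
        _ = w y * u y := by rw [← Real.rpow_add hy', hi, Real.rpow_one]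
  have e2 : ∀ y, (w y ^ (1 / p) * u y) ^ p = w y * u y ^ p := by
    intro y
    rw [Real.mul_rpow (Real.rpow_nonneg (hw y) _) (hu y), ← Real.rpow_mul (hw y)]
    rw [show 1 / p * p = 1 by field_simp, Real.rpow_one]
  have e3 : ∀ y, (w y ^ (1 / p')) ^ p' = w y := by
    intro y
    rw [← Real.rpow_mul (hw y), show 1 / p' * p' = 1 by field_simp, Real.rpow_one]
  simp only [e1, e2, e3] at h1
  have h2 : 0 ≤ avg (fun y => w y * u y) := avg_nonneg fun y => mul_nonneg (hw y) (hu y)
  have h3 : 0 ≤ avg (fun y => w y * u y ^ p) :=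
    avg_nonneg fun y => mul_nonneg (hw y) (Real.rpow_nonneg (hu y) _)
  have h4 : 0 ≤ avg w := avg_nonneg hw
  have h5 := Real.rpow_le_rpow h2 h1 hp0.le
  rw [Real.mul_rpow (Real.rpow_nonneg h3 _) (Real.rpow_nonneg h4 _), ← Real.rpow_mul h3,
    ← Real.rpow_mul h4, show 1 / p * p = 1 by field_simp, Real.rpow_one] at h5
  have e4 : 1 / p' * p = p - 1 := by
    rw [hp']
    have : p - 1 ≠ 0 := by linarith
    field_simp
  rw [e4] at h5
  linarith

end holder

section pi

variable {ι Y : Type*} [Fintype ι] [DecidableEq ι] [Fintype Y]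

/-- overwrite the coordinates in `S` -/
def merge (S : Finset ι) (y z : ι → Y) : ι → Y := fun i => if i ∈ S then z i else y i

lemma merge_mem {S : Finset ι} {y z : ι → Y} {i : ι} (h : i ∈ S) : merge S y z i = z i := by
  simp [merge, h]

lemma merge_not_mem {S : Finset ι} {y z : ι → Y} {i : ι} (h : i ∉ S) : merge S y z i = y i := by
  simp [merge, h]

/-- swapping the coordinates of `S` between two points -/
def mergeSwap (S : Finset ι) : (ι → Y) × (ι → Y) ≃ (ι → Y) × (ι → Y) where
  toFun p := (merge S p.1 p.2, merge S p.2 p.1)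
  invFun p := (merge S p.1 p.2, merge S p.2 p.1)
  left_inv p := by
    ext i <;> by_cases h : i ∈ S <;> simp [merge, h]
  right_inv p := by
    ext i <;> by_cases h : i ∈ S <;> simp [merge, h]

/-- averaging over the overwritten coordinates does not change the average -/
lemma avg_merge [Nonempty Y] (S : Finset ι) (F : (ι → Y) → ℝ) :
    avg (fun y => avg (fun z => F (merge S y z))) = avg F := by
  have h1 := avg_equiv (mergeSwap (Y := Y) S) (fun p => F p.1)
  have h2 := avg_prod (fun p : (ι → Y) × (ι → Y) => F p.1)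
  have h3 := avg_prod (fun p : (ι → Y) × (ι → Y) => F (mergeSwap S p).1)
  simp only [avg_const] at h2
  rw [← h2, ← h1, h3]
  rfl

/-- functions depending on complementary sets of coordinates are independent -/
lemma avg_indep [Nonempty Y] (S : Finset ι) {F G : (ι → Y) → ℝ}
    (hF : ∀ y y' : ι → Y, (∀ i ∈ S, y i = y' i) → F y = F y')
    (hG : ∀ y y' : ι → Y, (∀ i, i ∉ S → y i = y' i) → G y = G y') :
    avg (fun y => F y * G y) = avg F * avg G := by
  rw [← avg_merge S (fun y => F y * G y)]
  have e : ∀ y z : ι → Y, F (merge S y z) * G (merge S y z) = G y * F z := by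
    intro y z
    rw [hF (merge S y z) z (fun i hi => merge_mem hi), hG (merge S y z) y
      (fun i hi => merge_not_mem hi)]
    ring
  simp only [e, avg_mul_left, avg_mul_right]
  ring

/-- the probability of prescribed values on a set of coordinates -/
lemma avg_hit [Nonempty Y] [DecidableEq Y] (A : Finset ι) (v : ι → Y) :
    avg (fun y : ι → Y => if ∀ i ∈ A, y i = v i then (1 : ℝ) else 0) =
      ((Fintype.card Y : ℝ) ^ A.card)⁻¹ := by
  classical
  have hc : (0 : ℝ) < Fintype.card Y := by exact_mod_cast Fintype.card_pos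
  have h1 : (∑ y : ι → Y, if ∀ i ∈ A, y i = v i then (1 : ℝ) else 0) =
      ((Fintype.piFinset fun i => if i ∈ A then {v i} else (Finset.univ : Finset Y)).card : ℝ) := by
    rw [Finset.sum_boole]
    congr 2
    ext y
    simp only [mem_filter, mem_univ, true_and, Fintype.mem_piFinset]
    constructor
    · intro h i
      by_cases hi : i ∈ A
      · simp [hi, h i hi]
      · simp [hi]
    · intro h i hi
      have := h i
      simpa [hi] using this
  have h2 : ((Fintype.piFinset fun i => if i ∈ A then {v i} else (Finset.univ : Finset Y)).card : ℝ)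
      = (Fintype.card Y : ℝ) ^ (Fintype.card ι - A.card) := by
    rw [Fintype.card_piFinset]
    have : ∀ i, (if i ∈ A then ({v i} : Finset Y) else Finset.univ).card =
        if i ∈ A then 1 else Fintype.card Y := by
      intro i
      by_cases hi : i ∈ A <;> simp [hi]
    simp only [this]
    rw [Finset.prod_ite]
    simp only [prod_const_one, one_mul, prod_const]
    push_cast
    congr 1
    rw [Finset.filter_not, Finset.card_sdiff]
    simp [Finset.inter_comm]
  unfold avg
  rw [h1, h2, Fintype.card_fun]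
  have hle : A.card ≤ Fintype.card ι := by
    simpa using Finset.card_le_univ A
  push_cast
  rw [pow_sub₀ _ hc.ne' hle]
  field_simp

end pi

end Vale.Agent.Lib.P162
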