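import Vale.Agent.Lib.P162.Recur

/-!
# Coordinate flips, rotations: a pass of the shuffle is the recursive operator
-/

namespace Vale.Agent.Lib.P162

open scoped InnerProductSpace
open Equiv

set_option linter.unusedSectionVars false
set_option linter.unusedSimpArgs false
set_option linter.unusedVariables false

variable {V : Type*} [NormedAddCommGroup V] [InnerProductSpace ℝ V]

/-- flip of the coordinate `i` with a coin evaluated at the point with coordinate `i` cleared -/
def flipAt {D : ℕ} (i : Fin D) (c : Pos D → Bool) : Perm (Pos D) where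
  toFun x := Function.update x i (xor (x i) (c (Function.update x i false)))
  invFun x := Function.update x i (xor (x i) (c (Function.update x i false)))
  left_inv x := by
    funext j
    by_cases h : j = i
    · subst h; simp
    · simp [h]
  right_inv x := by
    funext j
    by_cases h : j = i
    · subst h; simp
    · simp [h]

lemma flipAt_apply {D : ℕ} (i : Fin D) (c : Pos D → Bool) (x : Pos D) :
    flipAt i c x = Function.update x i (xor (x i) (c (Function.update x i false))) := rfl

lemma consE_apply (D : ℕ) (p : Pos D × Bool) : consE D p = Fin.cons p.2 p.1 := rfl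

lemma consE_symm_apply (D : ℕ) (x : Pos (D + 1)) : (consE D).symm x = (Fin.tail x, x 0) := rfl

lemma liftHom_apply (D : ℕ) (g : Perm (Pos D × Bool)) (x : Pos (D + 1)) :
    liftHom D g x = consE D (g ((consE D).symm x)) := rfl

lemma flipTop_cons (D : ℕ) (c : Pos D → Bool) (a : Bool) (y : Pos D) :
    flipTop D c (Fin.cons a y) = Fin.cons (xor a (c y)) y := by
  unfold flipTop
  rw [liftHom_apply, consE_symm_apply, consE_apply]
  simp

lemma iota_cons (D : ℕ) (b : Bool) (g : Perm (Pos D)) (a : Bool) (y : Pos D) :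
    iota D b g (Fin.cons a y) = if a = b then Fin.cons a (g y) else Fin.cons a y := by
  show liftHom D (sliceHom b g) _ = _
  rw [liftHom_apply, consE_symm_apply, consE_apply, sliceHom_apply, slicePerm_apply]
  simp only [Fin.cons_zero, Fin.tail_cons]
  by_cases h : a = b <;> simp [h]

lemma update_cons_zero' {D : ℕ} (a v : Bool) (y : Pos D) :
    Function.update (Fin.cons a y : Pos (D + 1)) 0 v = Fin.cons v y := by
  funext j
  refine Fin.cases ?_ (fun j => ?_) j
  · simp
  · simp [Fin.succ_ne_zero]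

lemma update_cons_succ' {D : ℕ} (a v : Bool) (y : Pos D) (i : Fin D) :
    Function.update (Fin.cons a y : Pos (D + 1)) i.succ v = Fin.cons a (Function.update y i v) := by
  funext j
  refine Fin.cases ?_ (fun j => ?_) j
  · simp [(Fin.succ_ne_zero i).symm]
  · by_cases h : j = i
    · subst h; simp
    · simp [h, Fin.succ_inj]

lemma flipAt_zero (D : ℕ) (c : Pos (D + 1) → Bool) :
    flipAt (0 : Fin (D + 1)) c = flipTop D (fun y => c (Fin.cons false y)) := by
  ext1 x
  rw [← Fin.cons_self_tail x]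
  rw [flipTop_cons, flipAt_apply, update_cons_zero', update_cons_zero']
  simp

lemma flipAt_succ_cons (D : ℕ) (i : Fin D) (c : Pos (D + 1) → Bool) (a : Bool) (y : Pos D) :
    flipAt i.succ c (Fin.cons a y) = Fin.cons a (flipAt i (fun y => c (Fin.cons a y)) y) := by
  rw [flipAt_apply, update_cons_succ', update_cons_succ', flipAt_apply]
  simp

lemma flipAt_succ (D : ℕ) (i : Fin D) (c : Pos (D + 1) → Bool) :
    flipAt i.succ c = iota D false (flipAt i (fun y => c (Fin.cons false y))) *
      iota D true (flipAt i (fun y => c (Fin.cons true y))) := by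
  ext1 x
  rw [← Fin.cons_self_tail x]
  generalize x 0 = a
  generalize Fin.tail x = y
  rw [Perm.mul_apply, flipAt_succ_cons, iota_cons]
  cases a
  · simp [iota_cons]
  · simp [iota_cons]

/-- splitting the coin function according to the first bit -/
def coinSplit (D : ℕ) : (Pos (D + 1) → Bool) ≃ (Pos D → Bool) × (Pos D → Bool) where
  toFun c := (fun y => c (Fin.cons false y), fun y => c (Fin.cons true y))
  invFun p := fun x => if x 0 = false then p.1 (Fin.tail x) else p.2 (Fin.tail x)
  left_inv c := by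
    funext x
    rw [← Fin.cons_self_tail x]
    cases x 0 <;> simp
  right_inv p := by
    ext y <;> simp

/-- average over flips of the coordinate `i` -/
noncomputable def Mavg {D : ℕ} (ρ : Perm (Pos D) →* (V →L[ℝ] V)) (i : Fin D) : V →L[ℝ] V :=
  (1 / (Fintype.card (Pos D → Bool) : ℝ)) • ∑ c : Pos D → Bool, ρ (flipAt i c)

lemma Mavg_commute {D : ℕ} {ρ : Perm (Pos D) →* (V →L[ℝ] V)} {A : V →L[ℝ] V}
    (h : ∀ g, Commute A (ρ g)) (i : Fin D) : Commute A (Mavg ρ i) := by
  unfold Mavg
  apply Commute.smul_right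
  apply Commute.sum_right
  intro c _
  exact h _

lemma Mavg_zero {D : ℕ} (ρ : Perm (Pos (D + 1)) →* (V →L[ℝ] V)) : Mavg ρ 0 = Eop ρ := by
  unfold Mavg Eop
  rw [← Equiv.sum_comp (coinSplit D).symm]
  simp only [flipAt_zero]
  rw [Fintype.sum_prod_type]
  have h1 : ∀ p : Pos D → Bool, ∑ y : Pos D → Bool,
      ρ (flipTop D (fun y_1 => (coinSplit D).symm (p, y) (Fin.cons false y_1))) =
      (Fintype.card (Pos D → Bool) : ℝ) • ρ (flipTop D p) := by
    intro p
    have : ∀ y : Pos D → Bool,
        (fun y_1 => (coinSplit D).symm (p, y) (Fin.cons false y_1)) = p := by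
      intro y
      funext z
      simp [coinSplit]
    simp only [this, Finset.sum_const, Finset.card_univ]
    exact (Nat.cast_smul_eq_nsmul ℝ _ _).symm
  simp only [h1]
  rw [← Finset.smul_sum, smul_smul]
  congr 1
  have hc : (Fintype.card (Pos (D + 1) → Bool) : ℝ) =
      (Fintype.card (Pos D → Bool) : ℝ) * (Fintype.card (Pos D → Bool) : ℝ) := by
    rw [Fintype.card_congr (coinSplit D), Fintype.card_prod]
    push_cast
    ring
  rw [hc]
  have hpos : (0 : ℝ) < Fintype.card (Pos D → Bool) := by exact_mod_cast Fintype.card_pos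
  field_simp

lemma Mavg_succ {D : ℕ} (ρ : Perm (Pos (D + 1)) →* (V →L[ℝ] V)) (i : Fin D) :
    Mavg ρ i.succ = Mavg (ρ.comp (iota D false)) i * Mavg (ρ.comp (iota D true)) i := by
  unfold Mavg
  rw [← Equiv.sum_comp (coinSplit D).symm]
  simp only [flipAt_succ, map_mul]
  rw [Fintype.sum_prod_type, smul_mul_smul_comm, Finset.sum_mul_sum]
  congr 1
  · have hc : (Fintype.card (Pos (D + 1) → Bool) : ℝ) =
        (Fintype.card (Pos D → Bool) : ℝ) * (Fintype.card (Pos D → Bool) : ℝ) := by
      rw [Fintype.card_congr (coinSplit D), Fintype.card_prod]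
      push_cast
      ring
    rw [hc]
    have hpos : (0 : ℝ) < Fintype.card (Pos D → Bool) := by exact_mod_cast Fintype.card_pos
    field_simp

/-! ### rotations -/

/-- rotation of the coordinates -/
def rot {D : ℕ} (a : Fin (D + 1)) : Perm (Pos (D + 1)) where
  toFun x := fun j => x (j + a)
  invFun x := fun j => x (j - a)
  left_inv x := by
    funext j
    simp
  right_inv x := by
    funext j
    simp

lemma rot_apply {D : ℕ} (a : Fin (D + 1)) (x : Pos (D + 1)) (j : Fin (D + 1)) :
    rot a x j = x (j + a) := rfl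

lemma rot_mul {D : ℕ} (a b : Fin (D + 1)) : rot a * rot b = rot (a + b) := by
  ext1 x
  funext j
  simp only [Perm.mul_apply, rot_apply]
  congr 1
  abel

lemma rot_zero {D : ℕ} : rot (0 : Fin (D + 1)) = 1 := by
  ext1 x
  funext j
  simp [rot_apply]

lemma rot_pow {D : ℕ} (k : ℕ) : (rot (1 : Fin (D + 1))) ^ k = rot (Fin.ofNat (D + 1) k) := by
  induction k with
  | zero =>
    have : Fin.ofNat (D + 1) 0 = 0 := rfl
    rw [this, rot_zero, pow_zero]
  | succ k ih =>
    rw [pow_succ, ih, rot_mul]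
    congr 1
    apply Fin.ext
    simp [Fin.val_add, Fin.ofNat]

lemma rot_update {D : ℕ} (a : Fin (D + 1)) (x : Pos (D + 1)) (v : Bool) :
    rot a (Function.update x a v) = Function.update (rot a x) 0 v := by
  funext j
  rw [rot_apply]
  by_cases h : j = 0
  · subst h; simp
  · have : j + a ≠ a := by
      intro e
      apply h
      simpa using e
    simp [h, this, rot_apply]

lemma flipAt_rot {D : ℕ} (a : Fin (D + 1)) (c : Pos (D + 1) → Bool) :
    flipAt 0 c * rot a = rot a * flipAt a (c ∘ rot a) := by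
  ext1 x
  simp only [Perm.mul_apply, flipAt_apply, rot_update, Function.comp]
  congr 2
  simp [rot_apply]

lemma Mavg_rot {D : ℕ} (ρ : Perm (Pos (D + 1)) →* (V →L[ℝ] V)) (a : Fin (D + 1)) :
    Mavg ρ 0 * ρ (rot a) = ρ (rot a) * Mavg ρ a := by
  unfold Mavg
  rw [smul_mul_assoc, mul_smul_comm, Finset.sum_mul, Finset.mul_sum]
  congr 1
  refine Fintype.sum_equiv (Equiv.arrowCongr (rot a).symm (Equiv.refl _)) _ _ fun c => ?_
  rw [← map_mul, ← map_mul, flipAt_rot]
  congr 3

/-! ### a pass is the recursive operator -/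

/-- the averaging operator for a natural index -/
noncomputable def Mi {D : ℕ} (ρ : Perm (Pos D) →* (V →L[ℝ] V)) (i : ℕ) : V →L[ℝ] V :=
  if h : i < D then Mavg ρ ⟨i, h⟩ else 1

/-- product of the first `k` averaging operators -/
noncomputable def Qm {D : ℕ} (ρ : Perm (Pos D) →* (V →L[ℝ] V)) : ℕ → (V →L[ℝ] V)
  | 0 => 1
  | k + 1 => Mi ρ k * Qm ρ k

lemma Mi_commute {D : ℕ} {ρ : Perm (Pos D) →* (V →L[ℝ] V)} {A : V →L[ℝ] V}
    (h : ∀ g, Commute A (ρ g)) (i : ℕ) : Commute A (Mi ρ i) := by
  unfold Mi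
  split_ifs with hi
  · exact Mavg_commute h _
  · exact Commute.one_right A

lemma Qm_commute {D : ℕ} {ρ : Perm (Pos D) →* (V →L[ℝ] V)} {A : V →L[ℝ] V}
    (h : ∀ g, Commute A (ρ g)) (k : ℕ) : Commute A (Qm ρ k) := by
  induction k with
  | zero => exact Commute.one_right A
  | succ k ih => exact (Mi_commute h k).mul_right ih

lemma Qm_slice {D : ℕ} (ρ : Perm (Pos (D + 1)) →* (V →L[ℝ] V)) (k : ℕ) (hk : k ≤ D) :
    Qm ρ (k + 1) =
      Qm (ρ.comp (iota D false)) k * Qm (ρ.comp (iota D true)) k * Mavg ρ 0 := by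
  induction k with
  | zero =>
    show Mi ρ 0 * 1 = 1 * 1 * Mavg ρ 0
    have : Mi ρ 0 = Mavg ρ 0 := by
      unfold Mi
      rw [dif_pos (Nat.succ_pos D)]
      rfl
    rw [this]
    simp
  | succ k ih =>
    have hk' : k < D := by omega
    have e1 : Mi ρ (k + 1) =
        Mi (ρ.comp (iota D false)) k * Mi (ρ.comp (iota D true)) k := by
      unfold Mi
      rw [dif_pos (by omega : k + 1 < D + 1), dif_pos hk', dif_pos hk']
      exact Mavg_succ ρ ⟨k, hk'⟩
    show Mi ρ (k + 1) * Qm ρ (k + 1) =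
      (Mi (ρ.comp (iota D false)) k * Qm (ρ.comp (iota D false)) k) *
      (Mi (ρ.comp (iota D true)) k * Qm (ρ.comp (iota D true)) k) * Mavg ρ 0
    rw [e1, ih (by omega)]
    have hc : Commute (Mi (ρ.comp (iota D true)) k) (Qm (ρ.comp (iota D false)) k) := by
      apply Qm_commute
      intro g
      apply Commute.symm
      apply Mi_commute
      intro h
      exact rho_iota_commute D ρ g h
    have := hc.eq
    simp only [mul_assoc]
    congr 1
    simp only [← mul_assoc]
    rw [this]

lemma Qm_eq_Qrec (D : ℕ) : ∀ ρ : Perm (Pos D) →* (V →L[ℝ] V), Qm ρ D = Qrec D ρ := by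
  induction D with
  | zero => intro ρ; rfl
  | succ D ih =>
    intro ρ
    rw [Qm_slice ρ D le_rfl, ih, ih, Qrec_succ, Mavg_zero]

/-- the riffle step: rotation of the coordinates by one -/
abbrev riffle (D : ℕ) : Perm (Pos (D + 1)) := rot (1 : Fin (D + 1))

lemma step_pow {D : ℕ} (ρ : Perm (Pos (D + 1)) →* (V →L[ℝ] V)) (k : ℕ) (hk : k ≤ D + 1) :
    (ρ (riffle D) * Mavg ρ 0) ^ k = (ρ (riffle D)) ^ k * Qm ρ k := by
  induction k with
  | zero => simp [Qm]
  | succ k ih =>
    have hk' : k < D + 1 := by omega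
    have e1 : Mi ρ k = Mavg ρ (Fin.ofNat (D + 1) k) := by
      unfold Mi
      rw [dif_pos hk']
      congr 1
      apply Fin.ext
      simp [Fin.ofNat, Nat.mod_eq_of_lt hk']
    have e2 : (ρ (riffle D)) ^ k = ρ (rot (Fin.ofNat (D + 1) k)) := by
      rw [← map_pow, rot_pow]
    have e3 : Mavg ρ 0 * (ρ (riffle D)) ^ k = (ρ (riffle D)) ^ k * Mi ρ k := by
      rw [e1, e2]
      exact Mavg_rot ρ _
    rw [pow_succ', ih (by omega), pow_succ']
    show _ = ρ (riffle D) * (ρ (riffle D)) ^ k * (Mi ρ k * Qm ρ k)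
    rw [mul_assoc, ← mul_assoc (Mavg ρ 0), e3]
    simp only [mul_assoc]

lemma riffle_pow_full (D : ℕ) : (riffle D) ^ (D + 1) = 1 := by
  rw [rot_pow]
  have : Fin.ofNat (D + 1) (D + 1) = 0 := by
    apply Fin.ext
    simp [Fin.ofNat]
  rw [this, rot_zero]

/-- a full pass of `D + 1` steps is the recursive operator -/
theorem pass_eq_Qrec {D : ℕ} (ρ : Perm (Pos (D + 1)) →* (V →L[ℝ] V)) :
    (ρ (riffle D) * Eop ρ) ^ (D + 1) = Qrec (D + 1) ρ := by
  rw [← Mavg_zero, step_pow ρ (D + 1) le_rfl, ← map_pow, riffle_pow_full, map_one, one_mul,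
    Qm_eq_Qrec]

/-- the L2 bound for iterated passes -/
theorem pass_pow_bound [FiniteDimensional ℝ V] {D : ℕ} (ρ : Perm (Pos (D + 1)) →* (V →L[ℝ] V))
    (hρ : IsOrth ρ) (r : ℕ) (f : V) :
    ‖((ρ (riffle D) * Eop ρ) ^ (r * (D + 1))) f‖ ^ 2 ≤
      ⟪f, expo (-((r : ℝ) * tauSeq (D + 1))) (Lap ρ) f⟫_ℝ := by
  rw [mul_comm r, pow_mul, pass_eq_Qrec]
  exact Qrec_pow_bound (D + 1) ρ hρ r f

end Vale.Agent.Lib.P162
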