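import Vale.Agent.Lib.P162.Defs
import Vale.Agent.Lib.P162.Coord

/-!
# The official shuffle in binary coordinates
-/

namespace Vale.Agent.Lib.P162

open scoped InnerProductSpace
open Equiv

set_option linter.unusedSectionVars false
set_option linter.unusedSimpArgs false
set_option linter.unusedVariables false

variable {V : Type*} [NormedAddCommGroup V] [InnerProductSpace ℝ V]

/-- the number with binary digits `x`, most significant digit first -/
def binN : (D : ℕ) → Pos D → ℕ
  | 0, _ => 0
  | D + 1, x => (x 0).toNat * 2 ^ D + binN D (Fin.tail x)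

lemma binN_succ (D : ℕ) (x : Pos (D + 1)) :
    binN (D + 1) x = (x 0).toNat * 2 ^ D + binN D (Fin.tail x) := rfl

lemma binN_lt (D : ℕ) (x : Pos D) : binN D x < 2 ^ D := by
  induction D with
  | zero => simp [binN]
  | succ D ih =>
    rw [binN_succ, pow_succ]
    have h1 := ih (Fin.tail x)
    have h2 := Bool.toNat_le (x 0)
    have h3 : 0 < 2 ^ D := by positivity
    nlinarith

lemma binN_cons (D : ℕ) (b : Bool) (y : Pos D) :
    binN (D + 1) (Fin.cons b y) = b.toNat * 2 ^ D + binN D y := by
  rw [binN_succ]
  simp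

lemma binN_snoc (D : ℕ) (y : Pos D) (b : Bool) :
    binN (D + 1) (Fin.snoc y b) = 2 * binN D y + b.toNat := by
  induction D with
  | zero =>
    rw [binN_succ]
    have : (Fin.snoc y b : Pos 1) 0 = b := by
      have h : (0 : Fin 1) = Fin.last 0 := rfl
      rw [h, Fin.snoc_last]
    rw [this]
    simp [binN]
  | succ D ih =>
    have h1 : (Fin.snoc y b : Pos (D + 2)) 0 = y 0 := by
      have h : (0 : Fin (D + 2)) = Fin.castSucc 0 := rfl
      rw [h, Fin.snoc_castSucc]
    have h2 : Fin.tail (Fin.snoc y b : Pos (D + 2)) = Fin.snoc (Fin.tail y) b := by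
      funext j
      refine Fin.lastCases ?_ (fun i => ?_) j
      · simp [Fin.tail]
      · show (Fin.snoc y b : Pos (D + 2)) i.castSucc.succ =
          (Fin.snoc (Fin.tail y) b : Pos (D + 1)) i.castSucc
        rw [Fin.succ_castSucc, Fin.snoc_castSucc, Fin.snoc_castSucc]
        rfl
    rw [binN_succ (D + 1), h1, h2, ih, binN_succ D y, pow_succ]
    ring

lemma binN_injective (D : ℕ) : Function.Injective (binN D) := by
  induction D with
  | zero =>
    intro x y _
    exact Subsingleton.elim x y
  | succ D ih =>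
    intro x y h
    rw [binN_succ, binN_succ] at h
    have h1 := binN_lt D (Fin.tail x)
    have h2 := binN_lt D (Fin.tail y)
    have hx : (x 0) = (y 0) := by
      cases hx0 : x 0 <;> cases hy0 : y 0 <;> simp [hx0, hy0] at h ⊢ <;> omega
    have ht : Fin.tail x = Fin.tail y := by
      apply ih
      rw [hx] at h
      omega
    rw [← Fin.cons_self_tail x, ← Fin.cons_self_tail y, hx, ht]

/-- digits of positions of the half deck -/
noncomputable def binE (D : ℕ) : Pos D ≃ Fin (2 ^ D) :=
  Equiv.ofBijective (fun x => ⟨binN D x, binN_lt D x⟩)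
    ((Fintype.bijective_iff_injective_and_card _).mpr
      ⟨fun x y h => binN_injective D (congrArg Fin.val h), by simp⟩)

lemma binE_val (D : ℕ) (x : Pos D) : (binE D x).val = binN D x := rfl

/-- digits of positions of the full deck -/
noncomputable def phi (D : ℕ) : Pos (D + 1) ≃ Fin (2 * 2 ^ D) :=
  Equiv.ofBijective (fun x => ⟨binN (D + 1) x, by
      have := binN_lt (D + 1) x
      rwa [pow_succ'] at this⟩)
    ((Fintype.bijective_iff_injective_and_card _).mpr
      ⟨fun x y h => binN_injective (D + 1) (congrArg Fin.val h), by simp [pow_succ']⟩)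

lemma phi_val (D : ℕ) (x : Pos (D + 1)) : (phi D x).val = binN (D + 1) x := rfl

lemma riffle_cons (D : ℕ) (b : Bool) (y : Pos D) :
    riffle D (Fin.cons b y) = Fin.snoc y b := by
  funext j
  refine Fin.lastCases ?_ (fun i => ?_) j
  · rw [rot_apply, Fin.last_add_one, Fin.snoc_last]
    simp
  · rw [rot_apply, Fin.coeSucc_eq_succ, Fin.snoc_castSucc]
    simp

lemma thorp_phi (D : ℕ) (c : Fin (2 ^ D) → Bool) (b : Bool) (y : Pos D) :
    thorpFun (2 ^ D) c (phi D (Fin.cons b y)) = phi D (Fin.snoc y (xor b (c (binE D y)))) := by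
  apply Fin.ext
  rw [phi_val, binN_snoc]
  unfold thorpFun
  have hlt := binN_lt D y
  have hv : (phi D (Fin.cons b y)).val = b.toNat * 2 ^ D + binN D y := by
    rw [phi_val, binN_cons]
  cases b
  · have h1 : (phi D (Fin.cons false y)).val < 2 ^ D := by
      rw [hv]; simpa using hlt
    rw [dif_pos h1]
    have h2 : (⟨(phi D (Fin.cons false y)).val, h1⟩ : Fin (2 ^ D)) = binE D y := by
      apply Fin.ext
      rw [binE_val]
      simp only
      rw [hv]
      simp
    simp only [h2]
    rw [hv]
    simp
  · have h0 : ¬ (phi D (Fin.cons true y)).val < 2 ^ D := by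
      rw [hv]; simp
    rw [dif_neg h0]
    have h2 : (⟨(phi D (Fin.cons true y)).val - 2 ^ D, by
        have := (phi D (Fin.cons true y)).isLt
        omega⟩ : Fin (2 ^ D)) = binE D y := by
      apply Fin.ext
      rw [binE_val]
      simp only
      rw [hv]
      simp
    simp only [h2]
    rw [hv]
    simp

lemma phi_permCongr_apply (D : ℕ) (g : Perm (Pos (D + 1))) (x : Pos (D + 1)) :
    (phi D).permCongrHom g (phi D x) = phi D (g x) := by
  show (phi D).permCongr g (phi D x) = _
  simp [Equiv.permCongr_apply]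

/-- the official shuffle in binary coordinates -/
lemma thorpPerm_eq (D : ℕ) (c : Fin (2 ^ D) → Bool) :
    thorpPerm (2 ^ D) c = (phi D).permCongrHom (riffle D * flipTop D (c ∘ binE D)) := by
  ext1 p
  obtain ⟨x, rfl⟩ := (phi D).surjective p
  rw [phi_permCongr_apply]
  rw [← Fin.cons_self_tail x]
  generalize x 0 = b
  generalize Fin.tail x = y
  show thorpFun (2 ^ D) c _ = _
  rw [thorp_phi, Perm.mul_apply, flipTop_cons, riffle_cons]
  rfl

end Vale.Agent.Lib.P162
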