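import Vale.Agent.Lib.P162.Density

/-!
# Colour collisions of two independent passes

For a finite colour set `Θ` with a distinguished colour `o`, we bound the weighted collision sum
`∑ c, (∏ x, if c x = o then 1 else d x) * P[c ∘ g⁻¹ = c ∘ g'⁻¹]`.
-/

namespace Vale.Agent.Lib.P162

open Equiv Finset

set_option linter.unusedSectionVars false
set_option linter.unusedSimpArgs false
set_option linter.unusedVariables false

variable {Θ : Type*} [Fintype Θ] [DecidableEq Θ]

/-- the probability that a pass carries the colouring `e` back to `a` -/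
noncomputable def qK (D : ℕ) (a e : Pos D → Θ) : ℝ :=
  Exp D fun g => if ∀ x, e (g x) = a x then 1 else 0

/-- the probability that two independent passes give the same image of colourings -/
noncomputable def colK (D : ℕ) (a b : Pos D → Θ) : ℝ := ∑ e, qK D a e * qK D b e

/-- the colouring of a block -/
def blkC {D : ℕ} (a : Pos (D + 1) → Θ) (c : Pos D → Bool) (β : Bool) : Pos D → Θ :=
  fun u => a (Fin.cons (xor β (c u)) u)

/-- the colouring of a half -/
def tailC {D : ℕ} (e : Pos (D + 1) → Θ) (β : Bool) : Pos D → Θ := fun v => e (Fin.cons β v)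

lemma qK_nonneg (D : ℕ) (a e : Pos D → Θ) : 0 ≤ qK D a e :=
  Exp_nonneg D fun g => by split_ifs <;> norm_num

lemma colK_nonneg (D : ℕ) (a b : Pos D → Θ) : 0 ≤ colK D a b :=
  sum_nonneg fun e _ => mul_nonneg (qK_nonneg _ _ _) (qK_nonneg _ _ _)

lemma colK_comm (D : ℕ) (a b : Pos D → Θ) : colK D a b = colK D b a :=
  sum_congr rfl fun e _ => mul_comm _ _

/-- arithmetic-geometric mean for the collision kernel -/
lemma colK_le (D : ℕ) (a b : Pos D → Θ) : colK D a b ≤ (colK D a a + colK D b b) / 2 := by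
  unfold colK
  rw [← sum_add_distrib, sum_div]
  refine sum_le_sum fun e _ => ?_
  nlinarith [sq_nonneg (qK D a e - qK D b e)]

lemma stepG_color (D : ℕ) (g0 g1 : Perm (Pos D)) (c : Pos D → Bool) (a e : Pos (D + 1) → Θ) :
    (∀ x, e (stepG D g0 g1 c x) = a x) ↔
      (∀ u, tailC e false (g0 u) = blkC a c false u) ∧
        (∀ u, tailC e true (g1 u) = blkC a c true u) := by
  have key : ∀ (β : Bool) (u : Pos D), e (stepG D g0 g1 c (Fin.cons (xor β (c u)) u)) =
      tailC e β (if β = true then g1 u else g0 u) := by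
    intro β u
    rw [stepG_cons]
    have : xor (xor β (c u)) (c u) = β := by cases β <;> cases c u <;> rfl
    rw [this]
    rfl
  constructor
  · intro h
    refine ⟨fun u => ?_, fun u => ?_⟩
    · have := key false u
      rw [h] at this
      simpa [blkC] using this.symm
    · have := key true u
      rw [h] at this
      simpa [blkC] using this.symm
  · rintro ⟨h0, h1⟩ x
    rw [← Fin.cons_self_tail x]
    set u := Fin.tail x with hu
    set α := x 0 with hα
    have hβ : α = xor (xor α (c u)) (c u) := by cases α <;> cases c u <;> rfl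
    rw [hβ, key]
    cases hb : xor α (c u)
    · simpa [blkC] using h0 u
    · simpa [blkC] using h1 u

/-- the recursion for the carrying probability -/
lemma qK_succ (D : ℕ) (a e : Pos (D + 1) → Θ) :
    qK (D + 1) a e = avg fun c : Pos D → Bool =>
      qK D (blkC a c false) (tailC e false) * qK D (blkC a c true) (tailC e true) := by
  unfold qK
  rw [Exp_succ]
  have h1 : ∀ (g0 g1 : Perm (Pos D)) (c : Pos D → Bool),
      (if ∀ x, e (stepG D g0 g1 c x) = a x then (1 : ℝ) else 0) =
        (if ∀ u, tailC e false (g0 u) = blkC a c false u then 1 else 0) *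
          (if ∀ u, tailC e true (g1 u) = blkC a c true u then 1 else 0) := by
    intro g0 g1 c
    simp only [stepG_color]
    by_cases h2 : ∀ u, tailC e false (g0 u) = blkC a c false u <;>
      by_cases h3 : ∀ u, tailC e true (g1 u) = blkC a c true u <;> simp [h2, h3]
  simp only [h1]
  have h2 : ∀ g0 : Perm (Pos D), (Exp D fun g1 => avg fun c : Pos D → Bool =>
      (if ∀ u, tailC e false (g0 u) = blkC a c false u then (1:ℝ) else 0) *
        (if ∀ u, tailC e true (g1 u) = blkC a c true u then 1 else 0)) =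
      avg fun c : Pos D → Bool => (if ∀ u, tailC e false (g0 u) = blkC a c false u then (1:ℝ) else 0) *
        Exp D fun g1 => if ∀ u, tailC e true (g1 u) = blkC a c true u then 1 else 0 := by
    intro g0
    rw [← Exp_avg]
    exact avg_congr fun c => Exp_mul_left _ _ _
  simp only [h2]
  rw [← Exp_avg]
  refine avg_congr fun c => ?_
  exact Exp_mul_right _ _ _

/-- colourings as pairs of block colourings -/
def twistE {D : ℕ} (c : Pos D → Bool) : (Pos (D + 1) → Θ) ≃ (Pos D → Θ) × (Pos D → Θ) where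
  toFun a := (blkC a c false, blkC a c true)
  invFun p := fun x => if xor (x 0) (c (Fin.tail x)) = true then p.2 (Fin.tail x) else p.1 (Fin.tail x)
  left_inv a := by
    funext x
    show (if xor (x 0) (c (Fin.tail x)) = true then blkC a c true (Fin.tail x)
      else blkC a c false (Fin.tail x)) = a x
    unfold blkC
    conv_rhs => rw [← Fin.cons_self_tail x]
    cases h0 : x 0 <;> cases h1 : c (Fin.tail x) <;> simp [h0, h1]
  right_inv p := by
    ext u
    · simp [blkC]
    · cases h : c u <;> simp [blkC, h]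

lemma tailC_eq {D : ℕ} (e : Pos (D + 1) → Θ) (β : Bool) : tailC e β = blkC e (fun _ => false) β := by
  funext v
  simp [tailC, blkC]

/-- the recursion for the collision kernel -/
theorem colK_succ (D : ℕ) (a b : Pos (D + 1) → Θ) :
    colK (D + 1) a b = avg fun c : Pos D → Bool => avg fun c' : Pos D → Bool =>
      colK D (blkC a c false) (blkC b c' false) * colK D (blkC a c true) (blkC b c' true) := by
  unfold colK
  rw [← Equiv.sum_comp (twistE (Θ := Θ) (fun _ : Pos D => false)).symm]
  rw [Fintype.sum_prod_type]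
  have he : ∀ p : (Pos D → Θ) × (Pos D → Θ), ∀ β,
      tailC ((twistE (Θ := Θ) (fun _ : Pos D => false)).symm p) β = if β = true then p.2 else p.1 := by
    intro p β
    rw [tailC_eq]
    have h := (twistE (Θ := Θ) (fun _ : Pos D => false)).apply_symm_apply p
    cases β
    · have := congrArg Prod.fst h
      simpa [twistE] using this
    · have := congrArg Prod.snd h
      simpa [twistE] using this
  simp only [qK_succ, he]
  simp only [if_true, if_false, Bool.false_eq_true]
  -- expand the products of averages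
  have h1 : ∀ (x y : Pos D → Θ),
      (avg fun c : Pos D → Bool => qK D (blkC a c false) x * qK D (blkC a c true) y) *
        (avg fun c : Pos D → Bool => qK D (blkC b c false) x * qK D (blkC b c true) y) =
      avg fun c : Pos D → Bool => avg fun c' : Pos D → Bool =>
        (qK D (blkC a c false) x * qK D (blkC b c' false) x) *
          (qK D (blkC a c true) y * qK D (blkC b c' true) y) := by
    intro x y
    rw [← avg_mul_right]
    refine avg_congr fun c => ?_
    rw [← avg_mul_left]
    refine avg_congr fun c' => ?_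
    ring
  simp only [h1]
  simp only [← avg_sum]
  refine avg_congr fun c => avg_congr fun c' => ?_
  rw [Finset.sum_mul_sum]

/-! ### the weighted collision sum -/

/-- the weight of a colouring -/
noncomputable def wC {X : Type*} [Fintype X] (o : Θ) (d : X → ℝ) (c : X → Θ) : ℝ :=
  ∏ x, if c x = o then 1 else d x

/-- the weighted collision sum -/
noncomputable def gam (o : Θ) (D : ℕ) (d : Pos D → ℝ) : ℝ :=
  ∑ c : Pos D → Θ, wC o d c * colK D c c

/-- mixing two colourings along a pattern -/
def mixC {X : Type*} (r : X → Bool) (x y : X → Θ) : X → Θ := fun u => if r u = true then y u else x u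

/-- the weights on a block -/
def dC {D : ℕ} (d : Pos (D + 1) → ℝ) (c : Pos D → Bool) (β : Bool) : Pos D → ℝ :=
  fun u => d (Fin.cons (xor β (c u)) u)

/-- positions as pairs of a block and a tail -/
def posTw {D : ℕ} (c : Pos D → Bool) : Bool × Pos D ≃ Pos (D + 1) where
  toFun p := Fin.cons (xor p.1 (c p.2)) p.2
  invFun x := (xor (x 0) (c (Fin.tail x)), Fin.tail x)
  left_inv p := by
    ext <;> simp
  right_inv x := by
    conv_rhs => rw [← Fin.cons_self_tail x]
    simp

lemma prod_posTw {D : ℕ} (c : Pos D → Bool) (F : Pos (D + 1) → ℝ) :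
    ∏ x, F x = (∏ u, F (Fin.cons (xor false (c u)) u)) * ∏ u, F (Fin.cons (xor true (c u)) u) := by
  rw [← Equiv.prod_comp (posTw c), Fintype.prod_prod_type, Fintype.prod_bool, mul_comm]
  rfl

lemma sum_posTw {D : ℕ} (c : Pos D → Bool) (F : Pos (D + 1) → ℝ) :
    ∑ x, F x = (∑ u, F (Fin.cons (xor false (c u)) u)) + ∑ u, F (Fin.cons (xor true (c u)) u) := by
  rw [← Equiv.sum_comp (posTw c), Fintype.sum_prod_type, Fintype.sum_bool, add_comm]
  rfl

lemma wC_twist (o : Θ) {D : ℕ} (d : Pos (D + 1) → ℝ) (c : Pos D → Bool) (a : Pos (D + 1) → Θ) :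
    wC o d a = wC o (dC d c false) (blkC a c false) * wC o (dC d c true) (blkC a c true) := by
  unfold wC
  rw [prod_posTw c]
  rfl

lemma sum_dC {D : ℕ} (d : Pos (D + 1) → ℝ) (c : Pos D → Bool) :
    ∑ x, d x = ∑ u, dC d c false u + ∑ u, dC d c true u :=
  sum_posTw c d

lemma wC_nonneg {X : Type*} [Fintype X] (o : Θ) {d : X → ℝ} (hd : ∀ x, 0 ≤ d x) (c : X → Θ) :
    0 ≤ wC o d c := by
  unfold wC
  refine prod_nonneg fun x _ => ?_
  split_ifs
  · norm_num
  · exact hd x

lemma gam_nonneg (o : Θ) {D : ℕ} {d : Pos D → ℝ} (hd : ∀ x, 0 ≤ d x) : 0 ≤ gam o D d :=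
  sum_nonneg fun c _ => mul_nonneg (wC_nonneg o hd c) (colK_nonneg _ _ _)

/-- the core of the recursion -/
noncomputable def coreC (o : Θ) (D : ℕ) (d0 d1 : Pos D → ℝ) : ℝ :=
  ∑ c0 : Pos D → Θ, ∑ c1 : Pos D → Θ, wC o d0 c0 * wC o d1 c1 *
    avg fun r : Pos D → Bool => colK D c0 (mixC r c0 c1) * colK D c1 (mixC r c1 c0)

lemma coreC_comm (o : Θ) (D : ℕ) (d0 d1 : Pos D → ℝ) : coreC o D d0 d1 = coreC o D d1 d0 := by
  unfold coreC
  rw [sum_comm]
  refine sum_congr rfl fun c0 _ => sum_congr rfl fun c1 _ => ?_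
  have h : (avg fun r : Pos D → Bool => colK D c1 (mixC r c1 c0) * colK D c0 (mixC r c0 c1)) =
      avg fun r : Pos D → Bool => colK D c0 (mixC r c0 c1) * colK D c1 (mixC r c1 c0) :=
    avg_congr fun r => mul_comm _ _
  rw [h, mul_comm (wC o d0 c1)]

lemma blkC_shift {D : ℕ} (a : Pos (D + 1) → Θ) (c r : Pos D → Bool) (β : Bool) :
    blkC a (coinShift D c r) β = mixC r (blkC a c β) (blkC a c (!β)) := by
  funext u
  show a (Fin.cons (xor β (xor (r u) (c u))) u) = mixC r (blkC a c β) (blkC a c (!β)) u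
  unfold blkC mixC
  cases β <;> cases h : r u <;> cases h' : c u <;> simp [h, h']

/-- the recursion for the weighted collision sum -/
theorem gam_succ (o : Θ) (D : ℕ) (d : Pos (D + 1) → ℝ) :
    gam o (D + 1) d = avg fun c : Pos D → Bool => coreC o D (dC d c false) (dC d c true) := by
  unfold gam
  simp only [colK_succ]
  simp only [← avg_mul_left]
  rw [← avg_sum]
  refine avg_congr fun c => ?_
  unfold coreC
  rw [← Equiv.sum_comp (twistE (Θ := Θ) c).symm, Fintype.sum_prod_type]
  refine sum_congr rfl fun c0 _ => sum_congr rfl fun c1 _ => ?_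
  set a := (twistE (Θ := Θ) c).symm (c0, c1) with ha
  have h0 : blkC a c false = c0 := by
    have h := (twistE (Θ := Θ) c).apply_symm_apply (c0, c1)
    exact congrArg Prod.fst h
  have h1 : blkC a c true = c1 := by
    have h := (twistE (Θ := Θ) c).apply_symm_apply (c0, c1)
    exact congrArg Prod.snd h
  rw [wC_twist o d c a, h0, h1, avg_mul_left]
  refine congrArg _ ?_
  rw [← avg_equiv (coinShift D c)]
  refine avg_congr fun r => ?_
  simp only [blkC_shift, Bool.not_false, Bool.not_true, h0, h1]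

/-! ### first returns -/

section ret

variable {X : Type*} [Fintype X] [DecidableEq X]

/-- iterating a permutation backwards eventually returns -/
lemma exists_back (h : Perm X) (x : X) : ∃ n : ℕ, ((h⁻¹) ^ (n + 1)) x = x := by
  refine ⟨orderOf (h⁻¹) - 1, ?_⟩
  have h0 : 0 < orderOf (h⁻¹) := orderOf_pos _
  rw [Nat.sub_add_cancel h0, pow_orderOf_eq_one]
  rfl

/-- some backward iterate lies in the pattern -/
def Tch (h : Perm X) (r : X → Bool) (x : X) : Prop := ∃ n : ℕ, r (((h⁻¹) ^ (n + 1)) x) = true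

lemma Tch_of_r (h : Perm X) {r : X → Bool} {x : X} (hx : r x = true) : Tch h r x := by
  obtain ⟨n, hn⟩ := exists_back h x
  exact ⟨n, by rw [hn]; exact hx⟩

lemma pow_succ_inv_apply (h : Perm X) (n : ℕ) (x : X) :
    ((h⁻¹) ^ (n + 1)) x = ((h⁻¹) ^ n) (h⁻¹ x) := by
  rw [pow_succ, Perm.mul_apply]

lemma Tch_iff_apply (h : Perm X) (r : X → Bool) (x : X) : Tch h r (h x) ↔ Tch h r x := by
  constructor
  · rintro ⟨n, hn⟩
    rw [pow_succ_inv_apply] at hn
    have e : h⁻¹ (h x) = x := by simp
    rw [e] at hn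
    cases n with
    | zero => exact Tch_of_r h (by simpa using hn)
    | succ n => exact ⟨n, hn⟩
  · rintro ⟨n, hn⟩
    refine ⟨n + 1, ?_⟩
    rw [pow_succ_inv_apply]
    have e : h⁻¹ (h x) = x := by simp
    rw [e]
    exact hn

/-- the first return time -/
noncomputable def retN (h : Perm X) (r : X → Bool) (x : X) (hx : r x = true) : ℕ :=
  by
    classical
    exact Nat.find (Tch_of_r h hx)

lemma retN_spec (h : Perm X) (r : X → Bool) (x : X) (hx : r x = true) :
    r (((h⁻¹) ^ (retN h r x hx + 1)) x) = true := by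
  classical
  exact Nat.find_spec (Tch_of_r h hx)

lemma retN_min (h : Perm X) (r : X → Bool) (x : X) (hx : r x = true) {m : ℕ}
    (hm : m < retN h r x hx) : r (((h⁻¹) ^ (m + 1)) x) ≠ true := by
  classical
  exact Nat.find_min (Tch_of_r h hx) hm

/-- the first return map -/
noncomputable def retF (h : Perm X) (r : X → Bool) (x : X) : X :=
  if hx : r x = true then ((h⁻¹) ^ (retN h r x hx + 1)) x else x

lemma retF_r (h : Perm X) (r : X → Bool) {x : X} (hx : r x = true) : r (retF h r x) = true := by
  unfold retF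
  rw [dif_pos hx]
  exact retN_spec h r x hx

lemma retF_inj (h : Perm X) (r : X → Bool) : Function.Injective (retF h r) := by
  -- the key case: a smaller return time
  have key : ∀ x y : X, ∀ (hx : r x = true) (hy : r y = true),
      retN h r x hx < retN h r y hy →
      ((h⁻¹) ^ (retN h r x hx + 1)) x = ((h⁻¹) ^ (retN h r y hy + 1)) y → False := by
    intro x y hx hy hlt he
    set n := retN h r x hx with hn
    set m := retN h r y hy with hm
    obtain ⟨k, hk⟩ : ∃ k, m = n + 1 + k := ⟨m - (n + 1), by omega⟩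
    have e1 : ((h⁻¹) ^ (m + 1)) y = ((h⁻¹) ^ (n + 1)) (((h⁻¹) ^ (k + 1)) y) := by
      rw [← Perm.mul_apply, ← pow_add, hk]
      congr 2
    rw [e1] at he
    have e2 : x = ((h⁻¹) ^ (k + 1)) y := ((h⁻¹) ^ (n + 1)).injective he
    have hkm : k < m := by omega
    apply retN_min h r y hy (m := k) hkm
    rw [← e2]
    exact hx
  intro x y hxy
  by_cases hx : r x = true
  · by_cases hy : r y = true
    · unfold retF at hxy
      rw [dif_pos hx, dif_pos hy] at hxy
      rcases lt_trichotomy (retN h r x hx) (retN h r y hy) with hlt | heq | hgt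
      · exact (key x y hx hy hlt hxy).elim
      · rw [heq] at hxy
        exact ((h⁻¹) ^ (retN h r y hy + 1)).injective hxy
      · exact (key y x hy hx hgt hxy.symm).elim
    · have h1 : r (retF h r x) = true := retF_r h r hx
      rw [hxy] at h1
      unfold retF at h1
      rw [dif_neg hy] at h1
      exact absurd h1 hy
  · by_cases hy : r y = true
    · have h1 : r (retF h r y) = true := retF_r h r hy
      rw [← hxy] at h1
      unfold retF at h1
      rw [dif_neg hx] at h1
      exact absurd h1 hx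
    · unfold retF at hxy
      rwa [dif_neg hx, dif_neg hy] at hxy

/-- the first return permutation -/
noncomputable def retP (h : Perm X) (r : X → Bool) : Perm X :=
  Equiv.ofBijective (retF h r) (Finite.injective_iff_bijective.mp (retF_inj h r))

lemma retP_apply (h : Perm X) (r : X → Bool) (x : X) : retP h r x = retF h r x := rfl

/-- the solutions of the return equation carry the colours along the first return map -/
lemma mix_eq_comp_retP (h : Perm X) (r : X → Bool) {c0 c1 : X → Θ}
    (hs : ∀ x, c1 (h x) = mixC r c1 c0 x) : mixC r c0 c1 = c0 ∘ retP h r := by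
  -- backward transport
  have step : ∀ y, r y ≠ true → c1 (h y) = c1 y := by
    intro y hy
    rw [hs y]
    unfold mixC
    rw [if_neg hy]
  have step' : ∀ y, r y = true → c1 (h y) = c0 y := by
    intro y hy
    rw [hs y]
    unfold mixC
    rw [if_pos hy]
  have back : ∀ y, c1 (h (h⁻¹ y)) = c1 y := by
    intro y
    simp
  funext x
  by_cases hx : r x = true
  · show (if r x = true then c1 x else c0 x) = c0 (retF h r x)
    rw [if_pos hx]
    unfold retF
    rw [dif_pos hx]
    set n := retN h r x hx with hn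
    have hind : ∀ k, k ≤ n → c1 x = c1 (((h⁻¹) ^ k) x) := by
      intro k
      induction k with
      | zero => intro _; simp
      | succ k ih =>
        intro hk
        have h1 := ih (by omega)
        have hne : r (((h⁻¹) ^ (k + 1)) x) ≠ true := retN_min h r x hx (by omega)
        have h2 := step _ hne
        have e : h (((h⁻¹) ^ (k + 1)) x) = ((h⁻¹) ^ k) x := by
          rw [pow_succ', Perm.mul_apply]
          simp
        rw [e] at h2
        rw [h1, h2]
    have h3 := step' _ (retN_spec h r x hx)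
    have e : h (((h⁻¹) ^ (retN h r x hx + 1)) x) = ((h⁻¹) ^ n) x := by
      rw [pow_succ', Perm.mul_apply]
      simp [hn]
    rw [e] at h3
    rw [hind n le_rfl, h3]
  · show (if r x = true then c1 x else c0 x) = c0 (retF h r x)
    rw [if_neg hx]
    unfold retF
    rw [dif_neg hx]

/-- the weights of the solutions of the return equation are dominated by those of the invariant
colourings avoiding the pattern -/
lemma sum_solutions_le (o : Θ) (h : Perm X) (r : X → Bool) (c0 : X → Θ) {d : X → ℝ}
    (hd0 : ∀ x, 0 ≤ d x) (hd1 : ∀ x, d x ≤ 1) :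
    (∑ c1 : X → Θ, wC o d c1 * (if ∀ x, c1 (h x) = mixC r c1 c0 x then 1 else 0)) ≤
      ∑ c1 : X → Θ, wC o d c1 *
        ((if ∀ x, c1 (h x) = c1 x then 1 else 0) * (if ∀ x, r x = true → c1 x = o then 1 else 0)) := by
  classical
  set Sol : Finset (X → Θ) := univ.filter fun c1 => ∀ x, c1 (h x) = mixC r c1 c0 x with hSol
  set Good : Finset (X → Θ) := univ.filter fun c1 =>
    (∀ x, c1 (h x) = c1 x) ∧ ∀ x, r x = true → c1 x = o with hGood
  have e1 : (∑ c1 : X → Θ, wC o d c1 * (if ∀ x, c1 (h x) = mixC r c1 c0 x then (1:ℝ) else 0)) =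
      ∑ c1 ∈ Sol, wC o d c1 := by
    rw [hSol, sum_filter]
    refine sum_congr rfl fun c1 _ => ?_
    split_ifs <;> simp
  have e2 : (∑ c1 : X → Θ, wC o d c1 *
        ((if ∀ x, c1 (h x) = c1 x then (1:ℝ) else 0) * (if ∀ x, r x = true → c1 x = o then 1 else 0))) =
      ∑ c1 ∈ Good, wC o d c1 := by
    rw [hGood, sum_filter]
    refine sum_congr rfl fun c1 _ => ?_
    by_cases h1 : ∀ x, c1 (h x) = c1 x <;> by_cases h2 : ∀ x, r x = true → c1 x = o <;>
      simp [h1, h2]
  rw [e1, e2]
  -- the map killing the orbits that touch the pattern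
  let Φ : (X → Θ) → (X → Θ) := fun c1 x => if Tch h r x then o else c1 x
  have hΦw : ∀ c1, wC o d c1 ≤ wC o d (Φ c1) := by
    intro c1
    unfold wC
    refine prod_le_prod (fun x _ => ?_) (fun x _ => ?_)
    · split_ifs
      · norm_num
      · exact hd0 x
    · by_cases ht : Tch h r x
      · have e : Φ c1 x = o := if_pos ht
        rw [if_pos e]
        split_ifs
        · exact le_rfl
        · exact hd1 x
      · have e : Φ c1 x = c1 x := if_neg ht
        rw [e]
  have hΦgood : ∀ c1 ∈ Sol, Φ c1 ∈ Good := by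
    intro c1 hc1
    have hc := (mem_filter.mp hc1).2
    refine mem_filter.mpr ⟨mem_univ _, fun x => ?_, fun x hx => if_pos (Tch_of_r h hx)⟩
    by_cases ht : Tch h r x
    · have ht' : Tch h r (h x) := (Tch_iff_apply h r x).mpr ht
      show (if Tch h r (h x) then o else c1 (h x)) = if Tch h r x then o else c1 x
      rw [if_pos ht, if_pos ht']
    · have ht' : ¬ Tch h r (h x) := fun h' => ht ((Tch_iff_apply h r x).mp h')
      show (if Tch h r (h x) then o else c1 (h x)) = if Tch h r x then o else c1 x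
      rw [if_neg ht, if_neg ht', hc x]
      have hr : r x ≠ true := fun h' => ht (Tch_of_r h h')
      unfold mixC
      rw [if_neg hr]
  have hΦinj : Set.InjOn Φ (Sol : Set (X → Θ)) := by
    intro c hc c' hc' he
    have hc1 := (mem_filter.mp (mem_coe.mp hc)).2
    have hc2 := (mem_filter.mp (mem_coe.mp hc')).2
    funext x
    by_cases ht : Tch h r x
    · obtain ⟨n, hn⟩ := ht
      induction n generalizing x with
      | zero =>
        have hr : r (h⁻¹ x) = true := by simpa using hn
        have e1 := hc1 (h⁻¹ x)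
        have e2 := hc2 (h⁻¹ x)
        have hh : h (h⁻¹ x) = x := by simp
        rw [hh] at e1 e2
        rw [e1, e2]
        unfold mixC
        rw [if_pos hr, if_pos hr]
      | succ n ih =>
        rw [pow_succ_inv_apply] at hn
        have e0 := ih (h⁻¹ x) hn
        have e1 := hc1 (h⁻¹ x)
        have e2 := hc2 (h⁻¹ x)
        have hh : h (h⁻¹ x) = x := by simp
        rw [hh] at e1 e2
        rw [e1, e2]
        unfold mixC
        by_cases hr : r (h⁻¹ x) = true
        · rw [if_pos hr, if_pos hr]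
        · rw [if_neg hr, if_neg hr]
          exact e0
    · have := congrFun he x
      simp only [Φ] at this
      rwa [if_neg ht, if_neg ht] at this
  calc ∑ c1 ∈ Sol, wC o d c1 ≤ ∑ c1 ∈ Sol, wC o d (Φ c1) := sum_le_sum fun c1 _ => hΦw c1
    _ = ∑ c' ∈ Sol.image Φ, wC o d c' := (sum_image hΦinj).symm
    _ ≤ ∑ c1 ∈ Good, wC o d c1 := by
        apply sum_le_sum_of_subset_of_nonneg
        · intro c' hc'
          obtain ⟨c1, hc1, rfl⟩ := mem_image.mp hc'
          exact hΦgood c1 hc1
        · intro c' _ _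
          exact wC_nonneg o hd0 c'

/-- the average over the patterns avoiding the support of a colouring -/
lemma avg_avoid (o : Θ) (c : X → Θ) (d : X → ℝ) :
    wC o d c * (avg fun r : X → Bool => if ∀ x, r x = true → c x = o then (1:ℝ) else 0) =
      wC o (fun x => d x / 2) c := by
  classical
  have h1 : (avg fun r : X → Bool => if ∀ x, r x = true → c x = o then (1:ℝ) else 0) =
      avg fun r : X → Bool => if ∀ x ∈ (univ.filter fun x => c x ≠ o), r x = (fun _ => false) x
        then (1:ℝ) else 0 := by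
    refine avg_congr fun r => ?_
    congr 1
    apply propext
    constructor
    · intro h x hx
      have hx' := (mem_filter.mp hx).2
      by_contra hne
      exact hx' (h x (by simpa using hne))
    · intro h x hx
      by_contra hne
      have := h x (mem_filter.mpr ⟨mem_univ _, hne⟩)
      simp [hx] at this
  rw [h1, avg_hit]
  unfold wC
  simp only [Fintype.card_bool]
  have h2 : (∏ x, if c x = o then (1:ℝ) else d x / 2) =
      (∏ x, if c x = o then (1:ℝ) else d x) * ∏ x, if c x = o then (1:ℝ) else 2⁻¹ := by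
    rw [← prod_mul_distrib]
    refine prod_congr rfl fun x _ => ?_
    split_ifs
    · norm_num
    · ring
  rw [h2]
  congr 1
  rw [prod_ite, prod_const_one, one_mul, prod_const, inv_pow]
  simp

end ret

/-! ### the main bound -/

/-- the collision kernel as an expectation over two passes -/
lemma colK_eq_Exp (D : ℕ) (a b : Pos D → Θ) :
    colK D a b = Exp D fun g => Exp D fun g' =>
      if ∀ x, a ((g⁻¹ * g') x) = b x then 1 else 0 := by
  unfold colK qK
  have h1 : ∀ e : Pos D → Θ,
      (Exp D fun g => if ∀ x, e (g x) = a x then (1:ℝ) else 0) *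
        (Exp D fun g => if ∀ x, e (g x) = b x then (1:ℝ) else 0) =
      Exp D fun g => Exp D fun g' =>
        (if ∀ x, e (g x) = a x then (1:ℝ) else 0) * (if ∀ x, e (g' x) = b x then (1:ℝ) else 0) := by
    intro e
    rw [← Exp_mul_right]
    refine Exp_congr D fun g => ?_
    rw [Exp_mul_left]
  simp only [h1]
  rw [← Exp_sum]
  refine Exp_congr D fun g => ?_
  rw [← Exp_sum]
  refine Exp_congr D fun g' => ?_
  rw [Finset.sum_eq_single (fun y => a (g⁻¹ y))]
  · have h2 : (∀ x, (fun y => a (g⁻¹ y)) (g x) = a x) := by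
      intro x
      simp
    rw [if_pos h2, one_mul]
    rfl
  · intro e _ hne
    have h2 : ¬ ∀ x, e (g x) = a x := by
      intro h3
      apply hne
      funext y
      have := h3 (g⁻¹ y)
      simpa using this
    rw [if_neg h2, zero_mul]
  · intro h
    exact absurd (mem_univ _) h

/-- the weighted sum with a twist by a permutation -/
lemma cross_bound (o : Θ) (D : ℕ) {ρ : ℝ}
    (IH : ∀ d : Pos D → ℝ, (∀ x, 0 ≤ d x) → (∀ x, d x ≤ 1) → gam o D d ≤ Real.exp (ρ * ∑ x, d x))
    {d : Pos D → ℝ} (hd0 : ∀ x, 0 ≤ d x) (hd1 : ∀ x, d x ≤ 1) (π : Perm (Pos D)) :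
    ∑ c : Pos D → Θ, wC o d c * colK D c (c ∘ π) ≤ Real.exp (ρ * ∑ x, d x) := by
  have h1 := IH d hd0 hd1
  have h2 := IH (d ∘ π) (fun x => hd0 _) (fun x => hd1 _)
  have e1 : ∑ x, (d ∘ π) x = ∑ x, d x := Equiv.sum_comp π d
  rw [e1] at h2
  have e2 : gam o D (d ∘ π) = ∑ c : Pos D → Θ, wC o d c * colK D (c ∘ π) (c ∘ π) := by
    unfold gam
    rw [← Equiv.sum_comp (Equiv.arrowCongr π.symm (Equiv.refl Θ))]
    refine sum_congr rfl fun c _ => ?_
    have e3 : (Equiv.arrowCongr π.symm (Equiv.refl Θ)) c = c ∘ π := by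
      funext x
      simp [Equiv.arrowCongr]
    rw [e3]
    have e4 : wC o (d ∘ π) (c ∘ π) = wC o d c := by
      unfold wC
      exact Equiv.prod_comp π (fun x => if c x = o then (1:ℝ) else d x)
    rw [e4]
  rw [e2] at h2
  have h3 : ∑ c : Pos D → Θ, wC o d c * colK D c (c ∘ π) ≤
      (gam o D d + ∑ c : Pos D → Θ, wC o d c * colK D (c ∘ π) (c ∘ π)) / 2 := by
    unfold gam
    rw [← sum_add_distrib, sum_div]
    refine sum_le_sum fun c _ => ?_
    have := mul_le_mul_of_nonneg_left (colK_le D c (c ∘ π)) (wC_nonneg o hd0 c)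
    linarith
  linarith

/-- the core bound -/
lemma coreC_le (o : Θ) (D : ℕ) {ρ : ℝ}
    (IH : ∀ d : Pos D → ℝ, (∀ x, 0 ≤ d x) → (∀ x, d x ≤ 1) → gam o D d ≤ Real.exp (ρ * ∑ x, d x))
    {d0 d1 : Pos D → ℝ} (h00 : ∀ x, 0 ≤ d0 x) (h01 : ∀ x, d0 x ≤ 1) (h10 : ∀ x, 0 ≤ d1 x)
    (h11 : ∀ x, d1 x ≤ 1) :
    coreC o D d0 d1 ≤ Real.exp (ρ * ∑ x, d0 x) * gam o D (fun x => d1 x / 2) := by
  set B := Real.exp (ρ * ∑ x, d0 x) with hB
  have hB0 : 0 ≤ B := (Real.exp_pos _).le
  -- the bound for a fixed relative permutation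
  have hfix : ∀ (h : Perm (Pos D)) (r : Pos D → Bool),
      (∑ c0 : Pos D → Θ, ∑ c1 : Pos D → Θ, wC o d0 c0 * wC o d1 c1 *
        (colK D c0 (mixC r c0 c1) * (if ∀ x, c1 (h x) = mixC r c1 c0 x then 1 else 0))) ≤
      B * ∑ c1 : Pos D → Θ, wC o d1 c1 *
        ((if ∀ x, c1 (h x) = c1 x then 1 else 0) * (if ∀ x, r x = true → c1 x = o then 1 else 0)) := by
    intro h r
    set M := ∑ c1 : Pos D → Θ, wC o d1 c1 *
        ((if ∀ x, c1 (h x) = c1 x then 1 else 0) * (if ∀ x, r x = true → c1 x = o then 1 else 0))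
      with hM
    have hM0 : 0 ≤ M := sum_nonneg fun c1 _ => mul_nonneg (wC_nonneg o h10 c1) (by
      split_ifs <;> norm_num)
    have e1 : ∀ c0 c1 : Pos D → Θ, wC o d0 c0 * wC o d1 c1 *
        (colK D c0 (mixC r c0 c1) * (if ∀ x, c1 (h x) = mixC r c1 c0 x then (1:ℝ) else 0)) =
        wC o d0 c0 * colK D c0 (c0 ∘ retP h r) *
          (wC o d1 c1 * (if ∀ x, c1 (h x) = mixC r c1 c0 x then 1 else 0)) := by
      intro c0 c1
      by_cases hs : ∀ x, c1 (h x) = mixC r c1 c0 x
      · rw [if_pos hs, mix_eq_comp_retP h r hs]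
        ring
      · rw [if_neg hs]
        ring
    simp only [e1, ← mul_sum]
    have e2 : ∀ c0 : Pos D → Θ, wC o d0 c0 * colK D c0 (c0 ∘ retP h r) *
        (∑ c1 : Pos D → Θ, wC o d1 c1 * (if ∀ x, c1 (h x) = mixC r c1 c0 x then (1:ℝ) else 0)) ≤
        wC o d0 c0 * colK D c0 (c0 ∘ retP h r) * M := by
      intro c0
      apply mul_le_mul_of_nonneg_left
      · exact sum_solutions_le o h r c0 h10 h11
      · exact mul_nonneg (wC_nonneg o h00 c0) (colK_nonneg _ _ _)
    refine (sum_le_sum fun c0 _ => e2 c0).trans ?_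
    rw [← sum_mul]
    exact mul_le_mul_of_nonneg_right (cross_bound o D IH h00 h01 _) hM0
  -- average over the patterns
  have havg : ∀ h : Perm (Pos D),
      (avg fun r : Pos D → Bool => ∑ c0 : Pos D → Θ, ∑ c1 : Pos D → Θ, wC o d0 c0 * wC o d1 c1 *
        (colK D c0 (mixC r c0 c1) * (if ∀ x, c1 (h x) = mixC r c1 c0 x then 1 else 0))) ≤
      B * ∑ c1 : Pos D → Θ, wC o (fun x => d1 x / 2) c1 * (if ∀ x, c1 (h x) = c1 x then 1 else 0) := by
    intro h
    refine (avg_mono fun r => hfix h r).trans (le_of_eq ?_)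
    rw [avg_mul_left, avg_sum]
    refine congrArg _ (sum_congr rfl fun c1 _ => ?_)
    rw [avg_mul_left, avg_mul_left, ← avg_avoid o c1 d1]
    ring
  -- assemble
  have e3 : coreC o D d0 d1 = Exp D fun g => Exp D fun g' =>
      avg fun r : Pos D → Bool => ∑ c0 : Pos D → Θ, ∑ c1 : Pos D → Θ, wC o d0 c0 * wC o d1 c1 *
        (colK D c0 (mixC r c0 c1) * (if ∀ x, c1 ((g⁻¹ * g') x) = mixC r c1 c0 x then 1 else 0)) := by
    unfold coreC
    have e4 : ∀ g g' : Perm (Pos D), (avg fun r : Pos D → Bool => ∑ c0 : Pos D → Θ,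
        ∑ c1 : Pos D → Θ, wC o d0 c0 * wC o d1 c1 *
        (colK D c0 (mixC r c0 c1) * (if ∀ x, c1 ((g⁻¹ * g') x) = mixC r c1 c0 x then 1 else 0))) =
        ∑ c0 : Pos D → Θ, ∑ c1 : Pos D → Θ, wC o d0 c0 * wC o d1 c1 *
        avg fun r : Pos D → Bool => colK D c0 (mixC r c0 c1) *
          (if ∀ x, c1 ((g⁻¹ * g') x) = mixC r c1 c0 x then 1 else 0) := by
      intro g g'
      rw [avg_sum]
      refine sum_congr rfl fun c0 _ => ?_
      rw [avg_sum]
      refine sum_congr rfl fun c1 _ => ?_
      rw [avg_mul_left]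
    simp only [e4]
    simp only [Exp_sum]
    refine sum_congr rfl fun c0 _ => sum_congr rfl fun c1 _ => ?_
    simp only [Exp_mul_left]
    refine congrArg _ ?_
    simp only [colK_eq_Exp D c1]
    have e5 : ∀ g : Perm (Pos D), (Exp D fun g' => avg fun r : Pos D → Bool =>
        colK D c0 (mixC r c0 c1) * (if ∀ x, c1 ((g⁻¹ * g') x) = mixC r c1 c0 x then 1 else 0)) =
        avg fun r : Pos D → Bool => Exp D fun g' =>
        colK D c0 (mixC r c0 c1) * (if ∀ x, c1 ((g⁻¹ * g') x) = mixC r c1 c0 x then 1 else 0) :=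
      fun g => (Exp_avg D _).symm
    simp only [e5]
    rw [← Exp_avg]
    refine avg_congr fun r => ?_
    simp only [Exp_mul_left]
  have e6 : gam o D (fun x => d1 x / 2) = Exp D fun g => Exp D fun g' =>
      ∑ c1 : Pos D → Θ, wC o (fun x => d1 x / 2) c1 *
        (if ∀ x, c1 ((g⁻¹ * g') x) = c1 x then 1 else 0) := by
    unfold gam
    simp only [colK_eq_Exp, Exp_sum, Exp_mul_left]
  rw [e3, e6, ← Exp_mul_left]
  refine Exp_mono D fun g => ?_
  rw [← Exp_mul_left]
  exact Exp_mono D fun g' => havg _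

/-- the main bound for the weighted collision sum -/
theorem gam_bound (o : Θ) (D : ℕ) : ∀ d : Pos D → ℝ, (∀ x, 0 ≤ d x) → (∀ x, d x ≤ 1) →
    gam o D d ≤ Real.exp (((Fintype.card Θ : ℝ) - 1) * (3 / 4) ^ D * ∑ x, d x) := by
  have hθ : (0:ℝ) ≤ (Fintype.card Θ : ℝ) - 1 := by
    have : 1 ≤ Fintype.card Θ := Fintype.card_pos_iff.mpr ⟨o⟩
    have : (1:ℝ) ≤ Fintype.card Θ := by exact_mod_cast this
    linarith
  induction D with
  | zero =>
    intro d hd0 hd1
    set x0 : Pos 0 := default with hx0
    have hsx : ∑ x, d x = d x0 :=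
      Fintype.sum_eq_single x0 (fun y hy => absurd (Subsingleton.elim _ _) hy)
    have hK : ∀ c : Pos 0 → Θ, colK 0 c c = 1 := by
      intro c
      rw [colK_eq_Exp]
      show (if ∀ x, c (((1 : Perm (Pos 0))⁻¹ * 1) x) = c x then (1:ℝ) else 0) = 1
      rw [if_pos]
      intro x
      simp
    have hw : ∀ c : Pos 0 → Θ, wC o d c = if c x0 = o then 1 else d x0 := by
      intro c
      unfold wC
      exact Fintype.prod_eq_single x0 (fun y hy => absurd (Subsingleton.elim _ _) hy)
    unfold gam
    simp only [hK, mul_one, hw]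
    rw [← Equiv.sum_comp (Equiv.funUnique (Pos 0) Θ).symm]
    have e1 : ∀ θ : Θ, (if (Equiv.funUnique (Pos 0) Θ).symm θ x0 = o then (1:ℝ) else d x0) =
        d x0 + if θ = o then 1 - d x0 else 0 := by
      intro θ
      have : (Equiv.funUnique (Pos 0) Θ).symm θ x0 = θ := rfl
      rw [this]
      split_ifs <;> ring
    simp only [e1, sum_add_distrib, sum_const, card_univ, nsmul_eq_mul, sum_ite_eq', mem_univ, if_true]
    rw [hsx]
    have h2 := Real.add_one_le_exp (((Fintype.card Θ : ℝ) - 1) * (3 / 4) ^ 0 * d x0)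
    simp only [pow_zero, mul_one] at h2 ⊢
    linarith
  | succ D ih =>
    intro d hd0 hd1
    rw [gam_succ]
    set ρ := ((Fintype.card Θ : ℝ) - 1) * (3 / 4) ^ D with hρ
    have hρ0 : 0 ≤ ρ := mul_nonneg hθ (by positivity)
    refine avg_le_of_le fun c => ?_
    have hd00 : ∀ β x, 0 ≤ dC d c β x := fun β x => hd0 _
    have hd11 : ∀ β x, dC d c β x ≤ 1 := fun β x => hd1 _
    have hs := sum_dC d c
    set s0 := ∑ u, dC d c false u with hs0
    set s1 := ∑ u, dC d c true u with hs1
    have hs00 : 0 ≤ s0 := sum_nonneg fun u _ => hd00 _ u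
    have hs10 : 0 ≤ s1 := sum_nonneg fun u _ => hd00 _ u
    have hhalf : ∀ β, gam o D (fun x => dC d c β x / 2) ≤
        Real.exp (ρ * (∑ u, dC d c β u / 2)) := fun β =>
      ih _ (fun x => by have := hd00 β x; linarith) (fun x => by have := hd11 β x; linarith)
    have hsum : ∀ β, ∑ u, dC d c β u / 2 = (∑ u, dC d c β u) / 2 := fun β => by rw [sum_div]
    have h1 := coreC_le o D ih (hd00 false) (hd11 false) (hd00 true) (hd11 true)
    have h2 := coreC_le o D ih (hd00 true) (hd11 true) (hd00 false) (hd11 false)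
    rw [coreC_comm] at h2
    have h3 : Real.exp (ρ * s0) * gam o D (fun x => dC d c true x / 2) ≤
        Real.exp (ρ * s0 + ρ * (s1 / 2)) := by
      rw [Real.exp_add]
      apply mul_le_mul_of_nonneg_left _ (Real.exp_pos _).le
      have := hhalf true
      rwa [hsum] at this
    have h4 : Real.exp (ρ * s1) * gam o D (fun x => dC d c false x / 2) ≤
        Real.exp (ρ * s1 + ρ * (s0 / 2)) := by
      rw [Real.exp_add]
      apply mul_le_mul_of_nonneg_left _ (Real.exp_pos _).le
      have := hhalf false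
      rwa [hsum] at this
    have hgoal : ((Fintype.card Θ : ℝ) - 1) * (3 / 4) ^ (D + 1) * ∑ x, d x = ρ * (3 / 4 * (s0 + s1)) := by
      rw [hs, pow_succ, hρ]
      ring
    rw [hgoal]
    by_cases hle : s0 ≤ s1
    · refine (h1.trans h3).trans (Real.exp_le_exp.mpr ?_)
      nlinarith
    · refine (h2.trans h4).trans (Real.exp_le_exp.mpr ?_)
      have : s1 ≤ s0 := by linarith
      nlinarith

/-- the twisted form of the main bound -/
theorem cross_main (o : Θ) (D : ℕ) {d : Pos D → ℝ} (hd0 : ∀ x, 0 ≤ d x) (hd1 : ∀ x, d x ≤ 1)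
    (π : Perm (Pos D)) :
    ∑ c : Pos D → Θ, wC o d c * colK D c (c ∘ π) ≤
      Real.exp (((Fintype.card Θ : ℝ) - 1) * (3 / 4) ^ D * ∑ x, d x) :=
  cross_bound o D (gam_bound o D) hd0 hd1 π

end Vale.Agent.Lib.P162
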