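import Vale.Agent.Lib.P162.Cycle

/-!
# The recursion for the moments of the two sided kernel
-/

namespace Vale.Agent.Lib.P162

open Equiv Finset

set_option linter.unusedSectionVars false
set_option linter.unusedSimpArgs false
set_option linter.unusedVariables false

variable {ι : Type*} [Fintype ι] [DecidableEq ι]

/-- injectivity on a finite set of marks -/
abbrev InjF {Y : Type*} (x : ι → Y) (S : Finset ι) : Prop := ∀ i ∈ S, ∀ j ∈ S, x i = x j → i = j

lemma InjF.mono {Y : Type*} {x : ι → Y} {S S' : Finset ι} (h : InjF x S) (hs : S' ⊆ S) : InjF x S' :=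
  fun i hi j hj => h i (hs hi) j (hs hj)

lemma InjF.injOn {Y : Type*} {x : ι → Y} {S : Finset ι} (h : InjF x S) : Set.InjOn x S :=
  fun i hi j hj => h i hi j hj

/-- the total cycle weight -/
noncomputable def rrD (D : ℕ) (S : Finset ι) (f₁ : ι → Bool) (t₁ : ι → Pos D) (b : ι → Bool)
    (t : ι → Pos D) : ℝ :=
  avg fun a => wtD D S f₁ t₁ a * wtD D S b t a

lemma rrD_nonneg (D : ℕ) (S : Finset ι) (f₁ : ι → Bool) (t₁ : ι → Pos D) (b : ι → Bool)
    (t : ι → Pos D) : 0 ≤ rrD D S f₁ t₁ b t :=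
  avg_nonneg fun a => mul_nonneg (wtD_nonneg _ _ _ _ _) (wtD_nonneg _ _ _ _ _)

/-- the product of the two block densities -/
noncomputable def uuD (D : ℕ) (S : Finset ι) (t₁ : ι → Pos D) (b : ι → Bool) (t : ι → Pos D) : ℝ :=
  betaD D (blk S b false) t₁ t * betaD D (blk S b true) t₁ t

lemma uuD_nonneg (D : ℕ) (S : Finset ι) (t₁ : ι → Pos D) (b : ι → Bool) (t : ι → Pos D) :
    0 ≤ uuD D S t₁ b t :=
  mul_nonneg (betaD_nonneg _ _ _ _) (betaD_nonneg _ _ _ _)

/-- the Jensen step -/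
theorem jensen_step (D : ℕ) (S : Finset ι) (x : ι → Pos (D + 1)) {q : ℝ} (hq : 0 < q) :
    normP (D + 1) S x (1 + q) ≤ avg fun b : ι → Bool => wtD D S (hd x) (tl x) b *
      avg fun t : ι → Pos D => rrD D S (hd x) (tl x) b t ^ q * uuD D S (tl x) b t ^ (1 + q) := by
  set w : (ι → Bool) → ℝ := fun b => wtD D S (hd x) (tl x) b with hw
  have hw0 : ∀ b, 0 ≤ w b := fun b => wtD_nonneg _ _ _ _ _
  -- the pointwise Jensen inequality
  have h1 : ∀ (b' : ι → Bool) (t : ι → Pos D), betaD (D + 1) S x (joinT b' t) ^ (1 + q) ≤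
      rrD D S (hd x) (tl x) b' t ^ q * avg (fun b => w b * wtD D S b' t b *
        uuD D S (tl x) b t ^ (1 + q)) := by
    intro b' t
    have e : betaD (D + 1) S x (joinT b' t) =
        avg fun b => (w b * wtD D S b' t b) * uuD D S (tl x) b t := by
      rw [betaD_succ]
      simp only [hd_joinT, tl_joinT]
      rfl
    have hj := avg_jensen (p := 1 + q) (by linarith) (w := fun b => w b * wtD D S b' t b)
      (u := fun b => uuD D S (tl x) b t) (fun b => mul_nonneg (hw0 b) (wtD_nonneg _ _ _ _ _))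
      (fun b => uuD_nonneg _ _ _ _ _)
    rw [e]
    have e2 : (1 + q - 1) = q := by ring
    rw [e2] at hj
    exact hj
  unfold normP
  rw [avg_tup]
  refine le_trans (avg_mono fun b' => avg_mono fun t => h1 b' t) ?_
  -- rearrange
  have h2 : ∀ (b' : ι → Bool) (t : ι → Pos D),
      rrD D S (hd x) (tl x) b' t ^ q * avg (fun b => w b * wtD D S b' t b *
        uuD D S (tl x) b t ^ (1 + q)) =
      avg fun b => w b * (uuD D S (tl x) b t ^ (1 + q) *
        (rrD D S (hd x) (tl x) b' t ^ q * wtD D S b' t b)) := by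
    intro b' t
    rw [← avg_mul_left]
    refine avg_congr fun b => ?_
    ring
  simp only [h2]
  have h3 : (avg fun b' : ι → Bool => avg fun t : ι → Pos D => avg fun b : ι → Bool =>
      w b * (uuD D S (tl x) b t ^ (1 + q) * (rrD D S (hd x) (tl x) b' t ^ q * wtD D S b' t b))) =
      avg fun b : ι → Bool => w b * avg fun t : ι → Pos D => uuD D S (tl x) b t ^ (1 + q) *
        avg fun b' : ι → Bool => rrD D S (hd x) (tl x) b' t ^ q * wtD D S b' t b := by
    have e1 : ∀ b' : ι → Bool, (avg fun t : ι → Pos D => avg fun b : ι → Bool =>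
        w b * (uuD D S (tl x) b t ^ (1 + q) * (rrD D S (hd x) (tl x) b' t ^ q * wtD D S b' t b))) =
        avg fun b : ι → Bool => avg fun t : ι → Pos D =>
        w b * (uuD D S (tl x) b t ^ (1 + q) * (rrD D S (hd x) (tl x) b' t ^ q * wtD D S b' t b)) :=
      fun b' => avg_comm _
    simp only [e1]
    rw [avg_comm]
    refine avg_congr fun b => ?_
    rw [avg_comm, ← avg_mul_left]
    refine avg_congr fun t => ?_
    rw [← avg_mul_left, ← avg_mul_left]
  rw [h3]
  apply le_of_eq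
  -- the cycle weight is constant on the fibres
  have h4 : ∀ (b : ι → Bool) (t : ι → Pos D),
      (avg fun b' : ι → Bool => rrD D S (hd x) (tl x) b' t ^ q * wtD D S b' t b) =
      rrD D S (hd x) (tl x) b t ^ q := by
    intro b t
    have h5 : ∀ b' : ι → Bool, rrD D S (hd x) (tl x) b' t ^ q * wtD D S b' t b =
        rrD D S (hd x) (tl x) b t ^ q * wtD D S b' t b := by
      intro b'
      by_cases h : wtD D S b' t b = 0
      · simp [h]
      · have : rrD D S (hd x) (tl x) b' t = rrD D S (hd x) (tl x) b t := by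
          unfold rrD
          refine avg_congr fun a => ?_
          rw [wtD_shift h a]
        rw [this]
    simp only [h5, avg_mul_left, avg_wtD_left, mul_one]
  simp only [h4]
  refine avg_congr fun b => ?_
  congr 1
  refine avg_congr fun t => ?_
  ring

/-- the Hölder step on the smaller block -/
theorem split_bound (D e : ℕ) (S : Finset ι) (f : ι → Bool) (t₁ : ι → Pos D) (b : ι → Bool)
    (β₁ : Bool) (hx : ∀ i ∈ S, ∀ j ∈ S, t₁ i = t₁ j → f i = f j → i = j)
    (hb : wtD D S f t₁ b ≠ 0) {q : ℝ} (hq : 0 < q) (hqe : q < e) :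
    avg (fun t : ι → Pos D => rrD D S f t₁ b t ^ q *
        (betaD D (blk S b (!β₁)) t₁ t * betaD D (blk S b β₁) t₁ t) ^ (1 + q)) ≤
      normP D (blk S b (!β₁)) t₁ (1 + q) *
        (normP D (blk S b β₁) t₁ ((1 + q) * ((e : ℝ) / (e - q)))) ^ (1 - q / e) *
        ((1 + ((2 : ℝ) ^ e - 1) / 2 ^ D) ^ (blk S b β₁).card) ^ (q / e) := by
  set S₁ := blk S b β₁ with hS₁
  set S₀ := blk S b (!β₁) with hS₀
  set p := 1 + q with hp
  have hp1 : 0 < p := by linarith
  have he0 : (0:ℝ) < e := by linarith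
  have hs0 : 0 < (e:ℝ) - q := by linarith
  set s : ℝ := (e : ℝ) / (e - q) with hs
  set s' : ℝ := (e : ℝ) / q with hs'
  have hss : s.HolderConjugate s' := by
    rw [Real.holderConjugate_iff]
    constructor
    · rw [hs, lt_div_iff₀ hs0]
      linarith
    · rw [hs, hs']
      field_simp
      ring
  have hsinv : 1 / s = 1 - q / e := by
    rw [hs]
    field_simp
  have hs'inv : 1 / s' = q / e := by
    rw [hs']
    field_simp
  have hs'0 : 0 < s' := by positivity
  have hs0' : 0 < s := by positivity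
  have hqs' : q * s' = e := by
    rw [hs']
    field_simp
  -- injectivity on the blocks
  have hinjb : ∀ β, InjF t₁ (blk S b β) := by
    intro β i hi j hj hij
    obtain ⟨hi1, hi2⟩ := mem_blk.mp hi
    obtain ⟨hj1, hj2⟩ := mem_blk.mp hj
    exact hx i hi1 j hj1 hij (wtD_sep hb hi1 hj1 hij (hi2.trans hj2.symm))
  have hdisj : ∀ i, i ∈ S₀ → i ∉ S₁ := by
    intro i hi hi'
    have h1 := (mem_blk.mp hi).2
    have h2 := (mem_blk.mp hi').2
    rw [h2] at h1
    cases β₁ <;> simp at h1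
  set Y : ℝ := (normP D S₁ t₁ (p * s)) ^ (1 - q / e) *
    ((1 + ((2 : ℝ) ^ e - 1) / 2 ^ D) ^ S₁.card) ^ (q / e) with hY
  have hκ : (0:ℝ) ≤ 1 + ((2 : ℝ) ^ e - 1) / 2 ^ D := by
    have he1 : (1 : ℝ) ≤ 2 ^ e := one_le_pow₀ (by norm_num)
    have : (0:ℝ) ≤ ((2 : ℝ) ^ e - 1) / 2 ^ D := div_nonneg (by linarith) (by positivity)
    linarith
  have hY0 : 0 ≤ Y := by
    apply mul_nonneg (Real.rpow_nonneg (normP_nonneg _ _ _ _) _)
    exact Real.rpow_nonneg (pow_nonneg hκ _) _
  rw [mul_assoc]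
  rw [← avg_merge S₁]
  -- evaluate on merged points
  have hmerge0 : ∀ y z : ι → Pos D, betaD D S₀ t₁ (merge S₁ y z) = betaD D S₀ t₁ y :=
    fun y z => betaD_congr_right D S₀ t₁ fun i hi => merge_not_mem (hdisj i hi)
  have hmerge1 : ∀ y z : ι → Pos D, betaD D S₁ t₁ (merge S₁ y z) = betaD D S₁ t₁ z :=
    fun y z => betaD_congr_right D S₁ t₁ fun i hi => merge_mem hi
  have hexp : ∀ y z : ι → Pos D, rrD D S f t₁ b (merge S₁ y z) ^ q *
      (betaD D S₀ t₁ (merge S₁ y z) * betaD D S₁ t₁ (merge S₁ y z)) ^ p =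
      betaD D S₀ t₁ y ^ p * (rrD D S f t₁ b (merge S₁ y z) ^ q * betaD D S₁ t₁ z ^ p) := by
    intro y z
    rw [hmerge0, hmerge1, Real.mul_rpow (betaD_nonneg _ _ _ _) (betaD_nonneg _ _ _ _)]
    ring
  simp only [hexp, avg_mul_left]
  -- the bound for the inner average
  have hinner : ∀ y : ι → Pos D, betaD D S₀ t₁ y ^ p *
      avg (fun z => rrD D S f t₁ b (merge S₁ y z) ^ q * betaD D S₁ t₁ z ^ p) ≤
      betaD D S₀ t₁ y ^ p * Y := by
    intro y
    by_cases hy0 : betaD D S₀ t₁ y = 0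
    · rw [hy0, Real.zero_rpow hp1.ne']
      simp
    · apply mul_le_mul_of_nonneg_left _ (Real.rpow_nonneg (betaD_nonneg _ _ _ _) _)
      have hyinj : InjF y S₀ := by
        intro i hi j hj hij
        by_contra hne
        exact hy0 (betaD_eq_zero D S₀ (hinjb _).injOn hi hj hne hij)
      set g : (ι → Pos D) → ℝ := fun z => if ∀ i ∈ S₁, ∀ j ∈ S₁, z i = z j → i = j then
        rrD D S f t₁ b (merge S₁ y z) ^ q else 0 with hg
      have hg0 : ∀ z, 0 ≤ g z := by
        intro z
        simp only [hg]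
        split_ifs
        · exact Real.rpow_nonneg (rrD_nonneg _ _ _ _ _ _) _
        · exact le_refl _
      have h1 : ∀ z, rrD D S f t₁ b (merge S₁ y z) ^ q * betaD D S₁ t₁ z ^ p =
          betaD D S₁ t₁ z ^ p * g z := by
        intro z
        by_cases hz : ∀ i ∈ S₁, ∀ j ∈ S₁, z i = z j → i = j
        · simp only [hg, if_pos hz]
          ring
        · have hz0 : betaD D S₁ t₁ z = 0 := by
            push Not at hz
            obtain ⟨i, hi, j, hj, hij, hne⟩ := hz
            exact betaD_eq_zero D S₁ (hinjb _).injOn hi hj hne hij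
          rw [hz0, Real.zero_rpow hp1.ne']
          simp
      simp only [h1]
      have hH := avg_holder hss (f := fun z => betaD D S₁ t₁ z ^ p) (g := g)
        (fun z => Real.rpow_nonneg (betaD_nonneg _ _ _ _) _) hg0
      refine hH.trans ?_
      have e1 : (avg fun z => (betaD D S₁ t₁ z ^ p) ^ s) = normP D S₁ t₁ (p * s) := by
        unfold normP
        refine avg_congr fun z => ?_
        rw [← Real.rpow_mul (betaD_nonneg _ _ _ _)]
      rw [e1, hsinv, hs'inv]
      rw [hY]
      apply mul_le_mul_of_nonneg_left _ (Real.rpow_nonneg (normP_nonneg _ _ _ _) _)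
      apply Real.rpow_le_rpow (avg_nonneg fun z => Real.rpow_nonneg (hg0 z) _) _ (by positivity)
      -- the cycle bound
      have hU := U_bound D e S S₁ f t₁ b β₁ (filter_subset _ _) hx
        (fun i hi => (mem_blk.mp hi).2)
        (fun i hi hn h => hn (mem_blk.mpr ⟨hi, h⟩)) y (by
          intro i hi j hj hij
          have key : ∀ p q : Bool, p ≠ q → p = !q := by decide
          have hi' : i ∈ S₀ := by
            obtain ⟨h1, h2⟩ := mem_sdiff.mp hi
            exact mem_blk.mpr ⟨h1, key _ _ fun h => h2 (mem_blk.mpr ⟨h1, h⟩)⟩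
          have hj' : j ∈ S₀ := by
            obtain ⟨h1, h2⟩ := mem_sdiff.mp hj
            exact mem_blk.mpr ⟨h1, key _ _ fun h => h2 (mem_blk.mpr ⟨h1, h⟩)⟩
          exact hyinj i hi' j hj' hij)
      refine le_trans (le_of_eq ?_) hU
      refine avg_congr fun z => ?_
      simp only [hg]
      by_cases hz : ∀ i ∈ S₁, ∀ j ∈ S₁, z i = z j → i = j
      · rw [if_pos hz, if_pos hz, ← Real.rpow_mul (rrD_nonneg _ _ _ _ _ _), hqs', Real.rpow_natCast]
        rfl
      · rw [if_neg hz, if_neg hz, Real.zero_rpow hs'0.ne']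
  refine (avg_mono hinner).trans ?_
  rw [avg_mul_right]
  exact le_refl _

/-- one step of the recursion: the moments at level `D + 1` from those at level `D` -/
theorem rec_bound (D e : ℕ) {q φ φ' : ℝ} (hq : 0 < q) (hqe : q < e) (hφ : φ ≤
      (1 - q / e) * φ' + (q / e) * (((2 : ℝ) ^ e - 1) / 2 ^ D))
    (h0 : ∀ (S : Finset ι) (x : ι → Pos D), InjF x S → normP D S x (1 + q) ≤ Real.exp (S.card * φ))
    (h1 : ∀ (S : Finset ι) (x : ι → Pos D), InjF x S →
      normP D S x ((1 + q) * ((e : ℝ) / (e - q))) ≤ Real.exp (S.card * φ'))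
    (S : Finset ι) (x : ι → Pos (D + 1)) (hx : InjF x S) :
    normP (D + 1) S x (1 + q) ≤ Real.exp (S.card *
      ((φ + ((1 - q / e) * φ' + (q / e) * (((2 : ℝ) ^ e - 1) / 2 ^ D))) / 2)) := by
  refine (jensen_step D S x hq).trans ?_
  have he0 : (0:ℝ) < e := by linarith
  set κ : ℝ := ((2 : ℝ) ^ e - 1) / 2 ^ D with hκdef
  have hκ0 : 0 ≤ κ := by
    have he1 : (1 : ℝ) ≤ 2 ^ e := one_le_pow₀ (by norm_num)
    exact div_nonneg (by linarith) (by positivity)
  set Ξ := (1 - q / e) * φ' + (q / e) * κ with hΞ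
  have hqe' : 0 < 1 - q / e := by
    rw [sub_pos, div_lt_one he0]
    exact hqe
  have hxx : ∀ i ∈ S, ∀ j ∈ S, tl x i = tl x j → hd x i = hd x j → i = j := by
    intro i hi j hj h1 h2
    apply hx i hi j hj
    rw [← Fin.cons_self_tail (x i), ← Fin.cons_self_tail (x j)]
    show (Fin.cons (hd x i) (tl x i) : Pos (D + 1)) = Fin.cons (hd x j) (tl x j)
    rw [h1, h2]
  refine avg_weight_le (fun b => wtD_nonneg _ _ _ _ _) (avg_wtD _ _ _ _) fun b hb => ?_
  -- injectivity on the blocks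
  have hinjb : ∀ β, InjF (tl x) (blk S b β) := by
    intro β i hi j hj hij
    obtain ⟨hi1, hi2⟩ := mem_blk.mp hi
    obtain ⟨hj1, hj2⟩ := mem_blk.mp hj
    exact hxx i hi1 j hj1 hij (wtD_sep hb hi1 hj1 hij (hi2.trans hj2.symm))
  -- choose the smaller block
  obtain ⟨β₁, hβ₁⟩ : ∃ β₁, 2 * (blk S b β₁).card ≤ S.card := by
    have hc := card_blk S b
    by_cases h : 2 * (blk S b false).card ≤ S.card
    · exact ⟨false, h⟩
    · exact ⟨true, by omega⟩
  have hsplit := split_bound D e S (hd x) (tl x) b β₁ hxx hb hq hqe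
  have hcomm : ∀ t : ι → Pos D, uuD D S (tl x) b t =
      betaD D (blk S b (!β₁)) (tl x) t * betaD D (blk S b β₁) (tl x) t := by
    intro t
    unfold uuD
    cases β₁
    · simp [mul_comm]
    · simp
  simp only [hcomm]
  refine hsplit.trans ?_
  have hcc' : (blk S b (!β₁)).card + (blk S b β₁).card = S.card := by
    have hc := card_blk S b
    cases β₁
    · simp only [Bool.not_false]
      omega
    · simp only [Bool.not_true]
      omega
  set c₀ := (blk S b (!β₁)).card with hc₀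
  set c₁ := (blk S b β₁).card with hc₁
  have hcc : (c₀ : ℝ) + c₁ = S.card := by
    exact_mod_cast hcc'
  have h2 := h0 _ _ (hinjb (!β₁))
  have h3 := h1 _ _ (hinjb β₁)
  rw [← hc₀] at h2
  rw [← hc₁] at h3
  have h4 : normP D (blk S b β₁) (tl x) ((1 + q) * ((e : ℝ) / (e - q))) ^ (1 - q / e) ≤
      Real.exp (c₁ * φ') ^ (1 - q / e) :=
    Real.rpow_le_rpow (normP_nonneg _ _ _ _) h3 hqe'.le
  have h5 : ((1 + κ) ^ c₁) ^ (q / e) ≤ Real.exp (c₁ * κ) ^ (q / e) := by
    apply Real.rpow_le_rpow (pow_nonneg (by linarith) _) _ (by positivity)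
    have h6 : 1 + κ ≤ Real.exp κ := by linarith [Real.add_one_le_exp κ]
    calc (1 + κ) ^ c₁ ≤ Real.exp κ ^ c₁ := pow_le_pow_left₀ (by linarith) h6 _
      _ = Real.exp (c₁ * κ) := by rw [← Real.exp_nat_mul]
  rw [← Real.exp_mul] at h4 h5
  have hn0 := normP_nonneg D (blk S b (!β₁)) (tl x) (1 + q)
  have hn1 : 0 ≤ normP D (blk S b β₁) (tl x) ((1 + q) * ((e : ℝ) / (e - q))) ^ (1 - q / e) :=
    Real.rpow_nonneg (normP_nonneg _ _ _ _) _
  have hn2 : 0 ≤ ((1 + κ) ^ c₁) ^ (q / e) :=
    Real.rpow_nonneg (pow_nonneg (by linarith) _) _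
  rw [mul_assoc]
  calc normP D (blk S b (!β₁)) (tl x) (1 + q) *
        (normP D (blk S b β₁) (tl x) ((1 + q) * ((e : ℝ) / (e - q))) ^ (1 - q / e) *
          ((1 + κ) ^ c₁) ^ (q / e))
      ≤ Real.exp (c₀ * φ) * (Real.exp (c₁ * φ' * (1 - q / e)) * Real.exp (c₁ * κ * (q / e))) := by
        apply mul_le_mul h2 (mul_le_mul h4 h5 hn2 (Real.exp_pos _).le) (mul_nonneg hn1 hn2)
          (Real.exp_pos _).le
    _ = Real.exp (c₀ * φ + c₁ * Ξ) := by
        rw [← Real.exp_add, ← Real.exp_add, hΞ]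
        congr 1
        ring
    _ ≤ Real.exp ((S.card : ℝ) * ((φ + Ξ) / 2)) := by
        apply Real.exp_le_exp.mpr
        have hc1 : (c₁ : ℝ) * 2 ≤ S.card := by
          have : c₁ * 2 ≤ S.card := by omega
          exact_mod_cast this
        have hc0 : (c₀ : ℝ) = S.card - c₁ := by linarith
        rw [hc0]
        have hd : 0 ≤ Ξ - φ := by linarith
        nlinarith

end Vale.Agent.Lib.P162
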