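import Vale.Agent.Lib.P162.Col
import Vale.Agent.Lib.P162.LpRec

/-!
# The weighted moment of the cycle weight
-/

namespace Vale.Agent.Lib.P162

open Equiv Finset

set_option linter.unusedSectionVars false
set_option linter.unusedSimpArgs false
set_option linter.unusedVariables false

variable {ι : Type*} [Fintype ι] [DecidableEq ι]

/-! ### integrating against the density -/

/-- pinning a set of coordinates -/
lemma avg_pin' {Y : Type*} [Fintype Y] [Nonempty Y] [DecidableEq Y] (R : Finset ι) (v : ι → Y)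
    (F : (ι → Y) → ℝ) :
    (Fintype.card Y : ℝ) ^ R.card * avg (fun w => (if ∀ i ∈ R, v i = w i then (1 : ℝ) else 0) * F w) =
      avg (fun y => F (merge R y v)) := by
  have hc : (0 : ℝ) < Fintype.card Y := by exact_mod_cast Fintype.card_pos
  rw [← avg_merge R (fun w => (if ∀ i ∈ R, v i = w i then (1 : ℝ) else 0) * F w), ← avg_mul_left]
  refine avg_congr fun y => ?_
  have h1 : ∀ x : ι → Y, (if ∀ i ∈ R, v i = merge R y x i then (1 : ℝ) else 0) * F (merge R y x) =
      (if ∀ i ∈ R, x i = v i then (1 : ℝ) else 0) * F (merge R y v) := by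
    intro x
    by_cases h : ∀ i ∈ R, x i = v i
    · have h2 : merge R y x = merge R y v := by
        funext i
        by_cases hi : i ∈ R
        · rw [merge_mem hi, merge_mem hi, h i hi]
        · rw [merge_not_mem hi, merge_not_mem hi]
      rw [h2, if_pos h, if_pos]
      intro i hi
      rw [merge_mem hi]
    · rw [if_neg h, if_neg]
      · simp
      · intro h3
        apply h
        intro i hi
        have := h3 i hi
        rw [merge_mem hi] at this
        exact this.symm
  simp only [h1]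
  rw [avg_mul_right, avg_hit]
  have : (Fintype.card Y : ℝ) ^ R.card ≠ 0 := by positivity
  field_simp

lemma tau_int_right (D : ℕ) (S : Finset ι) (x : ι → Pos D) (F : (ι → Pos D) → ℝ)
    (hF : ∀ w w' : ι → Pos D, (∀ i ∈ S, w i = w' i) → F w = F w') :
    avg (fun w => tauD D S x w * F w) = Exp D fun g => F (fun i => g (x i)) := by
  have h1 : ∀ w, tauD D S x w * F w = ((2 : ℝ) ^ D) ^ S.card *
      Exp D (fun g => (if ∀ i ∈ S, g (x i) = w i then (1 : ℝ) else 0) * F w) := by
    intro w
    unfold tauD hitP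
    rw [Exp_mul_right, mul_assoc]
  simp only [h1]
  rw [avg_mul_left, Exp_avg, ← Exp_mul_left]
  refine Exp_congr D fun g => ?_
  have h2 := avg_pin' S (fun i => g (x i)) F
  rw [card_pos'] at h2
  rw [h2]
  have h3 : ∀ y : ι → Pos D, F (merge S y fun i => g (x i)) = F fun i => g (x i) :=
    fun y => hF _ _ fun i hi => merge_mem hi
  simp only [h3, avg_const]

lemma tau_int_left (D : ℕ) (S : Finset ι) (w : ι → Pos D) (F : (ι → Pos D) → ℝ)
    (hF : ∀ z z' : ι → Pos D, (∀ i ∈ S, z i = z' i) → F z = F z') :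
    avg (fun z => tauD D S z w * F z) = Exp D fun g => F (fun i => g⁻¹ (w i)) := by
  have h1 : ∀ z, tauD D S z w * F z = ((2 : ℝ) ^ D) ^ S.card *
      Exp D (fun g => (if ∀ i ∈ S, g⁻¹ (w i) = z i then (1 : ℝ) else 0) * F z) := by
    intro z
    unfold tauD hitP
    rw [Exp_mul_right, mul_assoc]
    congr 2
    refine Exp_congr D fun g => ?_
    congr 1
    apply propext
    refine forall₂_congr fun i _ => ?_
    rw [Perm.inv_eq_iff_eq]
    exact eq_comm
  simp only [h1]
  rw [avg_mul_left, Exp_avg, ← Exp_mul_left]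
  refine Exp_congr D fun g => ?_
  have h2 := avg_pin' S (fun i => g⁻¹ (w i)) F
  rw [card_pos'] at h2
  rw [h2]
  have h3 : ∀ y : ι → Pos D, F (merge S y fun i => g⁻¹ (w i)) = F fun i => g⁻¹ (w i) :=
    fun y => hF _ _ fun i hi => merge_mem hi
  simp only [h3, avg_const]

/-- integrating a function of the `S` coordinates against the density -/
theorem betaD_int (D : ℕ) (S : Finset ι) (x : ι → Pos D) (F : (ι → Pos D) → ℝ)
    (hF : ∀ z z' : ι → Pos D, (∀ i ∈ S, z i = z' i) → F z = F z') :
    avg (fun z => betaD D S x z * F z) = Exp D fun g => Exp D fun g' => F (fun i => g'⁻¹ (g (x i))) := by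
  unfold betaD
  have h1 : ∀ z, (avg fun w => tauD D S x w * tauD D S z w) * F z =
      avg fun w => tauD D S x w * (tauD D S z w * F z) := by
    intro z
    rw [← avg_mul_right]
    exact avg_congr fun w => by ring
  simp only [h1]
  rw [avg_comm]
  simp only [avg_mul_left]
  simp only [tau_int_left D S _ F hF]
  rw [tau_int_right D S x (fun w => Exp D fun g' => F fun i => g'⁻¹ (w i))]
  intro w w' h
  refine Exp_congr D fun g' => hF _ _ fun i hi => ?_
  rw [h i hi]

/-! ### the Fourier expansion of the cycle weight -/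

section fourier

variable {Y : Type*} [Fintype Y] [DecidableEq Y]

/-- the character average of a tuple -/
noncomputable def parC (W : Finset ι) (t : ι → Y) : ℝ :=
  avg fun c : Y → Bool => ∏ i ∈ W, sgnB (c (t i))

lemma abs_sgnB (b : Bool) : |sgnB b| = 1 := by
  cases b <;> simp

lemma abs_parC_le (W : Finset ι) (t : ι → Y) : |parC W t| ≤ 1 := by
  unfold parC
  refine (abs_avg_le _).trans ?_
  have h : ∀ c : Y → Bool, |∏ i ∈ W, sgnB (c (t i))| = 1 := by
    intro c
    rw [abs_prod]
    exact prod_eq_one fun i _ => abs_sgnB _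
  simp only [h, avg_const]
  exact le_rfl

lemma parC_eq_zero {W : Finset ι} {t : ι → Y} {i : ι} (hi : i ∈ W)
    (h : ∀ j ∈ W, j ≠ i → t j ≠ t i) : parC W t = 0 := by
  unfold parC
  let e : (Y → Bool) ≃ (Y → Bool) :=
    { toFun := fun c => Function.update c (t i) (!c (t i))
      invFun := fun c => Function.update c (t i) (!c (t i))
      left_inv := by
        intro c; funext p; by_cases hp : p = t i
        · subst hp; simp
        · simp [hp]
      right_inv := by
        intro c; funext p; by_cases hp : p = t i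
        · subst hp; simp
        · simp [hp] }
  set G : (Y → Bool) → ℝ := fun c => ∏ k ∈ W, sgnB (c (t k)) with hG
  have h1 : ∀ c, G (e c) = - G c := by
    intro c
    simp only [hG]
    rw [← mul_prod_erase W _ hi, ← mul_prod_erase W (fun k => sgnB (c (t k))) hi]
    have e1 : e c (t i) = !c (t i) := by
      show Function.update c (t i) (!c (t i)) (t i) = _
      simp
    have e2 : ∏ k ∈ W.erase i, sgnB (e c (t k)) = ∏ k ∈ W.erase i, sgnB (c (t k)) := by
      refine prod_congr rfl fun k hk => ?_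
      obtain ⟨h3, h4⟩ := mem_erase.mp hk
      have : e c (t k) = c (t k) := by
        show Function.update c (t i) (!c (t i)) (t k) = _
        rw [Function.update_of_ne (h k h4 h3)]
      rw [this]
    rw [e2, e1, sgnB_not]
    ring
  have h2 : avg G = avg fun c => G (e c) := (avg_equiv e G).symm
  simp only [h1, avg_neg] at h2
  linarith

lemma prod_sgn (A : Finset ι) (u v : ι → Bool) :
    ∏ i ∈ A, (1 + sgnB (u i) * sgnB (v i)) = if ∀ i ∈ A, u i = v i then (2:ℝ) ^ A.card else 0 := by
  by_cases h : ∀ i ∈ A, u i = v i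
  · rw [if_pos h]
    rw [prod_congr rfl (g := fun _ => (2:ℝ))]
    · simp
    · intro i hi
      rw [h i hi, sgnB_sq]
      norm_num
  · rw [if_neg h]
    push Not at h
    obtain ⟨i, hi, hne⟩ := h
    refine prod_eq_zero hi ?_
    cases hu : u i <;> cases hv : v i <;> simp_all

end fourier

/-- the Fourier expansion of the total cycle weight -/
theorem rr_fourier (D : ℕ) (A : Finset ι) (f : ι → Bool) (t₁ : ι → Pos D) (b : ι → Bool)
    (t : ι → Pos D) (hb : wtD D A f t₁ b ≠ 0) :
    rrD D A f t₁ b t = ∑ W ∈ A.powerset, parC W t₁ * parC W t := by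
  unfold rrD
  simp only [wtD_shift hb]
  set n := A.card with hn
  -- the pointwise computation
  have hpt : ∀ c c' : Pos D → Bool,
      ((2:ℝ) ^ n * (2:ℝ) ^ n) * (avg fun a : ι → Bool =>
        (if ∀ i ∈ A, xor (b i) (c (t₁ i)) = a i then (1:ℝ) else 0) *
          (if ∀ i ∈ A, xor (b i) (c' (t i)) = a i then (1:ℝ) else 0)) =
      ∑ W ∈ A.powerset, (∏ i ∈ W, sgnB (c (t₁ i))) * ∏ i ∈ W, sgnB (c' (t i)) := by
    intro c c'
    have e1 : ∑ W ∈ A.powerset, (∏ i ∈ W, sgnB (c (t₁ i))) * ∏ i ∈ W, sgnB (c' (t i)) =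
        ∏ i ∈ A, (1 + sgnB (c (t₁ i)) * sgnB (c' (t i))) := by
      rw [prod_one_add]
      exact sum_congr rfl fun W _ => (prod_mul_distrib).symm
    rw [e1, prod_sgn]
    by_cases h : ∀ i ∈ A, c (t₁ i) = c' (t i)
    · rw [if_pos h]
      have h1 : ∀ a : ι → Bool, (if ∀ i ∈ A, xor (b i) (c (t₁ i)) = a i then (1:ℝ) else 0) *
          (if ∀ i ∈ A, xor (b i) (c' (t i)) = a i then (1:ℝ) else 0) =
          if ∀ i ∈ A, a i = xor (b i) (c (t₁ i)) then (1:ℝ) else 0 := by
        intro a
        have h2 : (∀ i ∈ A, xor (b i) (c' (t i)) = a i) ↔ ∀ i ∈ A, xor (b i) (c (t₁ i)) = a i := by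
          refine forall₂_congr fun i hi => ?_
          rw [h i hi]
        have h3 : (∀ i ∈ A, a i = xor (b i) (c (t₁ i))) ↔ ∀ i ∈ A, xor (b i) (c (t₁ i)) = a i :=
          forall₂_congr fun i _ => eq_comm
        by_cases hh : ∀ i ∈ A, xor (b i) (c (t₁ i)) = a i
        · rw [if_pos hh, if_pos (h2.mpr hh), if_pos (h3.mpr hh)]
          norm_num
        · rw [if_neg hh, zero_mul, if_neg (fun k => hh (h3.mp k))]
      simp only [h1]
      rw [avg_hit]
      simp only [Fintype.card_bool]
      push_cast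
      rw [← hn]
      have : (2:ℝ) ^ n ≠ 0 := by positivity
      field_simp
    · rw [if_neg h]
      have h1 : ∀ a : ι → Bool, (if ∀ i ∈ A, xor (b i) (c (t₁ i)) = a i then (1:ℝ) else 0) *
          (if ∀ i ∈ A, xor (b i) (c' (t i)) = a i then (1:ℝ) else 0) = 0 := by
        intro a
        by_cases h2 : ∀ i ∈ A, xor (b i) (c (t₁ i)) = a i
        · by_cases h3 : ∀ i ∈ A, xor (b i) (c' (t i)) = a i
          · exfalso
            apply h
            intro i hi
            have h4 := (h2 i hi).trans (h3 i hi).symm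
            have key : ∀ p q r : Bool, xor p q = xor p r → q = r := by decide
            exact key _ _ _ h4
          · rw [if_neg h3, mul_zero]
        · rw [if_neg h2, zero_mul]
      simp only [h1, avg_const, mul_zero]
  -- assemble
  have hL : ∀ a : ι → Bool, wtD D A b t₁ a * wtD D A b t a = ((2:ℝ) ^ n * (2:ℝ) ^ n) *
      avg fun c : Pos D → Bool => avg fun c' : Pos D → Bool =>
        (if ∀ i ∈ A, xor (b i) (c (t₁ i)) = a i then (1:ℝ) else 0) *
          (if ∀ i ∈ A, xor (b i) (c' (t i)) = a i then (1:ℝ) else 0) := by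
    intro a
    unfold wtD coinP
    simp only [avg_mul_left, avg_mul_right]
    rw [← hn]
    ring
  simp only [hL]
  rw [avg_mul_left, avg_comm]
  have hc : ∀ c : Pos D → Bool, (avg fun a : ι → Bool => avg fun c' : Pos D → Bool =>
        (if ∀ i ∈ A, xor (b i) (c (t₁ i)) = a i then (1:ℝ) else 0) *
          (if ∀ i ∈ A, xor (b i) (c' (t i)) = a i then (1:ℝ) else 0)) =
      avg fun c' : Pos D → Bool => avg fun a : ι → Bool =>
        (if ∀ i ∈ A, xor (b i) (c (t₁ i)) = a i then (1:ℝ) else 0) *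
          (if ∀ i ∈ A, xor (b i) (c' (t i)) = a i then (1:ℝ) else 0) := fun c => avg_comm _
  simp only [hc]
  rw [← avg_mul_left]
  simp only [← avg_mul_left, hpt]
  simp only [avg_sum]
  refine sum_congr rfl fun W _ => ?_
  unfold parC
  rw [← avg_mul_right]
  refine avg_congr fun c => ?_
  rw [avg_mul_left]

/-- every mark of `W` has a partner with the same value -/
def EvenT {Y : Type*} (W : Finset ι) (t : ι → Y) : Prop := ∀ i ∈ W, ∃ j ∈ W, j ≠ i ∧ t j = t i

instance {Y : Type*} [DecidableEq Y] (W : Finset ι) (t : ι → Y) : Decidable (EvenT W t) := by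
  unfold EvenT
  infer_instance

/-- the cycle weight is at most the number of even sets -/
lemma rr_le_card (D : ℕ) (A : Finset ι) (f : ι → Bool) (t₁ : ι → Pos D) (b : ι → Bool)
    (t : ι → Pos D) (hb : wtD D A f t₁ b ≠ 0) :
    rrD D A f t₁ b t ≤ ((A.powerset.filter fun W => EvenT W t₁ ∧ EvenT W t).card : ℝ) := by
  classical
  rw [rr_fourier D A f t₁ b t hb, card_filter]
  push_cast
  refine sum_le_sum fun W _ => ?_
  have hne : ∀ (t' : ι → Pos D), ¬ EvenT W t' → parC W t' = 0 := by
    intro t' h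
    unfold EvenT at h
    push Not at h
    obtain ⟨i, hi, h2⟩ := h
    exact parC_eq_zero hi h2
  by_cases h : EvenT W t₁ ∧ EvenT W t
  · rw [if_pos h]
    have h1 := abs_parC_le W t₁
    have h2 := abs_parC_le W t
    calc parC W t₁ * parC W t ≤ |parC W t₁ * parC W t| := le_abs_self _
      _ = |parC W t₁| * |parC W t| := abs_mul _ _
      _ ≤ 1 * 1 := mul_le_mul h1 h2 (abs_nonneg _) (by norm_num)
      _ = 1 := by norm_num
  · rw [if_neg h]
    by_cases h1 : EvenT W t₁
    · have h2 : ¬ EvenT W t := fun h2 => h ⟨h1, h2⟩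
      rw [hne t h2, mul_zero]
    · rw [hne t₁ h1, zero_mul]

/-! ### even sets and colourings -/

/-- extending an injective correspondence to a permutation -/
lemma exists_perm_of_inj {X : Type*} [Fintype X] [DecidableEq X] (S : Finset ι) (y t : ι → X) :
    InjF y S → InjF t S → ∃ a : Perm X, ∀ v ∈ S, a (y v) = t v := by
  induction S using Finset.induction_on with
  | empty => exact fun _ _ => ⟨1, by simp⟩
  | insert u S hu ih =>
    intro hy ht
    obtain ⟨a, ha⟩ := ih (hy.mono (subset_insert _ _)) (ht.mono (subset_insert _ _))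
    refine ⟨swap (a (y u)) (t u) * a, fun v hv => ?_⟩
    rw [Perm.mul_apply]
    rcases mem_insert.mp hv with rfl | hvS
    · rw [swap_apply_left]
    · rw [ha v hvS]
      apply swap_apply_of_ne_of_ne
      · intro he
        have h1 : y v = y u := a.injective ((ha v hvS).trans he)
        have h2 := hy v (mem_insert_of_mem hvS) u (mem_insert_self _ _) h1
        rw [h2] at hvS
        exact hu hvS
      · intro he
        have h2 := ht v (mem_insert_of_mem hvS) u (mem_insert_self _ _) he
        rw [h2] at hvS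
        exact hu hvS

section valid

variable {D : ℕ} {A : Finset ι} {f : ι → Bool} {t₁ : ι → Pos D} {b : ι → Bool} {β₁ : Bool}

/-- the image sets compatible with the relative permutation -/
def validI (t₁ : ι → Pos D) (S₁ : Finset ι) (h a : Perm (Pos D)) : Finset (Finset (Pos D)) :=
  (S₁.image t₁).powerset.filter fun I => ∀ p, h⁻¹ p ∈ I ↔ a p ∈ I

/-- the even sets inject into the compatible image sets -/
lemma card_even_le (hx : ∀ i ∈ A, ∀ j ∈ A, t₁ i = t₁ j → f i = f j → i = j)
    (hb : wtD D A f t₁ b ≠ 0) {y : ι → Pos D} (hy : InjF y (blk A b (!β₁))) (h a : Perm (Pos D))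
    (ha : ∀ v ∈ blk A b (!β₁), a (y v) = t₁ v) :
    (A.powerset.filter fun W => EvenT W t₁ ∧
        EvenT W (merge (blk A b β₁) y (fun i => h (t₁ i)))).card ≤
      (validI t₁ (blk A b β₁) h a).card := by
  classical
  set S₁ := blk A b β₁ with hS₁
  set S₀ := blk A b (!β₁) with hS₀
  set t := merge S₁ y (fun i => h (t₁ i)) with ht
  have hsep : ∀ i ∈ A, ∀ j ∈ A, t₁ i = t₁ j → b i = b j → i = j :=
    fun i hi j hj h1 h2 => hx i hi j hj h1 (wtD_sep hb hi hj h1 h2)
  have hS₁' : ∀ i, i ∈ S₁ ↔ i ∈ A ∧ b i = β₁ := fun i => mem_blk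
  have hS₀' : ∀ i, i ∈ S₀ ↔ i ∈ A ∧ b i = !β₁ := fun i => mem_blk
  have hdich : ∀ i ∈ A, i ∉ S₁ → i ∈ S₀ := by
    intro i hi hn
    refine (hS₀' i).mpr ⟨hi, ?_⟩
    have h1 : b i ≠ β₁ := fun h => hn ((hS₁' i).mpr ⟨hi, h⟩)
    have key : ∀ p q : Bool, p ≠ q → p = !q := by decide
    exact key _ _ h1
  have hinj₁ : InjF t₁ S₁ := by
    intro i hi j hj hij
    obtain ⟨h1, h2⟩ := (hS₁' i).mp hi
    obtain ⟨h3, h4⟩ := (hS₁' j).mp hj
    exact hsep i h1 j h3 hij (h2.trans h4.symm)
  have hinj₀ : InjF t₁ S₀ := by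
    intro i hi j hj hij
    obtain ⟨h1, h2⟩ := (hS₀' i).mp hi
    obtain ⟨h3, h4⟩ := (hS₀' j).mp hj
    exact hsep i h1 j h3 hij (h2.trans h4.symm)
  have hnot : ∀ i, i ∈ S₀ → i ∉ S₁ := by
    intro i hi hi'
    have h1 := ((hS₀' i).mp hi).2
    have h2 := ((hS₁' i).mp hi').2
    rw [h2] at h1
    cases β₁ <;> simp at h1
  -- partners in the other block
  have hpart : ∀ W, W ⊆ A → EvenT W t₁ → ∀ i ∈ W, ∃ j ∈ W, t₁ j = t₁ i ∧ b j ≠ b i := by
    intro W hW hE i hi
    obtain ⟨j, hj, hne, hji⟩ := hE i hi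
    exact ⟨j, hj, hji, fun hb' => hne (hsep j (hW hj) i (hW hi) hji hb')⟩
  have hpart₁ : ∀ W, W ⊆ A → EvenT W t₁ → ∀ i ∈ W, i ∈ S₁ → ∃ j ∈ W, t₁ j = t₁ i ∧ j ∈ S₀ := by
    intro W hW hE i hi his
    obtain ⟨j, hj, h1, h2⟩ := hpart W hW hE i hi
    refine ⟨j, hj, h1, hdich j (hW hj) fun hjs => h2 ?_⟩
    rw [((hS₁' j).mp hjs).2, ((hS₁' i).mp his).2]
  have hpart₀ : ∀ W, W ⊆ A → EvenT W t₁ → ∀ i ∈ W, i ∈ S₀ → ∃ j ∈ W, t₁ j = t₁ i ∧ j ∈ S₁ := by
    intro W hW hE i hi his
    obtain ⟨j, hj, h1, h2⟩ := hpart W hW hE i hi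
    refine ⟨j, hj, h1, (hS₁' j).mpr ⟨hW hj, ?_⟩⟩
    have h3 := ((hS₀' i).mp his).2
    rw [h3] at h2
    have key : ∀ p q : Bool, p ≠ !q → p = q := by decide
    exact key _ _ h2
  refine card_le_card_of_injOn (fun W => (W ∩ S₁).image t₁) ?_ ?_
  · -- maps to the compatible sets
    intro W hW
    obtain ⟨hW1, hE₁, hE₂⟩ := mem_filter.mp (mem_coe.mp hW)
    have hWA := mem_powerset.mp hW1
    refine mem_coe.mpr (mem_filter.mpr ⟨mem_powerset.mpr ?_, fun p => ?_⟩)
    · exact image_subset_image inter_subset_right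
    · constructor
      · intro hp
        obtain ⟨u, hu, hup⟩ := mem_image.mp hp
        obtain ⟨huW, huS⟩ := mem_inter.mp hu
        have htu : t u = p := by
          rw [ht, merge_mem huS, hup]
          simp
        obtain ⟨j, hj, hne, hju⟩ := hE₂ u huW
        have hjS : j ∉ S₁ := by
          intro hjS
          rw [htu, ht, merge_mem hjS, ← htu, ht, merge_mem huS] at hju
          exact hne (hinj₁ j hjS u huS (h.injective hju))
        have hj0 := hdich j (hWA hj) hjS
        have hjy : y j = p := by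
          rw [← htu, ← hju, ht, merge_not_mem hjS]
        rw [← hjy, ha j hj0]
        obtain ⟨k, hk, hk1, hk2⟩ := hpart₀ W hWA hE₁ j hj hj0
        exact mem_image.mpr ⟨k, mem_inter.mpr ⟨hk, hk2⟩, hk1⟩
      · intro hp
        obtain ⟨u, hu, hup⟩ := mem_image.mp hp
        obtain ⟨huW, huS⟩ := mem_inter.mp hu
        obtain ⟨v, hv, hv1, hv2⟩ := hpart₁ W hWA hE₁ u huW huS
        have hvy : y v = p := by
          apply a.injective
          rw [ha v hv2, hv1, hup]
        have htv : t v = p := by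
          rw [ht, merge_not_mem (hnot v hv2), hvy]
        obtain ⟨j, hj, hne, hjv⟩ := hE₂ v hv
        have hjS : j ∈ S₁ := by
          by_contra hjS
          have hj0 := hdich j (hWA hj) hjS
          rw [htv, ht, merge_not_mem hjS] at hjv
          exact hne (hy j hj0 v hv2 (hjv.trans hvy.symm))
        have h3 : h (t₁ j) = p := by
          rw [← htv, ← hjv, ht, merge_mem hjS]
        have h4 : h⁻¹ p = t₁ j := by
          rw [← h3]
          simp
        rw [h4]
        exact mem_image.mpr ⟨j, mem_inter.mpr ⟨hj, hjS⟩, rfl⟩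
  · -- injectivity
    have hrec : ∀ W, W ⊆ A → EvenT W t₁ → W = A.filter fun i => t₁ i ∈ (W ∩ S₁).image t₁ := by
      intro W hWA hE
      ext i
      simp only [mem_filter]
      constructor
      · intro hi
        refine ⟨hWA hi, ?_⟩
        by_cases his : i ∈ S₁
        · exact mem_image.mpr ⟨i, mem_inter.mpr ⟨hi, his⟩, rfl⟩
        · obtain ⟨j, hj, h1, h2⟩ := hpart₀ W hWA hE i hi (hdich i (hWA hi) his)
          exact mem_image.mpr ⟨j, mem_inter.mpr ⟨hj, h2⟩, h1⟩
      · rintro ⟨hi, hm⟩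
        obtain ⟨u, hu, hup⟩ := mem_image.mp hm
        obtain ⟨huW, huS⟩ := mem_inter.mp hu
        by_cases his : i ∈ S₁
        · rwa [hinj₁ i his u huS hup.symm]
        · obtain ⟨v, hv, hv1, hv2⟩ := hpart₁ W hWA hE u huW huS
          have his0 := hdich i hi his
          rwa [hinj₀ i his0 v hv2 (hup.symm.trans hv1.symm)]
    intro W hW W' hW' he
    obtain ⟨hW1, hE₁, -⟩ := mem_filter.mp (mem_coe.mp hW)
    obtain ⟨hW1', hE₁', -⟩ := mem_filter.mp (mem_coe.mp hW')
    rw [hrec W (mem_powerset.mp hW1) hE₁, hrec W' (mem_powerset.mp hW1') hE₁']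
    simp only at he
    rw [he]

/-- the weight of the indicator of a set -/
lemma wC_ind {Θ : Type*} [DecidableEq Θ] (o : Θ) (T : Finset (Pos D)) (col : Pos D → Θ) :
    wC o (fun p => if p ∈ T then (1:ℝ) else 0) col = if ∀ p, p ∉ T → col p = o then 1 else 0 := by
  unfold wC
  by_cases h : ∀ p, p ∉ T → col p = o
  · rw [if_pos h]
    refine prod_eq_one fun p _ => ?_
    by_cases hp : p ∈ T
    · simp [hp]
    · rw [if_pos (h p hp)]
  · rw [if_neg h]
    push Not at h
    obtain ⟨p, hp, hne⟩ := h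
    refine prod_eq_zero (mem_univ p) ?_
    rw [if_neg hne]
    simp [hp]

/-- the power of the cycle weight for a fixed relative permutation -/
lemma rr_pow_le (e : ℕ) (hx : ∀ i ∈ A, ∀ j ∈ A, t₁ i = t₁ j → f i = f j → i = j)
    (hb : wtD D A f t₁ b ≠ 0) {y : ι → Pos D} (hy : InjF y (blk A b (!β₁))) (h a : Perm (Pos D))
    (ha : ∀ v ∈ blk A b (!β₁), a (y v) = t₁ v) :
    rrD D A f t₁ b (merge (blk A b β₁) y (fun i => h (t₁ i))) ^ e ≤
      ∑ col : Pos D → (Fin e → Bool),
        wC (fun _ => false) (fun p => if p ∈ (blk A b β₁).image t₁ then (1:ℝ) else 0) col *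
          (if ∀ x, col (h⁻¹ x) = (col ∘ a) x then 1 else 0) := by
  classical
  set T := (blk A b β₁).image t₁ with hT
  set V := validI t₁ (blk A b β₁) h a with hV
  have h1 : rrD D A f t₁ b (merge (blk A b β₁) y (fun i => h (t₁ i))) ≤ (V.card : ℝ) :=
    (rr_le_card D A f t₁ b _ hb).trans (by exact_mod_cast card_even_le hx hb hy h a ha)
  have h2 : rrD D A f t₁ b (merge (blk A b β₁) y (fun i => h (t₁ i))) ^ e ≤ (V.card : ℝ) ^ e :=
    pow_le_pow_left₀ (rrD_nonneg _ _ _ _ _ _) h1 e
  refine h2.trans ?_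
  -- count colourings
  set Good : Finset (Pos D → (Fin e → Bool)) := univ.filter fun col =>
    (∀ p, p ∉ T → col p = fun _ => false) ∧ ∀ x, col (h⁻¹ x) = (col ∘ a) x with hGood
  have e1 : (∑ col : Pos D → (Fin e → Bool),
        wC (fun _ => false) (fun p => if p ∈ T then (1:ℝ) else 0) col *
          (if ∀ x, col (h⁻¹ x) = (col ∘ a) x then 1 else 0)) = (Good.card : ℝ) := by
    rw [hGood, card_filter]
    push_cast
    refine sum_congr rfl fun col _ => ?_
    rw [wC_ind]
    by_cases h3 : ∀ p, p ∉ T → col p = fun _ => false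
    · by_cases h4 : ∀ x, col (h⁻¹ x) = (col ∘ a) x
      · rw [if_pos h3, if_pos h4, if_pos ⟨h3, h4⟩, mul_one]
      · have hn : ¬ ((∀ p, p ∉ T → col p = fun _ => false) ∧ ∀ x, col (h⁻¹ x) = (col ∘ a) x) :=
          fun k => h4 k.2
        rw [if_neg h4, if_neg hn, mul_zero]
    · have hn : ¬ ((∀ p, p ∉ T → col p = fun _ => false) ∧ ∀ x, col (h⁻¹ x) = (col ∘ a) x) :=
        fun k => h3 k.1
      rw [if_neg h3, zero_mul, if_neg hn]
  rw [e1]
  have e2 : V.card ^ e ≤ Good.card := by
    have e3 : (Fintype.piFinset fun _ : Fin e => V).card = V.card ^ e := by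
      have := Fintype.card_piFinset_const (α := Finset (Pos D)) V e
      simpa using this
    rw [← e3]
    refine card_le_card_of_injOn (fun Is p k => decide (p ∈ Is k)) ?_ ?_
    · intro Is hIs
      have hIs' : ∀ k, Is k ∈ V := by
        intro k
        exact Fintype.mem_piFinset.mp (mem_coe.mp hIs) k
      refine mem_coe.mpr (mem_filter.mpr ⟨mem_univ _, fun p hp => ?_, fun x => ?_⟩)
      · funext k
        have h3 := (mem_filter.mp (hIs' k)).1
        have h4 : p ∉ Is k := fun h5 => hp (mem_powerset.mp h3 h5)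
        simp [h4]
      · funext k
        have h3 := (mem_filter.mp (hIs' k)).2 x
        simp only [Function.comp]
        exact decide_eq_decide.mpr h3
    · intro Is _ Is' _ he
      funext k
      ext p
      have h3 := congrFun (congrFun he p) k
      simpa using h3
  exact_mod_cast e2

end valid

/-- the weighted moment of the cycle weight over the density -/
theorem U2_bound (D e : ℕ) (A : Finset ι) (f : ι → Bool) (t₁ : ι → Pos D) (b : ι → Bool)
    (β₁ : Bool) (hx : ∀ i ∈ A, ∀ j ∈ A, t₁ i = t₁ j → f i = f j → i = j)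
    (hb : wtD D A f t₁ b ≠ 0) (y : ι → Pos D) (hy : InjF y (blk A b (!β₁))) :
    avg (fun z => betaD D (blk A b β₁) t₁ z * rrD D A f t₁ b (merge (blk A b β₁) y z) ^ e) ≤
      Real.exp (((2:ℝ) ^ e - 1) * (3 / 4) ^ D * (blk A b β₁).card) := by
  classical
  set S₁ := blk A b β₁ with hS₁
  have hinj₀ : InjF t₁ (blk A b (!β₁)) := by
    intro i hi j hj hij
    obtain ⟨h1, h2⟩ := mem_blk.mp hi
    obtain ⟨h3, h4⟩ := mem_blk.mp hj
    exact hx i h1 j h3 hij (wtD_sep hb h1 h3 hij (h2.trans h4.symm))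
  obtain ⟨a, ha⟩ := exists_perm_of_inj _ y t₁ hy hinj₀
  rw [betaD_int D S₁ t₁ (fun z => rrD D A f t₁ b (merge S₁ y z) ^ e)]
  swap
  · intro z z' hz
    have : merge S₁ y z = merge S₁ y z' := by
      funext i
      by_cases hi : i ∈ S₁
      · rw [merge_mem hi, merge_mem hi, hz i hi]
      · rw [merge_not_mem hi, merge_not_mem hi]
    simp only [this]
  set T := S₁.image t₁ with hT
  set d : Pos D → ℝ := fun p => if p ∈ T then (1:ℝ) else 0 with hd
  have h1 : ∀ g g' : Perm (Pos D), rrD D A f t₁ b (merge S₁ y fun i => g'⁻¹ (g (t₁ i))) ^ e ≤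
      ∑ col : Pos D → (Fin e → Bool), wC (fun _ => false) d col *
        (if ∀ x, col ((g⁻¹ * g') x) = (col ∘ a) x then 1 else 0) := by
    intro g g'
    have := rr_pow_le (β₁ := β₁) e hx hb hy (g'⁻¹ * g) a ha
    simp only [mul_inv_rev, inv_inv] at this
    exact this
  have h2 : (Exp D fun g => Exp D fun g' => rrD D A f t₁ b (merge S₁ y fun i => g'⁻¹ (g (t₁ i))) ^ e) ≤
      Exp D fun g => Exp D fun g' => ∑ col : Pos D → (Fin e → Bool), wC (fun _ => false) d col *
        (if ∀ x, col ((g⁻¹ * g') x) = (col ∘ a) x then 1 else 0) :=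
    Exp_mono D fun g => Exp_mono D fun g' => h1 g g'
  refine h2.trans ?_
  have e3 : (Exp D fun g => Exp D fun g' => ∑ col : Pos D → (Fin e → Bool), wC (fun _ => false) d col *
        (if ∀ x, col ((g⁻¹ * g') x) = (col ∘ a) x then 1 else 0)) =
      ∑ col : Pos D → (Fin e → Bool), wC (fun _ => false) d col * colK D col (col ∘ a) := by
    simp only [colK_eq_Exp, Exp_sum, Exp_mul_left]
  rw [e3]
  have hd0 : ∀ x, 0 ≤ d x := fun x => by simp only [hd]; split_ifs <;> norm_num
  have hd1 : ∀ x, d x ≤ 1 := fun x => by simp only [hd]; split_ifs <;> norm_num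
  refine (cross_main (fun _ : Fin e => false) D hd0 hd1 a).trans (Real.exp_le_exp.mpr ?_)
  have hcard : (Fintype.card (Fin e → Bool) : ℝ) = 2 ^ e := by
    simp
  rw [hcard]
  have hsum : ∑ x, d x = (T.card : ℝ) := by
    simp only [hd]
    rw [sum_boole]
    simp
  rw [hsum]
  have hTc : (T.card : ℝ) ≤ S₁.card := by
    exact_mod_cast card_image_le
  have hκ : 0 ≤ ((2:ℝ) ^ e - 1) * (3 / 4) ^ D := by
    apply mul_nonneg _ (by positivity)
    have : (1:ℝ) ≤ 2 ^ e := one_le_pow₀ (by norm_num)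
    linarith
  exact mul_le_mul_of_nonneg_left hTc hκ

end Vale.Agent.Lib.P162
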