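import Vale.Agent.Lib.P162.Density

/-!
# Closing cycles is rare: the exponential moment of the cycle weight
-/

namespace Vale.Agent.Lib.P162

open Equiv Finset

set_option linter.unusedSectionVars false
set_option linter.unusedSimpArgs false
set_option linter.unusedVariables false

variable {ι : Type*} [Fintype ι] [DecidableEq ι]

/-- weight of a forced difference of two bits -/
def chiD (u v : ι) (a : ι → Bool) : ℝ := if a u ≠ a v then 2 else 0

lemma chiD_nonneg (u v : ι) (a : ι → Bool) : 0 ≤ chiD u v a := by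
  unfold chiD; split_ifs <;> norm_num

lemma chiD_le (u v : ι) (a : ι → Bool) : chiD u v a ≤ 2 := by
  unfold chiD; split_ifs <;> norm_num

/-- the invariant: every free mark has a set of marks whose flip preserves `Φ`, meeting the free
marks in at most two marks -/
def PartnerInv (Φ : (ι → Bool) → ℝ) (F : Finset ι) : Prop :=
  ∃ T : ι → Finset ι, ∀ u ∈ F, u ∈ T u ∧ (∀ a, Φ (flipSet (T u) a) = Φ a) ∧
    (∀ v ∈ F, v ∈ T u → T v = T u) ∧ (T u ∩ F).card ≤ 2

lemma PartnerInv.mono {Φ : (ι → Bool) → ℝ} {F F' : Finset ι} (h : PartnerInv Φ F) (hs : F' ⊆ F) :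
    PartnerInv Φ F' := by
  obtain ⟨T, hT⟩ := h
  refine ⟨T, fun u hu => ?_⟩
  obtain ⟨h1, h2, h3, h4⟩ := hT u (hs hu)
  refine ⟨h1, h2, fun v hv => h3 v (hs hv), le_trans (card_le_card ?_) h4⟩
  exact inter_subset_inter_left hs

lemma flipSet_apply_of_notMem {T : Finset ι} {i : ι} (h : i ∉ T) (a : ι → Bool) :
    flipSet T a i = a i := by simp [flipSet, h]

lemma flipSet_apply_of_mem {T : Finset ι} {i : ι} (h : i ∈ T) (a : ι → Bool) :
    flipSet T a i = !a i := by simp [flipSet, h]

lemma chiD_flip_both {T : Finset ι} {u v : ι} (hu : u ∈ T) (hv : v ∈ T) (a : ι → Bool) :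
    chiD u v (flipSet T a) = chiD u v a := by
  unfold chiD
  rw [flipSet_apply_of_mem hu, flipSet_apply_of_mem hv]
  cases a u <;> cases a v <;> simp

lemma chiD_flip_none {T : Finset ι} {u v : ι} (hu : u ∉ T) (hv : v ∉ T) (a : ι → Bool) :
    chiD u v (flipSet T a) = chiD u v a := by
  unfold chiD
  rw [flipSet_apply_of_notMem hu, flipSet_apply_of_notMem hv]

/-- the expectation of the forced difference when one mark can be flipped alone -/
lemma avg_chiD {Φ : (ι → Bool) → ℝ} {T : Finset ι} {u v : ι} (hΦ : ∀ a, Φ (flipSet T a) = Φ a)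
    (hu : u ∈ T) (hv : v ∉ T) : avg (fun a => Φ a * chiD u v a) = avg Φ := by
  have h1 : avg (fun a => Φ a * chiD u v a) = avg (fun a => Φ a * chiD u v (flipSet T a)) := by
    have := avg_equiv (flipSetE T) (fun a => Φ a * chiD u v a)
    rw [← this]
    refine avg_congr fun a => ?_
    show Φ (flipSet T a) * chiD u v (flipSet T a) = _
    rw [hΦ]
  have h2 : ∀ a, chiD u v a + chiD u v (flipSet T a) = 2 := by
    intro a
    unfold chiD
    rw [flipSet_apply_of_mem hu, flipSet_apply_of_notMem hv]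
    cases a u <;> cases a v <;> simp
  have h3 : avg (fun a => Φ a * chiD u v a) + avg (fun a => Φ a * chiD u v (flipSet T a)) =
      2 * avg Φ := by
    rw [← avg_add, ← avg_mul_left]
    refine avg_congr fun a => ?_
    rw [← mul_add, h2]
    ring
  linarith

/-- at most one free mark can double the expectation -/
lemma PartnerInv.partner {Φ : (ι → Bool) → ℝ} {F : Finset ι} (h : PartnerInv Φ F) {u : ι} (hu : u ∈ F) :
    ∃ Bad : Finset ι, Bad.card ≤ 1 ∧ ∀ v ∈ F, v ≠ u → v ∉ Bad →
      avg (fun a => Φ a * chiD u v a) = avg Φ := by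
  obtain ⟨T, hT⟩ := h
  obtain ⟨h1, h2, h3, h4⟩ := hT u hu
  refine ⟨(T u ∩ F).erase u, ?_, ?_⟩
  · rw [card_erase_of_mem (mem_inter.mpr ⟨h1, hu⟩)]
    omega
  · intro v hv hvu hvb
    refine avg_chiD h2 h1 ?_
    intro hvT
    exact hvb (mem_erase.mpr ⟨hvu, mem_inter.mpr ⟨hvT, hv⟩⟩)

/-- adding an edge between two free marks preserves the invariant -/
lemma PartnerInv.edge {Φ : (ι → Bool) → ℝ} {F : Finset ι} (h : PartnerInv Φ F) {u v : ι} (hu : u ∈ F)
    (hv : v ∈ F) (huv : u ≠ v) :
    PartnerInv (fun a => Φ a * chiD u v a) ((F.erase u).erase v) := by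
  classical
  obtain ⟨T, hT⟩ := h
  obtain ⟨hu1, hu2, hu3, hu4⟩ := hT u hu
  obtain ⟨hv1, hv2, hv3, hv4⟩ := hT v hv
  by_cases hvT : v ∈ T u
  · -- the edge closes a cycle
    have hcard : T u ∩ F = {u, v} := by
      symm
      apply eq_of_subset_of_card_le
      · intro z hz
        simp only [mem_insert, mem_singleton] at hz
        rcases hz with rfl | rfl
        · exact mem_inter.mpr ⟨hu1, hu⟩
        · exact mem_inter.mpr ⟨hvT, hv⟩
      · rw [card_pair huv]
        exact hu4
    have hTv : T v = T u := hu3 v hv hvT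
    refine ⟨T, fun w hw => ?_⟩
    have hw1 : w ≠ v := (mem_erase.mp hw).1
    have hw2 : w ≠ u := (mem_erase.mp (mem_erase.mp hw).2).1
    have hw3 : w ∈ F := (mem_erase.mp (mem_erase.mp hw).2).2
    obtain ⟨h1, h2, h3, h4⟩ := hT w hw3
    have huw : u ∉ T w := by
      intro hm
      have e : T u = T w := h3 u hu hm
      have : w ∈ T u ∩ F := mem_inter.mpr ⟨by rw [e]; exact h1, hw3⟩
      rw [hcard] at this
      simp only [mem_insert, mem_singleton] at this
      tauto
    have hvw : v ∉ T w := by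
      intro hm
      have e : T v = T w := h3 v hv hm
      have : w ∈ T u ∩ F := mem_inter.mpr ⟨by rw [← hTv, e]; exact h1, hw3⟩
      rw [hcard] at this
      simp only [mem_insert, mem_singleton] at this
      tauto
    refine ⟨h1, fun a => ?_, fun z hz => h3 z (mem_erase.mp (mem_erase.mp hz).2).2, ?_⟩
    · show Φ (flipSet (T w) a) * chiD u v (flipSet (T w) a) = Φ a * chiD u v a
      rw [h2, chiD_flip_none huw hvw]
    · refine le_trans (card_le_card ?_) h4
      intro z hz
      obtain ⟨hz1, hz2⟩ := mem_inter.mp hz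
      exact mem_inter.mpr ⟨hz1, (mem_erase.mp (mem_erase.mp hz2).2).2⟩
  · -- the edge joins two different pieces
    have huT : u ∉ T v := by
      intro hm
      have e : T u = T v := hv3 u hu hm
      exact hvT (by rw [e]; exact hv1)
    set Δ := symmDiff (T u) (T v) with hΔ
    have huΔ : u ∈ Δ := by
      rw [hΔ, mem_symmDiff]; exact Or.inl ⟨hu1, huT⟩
    have hvΔ : v ∈ Δ := by
      rw [hΔ, mem_symmDiff]; exact Or.inr ⟨hv1, hvT⟩
    have hΦΔ : ∀ a, Φ (flipSet Δ a) = Φ a := by
      intro a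
      rw [hΔ, flipSet_symmDiff, hu2, hv2]
    refine ⟨fun w => if w ∈ T u ∨ w ∈ T v then Δ else T w, fun w hw => ?_⟩
    have hw1 : w ≠ v := (mem_erase.mp hw).1
    have hw2 : w ≠ u := (mem_erase.mp (mem_erase.mp hw).2).1
    have hw3 : w ∈ F := (mem_erase.mp (mem_erase.mp hw).2).2
    by_cases hc : w ∈ T u ∨ w ∈ T v
    · simp only [if_pos hc]
      refine ⟨?_, fun a => ?_, fun z hz hzΔ => ?_, ?_⟩
      · rw [hΔ, mem_symmDiff]
        rcases hc with hc | hc
        · refine Or.inl ⟨hc, fun hc' => hvT ?_⟩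
          have e1 := hu3 w hw3 hc
          have e2 := hv3 w hw3 hc'
          rw [← e1, e2]
          exact hv1
        · refine Or.inr ⟨hc, fun hc' => hvT ?_⟩
          have e1 := hu3 w hw3 hc'
          have e2 := hv3 w hw3 hc
          rw [← e1, e2]
          exact hv1
      · show Φ (flipSet Δ a) * chiD u v (flipSet Δ a) = Φ a * chiD u v a
        rw [hΦΔ, chiD_flip_both huΔ hvΔ]
      · have : z ∈ T u ∨ z ∈ T v := by
          rw [hΔ, mem_symmDiff] at hzΔ
          tauto
        simp only [if_pos this]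
      · have hsub : Δ ∩ ((F.erase u).erase v) ⊆ ((T u ∩ F).erase u) ∪ ((T v ∩ F).erase v) := by
          intro z hz
          obtain ⟨hz1, hz2⟩ := mem_inter.mp hz
          have hzv : z ≠ v := (mem_erase.mp hz2).1
          have hzu : z ≠ u := (mem_erase.mp (mem_erase.mp hz2).2).1
          have hzF : z ∈ F := (mem_erase.mp (mem_erase.mp hz2).2).2
          rw [hΔ, mem_symmDiff] at hz1
          rcases hz1 with ⟨h5, _⟩ | ⟨h5, _⟩
          · exact mem_union_left _ (mem_erase.mpr ⟨hzu, mem_inter.mpr ⟨h5, hzF⟩⟩)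
          · exact mem_union_right _ (mem_erase.mpr ⟨hzv, mem_inter.mpr ⟨h5, hzF⟩⟩)
        refine (card_le_card hsub).trans ((card_union_le _ _).trans ?_)
        rw [card_erase_of_mem (mem_inter.mpr ⟨hu1, hu⟩), card_erase_of_mem (mem_inter.mpr ⟨hv1, hv⟩)]
        omega
    · simp only [if_neg hc]
      push Not at hc
      obtain ⟨hc1, hc2⟩ := hc
      obtain ⟨h1, h2, h3, h4⟩ := hT w hw3
      have huw : u ∉ T w := by
        intro hm
        have e : T u = T w := h3 u hu hm
        exact hc1 (by rw [e]; exact h1)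
      have hvw : v ∉ T w := by
        intro hm
        have e : T v = T w := h3 v hv hm
        exact hc2 (by rw [e]; exact h1)
      refine ⟨h1, fun a => ?_, fun z hz hzw => ?_, ?_⟩
      · show Φ (flipSet (T w) a) * chiD u v (flipSet (T w) a) = Φ a * chiD u v a
        rw [h2, chiD_flip_none huw hvw]
      · have hzF : z ∈ F := (mem_erase.mp (mem_erase.mp hz).2).2
        have e := h3 z hzF hzw
        have : ¬ (z ∈ T u ∨ z ∈ T v) := by
          rintro (h5 | h5)
          · have e2 := hu3 z hzF h5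
            exact hc1 (by rw [← e2, e]; exact h1)
          · have e2 := hv3 z hzF h5
            exact hc2 (by rw [← e2, e]; exact h1)
        simp only [if_neg this]
        exact e
      · refine le_trans (card_le_card ?_) h4
        intro z hz
        obtain ⟨hz1, hz2⟩ := mem_inter.mp hz
        exact mem_inter.mpr ⟨hz1, (mem_erase.mp (mem_erase.mp hz2).2).2⟩

/-- weights of tuples injective on the marks are trivial -/
lemma wtD_of_inj (D : ℕ) (f : ι → Bool) (a : ι → Bool) (t : ι → Pos D) (B : Finset ι)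
    (ht : ∀ i ∈ B, ∀ j ∈ B, t i = t j → i = j) : wtD D B f t a = 1 := by
  induction B using Finset.induction_on with
  | empty => simp [wtD, coinP, avg_const]
  | insert u B hu ih =>
    rw [wtD_insert_fresh D hu f t a]
    · exact ih fun i hi j hj => ht i (mem_insert_of_mem hi) j (mem_insert_of_mem hj)
    · intro v hv hvt
      have := ht v (mem_insert_of_mem hv) u (mem_insert_self _ _) hvt
      exact hu (this ▸ hv)

section main

variable (D e : ℕ) (A S₁ : Finset ι) (f₁ : ι → Bool) (t₁ : ι → Pos D) (b : ι → Bool) (β₁ : Bool)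

/-- the marks visible after revealing `S` -/
def visB (S : Finset ι) : Finset ι := (A \ S₁) ∪ S

/-- the weight function after revealing `S` -/
noncomputable def phiS (S : Finset ι) (t : ι → Pos D) (a : ι → Bool) : ℝ :=
  wtD D A f₁ t₁ a * wtD D (visB A S₁ S) b t a

/-- the free marks after revealing `S` -/
def freeS (S : Finset ι) (t : ι → Pos D) : Finset ι :=
  (S₁ \ S) ∪ ((A \ S₁).filter fun v => ∀ s ∈ S, t s ≠ t v)

variable {D e A S₁ f₁ t₁ b β₁}

lemma phiS_nonneg (S : Finset ι) (t : ι → Pos D) (a : ι → Bool) : 0 ≤ phiS D A S₁ f₁ t₁ b S t a :=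
  mul_nonneg (wtD_nonneg _ _ _ _ _) (wtD_nonneg _ _ _ _ _)

lemma not_mem_visB {S : Finset ι} {u : ι} (hu1 : u ∈ S₁) (hu2 : u ∉ S) : u ∉ visB A S₁ S := by
  unfold visB
  simp [hu1, hu2]

lemma visB_insert (S : Finset ι) (u : ι) : visB A S₁ (insert u S) = insert u (visB A S₁ S) := by
  unfold visB
  rw [union_insert]

lemma phiS_congr {S : Finset ι} {t t' : ι → Pos D} (h : ∀ i ∈ visB A S₁ S, t i = t' i) (a : ι → Bool) :
    phiS D A S₁ f₁ t₁ b S t a = phiS D A S₁ f₁ t₁ b S t' a := by
  unfold phiS wtD coinP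
  congr 3
  funext c
  congr 1
  apply propext
  refine forall₂_congr fun i hi => ?_
  rw [h i hi]

/-- a revealed mark hitting an old mark contributes a forced difference -/
lemma phiS_match (hb₁ : ∀ i ∈ S₁, b i = β₁) (hb₀ : ∀ i ∈ A, i ∉ S₁ → b i ≠ β₁)
    {S : Finset ι} {t : ι → Pos D} {u v : ι} (hu1 : u ∈ S₁) (hu2 : u ∉ S) (hv : v ∈ A) (hv1 : v ∉ S₁)
    (ht : t v = t u) (a : ι → Bool) :
    phiS D A S₁ f₁ t₁ b (insert u S) t a = phiS D A S₁ f₁ t₁ b S t a * chiD u v a := by
  unfold phiS
  rw [visB_insert, wtD_insert_match D (not_mem_visB hu1 hu2)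
    (by unfold visB; exact mem_union_left _ (mem_sdiff.mpr ⟨hv, hv1⟩)) b t a ht, mul_assoc]
  congr 2
  unfold chiD
  have h1 := hb₁ u hu1
  have h2 := hb₀ v hv hv1
  have key : (xor (a u) (b u) = xor (a v) (b v)) ↔ a u ≠ a v := by
    rw [h1]
    have h3 : b v = !β₁ := by
      cases hβ : β₁ <;> cases hbv : b v <;> simp_all
    rw [h3]
    cases a u <;> cases a v <;> cases β₁ <;> simp
  by_cases hc : a u ≠ a v
  · rw [if_pos hc, if_pos (key.mpr hc)]
  · rw [if_neg hc, if_neg (fun h => hc (key.mp h))]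

/-- a revealed mark on a free position changes nothing -/
lemma phiS_fresh {S : Finset ι} {t : ι → Pos D} {u : ι} (hu1 : u ∈ S₁) (hu2 : u ∉ S)
    (hfresh : ∀ v ∈ visB A S₁ S, t v ≠ t u) (a : ι → Bool) :
    phiS D A S₁ f₁ t₁ b (insert u S) t a = phiS D A S₁ f₁ t₁ b S t a := by
  unfold phiS
  rw [visB_insert, wtD_insert_fresh D (not_mem_visB hu1 hu2) b t a hfresh]

/-- the invariant holds after every reveal -/
lemma phiS_inv (hS : S₁ ⊆ A) (hx : ∀ i ∈ A, ∀ j ∈ A, t₁ i = t₁ j → f₁ i = f₁ j → i = j)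
    (hb₁ : ∀ i ∈ S₁, b i = β₁) (hb₀ : ∀ i ∈ A, i ∉ S₁ → b i ≠ β₁)
    (S : Finset ι) (hSS : S ⊆ S₁) (t : ι → Pos D)
    (ht0 : ∀ i ∈ A \ S₁, ∀ j ∈ A \ S₁, t i = t j → i = j)
    (ht1 : ∀ i ∈ S, ∀ j ∈ S, t i = t j → i = j) :
    PartnerInv (phiS D A S₁ f₁ t₁ b S t) (freeS D A S₁ S t) := by
  induction S using Finset.induction_on with
  | empty =>
    have hwt : ∀ a, wtD D (visB A S₁ ∅) b t a = 1 := by
      intro a
      apply wtD_of_inj
      simpa [visB] using ht0
    refine ⟨fun u => A.filter fun i => t₁ i = t₁ u, fun u hu => ?_⟩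
    have huA : u ∈ A := by
      unfold freeS at hu
      simp only [mem_union, sdiff_empty, mem_filter, mem_sdiff] at hu
      rcases hu with h | h
      · exact hS h
      · exact h.1.1
    refine ⟨mem_filter.mpr ⟨huA, rfl⟩, fun a => ?_, fun v hv hvT => ?_, ?_⟩
    · unfold phiS
      rw [hwt, hwt, wtD_flip_class]
    · have : t₁ v = t₁ u := (mem_filter.mp hvT).2
      simp only [this]
    · have hle : ((A.filter fun i => t₁ i = t₁ u) ∩ freeS D A S₁ ∅ t).card ≤
          (Finset.univ : Finset Bool).card := by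
        apply card_le_card_of_injOn f₁ (fun _ _ => mem_univ _)
        intro i hi j hj hij
        have hi' := (mem_filter.mp (mem_inter.mp hi).1)
        have hj' := (mem_filter.mp (mem_inter.mp hj).1)
        exact hx i hi'.1 j hj'.1 (hi'.2.trans hj'.2.symm) hij
      simpa using hle
  | insert u S hu ih =>
    have huS : u ∈ S₁ := hSS (mem_insert_self _ _)
    have hSS' : S ⊆ S₁ := fun i hi => hSS (mem_insert_of_mem hi)
    have ih' := ih hSS' fun i hi j hj => ht1 i (mem_insert_of_mem hi) j (mem_insert_of_mem hj)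
    have hne : ∀ s ∈ S, t s ≠ t u := by
      intro s hs hst
      have := ht1 s (mem_insert_of_mem hs) u (mem_insert_self _ _) hst
      exact hu (this ▸ hs)
    have huF : u ∈ freeS D A S₁ S t := by
      unfold freeS
      exact mem_union_left _ (mem_sdiff.mpr ⟨huS, hu⟩)
    by_cases hv : ∃ v ∈ A \ S₁, t v = t u
    · obtain ⟨v, hv1, hv2⟩ := hv
      have hvA := (mem_sdiff.mp hv1).1
      have hvn := (mem_sdiff.mp hv1).2
      have hvF : v ∈ freeS D A S₁ S t := by
        unfold freeS
        refine mem_union_right _ (mem_filter.mpr ⟨hv1, fun s hs => ?_⟩)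
        rw [hv2]
        exact hne s hs
      have huv : u ≠ v := fun h => hvn (h ▸ huS)
      have h1 := ih'.edge huF hvF huv
      have e : phiS D A S₁ f₁ t₁ b (insert u S) t =
          fun a => phiS D A S₁ f₁ t₁ b S t a * chiD u v a := by
        funext a
        exact phiS_match hb₁ hb₀ huS hu hvA hvn hv2 a
      rw [e]
      refine h1.mono fun z hz => ?_
      unfold freeS at hz ⊢
      simp only [mem_union, mem_sdiff, mem_insert, mem_filter, not_or, mem_erase] at hz ⊢
      rcases hz with ⟨hz1, hz2, hz3⟩ | ⟨⟨hz1, hz2⟩, hz3⟩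
      · refine ⟨?_, hz2, Or.inl ⟨hz1, hz3⟩⟩
        rintro rfl
        exact hvn hz1
      · have hzv : z ≠ v := by
          rintro rfl
          exact hz3 u (Or.inl rfl) hv2.symm
        refine ⟨hzv, ?_, Or.inr ⟨⟨hz1, hz2⟩, fun s hs => hz3 s (Or.inr hs)⟩⟩
        rintro rfl
        exact hz2 huS
    · push Not at hv
      have e : phiS D A S₁ f₁ t₁ b (insert u S) t = phiS D A S₁ f₁ t₁ b S t := by
        funext a
        refine phiS_fresh huS hu (fun z hz => ?_) a
        unfold visB at hz
        rcases mem_union.mp hz with hz | hz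
        · exact hv z hz
        · exact hne z hz
      rw [e]
      refine ih'.mono fun z hz => ?_
      unfold freeS at hz ⊢
      simp only [mem_union, mem_sdiff, mem_insert, mem_filter, not_or] at hz ⊢
      rcases hz with ⟨hz1, hz2, hz3⟩ | ⟨⟨hz1, hz2⟩, hz3⟩
      · exact Or.inl ⟨hz1, hz3⟩
      · exact Or.inr ⟨⟨hz1, hz2⟩, fun s hs => hz3 s (Or.inr hs)⟩

/-- the expected weight after revealing `S` -/
noncomputable def gS (D : ℕ) (A S₁ : Finset ι) (f₁ : ι → Bool) (t₁ : ι → Pos D) (b : ι → Bool)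
    (S : Finset ι) (t : ι → Pos D) : ℝ :=
  avg (phiS D A S₁ f₁ t₁ b S t)

lemma gS_nonneg (S : Finset ι) (t : ι → Pos D) : 0 ≤ gS D A S₁ f₁ t₁ b S t :=
  avg_nonneg (phiS_nonneg S t)

/-- one step of the reveal -/
lemma reveal_step (e : ℕ) (hS : S₁ ⊆ A) (hx : ∀ i ∈ A, ∀ j ∈ A, t₁ i = t₁ j → f₁ i = f₁ j → i = j)
    (hb₁ : ∀ i ∈ S₁, b i = β₁) (hb₀ : ∀ i ∈ A, i ∉ S₁ → b i ≠ β₁)
    (S : Finset ι) (hSS : S ⊆ S₁) (t : ι → Pos D) {u : ι} (hu1 : u ∈ S₁) (hu2 : u ∉ S)
    (ht0 : ∀ i ∈ A \ S₁, ∀ j ∈ A \ S₁, t i = t j → i = j)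
    (ht1 : ∀ i ∈ S, ∀ j ∈ S, t i = t j → i = j) :
    avg (fun p : Pos D => if ∀ s ∈ S, t s ≠ p then
        gS D A S₁ f₁ t₁ b (insert u S) (Function.update t u p) ^ e else 0) ≤
      gS D A S₁ f₁ t₁ b S t ^ e * (1 + ((2 : ℝ) ^ e - 1) / 2 ^ D) := by
  have hinv := phiS_inv hS hx hb₁ hb₀ S hSS t ht0 ht1
  have huF : u ∈ freeS D A S₁ S t := by
    unfold freeS
    exact mem_union_left _ (mem_sdiff.mpr ⟨hu1, hu2⟩)
  obtain ⟨Bad, hBad, hpart⟩ := hinv.partner huF
  set G := gS D A S₁ f₁ t₁ b S t with hG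
  have hG0 : 0 ≤ G := gS_nonneg S t
  set Pb : Finset (Pos D) := Bad.image t with hPb
  have hPbcard : Pb.card ≤ 1 := card_image_le.trans hBad
  have he1 : (1 : ℝ) ≤ 2 ^ e := one_le_pow₀ (by norm_num)
  -- the congruence of the update
  have hcongr : ∀ p, ∀ a, phiS D A S₁ f₁ t₁ b S (Function.update t u p) a =
      phiS D A S₁ f₁ t₁ b S t a := by
    intro p a
    refine phiS_congr (fun i hi => ?_) a
    have : i ≠ u := fun h => not_mem_visB hu1 hu2 (h ▸ hi)
    exact Function.update_of_ne this _ _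
  -- the pointwise bound
  have hpt : ∀ p : Pos D, (if ∀ s ∈ S, t s ≠ p then
        gS D A S₁ f₁ t₁ b (insert u S) (Function.update t u p) ^ e else 0) ≤
      G ^ e * (1 + ((2 : ℝ) ^ e - 1) * (if p ∈ Pb then 1 else 0)) := by
    intro p
    have hr : 0 ≤ G ^ e * (1 + ((2 : ℝ) ^ e - 1) * (if p ∈ Pb then 1 else 0)) := by
      apply mul_nonneg (pow_nonneg hG0 _)
      split_ifs <;> nlinarith
    by_cases hp : ∀ s ∈ S, t s ≠ p
    · rw [if_pos hp]
      by_cases hv : ∃ v ∈ A \ S₁, t v = p
      · obtain ⟨v, hv1, hv2⟩ := hv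
        have hvA := (mem_sdiff.mp hv1).1
        have hvn := (mem_sdiff.mp hv1).2
        have huv : v ≠ u := fun h => hvn (h ▸ hu1)
        have hupd : Function.update t u p v = Function.update t u p u := by
          rw [Function.update_of_ne huv, Function.update_self, hv2]
        have hval : gS D A S₁ f₁ t₁ b (insert u S) (Function.update t u p) =
            avg fun a => phiS D A S₁ f₁ t₁ b S t a * chiD u v a := by
          unfold gS
          refine avg_congr fun a => ?_
          rw [phiS_match hb₁ hb₀ hu1 hu2 hvA hvn hupd, hcongr]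
        have hvF : v ∈ freeS D A S₁ S t := by
          unfold freeS
          refine mem_union_right _ (mem_filter.mpr ⟨hv1, fun s hs => ?_⟩)
          rw [hv2]
          exact hp s hs
        by_cases hvB : v ∈ Bad
        · have hpP : p ∈ Pb := by
            rw [hPb, mem_image]
            exact ⟨v, hvB, hv2⟩
          rw [if_pos hpP, hval]
          have h2 : avg (fun a => phiS D A S₁ f₁ t₁ b S t a * chiD u v a) ≤ 2 * G := by
            rw [hG]
            unfold gS
            rw [← avg_mul_left]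
            refine avg_mono fun a => ?_
            have := chiD_le u v a
            have h3 := phiS_nonneg (D := D) (A := A) (S₁ := S₁) (f₁ := f₁) (t₁ := t₁) (b := b) S t a
            nlinarith
          have h3 : 0 ≤ avg (fun a => phiS D A S₁ f₁ t₁ b S t a * chiD u v a) :=
            avg_nonneg fun a => mul_nonneg (phiS_nonneg S t a) (chiD_nonneg _ _ _)
          calc _ ≤ (2 * G) ^ e := pow_le_pow_left₀ h3 h2 e
            _ = G ^ e * (1 + ((2 : ℝ) ^ e - 1) * 1) := by
              rw [mul_pow]; ring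
        · rw [hval, hpart v hvF huv hvB]
          have : (0:ℝ) ≤ ((2 : ℝ) ^ e - 1) * (if p ∈ Pb then 1 else 0) := by
            split_ifs <;> nlinarith
          show G ^ e ≤ _
          nlinarith [pow_nonneg hG0 e]
      · push Not at hv
        have hval : gS D A S₁ f₁ t₁ b (insert u S) (Function.update t u p) = G := by
          rw [hG]
          unfold gS
          refine avg_congr fun a => ?_
          rw [phiS_fresh hu1 hu2 (fun z hz => ?_) a, hcongr]
          have hzu : z ≠ u := fun h => not_mem_visB hu1 hu2 (h ▸ hz)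
          rw [Function.update_of_ne hzu, Function.update_self]
          unfold visB at hz
          rcases mem_union.mp hz with hz | hz
          · exact hv z hz
          · exact hp z hz
        rw [hval]
        have : (0:ℝ) ≤ ((2 : ℝ) ^ e - 1) * (if p ∈ Pb then 1 else 0) := by
          split_ifs <;> nlinarith
        nlinarith [pow_nonneg hG0 e]
    · rw [if_neg hp]
      exact hr
  refine (avg_mono hpt).trans ?_
  rw [avg_mul_left]
  apply mul_le_mul_of_nonneg_left _ (pow_nonneg hG0 _)
  have h1 : avg (fun p : Pos D => 1 + ((2 : ℝ) ^ e - 1) * (if p ∈ Pb then (1:ℝ) else 0)) =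
      1 + ((2 : ℝ) ^ e - 1) * avg (fun p : Pos D => if p ∈ Pb then (1:ℝ) else 0) := by
    rw [avg_add, avg_const, avg_mul_left]
  rw [h1]
  have h2 : avg (fun p : Pos D => if p ∈ Pb then (1:ℝ) else 0) ≤ 1 / 2 ^ D := by
    unfold avg
    rw [card_pos', Finset.sum_boole]
    have h3 : ((Finset.univ.filter fun p => p ∈ Pb).card : ℝ) ≤ 1 := by
      have : (Finset.univ.filter fun p => p ∈ Pb) = Pb := by
        ext p; simp
      rw [this]
      exact_mod_cast hPbcard
    rw [one_div]
    have h4 : (0:ℝ) < ((2:ℝ) ^ D)⁻¹ := by positivity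
    nlinarith
  have h3 : ((2 : ℝ) ^ e - 1) * avg (fun p : Pos D => if p ∈ Pb then (1:ℝ) else 0) ≤
      ((2 : ℝ) ^ e - 1) * (1 / 2 ^ D) :=
    mul_le_mul_of_nonneg_left h2 (by linarith)
  rw [div_eq_mul_one_div]
  linarith

end main

section update

variable {Y : Type*} [Fintype Y] [DecidableEq Y]

/-- resampling one coordinate -/
def updE (u : ι) : (ι → Y) × Y ≃ (ι → Y) × Y where
  toFun p := (Function.update p.1 u p.2, p.1 u)
  invFun p := (Function.update p.1 u p.2, p.1 u)
  left_inv p := by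
    ext i
    · by_cases h : i = u
      · subst h; simp
      · simp [h]
    · simp
  right_inv p := by
    ext i
    · by_cases h : i = u
      · subst h; simp
      · simp [h]
    · simp

lemma avg_update [Nonempty Y] (u : ι) (F : (ι → Y) → ℝ) :
    avg (fun z => avg (fun p : Y => F (Function.update z u p))) = avg F := by
  have h1 := avg_equiv (updE (Y := Y) u) (fun p => F p.1)
  have h2 := avg_prod (fun p : (ι → Y) × Y => F p.1)
  have h3 := avg_prod (fun p : (ι → Y) × Y => F (updE u p).1)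
  simp only [avg_const] at h2
  rw [← h2, ← h1, h3]
  rfl

end update

/-- the exponential moment of the cycle weight -/
theorem U_bound_aux (D e : ℕ) (A S₁ : Finset ι) (f₁ : ι → Bool) (t₁ : ι → Pos D) (b : ι → Bool)
    (β₁ : Bool) (hS : S₁ ⊆ A) (hx : ∀ i ∈ A, ∀ j ∈ A, t₁ i = t₁ j → f₁ i = f₁ j → i = j)
    (hb₁ : ∀ i ∈ S₁, b i = β₁) (hb₀ : ∀ i ∈ A, i ∉ S₁ → b i ≠ β₁)
    (y : ι → Pos D) (hy : ∀ i ∈ A \ S₁, ∀ j ∈ A \ S₁, y i = y j → i = j)
    (S : Finset ι) (hSS : S ⊆ S₁) :
    avg (fun z : ι → Pos D => if ∀ i ∈ S, ∀ j ∈ S, z i = z j → i = j then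
        gS D A S₁ f₁ t₁ b S (merge S y z) ^ e else 0) ≤
      (1 + ((2 : ℝ) ^ e - 1) / 2 ^ D) ^ S.card := by
  have hκ : (0:ℝ) ≤ 1 + ((2 : ℝ) ^ e - 1) / 2 ^ D := by
    have he1 : (1 : ℝ) ≤ 2 ^ e := one_le_pow₀ (by norm_num)
    have : (0:ℝ) ≤ ((2 : ℝ) ^ e - 1) / 2 ^ D := div_nonneg (by linarith) (by positivity)
    linarith
  induction S using Finset.induction_on with
  | empty =>
    have h : ∀ z : ι → Pos D, gS D A S₁ f₁ t₁ b ∅ (merge ∅ y z) = 1 := by
      intro z
      unfold gS phiS
      have hwt : ∀ a, wtD D (visB A S₁ ∅) b (merge ∅ y z) a = 1 := by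
        intro a
        apply wtD_of_inj
        have hm : merge ∅ y z = y := by
          funext i; simp [merge]
        rw [hm]
        simpa [visB] using hy
      simp only [hwt, mul_one]
      exact avg_wtD D A f₁ t₁
    simp [h, avg_const]
  | insert u S hu ih =>
    have huS : u ∈ S₁ := hSS (mem_insert_self _ _)
    have hSS' : S ⊆ S₁ := fun i hi => hSS (mem_insert_of_mem hi)
    have ih' := ih hSS'
    rw [← avg_update u]
    rw [card_insert_of_notMem hu, pow_succ]
    refine le_trans ?_ (mul_le_mul_of_nonneg_right ih' hκ)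
    rw [← avg_mul_right]
    refine avg_mono fun z => ?_
    set t := merge S y z with ht
    have hmerge : ∀ p, merge (insert u S) y (Function.update z u p) = Function.update t u p := by
      intro p
      funext i
      by_cases hi : i = u
      · subst hi
        simp [merge, ht]
      · by_cases hi' : i ∈ S
        · simp [merge, ht, hi, hi']
        · simp [merge, ht, hi, hi']
    have hinj : ∀ p, (∀ i ∈ insert u S, ∀ j ∈ insert u S,
        Function.update z u p i = Function.update z u p j → i = j) ↔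
        ((∀ i ∈ S, ∀ j ∈ S, z i = z j → i = j) ∧ ∀ s ∈ S, t s ≠ p) := by
      intro p
      have hne : ∀ s ∈ S, s ≠ u := fun s hs h => hu (h ▸ hs)
      have hts : ∀ s ∈ S, t s = z s := fun s hs => merge_mem hs
      constructor
      · intro h
        refine ⟨fun i hi j hj hij => ?_, fun s hs hsp => ?_⟩
        · refine h i (mem_insert_of_mem hi) j (mem_insert_of_mem hj) ?_
          rw [Function.update_of_ne (hne i hi), Function.update_of_ne (hne j hj), hij]
        · have := h s (mem_insert_of_mem hs) u (mem_insert_self _ _) (by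
            rw [Function.update_of_ne (hne s hs), Function.update_self, ← hts s hs, hsp])
          exact hne s hs this
      · rintro ⟨h1, h2⟩ i hi j hj hij
        by_cases hiu : i = u
        · by_cases hju : j = u
          · rw [hiu, hju]
          · have hj' : j ∈ S := (mem_insert.mp hj).resolve_left hju
            rw [hiu, Function.update_self, Function.update_of_ne hju, ← hts j hj'] at hij
            exact absurd hij.symm (h2 j hj')
        · have hi' : i ∈ S := (mem_insert.mp hi).resolve_left hiu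
          by_cases hju : j = u
          · rw [hju, Function.update_self, Function.update_of_ne hiu, ← hts i hi'] at hij
            exact absurd hij (h2 i hi')
          · have hj' : j ∈ S := (mem_insert.mp hj).resolve_left hju
            rw [Function.update_of_ne hiu, Function.update_of_ne hju] at hij
            exact h1 i hi' j hj' hij
    by_cases hz : ∀ i ∈ S, ∀ j ∈ S, z i = z j → i = j
    · rw [if_pos hz]
      have ht0 : ∀ i ∈ A \ S₁, ∀ j ∈ A \ S₁, t i = t j → i = j := by
        intro i hi j hj hij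
        have h1 : i ∉ S := fun h => (mem_sdiff.mp hi).2 (hSS' h)
        have h2 : j ∉ S := fun h => (mem_sdiff.mp hj).2 (hSS' h)
        rw [ht, merge_not_mem h1, merge_not_mem h2] at hij
        exact hy i hi j hj hij
      have ht1 : ∀ i ∈ S, ∀ j ∈ S, t i = t j → i = j := by
        intro i hi j hj hij
        rw [ht, merge_mem hi, merge_mem hj] at hij
        exact hz i hi j hj hij
      have h2 := reveal_step e hS hx hb₁ hb₀ S hSS' t huS hu ht0 ht1
      refine le_trans (le_of_eq ?_) h2
      refine avg_congr fun p => ?_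
      by_cases hp : ∀ s ∈ S, t s ≠ p
      · rw [if_pos ((hinj p).mpr ⟨hz, hp⟩), if_pos hp, hmerge]
      · rw [if_neg (fun h => hp ((hinj p).mp h).2), if_neg hp]
    · rw [if_neg hz, zero_mul]
      have : ∀ p : Pos D, ¬ (∀ i ∈ insert u S, ∀ j ∈ insert u S,
          Function.update z u p i = Function.update z u p j → i = j) :=
        fun p h => hz ((hinj p).mp h).1
      simp only [if_neg (this _), avg_const]
      exact le_refl _

/-- the exponential moment of the cycle weight, in final form -/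
theorem U_bound (D e : ℕ) (A S₁ : Finset ι) (f₁ : ι → Bool) (t₁ : ι → Pos D) (b : ι → Bool)
    (β₁ : Bool) (hS : S₁ ⊆ A) (hx : ∀ i ∈ A, ∀ j ∈ A, t₁ i = t₁ j → f₁ i = f₁ j → i = j)
    (hb₁ : ∀ i ∈ S₁, b i = β₁) (hb₀ : ∀ i ∈ A, i ∉ S₁ → b i ≠ β₁)
    (y : ι → Pos D) (hy : ∀ i ∈ A \ S₁, ∀ j ∈ A \ S₁, y i = y j → i = j) :
    avg (fun z : ι → Pos D => if ∀ i ∈ S₁, ∀ j ∈ S₁, z i = z j → i = j then
        (avg fun a => wtD D A f₁ t₁ a * wtD D A b (merge S₁ y z) a) ^ e else 0) ≤
      (1 + ((2 : ℝ) ^ e - 1) / 2 ^ D) ^ S₁.card := by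
  have h := U_bound_aux D e A S₁ f₁ t₁ b β₁ hS hx hb₁ hb₀ y hy S₁ (Subset.refl _)
  have hvis : visB A S₁ S₁ = A := by
    unfold visB
    exact sdiff_union_of_subset hS
  refine le_trans (le_of_eq ?_) h
  refine avg_congr fun z => ?_
  unfold gS phiS
  rw [hvis]

end Vale.Agent.Lib.P162
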