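import Mathlib

/-!
# The Thorp shuffle: definitions

Positions of a deck of `2 * m` cards are `Fin (2 * m)`, counted from `0`.  The top half is
`{0, …, m - 1}`, the bottom half is `{m, …, 2m - 1}`.  For each `i < m` the cards at positions
`i` and `m + i` are placed at positions `2 * i` and `2 * i + 1` of the new deck, in an order
given by the coin `c i`: if `c i = false` the card from position `i` goes to `2 * i` and the
card from position `m + i` goes to `2 * i + 1`; if `c i = true` they go the other way round.
-/

namespace Vale.Agent.Lib.P162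

open Equiv

/-- The position map of one Thorp shuffle of `2 * m` cards with coins `c`. -/
def thorpFun (m : ℕ) (c : Fin m → Bool) (p : Fin (2 * m)) : Fin (2 * m) :=
  if h : p.val < m then
    ⟨2 * p.val + (c ⟨p.val, h⟩).toNat, by
      have := Bool.toNat_le (c ⟨p.val, h⟩)
      omega⟩
  else
    ⟨2 * (p.val - m) + (!c ⟨p.val - m, by omega⟩).toNat, by
      have := Bool.toNat_le (!c ⟨p.val - m, by omega⟩)
      have := p.isLt
      omega⟩

theorem thorpFun_injective (m : ℕ) (c : Fin m → Bool) : Function.Injective (thorpFun m c) := by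
  intro p p' heq
  have hv := congrArg Fin.val heq
  unfold thorpFun at hv
  by_cases h : p.val < m <;> by_cases h' : p'.val < m
  · simp only [dif_pos h, dif_pos h'] at hv
    have h1 := Bool.toNat_le (c ⟨p.val, h⟩)
    have h2 := Bool.toNat_le (c ⟨p'.val, h'⟩)
    exact Fin.ext (by omega)
  · simp only [dif_pos h, dif_neg h'] at hv
    have h1 := Bool.toNat_le (c ⟨p.val, h⟩)
    have h2 := Bool.toNat_le (!c ⟨p'.val - m, by omega⟩)
    have e : p.val = p'.val - m := by omega
    have e' : (⟨p.val, h⟩ : Fin m) = ⟨p'.val - m, by omega⟩ := Fin.ext e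
    rw [e'] at hv
    cases hc : c ⟨p'.val - m, by omega⟩ <;> simp [hc] at hv <;> omega
  · simp only [dif_neg h, dif_pos h'] at hv
    have h1 := Bool.toNat_le (c ⟨p'.val, h'⟩)
    have h2 := Bool.toNat_le (!c ⟨p.val - m, by omega⟩)
    have e : p'.val = p.val - m := by omega
    have e' : (⟨p'.val, h'⟩ : Fin m) = ⟨p.val - m, by omega⟩ := Fin.ext e
    rw [e'] at hv
    cases hc : c ⟨p.val - m, by omega⟩ <;> simp [hc] at hv <;> omega
  · simp only [dif_neg h, dif_neg h'] at hv
    have h1 := Bool.toNat_le (!c ⟨p.val - m, by omega⟩)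
    have h2 := Bool.toNat_le (!c ⟨p'.val - m, by omega⟩)
    exact Fin.ext (by omega)

/-- The permutation of positions of one Thorp shuffle with coins `c`. -/
noncomputable def thorpPerm (m : ℕ) (c : Fin m → Bool) : Perm (Fin (2 * m)) :=
  Equiv.ofBijective (thorpFun m c) (Finite.injective_iff_bijective.mp (thorpFun_injective m c))

/-- The law `q_n` on the symmetric group of one Thorp shuffle of `n = 2 * m` cards, all `m` coins
being independent and fair. -/
noncomputable def thorpLaw (m : ℕ) (g : Perm (Fin (2 * m))) : ℝ :=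
  ((Finset.univ.filter fun c : Fin m → Bool => thorpPerm m c = g).card : ℝ) / 2 ^ m

/-- Convolution of two functions on a symmetric group. -/
noncomputable def convP {n : ℕ} (μ ν : Perm (Fin n) → ℝ) (g : Perm (Fin n)) : ℝ :=
  ∑ h : Perm (Fin n), μ h * ν (h⁻¹ * g)

/-- The `t`-fold convolution power; the power `0` is the point mass at the identity. -/
noncomputable def convPowP {n : ℕ} (μ : Perm (Fin n) → ℝ) : ℕ → Perm (Fin n) → ℝ
  | 0 => fun g => if g = 1 then 1 else 0
  | t + 1 => convP μ (convPowP μ t)

/-- Total variation distance to the uniform law on the symmetric group. -/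
noncomputable def tvToUniform {n : ℕ} (μ : Perm (Fin n) → ℝ) : ℝ :=
  (1 / 2) * ∑ g : Perm (Fin n), |μ g - 1 / (n.factorial : ℝ)|

/-- The mixing time of the Thorp shuffle of `2 * m` cards. -/
noncomputable def thorpMix (m : ℕ) : ℕ :=
  sInf {t : ℕ | tvToUniform (convPowP (thorpLaw m) t) ≤ 1 / 4}

end Vale.Agent.Lib.P162
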