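import Vale.Agent.Lib.P162.Law

/-!
# Coin weights and the density of the Benes kernel
-/

namespace Vale.Agent.Lib.P162

open Equiv Finset

set_option linter.unusedSectionVars false
set_option linter.unusedSimpArgs false
set_option linter.unusedVariables false

variable {ι : Type*} [Fintype ι] [DecidableEq ι]

/-! ### coin weights -/

lemma wtD_nonneg (D : ℕ) (S : Finset ι) (f : ι → Bool) (t : ι → Pos D) (b : ι → Bool) :
    0 ≤ wtD D S f t b :=
  mul_nonneg (by positivity) (coinP_nonneg _ _ _ _ _)

lemma avg_wtD (D : ℕ) (S : Finset ι) (f : ι → Bool) (t : ι → Pos D) :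
    avg (fun b => wtD D S f t b) = 1 := by
  unfold wtD coinP
  rw [avg_mul_left, avg_comm]
  have h : ∀ c : Pos D → Bool,
      avg (fun b : ι → Bool => if ∀ i ∈ S, xor (f i) (c (t i)) = b i then (1:ℝ) else 0) =
        ((2 : ℝ) ^ S.card)⁻¹ := by
    intro c
    have := avg_hit S (fun i => xor (f i) (c (t i)))
    simp only [Fintype.card_bool] at this
    push_cast at this
    rw [← this]
    refine avg_congr fun y => ?_
    simp only [eq_comm]
  simp only [h, avg_const]
  field_simp

lemma wtD_symm (D : ℕ) (S : Finset ι) (f : ι → Bool) (t : ι → Pos D) (b : ι → Bool) :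
    wtD D S f t b = wtD D S b t f := by
  unfold wtD coinP
  congr 1
  refine avg_congr fun c => ?_
  congr 1
  apply propext
  refine forall₂_congr fun i _ => ?_
  cases f i <;> cases b i <;> cases c (t i) <;> simp

lemma avg_wtD_left (D : ℕ) (S : Finset ι) (t : ι → Pos D) (b : ι → Bool) :
    avg (fun f => wtD D S f t b) = 1 := by
  simp only [wtD_symm D S _ t b]
  exact avg_wtD D S b t

/-- shifting the coins by a fixed coin function -/
def coinShift (D : ℕ) (c0 : Pos D → Bool) : (Pos D → Bool) ≃ (Pos D → Bool) where
  toFun c := fun p => xor (c p) (c0 p)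
  invFun c := fun p => xor (c p) (c0 p)
  left_inv c := by funext p; simp
  right_inv c := by funext p; simp

lemma wtD_congr_of_shift (D : ℕ) (S : Finset ι) {f f' : ι → Bool} (t : ι → Pos D) (a : ι → Bool)
    (c0 : Pos D → Bool) (h : ∀ i ∈ S, f' i = xor (f i) (c0 (t i))) :
    wtD D S f t a = wtD D S f' t a := by
  unfold wtD coinP
  congr 1
  rw [← avg_equiv (coinShift D c0)]
  refine avg_congr fun c => ?_
  congr 1
  apply propext
  refine forall₂_congr fun i hi => ?_
  rw [h i hi]
  show xor (f i) (xor (c (t i)) (c0 (t i))) = a i ↔ _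
  cases f i <;> cases c0 (t i) <;> cases c (t i) <;> simp

lemma exists_coin_of_wtD_ne {D : ℕ} {S : Finset ι} {f : ι → Bool} {t : ι → Pos D} {b : ι → Bool}
    (h : wtD D S f t b ≠ 0) : ∃ c : Pos D → Bool, ∀ i ∈ S, xor (f i) (c (t i)) = b i := by
  by_contra hne
  push Not at hne
  apply h
  unfold wtD coinP
  have : ∀ c : Pos D → Bool, (if ∀ i ∈ S, xor (f i) (c (t i)) = b i then (1:ℝ) else 0) = 0 := by
    intro c
    rw [if_neg]
    push Not
    exact hne c
  simp only [this, avg_const, mul_zero]

/-- if `W(f, b) ≠ 0` then `W(f, ·) = W(b, ·)` -/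
lemma wtD_shift {D : ℕ} {S : Finset ι} {f : ι → Bool} {t : ι → Pos D} {b : ι → Bool}
    (h : wtD D S f t b ≠ 0) (a : ι → Bool) : wtD D S f t a = wtD D S b t a := by
  obtain ⟨c, hc⟩ := exists_coin_of_wtD_ne h
  exact wtD_congr_of_shift D S t a c fun i hi => (hc i hi).symm

/-- nonvanishing weights separate marks with equal tails -/
lemma wtD_sep {D : ℕ} {S : Finset ι} {f : ι → Bool} {t : ι → Pos D} {b : ι → Bool}
    (h : wtD D S f t b ≠ 0) {i j : ι} (hi : i ∈ S) (hj : j ∈ S) (ht : t i = t j) (hb : b i = b j) :
    f i = f j := by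
  obtain ⟨c, hc⟩ := exists_coin_of_wtD_ne h
  have h1 := hc i hi
  have h2 := hc j hj
  rw [ht, hb, ← h2] at h1
  have key : ∀ p q r : Bool, xor p r = xor q r → p = q := by decide
  exact key _ _ _ h1

/-- adding a mark with a fresh tail does not change the weight -/
lemma wtD_insert_fresh (D : ℕ) {B : Finset ι} {u : ι} (hu : u ∉ B) (f : ι → Bool) (t : ι → Pos D)
    (a : ι → Bool) (hfresh : ∀ v ∈ B, t v ≠ t u) :
    wtD D (insert u B) f t a = wtD D B f t a := by
  unfold wtD coinP
  rw [card_insert_of_notMem hu, pow_succ, mul_assoc]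
  congr 1
  -- flip the coin at the fresh tail
  set τ := t u with hτ
  let e : (Pos D → Bool) ≃ (Pos D → Bool) :=
    { toFun := fun c => Function.update c τ (!c τ)
      invFun := fun c => Function.update c τ (!c τ)
      left_inv := by
        intro c; funext p; by_cases hp : p = τ
        · subst hp; simp
        · simp [hp]
      right_inv := by
        intro c; funext p; by_cases hp : p = τ
        · subst hp; simp
        · simp [hp] }
  set G : (Pos D → Bool) → ℝ := fun c => if ∀ i ∈ insert u B, xor (f i) (c (t i)) = a i then 1 else 0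
    with hG
  have h1 : avg G = avg (fun c => G (e c)) := (avg_equiv e G).symm
  have h2 : ∀ c, G c + G (e c) = if ∀ i ∈ B, xor (f i) (c (t i)) = a i then (1:ℝ) else 0 := by
    intro c
    have he : ∀ i ∈ B, e c (t i) = c (t i) := by
      intro i hi
      show Function.update c τ (!c τ) (t i) = c (t i)
      rw [Function.update_of_ne (hfresh i hi)]
    have heu : e c τ = !c τ := by
      show Function.update c τ (!c τ) τ = _
      simp
    by_cases hB : ∀ i ∈ B, xor (f i) (c (t i)) = a i
    · rw [if_pos hB]
      have hB' : ∀ i ∈ B, xor (f i) (e c (t i)) = a i := fun i hi => by rw [he i hi]; exact hB i hi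
      cases hx : xor (f u) (c τ) == a u
      · have h3 : ¬ (∀ i ∈ insert u B, xor (f i) (c (t i)) = a i) := by
          intro h4
          have := h4 u (mem_insert_self _ _)
          rw [← hτ] at this
          simp [this] at hx
        have h5 : ∀ i ∈ insert u B, xor (f i) (e c (t i)) = a i := by
          intro i hi
          rcases mem_insert.mp hi with rfl | hi
          · rw [← hτ, heu]
            have h8 : xor (f i) (c τ) ≠ a i := by simpa using hx
            have key : ∀ p q r : Bool, xor p q ≠ r → xor p (!q) = r := by decide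
            exact key _ _ _ h8
          · exact hB' i hi
        simp only [hG]
        rw [if_neg h3, if_pos h5]
        norm_num
      · have h3 : (∀ i ∈ insert u B, xor (f i) (c (t i)) = a i) := by
          intro i hi
          rcases mem_insert.mp hi with rfl | hi
          · rw [← hτ]
            simpa using hx
          · exact hB i hi
        have h5 : ¬ (∀ i ∈ insert u B, xor (f i) (e c (t i)) = a i) := by
          intro h4
          have h6 := h4 u (mem_insert_self _ _)
          rw [← hτ, heu] at h6
          have h7 := h3 u (mem_insert_self _ _)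
          rw [← hτ] at h7
          rw [← h7] at h6
          have key : ∀ p q : Bool, xor p (!q) ≠ xor p q := by decide
          exact key _ _ h6
        simp only [hG]
        rw [if_pos h3, if_neg h5]
        norm_num
    · rw [if_neg hB]
      have h3 : ¬ (∀ i ∈ insert u B, xor (f i) (c (t i)) = a i) :=
        fun h => hB fun i hi => h i (mem_insert_of_mem hi)
      have h4 : ¬ (∀ i ∈ insert u B, xor (f i) (e c (t i)) = a i) := by
        intro h
        apply hB
        intro i hi
        have := h i (mem_insert_of_mem hi)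
        rwa [he i hi] at this
      simp only [hG]
      rw [if_neg h3, if_neg h4]
      norm_num
  have h3 : avg G + avg (fun c => G (e c)) =
      avg fun c : Pos D → Bool => if ∀ i ∈ B, xor (f i) (c (t i)) = a i then (1:ℝ) else 0 := by
    rw [← avg_add]
    exact avg_congr h2
  rw [← h3, ← h1]
  ring

/-- adding a mark sharing its tail with an old mark -/
lemma wtD_insert_match (D : ℕ) {B : Finset ι} {u v : ι} (hu : u ∉ B) (hv : v ∈ B) (f : ι → Bool)
    (t : ι → Pos D) (a : ι → Bool) (htv : t v = t u) :
    wtD D (insert u B) f t a =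
      wtD D B f t a * (if xor (a u) (f u) = xor (a v) (f v) then 2 else 0) := by
  unfold wtD coinP
  rw [card_insert_of_notMem hu, pow_succ]
  have h : ∀ c : Pos D → Bool,
      (if ∀ i ∈ insert u B, xor (f i) (c (t i)) = a i then (1:ℝ) else 0) =
        (if ∀ i ∈ B, xor (f i) (c (t i)) = a i then (1:ℝ) else 0) *
          (if xor (a u) (f u) = xor (a v) (f v) then 1 else 0) := by
    intro c
    by_cases hB : ∀ i ∈ B, xor (f i) (c (t i)) = a i
    · rw [if_pos hB, one_mul]
      have hvv := hB v hv
      rw [htv] at hvv
      by_cases he : xor (a u) (f u) = xor (a v) (f v)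
      · rw [if_pos he, if_pos]
        intro i hi
        rcases mem_insert.mp hi with rfl | hi
        · rw [← hvv] at he
          have key : ∀ p q r s : Bool, xor r p = xor (xor s q) s → xor p q = r := by decide
          exact key _ _ _ _ he
        · exact hB i hi
      · rw [if_neg he, if_neg]
        intro h4
        have := h4 u (mem_insert_self _ _)
        apply he
        rw [← hvv, ← this]
        have key : ∀ p q r : Bool, xor (xor p r) p = xor (xor q r) q := by decide
        exact key _ _ _
    · rw [if_neg hB, zero_mul, if_neg]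
      exact fun h4 => hB fun i hi => h4 i (mem_insert_of_mem hi)
  simp only [h, avg_mul_right]
  by_cases he : xor (a u) (f u) = xor (a v) (f v)
  · simp only [if_pos he]
    ring
  · simp only [if_neg he]
    ring

/-- flipping a set of bits -/
def flipSet (T : Finset ι) (a : ι → Bool) : ι → Bool := fun i => if i ∈ T then !a i else a i

lemma flipSet_flipSet (T : Finset ι) (a : ι → Bool) : flipSet T (flipSet T a) = a := by
  funext i
  by_cases h : i ∈ T <;> simp [flipSet, h]

/-- flipping as an equivalence -/
def flipSetE (T : Finset ι) : (ι → Bool) ≃ (ι → Bool) where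
  toFun := flipSet T
  invFun := flipSet T
  left_inv := flipSet_flipSet T
  right_inv := flipSet_flipSet T

lemma flipSet_symmDiff (T T' : Finset ι) (a : ι → Bool) :
    flipSet (symmDiff T T') a = flipSet T (flipSet T' a) := by
  funext i
  by_cases h : i ∈ T <;> by_cases h' : i ∈ T' <;>
    simp [flipSet, h, h', Finset.mem_symmDiff]

/-- weights are invariant under flipping the bits of a whole tail class -/
lemma wtD_flip_class (D : ℕ) (A : Finset ι) (f : ι → Bool) (t : ι → Pos D) (τ : Pos D) (a : ι → Bool) :
    wtD D A f t (flipSet (A.filter fun i => t i = τ) a) = wtD D A f t a := by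
  have h1 := wtD_symm D A f t a
  have h2 := wtD_symm D A f t (flipSet (A.filter fun i => t i = τ) a)
  rw [h1, h2]
  refine wtD_congr_of_shift D A t f (fun p => decide (p = τ)) fun i hi => ?_
  by_cases h : t i = τ
  · simp [flipSet, h, hi]
  · simp [flipSet, h]

/-! ### the density of the two sided kernel -/

/-- the density of two passes, one inverted: `E_w τ(x, w) τ(y, w)` -/
noncomputable def betaD (D : ℕ) (S : Finset ι) (x y : ι → Pos D) : ℝ :=
  avg fun w => tauD D S x w * tauD D S y w

lemma betaD_comm (D : ℕ) (S : Finset ι) (x y : ι → Pos D) : betaD D S x y = betaD D S y x := by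
  unfold betaD
  exact avg_congr fun w => mul_comm _ _

lemma betaD_nonneg (D : ℕ) (S : Finset ι) (x y : ι → Pos D) : 0 ≤ betaD D S x y :=
  avg_nonneg fun w => mul_nonneg (tauD_nonneg _ _ _ _) (tauD_nonneg _ _ _ _)

lemma avg_betaD (D : ℕ) (S : Finset ι) (x : ι → Pos D) : avg (fun y => betaD D S x y) = 1 := by
  unfold betaD
  rw [avg_comm]
  simp only [avg_mul_left, avg_tauD_left, mul_one, avg_tauD_right]

lemma betaD_le (D : ℕ) (S : Finset ι) (x y : ι → Pos D) : betaD D S x y ≤ ((2 : ℝ) ^ D) ^ S.card := by
  unfold betaD
  have h : ∀ w, tauD D S x w * tauD D S y w ≤ tauD D S x w * ((2 : ℝ) ^ D) ^ S.card := fun w =>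
    mul_le_mul_of_nonneg_left (tauD_le _ _ _ _) (tauD_nonneg _ _ _ _)
  refine (avg_mono h).trans ?_
  rw [avg_mul_right, avg_tauD_right, one_mul]

lemma betaD_congr_right (D : ℕ) (S : Finset ι) (x : ι → Pos D) {y y' : ι → Pos D}
    (h : ∀ i ∈ S, y i = y' i) : betaD D S x y = betaD D S x y' := by
  unfold betaD
  refine avg_congr fun w => ?_
  rw [tauD_congr_left D S w h]

lemma betaD_congr_left (D : ℕ) (S : Finset ι) (y : ι → Pos D) {x x' : ι → Pos D}
    (h : ∀ i ∈ S, x i = x' i) : betaD D S x y = betaD D S x' y := by
  unfold betaD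
  refine avg_congr fun w => ?_
  rw [tauD_congr_left D S w h]

/-- the recursion for the density of the two sided kernel -/
theorem betaD_succ (D : ℕ) (S : Finset ι) (x y : ι → Pos (D + 1)) :
    betaD (D + 1) S x y = avg fun b : ι → Bool =>
      wtD D S (hd x) (tl x) b * wtD D S (hd y) (tl y) b *
        (betaD D (blk S b false) (tl x) (tl y) * betaD D (blk S b true) (tl x) (tl y)) := by
  unfold betaD
  rw [avg_tup]
  refine avg_congr fun b => ?_
  simp only [tauD_succ, hd_joinT, tl_joinT]
  have e : ∀ t : ι → Pos D,
      wtD D S (hd x) (tl x) b * (tauD D (blk S b false) (tl x) t * tauD D (blk S b true) (tl x) t) *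
        (wtD D S (hd y) (tl y) b * (tauD D (blk S b false) (tl y) t * tauD D (blk S b true) (tl y) t)) =
      (wtD D S (hd x) (tl x) b * wtD D S (hd y) (tl y) b) *
        ((tauD D (blk S b false) (tl x) t * tauD D (blk S b false) (tl y) t) *
          (tauD D (blk S b true) (tl x) t * tauD D (blk S b true) (tl y) t)) := by
    intro t; ring
  simp only [e, avg_mul_left]
  congr 1
  refine avg_indep (blk S b false) ?_ ?_
  · intro t t' h
    rw [tauD_congr_right D _ _ h, tauD_congr_right D _ _ h]
  · intro t t' h
    have h' : ∀ i ∈ blk S b true, t i = t' i := by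
      intro i hi
      apply h
      intro hf
      have h1 := (mem_blk.mp hi).2
      have h2 := (mem_blk.mp hf).2
      rw [h1] at h2
      exact absurd h2 (by simp)
    rw [tauD_congr_right D _ _ h', tauD_congr_right D _ _ h']

/-- the density vanishes on noninjective tuples when the source tuple is injective -/
lemma betaD_eq_zero (D : ℕ) (S : Finset ι) {x y : ι → Pos D}
    (hx : Set.InjOn x S) {i j : ι} (hi : i ∈ S) (hj : j ∈ S) (hij : i ≠ j) (hy : y i = y j) :
    betaD D S x y = 0 := by
  unfold betaD
  have h : ∀ w, tauD D S x w * tauD D S y w = 0 := by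
    intro w
    by_contra hne
    have h1 : tauD D S x w ≠ 0 := left_ne_zero_of_mul hne
    have h2 : tauD D S y w ≠ 0 := right_ne_zero_of_mul hne
    have h3 : hitP D S x w ≠ 0 := right_ne_zero_of_mul h1
    have h4 : hitP D S y w ≠ 0 := right_ne_zero_of_mul h2
    obtain ⟨g, hg⟩ := exists_of_hitP_ne D S x w h3
    obtain ⟨g', hg'⟩ := exists_of_hitP_ne D S y w h4
    have h5 : w i = w j := by
      rw [← hg' i hi, ← hg' j hj, hy]
    have h6 : x i = x j := by
      apply g.injective
      rw [hg i hi, hg j hj, h5]
    exact hij (hx hi hj h6)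
  simp only [h, avg_const]

/-! ### moments of the density -/

/-- the moment of the density in the second variable -/
noncomputable def normP (D : ℕ) (S : Finset ι) (x : ι → Pos D) (p : ℝ) : ℝ :=
  avg fun y => betaD D S x y ^ p

lemma normP_nonneg (D : ℕ) (S : Finset ι) (x : ι → Pos D) (p : ℝ) : 0 ≤ normP D S x p :=
  avg_nonneg fun y => Real.rpow_nonneg (betaD_nonneg _ _ _ _) _

/-- the trivial bound for the moments -/
lemma normP_trivial (D : ℕ) (S : Finset ι) (x : ι → Pos D) {q : ℝ} (hq : 0 ≤ q) :
    normP D S x (1 + q) ≤ (((2 : ℝ) ^ D) ^ S.card) ^ q := by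
  unfold normP
  set M : ℝ := ((2 : ℝ) ^ D) ^ S.card with hM
  have hM0 : 0 < M := by positivity
  have h : ∀ y, betaD D S x y ^ (1 + q) ≤ betaD D S x y * M ^ q := by
    intro y
    have h0 := betaD_nonneg D S x y
    by_cases hz : betaD D S x y = 0
    · rw [hz, Real.zero_rpow (by linarith)]
      simp
    · have hp : 0 < betaD D S x y := lt_of_le_of_ne h0 (Ne.symm hz)
      rw [Real.rpow_add hp, Real.rpow_one]
      exact mul_le_mul_of_nonneg_left (Real.rpow_le_rpow h0 (betaD_le _ _ _ _) hq) h0
  refine (avg_mono h).trans ?_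
  rw [avg_mul_right, avg_betaD, one_mul]

end Vale.Agent.Lib.P162
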