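import Vale.Agent.Lib.P162.Level

/-!
# The L2 endgame: counting low eigenvalues of the transposition Laplacian
-/

namespace Vale.Agent.Lib.P162

open scoped InnerProductSpace
open Equiv

set_option linter.unusedSectionVars false
set_option linter.unusedSimpArgs false
set_option linter.unusedVariables false

variable {V : Type*} [NormedAddCommGroup V] [InnerProductSpace ℝ V]
variable {X : Type*} [Fintype X] [DecidableEq X]

/-- number of eigenvalues below `c` is at most the dimension of the exceptional subspace -/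
theorem count_le [FiniteDimensional ℝ V] {T : V →L[ℝ] V} {d : ℕ} (A : Submodule ℝ V) (c : ℝ)
    (hA : ∀ u ∈ Aᗮ, c * ‖u‖ ^ 2 ≤ ⟪u, T u⟫_ℝ) (hT : IsSym T)
    (b : OrthonormalBasis (Fin d) ℝ V) (μ : Fin d → ℝ) (hb : ∀ i, T (b i) = μ i • b i) :
    (Finset.univ.filter fun i => μ i < c).card ≤ Module.finrank ℝ A := by
  set I := Finset.univ.filter fun i => μ i < c with hI
  let v : ↥I → V := fun i => b i
  have hv : Orthonormal ℝ v := b.orthonormal.comp _ Subtype.val_injective
  set Z := Submodule.span ℝ (Set.range v) with hZ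
  have hZr : Module.finrank ℝ Z = I.card := by
    rw [hZ, finrank_span_eq_card hv.linearIndependent, Fintype.card_coe]
  have hperp : ∀ z ∈ Z, ∀ j, j ∉ I → ⟪b j, z⟫_ℝ = 0 := by
    intro z hz j hj
    obtain ⟨a, rfl⟩ := (Submodule.mem_span_range_iff_exists_fun ℝ).mp hz
    rw [inner_sum]
    refine Finset.sum_eq_zero fun i _ => ?_
    rw [inner_smul_right]
    have hne : j ≠ i.1 := fun e => hj (e ▸ i.2)
    rw [show v i = b i.1 from rfl, b.orthonormal.2 hne, mul_zero]
  have hdis : Disjoint Z Aᗮ := by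
    rw [Submodule.disjoint_def]
    intro z hz hzA
    have h1 := hA z hzA
    have h2 : ‖z‖ ^ 2 = ∑ j, ⟪z, b j⟫_ℝ * ⟪b j, z⟫_ℝ := by
      rw [← real_inner_self_eq_norm_sq]
      exact (b.sum_inner_mul_inner z z).symm
    have h3 : ⟪z, T z⟫_ℝ = ∑ j, ⟪z, b j⟫_ℝ * (μ j * ⟪b j, z⟫_ℝ) := by
      rw [← b.sum_inner_mul_inner z (T z)]
      refine Finset.sum_congr rfl fun j _ => ?_
      rw [← hT (b j) z, hb j, inner_smul_left]
      simp
    have h4 : ∑ j, (c - μ j) * ⟪b j, z⟫_ℝ ^ 2 ≤ 0 := by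
      have : ∑ j, (c - μ j) * ⟪b j, z⟫_ℝ ^ 2 = c * ‖z‖ ^ 2 - ⟪z, T z⟫_ℝ := by
        rw [h2, h3, Finset.mul_sum, ← Finset.sum_sub_distrib]
        refine Finset.sum_congr rfl fun j _ => ?_
        rw [real_inner_comm (b j) z]
        ring
      rw [this]
      linarith
    have hnn : ∀ j ∈ Finset.univ, 0 ≤ (c - μ j) * ⟪b j, z⟫_ℝ ^ 2 := by
      intro j _
      by_cases hj : j ∈ I
      · have : μ j < c := (Finset.mem_filter.mp hj).2
        exact mul_nonneg (by linarith) (sq_nonneg _)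
      · rw [hperp z hz j hj]; simp
    have h5 : ∑ j, (c - μ j) * ⟪b j, z⟫_ℝ ^ 2 = 0 := le_antisymm h4 (Finset.sum_nonneg hnn)
    have h6 := (Finset.sum_eq_zero_iff_of_nonneg hnn).mp h5
    have h7 : ∀ j, ⟪b j, z⟫_ℝ = 0 := by
      intro j
      by_cases hj : j ∈ I
      · have hlt : μ j < c := (Finset.mem_filter.mp hj).2
        have := h6 j (Finset.mem_univ _)
        have h8 : c - μ j ≠ 0 := (by linarith : 0 < c - μ j).ne'
        have h9 := (mul_eq_zero.mp this).resolve_left h8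
        exact pow_eq_zero_iff (two_ne_zero) |>.mp h9
      · exact hperp z hz j hj
    have h10 : ‖z‖ ^ 2 = 0 := by
      rw [h2]
      refine Finset.sum_eq_zero fun j _ => ?_
      rw [h7 j, mul_zero]
    exact norm_eq_zero.mp (pow_eq_zero_iff two_ne_zero |>.mp h10)
  have h11 := Submodule.finrank_add_finrank_le_of_disjoint hdis
  have h12 := Submodule.finrank_add_finrank_orthogonal A
  rw [hZr] at h11
  omega

section endgame

/-- the point mass at the identity -/
noncomputable def deltaOne (X : Type*) [Fintype X] [DecidableEq X] : RegSpace X :=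
  EuclideanSpace.single (1 : Perm X) (1 : ℝ)

lemma lreg_delta (g : Perm X) : lreg g (deltaOne X) = EuclideanSpace.single g (1 : ℝ) := by
  ext π
  rw [lreg_apply]
  unfold deltaOne
  simp only [PiLp.single_apply, EuclideanSpace.single]
  by_cases h : π = g
  · subst h; simp
  · have : g⁻¹ * π ≠ 1 := fun e => h (by rw [inv_mul_eq_one] at e; exact e.symm)
    simp [h, this]

lemma mu_nonneg {d : ℕ} {T : V →L[ℝ] V} (hP : IsPsd T) (b : OrthonormalBasis (Fin d) ℝ V)
    (μ : Fin d → ℝ) (hb : ∀ i, T (b i) = μ i • b i) (i : Fin d) : 0 ≤ μ i := by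
  have h := hP (b i)
  rw [hb i, inner_smul_right, real_inner_self_eq_norm_sq, b.orthonormal.1 i] at h
  simpa using h

/-- trace identity -/
theorem trace_identity {d : ℕ} (b : OrthonormalBasis (Fin d) ℝ (RegSpace X)) (μ : Fin d → ℝ)
    (hb : ∀ i, Lap (lreg (X := X)) (b i) = μ i • b i) (s : ℝ) :
    ((Fintype.card X).factorial : ℝ) *
        ⟪deltaOne X, expo (-s) (Lap (lreg (X := X))) (deltaOne X)⟫_ℝ =
      ∑ i, Real.exp (-s * μ i) := by
  set C := expo (-s) (Lap (lreg (X := X))) with hC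
  have hCsym : IsSym C := (Lap_isSym lreg_isOrth).expo _
  have hCb : ∀ i, C (b i) = Real.exp (-s * μ i) • b i := fun i => expo_apply_of_eigen _ (hb i)
  have h1 : ∀ g : Perm X, ⟪(EuclideanSpace.single g (1 : ℝ) : RegSpace X),
      C (EuclideanSpace.single g (1 : ℝ))⟫_ℝ = ⟪deltaOne X, C (deltaOne X)⟫_ℝ := by
    intro g
    rw [← lreg_delta g]
    have hc : Commute (lreg g) C := Commute.expo_right (Lap_commute g) _
    have h2 : C (lreg g (deltaOne X)) = lreg g (C (deltaOne X)) :=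
      (congrArg (fun T : RegSpace X →L[ℝ] RegSpace X => T (deltaOne X)) hc.eq).symm
    rw [h2]
    exact lreg_isOrth g _ _
  have hcard : ((Fintype.card X).factorial : ℝ) = ∑ _g : Perm X, (1 : ℝ) := by
    simp [Fintype.card_perm]
  rw [hcard, Finset.sum_mul]
  simp only [one_mul]
  rw [← Finset.sum_congr rfl fun g _ => h1 g]
  have h3 : ∀ g : Perm X, ⟪(EuclideanSpace.single g (1 : ℝ) : RegSpace X),
      C (EuclideanSpace.single g (1 : ℝ))⟫_ℝ =
        ∑ i, Real.exp (-s * μ i) * (b i g) ^ 2 := by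
    intro g
    rw [← b.sum_inner_mul_inner]
    refine Finset.sum_congr rfl fun i _ => ?_
    rw [← hCsym, hCb i, inner_smul_left, EuclideanSpace.inner_single_left,
      EuclideanSpace.inner_single_right]
    simp
    ring
  simp only [h3]
  rw [Finset.sum_comm]
  refine Finset.sum_congr rfl fun i _ => ?_
  rw [← Finset.mul_sum]
  have h4 := EuclideanSpace.real_norm_sq_eq (b i)
  rw [b.orthonormal.1 i] at h4
  simp only [one_pow] at h4
  rw [← h4, mul_one]

/-- the eigenvalue count for the Laplacian of the regular representation -/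
theorem eigen_count (hn : 2 ≤ Fintype.card X) {d : ℕ}
    (hd : d = Module.finrank ℝ (RegSpace X))
    (b : OrthonormalBasis (Fin d) ℝ (RegSpace X)) (μ : Fin d → ℝ)
    (hb : ∀ i, Lap (lreg (X := X)) (b i) = μ i • b i) (k : ℕ) :
    (Finset.univ.filter fun i => μ i < ((k : ℝ) + 1) / 2).card ≤ ((Fintype.card X) ^ 2) ^ k := by
  set n := Fintype.card X with hnn
  have hX : 0 < Fintype.card X := by omega
  by_cases hk : k < n
  · have hA : ∀ u ∈ (levelSpace (rreg (X := X)) (n - k - 1))ᗮ,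
        (((k : ℝ) + 1) / 2) * ‖u‖ ^ 2 ≤ ⟪u, Lap (lreg (X := X)) u⟫_ℝ := by
      intro u hu
      have := level_gap (rreg_isOrth (X := X)) (n - k - 1) hX hu
      rw [Lap_lreg_eq_rreg]
      convert this using 2
      have e : (((n - k - 1 : ℕ) : ℝ)) = (n : ℝ) - k - 1 := by
        have h1 : k + 1 ≤ n := by omega
        rw [Nat.sub_sub, Nat.cast_sub h1]
        push_cast
        ring
      rw [← hnn, e]
      ring
    have h1 := count_le _ _ hA (Lap_isSym lreg_isOrth) b μ hb
    exact h1.trans (finrank_level k hk)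
  · have h1 : (Finset.univ.filter fun i => μ i < ((k : ℝ) + 1) / 2).card ≤ d := by
      simpa using Finset.card_filter_le (Finset.univ : Finset (Fin d)) _
    refine h1.trans ?_
    rw [hd, finrank_euclideanSpace, Fintype.card_perm, ← hnn]
    refine (Nat.factorial_le_pow n).trans ?_
    rw [← pow_mul]
    apply Nat.pow_le_pow_right (by omega)
    omega

/-- the sum of the exponentials of the eigenvalues -/
theorem sum_exp_le (hn : 2 ≤ Fintype.card X) {d : ℕ}
    (hd : d = Module.finrank ℝ (RegSpace X))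
    (b : OrthonormalBasis (Fin d) ℝ (RegSpace X)) (μ : Fin d → ℝ)
    (hb : ∀ i, Lap (lreg (X := X)) (b i) = μ i • b i) {s : ℝ} (hs : 0 ≤ s)
    (hξ : ((Fintype.card X : ℝ) ^ 2) * Real.exp (-s / 2) ≤ 1 / 2) :
    ∑ i, Real.exp (-s * μ i) ≤ 1 + 2 * (((Fintype.card X : ℝ) ^ 2) * Real.exp (-s / 2)) := by
  set n := Fintype.card X with hnn
  set q := Real.exp (-s / 2) with hq
  have hq0 : 0 < q := Real.exp_pos _
  set ξ := ((n : ℝ) ^ 2) * q with hξdef
  have hξ0 : 0 ≤ ξ := by positivity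
  have hμ0 := mu_nonneg (Lap_isPsd lreg_isOrth) b μ hb
  let K : Fin d → ℕ := fun i => ⌊2 * μ i⌋₊
  have hK1 : ∀ i, (K i : ℝ) ≤ 2 * μ i := fun i =>
    Nat.floor_le (by have := hμ0 i; positivity)
  have hK2 : ∀ i, 2 * μ i < (K i : ℝ) + 1 := fun i => Nat.lt_floor_add_one _
  have hterm : ∀ i, Real.exp (-s * μ i) ≤ q ^ (K i) := by
    intro i
    rw [hq, ← Real.exp_nat_mul]
    apply Real.exp_le_exp.mpr
    have := hK1 i
    nlinarith
  set M := (Finset.univ.sup K) + 1 with hM
  have hKM : ∀ i ∈ (Finset.univ : Finset (Fin d)), K i ∈ Finset.range M := by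
    intro i hi
    rw [Finset.mem_range, hM]
    exact Nat.lt_succ_of_le (Finset.le_sup (f := K) hi)
  have h1 : ∑ i, q ^ (K i) = ∑ k ∈ Finset.range M,
      ∑ i ∈ Finset.univ.filter (fun i => K i = k), q ^ (K i) :=
    (Finset.sum_fiberwise_of_maps_to hKM _).symm
  have hfiber : ∀ k ∈ Finset.range M,
      ∑ i ∈ Finset.univ.filter (fun i => K i = k), q ^ (K i) ≤ ξ ^ k := by
    intro k _
    have h2 : ∑ i ∈ Finset.univ.filter (fun i => K i = k), q ^ (K i) =
        ((Finset.univ.filter (fun i => K i = k)).card : ℝ) * q ^ k := by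
      rw [Finset.sum_congr rfl (g := fun _ => q ^ k)
        (fun i hi => by rw [(Finset.mem_filter.mp hi).2])]
      simp
    rw [h2]
    have h3 : (Finset.univ.filter (fun i => K i = k)).card ≤
        (Finset.univ.filter fun i => μ i < ((k : ℝ) + 1) / 2).card := by
      apply Finset.card_le_card
      intro i hi
      rw [Finset.mem_filter] at hi ⊢
      refine ⟨hi.1, ?_⟩
      have := hK2 i
      rw [hi.2] at this
      linarith
    have h4 := h3.trans (eigen_count hn hd b μ hb k)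
    have h5 : ((Finset.univ.filter (fun i => K i = k)).card : ℝ) ≤ (((n : ℝ)) ^ 2) ^ k := by
      exact_mod_cast h4
    calc ((Finset.univ.filter (fun i => K i = k)).card : ℝ) * q ^ k
        ≤ (((n : ℝ)) ^ 2) ^ k * q ^ k := mul_le_mul_of_nonneg_right h5 (by positivity)
      _ = ξ ^ k := by rw [hξdef, mul_pow]
  have hr : ξ < 1 := by linarith
  have hgeo := hasSum_geometric_of_lt_one hξ0 hr
  have h6 : ∑ k ∈ Finset.range M, ξ ^ k ≤ (1 - ξ)⁻¹ :=
    sum_le_hasSum _ (fun k _ => by positivity) hgeo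
  have h7 : (1 - ξ)⁻¹ ≤ 1 + 2 * ξ := by
    rw [inv_le_comm₀ (by linarith) (by positivity)]
    rw [inv_le_iff_one_le_mul₀ (by positivity)]
    nlinarith
  calc ∑ i, Real.exp (-s * μ i) ≤ ∑ i, q ^ (K i) := Finset.sum_le_sum fun i _ => hterm i
    _ = _ := h1
    _ ≤ ∑ k ∈ Finset.range M, ξ ^ k := Finset.sum_le_sum hfiber
    _ ≤ 1 + 2 * ξ := h6.trans h7

/-- The L2 endgame -/
theorem regular_L2 (hn : 2 ≤ Fintype.card X) {s : ℝ} (hs : 0 ≤ s)
    (hξ : ((Fintype.card X : ℝ) ^ 2) * Real.exp (-s / 2) ≤ 1 / 2) :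
    ((Fintype.card X).factorial : ℝ) *
        ⟪deltaOne X, expo (-s) (Lap (lreg (X := X))) (deltaOne X)⟫_ℝ ≤
      1 + 2 * (((Fintype.card X : ℝ) ^ 2) * Real.exp (-s / 2)) := by
  have hT : ((Lap (lreg (X := X)) : RegSpace X →L[ℝ] RegSpace X) :
      RegSpace X →ₗ[ℝ] RegSpace X).IsSymmetric := Lap_isSym lreg_isOrth
  obtain ⟨b, μ, hb⟩ := exists_eigenbasis hT
  have hb' : ∀ i, Lap (lreg (X := X)) (b i) = μ i • b i := hb
  rw [trace_identity b μ hb' s]
  exact sum_exp_le hn rfl b μ hb' hs hξ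

end endgame

end Vale.Agent.Lib.P162
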