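import Vale.Agent.Lib.P162.Bridge
import Vale.Agent.Lib.P162.Endgame

/-!
# The mixing time bound for the Thorp shuffle on `2 ^ (d + 1)` cards
-/

namespace Vale.Agent.Lib.P162

open scoped InnerProductSpace
open Equiv

set_option linter.unusedSectionVars false
set_option linter.unusedSimpArgs false
set_option linter.unusedVariables false

/-- the law after `t` shuffles as a vector -/
noncomputable def lawVec (m t : ℕ) : RegSpace (Fin (2 * m)) :=
  WithLp.toLp 2 (convPowP (thorpLaw m) t)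

/-- the one shuffle operator -/
noncomputable def stepOp (m : ℕ) : RegSpace (Fin (2 * m)) →L[ℝ] RegSpace (Fin (2 * m)) :=
  (1 / (2 : ℝ) ^ m) • ∑ c : Fin m → Bool, lreg (thorpPerm m c)

lemma conv_thorp (m : ℕ) (f : Perm (Fin (2 * m)) → ℝ) (g : Perm (Fin (2 * m))) :
    convP (thorpLaw m) f g = (1 / (2 : ℝ) ^ m) * ∑ c : Fin m → Bool, f ((thorpPerm m c)⁻¹ * g) := by
  unfold convP thorpLaw
  have h1 : ∀ h : Perm (Fin (2 * m)),
      ((Finset.univ.filter fun c : Fin m → Bool => thorpPerm m c = h).card : ℝ) / 2 ^ m * f (h⁻¹ * g)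
        = (1 / (2 : ℝ) ^ m) * ∑ c ∈ Finset.univ.filter (fun c : Fin m → Bool => thorpPerm m c = h),
            f ((thorpPerm m c)⁻¹ * g) := by
    intro h
    rw [Finset.sum_congr rfl (g := fun _ => f (h⁻¹ * g))
      (fun c hc => by rw [(Finset.mem_filter.mp hc).2])]
    simp only [Finset.sum_const, nsmul_eq_mul]
    ring
  simp only [h1]
  rw [← Finset.mul_sum]
  congr 1
  exact Finset.sum_fiberwise _ _ _

lemma lawVec_succ (m t : ℕ) : lawVec m (t + 1) = stepOp m (lawVec m t) := by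
  ext g
  show convP (thorpLaw m) (convPowP (thorpLaw m) t) g = _
  rw [conv_thorp]
  unfold stepOp
  simp only [smul_apply, sum_apply, PiLp.smul_apply, WithLp.ofLp_sum, Finset.sum_apply,
    lreg_apply, smul_eq_mul]
  rfl

lemma lawVec_zero (m : ℕ) : lawVec m 0 = deltaOne (Fin (2 * m)) := by
  ext g
  show (if g = 1 then (1 : ℝ) else 0) = _
  unfold deltaOne
  simp [PiLp.single_apply, EuclideanSpace.single]

lemma lawVec_eq (m t : ℕ) : lawVec m t = ((stepOp m) ^ t) (deltaOne (Fin (2 * m))) := by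
  induction t with
  | zero => simp [lawVec_zero]
  | succ t ih =>
    rw [lawVec_succ, ih, pow_succ', mul_ap]

/-- the left regular representation in binary coordinates -/
noncomputable def rhoBin (D : ℕ) :
    Perm (Pos (D + 1)) →* (RegSpace (Fin (2 * 2 ^ D)) →L[ℝ] RegSpace (Fin (2 * 2 ^ D))) :=
  lreg.comp (phi D).permCongrHom.toMonoidHom

lemma rhoBin_isOrth (D : ℕ) : IsOrth (rhoBin D) := lreg_isOrth.comp _

lemma Lap_lreg_comp {Z X : Type*} [Fintype Z] [DecidableEq Z] [Fintype X] [DecidableEq X]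
    (e : Z ≃ X) : Lap ((lreg (X := X)).comp e.permCongrHom.toMonoidHom) = Lap lreg := by
  have h := Lap_comp_congr (V := RegSpace X) (X := X) (Z := Z) (lreg (X := X)) e
  exact h

lemma Lap_rhoBin (D : ℕ) : Lap (rhoBin D) = Lap lreg := Lap_lreg_comp (phi D)

lemma step_generic {V : Type*} [NormedAddCommGroup V] [InnerProductSpace ℝ V] (D : ℕ)
    (ρ : Perm (Pos (D + 1)) →* (V →L[ℝ] V)) :
    ρ (riffle D) * Eop ρ = (1 / (2 : ℝ) ^ 2 ^ D) •
      ∑ c : Fin (2 ^ D) → Bool, ρ (riffle D * flipTop D (c ∘ binE D)) := by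
  unfold Eop
  rw [mul_smul_comm, Finset.mul_sum]
  have hc : (Fintype.card (Pos D → Bool) : ℝ) = 2 ^ 2 ^ D := by
    simp
  rw [hc]
  congr 1
  symm
  refine Fintype.sum_equiv (Equiv.arrowCongr (binE D).symm (Equiv.refl _)) _ _ fun c => ?_
  rw [map_mul]
  rfl

lemma stepOp_eq (D : ℕ) : stepOp (2 ^ D) = rhoBin D (riffle D) * Eop (rhoBin D) := by
  rw [step_generic]
  unfold stepOp
  congr 1
  refine Finset.sum_congr rfl fun c _ => ?_
  rw [thorpPerm_eq]
  rfl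

/-- the L2 bound for the law of the shuffle -/
theorem law_L2 (D r : ℕ) :
    ‖lawVec (2 ^ D) (r * (D + 1))‖ ^ 2 ≤
      ⟪deltaOne (Fin (2 * 2 ^ D)), expo (-((r : ℝ) * tauSeq (D + 1))) (Lap lreg)
        (deltaOne (Fin (2 * 2 ^ D)))⟫_ℝ := by
  rw [lawVec_eq, stepOp_eq, ← Lap_rhoBin]
  exact pass_pow_bound (rhoBin D) (rhoBin_isOrth D) r _

/-! ### total mass and total variation -/

lemma thorpLaw_nonneg (m : ℕ) (g : Perm (Fin (2 * m))) : 0 ≤ thorpLaw m g := by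
  unfold thorpLaw
  positivity

lemma thorpLaw_sum (m : ℕ) : ∑ g, thorpLaw m g = 1 := by
  unfold thorpLaw
  rw [← Finset.sum_div, ← Nat.cast_sum, ← Finset.card_eq_sum_card_fiberwise
    (fun c _ => Finset.mem_univ _)]
  simp

lemma convP_sum {n : ℕ} (q f : Perm (Fin n) → ℝ) :
    ∑ g, convP q f g = (∑ g, q g) * ∑ g, f g := by
  unfold convP
  rw [Finset.sum_comm, Finset.sum_mul]
  refine Finset.sum_congr rfl fun h _ => ?_
  rw [← Finset.mul_sum]
  congr 1
  exact Fintype.sum_equiv (Equiv.mulLeft h⁻¹) _ _ fun g => rfl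

lemma convPow_sum {n : ℕ} (q : Perm (Fin n) → ℝ) (hq : ∑ g, q g = 1) (t : ℕ) :
    ∑ g, convPowP q t g = 1 := by
  induction t with
  | zero =>
    show ∑ g : Perm (Fin n), (if g = 1 then (1 : ℝ) else 0) = 1
    simp
  | succ t ih =>
    show ∑ g, convP q (convPowP q t) g = 1
    rw [convP_sum, hq, ih, one_mul]

lemma tv_sq_le {n : ℕ} (μ : Perm (Fin n) → ℝ) (hμ : ∑ g, μ g = 1) :
    (tvToUniform μ) ^ 2 ≤ (1 / 4) * ((n.factorial : ℝ) * ∑ g, μ g ^ 2 - 1) := by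
  unfold tvToUniform
  have hn : (0 : ℝ) < n.factorial := by positivity
  set u : ℝ := 1 / (n.factorial : ℝ) with hu
  have h1 := sq_sum_le_card_mul_sum_sq (s := (Finset.univ : Finset (Perm (Fin n))))
    (f := fun g => |μ g - u|)
  have hcard : ((Finset.univ : Finset (Perm (Fin n))).card : ℝ) = n.factorial := by
    simp [Fintype.card_perm]
  rw [hcard] at h1
  simp only [sq_abs] at h1
  have h2 : ∑ g : Perm (Fin n), (μ g - u) ^ 2 = ∑ g, μ g ^ 2 - 2 * u + (n.factorial : ℝ) * u ^ 2 := by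
    have : ∀ g : Perm (Fin n), (μ g - u) ^ 2 = μ g ^ 2 - 2 * u * μ g + u ^ 2 := fun g => by ring
    simp only [this]
    rw [Finset.sum_add_distrib, Finset.sum_sub_distrib, ← Finset.mul_sum, hμ]
    simp [Fintype.card_perm]
  rw [h2] at h1
  have h3 : (n.factorial : ℝ) * u = 1 := by
    rw [hu]; field_simp
  have h4 : (n.factorial : ℝ) * (∑ g, μ g ^ 2 - 2 * u + (n.factorial : ℝ) * u ^ 2) =
      (n.factorial : ℝ) * ∑ g, μ g ^ 2 - 1 := by
    have : (n.factorial : ℝ) * (∑ g, μ g ^ 2 - 2 * u + (n.factorial : ℝ) * u ^ 2) =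
        (n.factorial : ℝ) * ∑ g, μ g ^ 2 - 2 * ((n.factorial : ℝ) * u) +
          ((n.factorial : ℝ) * u) ^ 2 := by ring
    rw [this, h3]
    ring
  rw [h4] at h1
  rw [mul_pow]
  nlinarith

lemma exp_seven_half : Real.exp (-(7 / 2)) ≤ 1 / 32 := by
  have h1 : (32 : ℝ) ≤ Real.exp (7 / 2) := by
    have h2 : Real.exp (7 / 2) ^ 2 = Real.exp 1 ^ 7 := by
      rw [← Real.exp_nat_mul, ← Real.exp_nat_mul]
      norm_num
    have h3 : (2.7 : ℝ) ^ 7 ≤ Real.exp 1 ^ 7 :=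
      pow_le_pow_left₀ (by norm_num) (by linarith [Real.exp_one_gt_d9]) 7
    have h4 : (32 : ℝ) ^ 2 ≤ Real.exp (7 / 2) ^ 2 := by
      rw [h2]
      refine le_trans ?_ h3
      norm_num
    exact (pow_le_pow_iff_left₀ (by norm_num) (Real.exp_pos _).le two_ne_zero).mp h4
  rw [Real.exp_neg, inv_eq_one_div]
  exact one_div_le_one_div_of_le (by norm_num) h1

lemma xi_bound (D : ℕ) :
    (((2 * 2 ^ D : ℕ) : ℝ) ^ 2) *
        Real.exp (-(((4200 * (D + 1) : ℕ) : ℝ) * tauSeq (D + 1)) / 2) ≤ 1 / 8 := by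
  have hτ : 1 / 600 ≤ tauSeq (D + 1) := by
    unfold tauSeq
    have : (0 : ℝ) ≤ (3 / 4) ^ (D + 1) := by positivity
    linarith
  have hs : (7 / 2) * ((D : ℝ) + 1) ≤ (((4200 * (D + 1) : ℕ) : ℝ) * tauSeq (D + 1)) / 2 := by
    push_cast
    have hD : (0 : ℝ) ≤ (D : ℝ) + 1 := by positivity
    nlinarith
  have h1 : Real.exp (-(((4200 * (D + 1) : ℕ) : ℝ) * tauSeq (D + 1)) / 2) ≤
      (Real.exp (-(7 / 2))) ^ (D + 1) := by
    rw [← Real.exp_nat_mul]
    apply Real.exp_le_exp.mpr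
    push_cast at hs ⊢
    linarith
  have h2 : (Real.exp (-(7 / 2))) ^ (D + 1) ≤ (1 / 32 : ℝ) ^ (D + 1) :=
    pow_le_pow_left₀ (Real.exp_pos _).le exp_seven_half _
  have h3 : (((2 * 2 ^ D : ℕ) : ℝ) ^ 2) = 4 ^ (D + 1) := by
    calc (((2 * 2 ^ D : ℕ) : ℝ) ^ 2) = ((2 : ℝ) ^ (D + 1)) ^ 2 := by
          push_cast
          rw [pow_succ]
          ring
      _ = 4 ^ (D + 1) := by
          rw [← pow_mul, mul_comm, pow_mul]
          norm_num
  rw [h3]
  have h4 : (4 : ℝ) ^ (D + 1) * (1 / 32 : ℝ) ^ (D + 1) = (1 / 8) ^ (D + 1) := by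
    rw [← mul_pow]; norm_num
  have h5 : (1 / 8 : ℝ) ^ (D + 1) ≤ 1 / 8 := by
    rw [pow_succ]
    have : ((1 : ℝ) / 8) ^ D ≤ 1 := pow_le_one₀ (by norm_num) (by norm_num)
    nlinarith
  calc (4 : ℝ) ^ (D + 1) * Real.exp (-(((4200 * (D + 1) : ℕ) : ℝ) * tauSeq (D + 1)) / 2)
      ≤ (4 : ℝ) ^ (D + 1) * (1 / 32 : ℝ) ^ (D + 1) :=
        mul_le_mul_of_nonneg_left (h1.trans h2) (by positivity)
    _ = (1 / 8) ^ (D + 1) := h4
    _ ≤ 1 / 8 := h5

/-- total variation at a multiple of the pass length -/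
theorem tv_at_passes (D : ℕ) :
    tvToUniform (convPowP (thorpLaw (2 ^ D)) (4200 * (D + 1) * (D + 1))) ≤ 1 / 4 := by
  set r := 4200 * (D + 1) with hr
  set n := 2 * 2 ^ D with hn
  set s := (r : ℝ) * tauSeq (D + 1) with hs
  have hL := law_L2 D r
  have hτ0 : 0 ≤ tauSeq (D + 1) := (tau_numbers (D + 1)).1
  have hs0 : 0 ≤ s := by positivity
  have hcard : Fintype.card (Fin n) = n := Fintype.card_fin n
  have hn2 : 2 ≤ Fintype.card (Fin n) := by
    rw [hcard, hn]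
    have : 0 < 2 ^ D := by positivity
    omega
  have hξ' := xi_bound D
  rw [← hr, ← hn] at hξ'
  have hξ : ((Fintype.card (Fin n) : ℝ) ^ 2) * Real.exp (-s / 2) ≤ 1 / 8 := by
    rw [hcard]
    exact hξ'
  have hreg := regular_L2 hn2 hs0 (by linarith : _ ≤ (1 : ℝ) / 2)
  rw [hcard] at hreg
  set μ := convPowP (thorpLaw (2 ^ D)) (r * (D + 1)) with hμ
  have hmass : ∑ g, μ g = 1 := convPow_sum _ (thorpLaw_sum _) _
  have hnorm : ‖lawVec (2 ^ D) (r * (D + 1))‖ ^ 2 = ∑ g, μ g ^ 2 := by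
    rw [EuclideanSpace.real_norm_sq_eq]
    rfl
  rw [hnorm] at hL
  have htv := tv_sq_le μ hmass
  have hfac : (0 : ℝ) < (n.factorial : ℝ) := by positivity
  have h1 : (n.factorial : ℝ) * ∑ g, μ g ^ 2 ≤ 1 + 2 * ((n : ℝ) ^ 2 * Real.exp (-s / 2)) :=
    (mul_le_mul_of_nonneg_left hL hfac.le).trans hreg
  have h2 : (n : ℝ) ^ 2 * Real.exp (-s / 2) ≤ 1 / 8 := by
    rw [hcard] at hξ
    exact hξ
  have h3 : (tvToUniform μ) ^ 2 ≤ (1 / 4) ^ 2 := by
    refine htv.trans ?_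
    norm_num
    linarith
  have h4 : 0 ≤ (1 / 4 : ℝ) := by norm_num
  exact abs_le_of_sq_le_sq' h3 h4 |>.2

/-- one more shuffle does not increase the total variation distance -/
lemma tv_conv_le {n : ℕ} (q f : Perm (Fin n) → ℝ) (hq0 : ∀ g, 0 ≤ q g) (hq : ∑ g, q g = 1) :
    tvToUniform (convP q f) ≤ tvToUniform f := by
  unfold tvToUniform
  apply mul_le_mul_of_nonneg_left _ (by norm_num)
  set u : ℝ := 1 / (n.factorial : ℝ) with hu
  have h1 : ∀ g, |convP q f g - u| ≤ ∑ h, q h * |f (h⁻¹ * g) - u| := by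
    intro g
    have e : convP q f g - u = ∑ h, q h * (f (h⁻¹ * g) - u) := by
      unfold convP
      simp only [mul_sub]
      rw [Finset.sum_sub_distrib, ← Finset.sum_mul, hq, one_mul]
    rw [e]
    refine (Finset.abs_sum_le_sum_abs _ _).trans (le_of_eq ?_)
    refine Finset.sum_congr rfl fun h _ => ?_
    rw [abs_mul, abs_of_nonneg (hq0 h)]
  refine (Finset.sum_le_sum fun g _ => h1 g).trans (le_of_eq ?_)
  rw [Finset.sum_comm]
  have h2 : ∀ h : Perm (Fin n), ∑ g, q h * |f (h⁻¹ * g) - u| = q h * ∑ g, |f g - u| := by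
    intro h
    rw [← Finset.mul_sum]
    congr 1
    exact Fintype.sum_equiv (Equiv.mulLeft h⁻¹) _ _ fun g => rfl
  simp only [h2]
  rw [← Finset.sum_mul, hq, one_mul]

/-- the main theorem -/
theorem thorp_main (d : ℕ) :
    (∀ t : ℕ, 4200 * (d + 1) ^ 2 ≤ t →
      tvToUniform (convPowP (thorpLaw (2 ^ d)) t) ≤ 1 / 4) ∧
    thorpMix (2 ^ d) ≤ 4200 * (d + 1) ^ 2 := by
  have h0 : tvToUniform (convPowP (thorpLaw (2 ^ d)) (4200 * (d + 1) ^ 2)) ≤ 1 / 4 := by
    have := tv_at_passes d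
    rwa [show 4200 * (d + 1) * (d + 1) = 4200 * (d + 1) ^ 2 by ring] at this
  refine ⟨?_, Nat.sInf_le h0⟩
  intro t ht
  induction t, ht using Nat.le_induction with
  | base => exact h0
  | succ t _ ih =>
    exact (tv_conv_le _ _ (thorpLaw_nonneg _) (thorpLaw_sum _)).trans ih

end Vale.Agent.Lib.P162
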