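import Vale.Agent.Lib.P162.LowLevel3
import Vale.Agent.Lib.P162.Final

/-!
# The mixing time bound `O(d ^ (3 / 2))` for the Thorp shuffle on `2 ^ (d + 1)` cards
-/

namespace Vale.Agent.Lib.P162

open Equiv Finset
open scoped InnerProductSpace

set_option linter.unusedSectionVars false
set_option linter.unusedSimpArgs false
set_option linter.unusedVariables false

/-- a power of two of the right size -/
lemma pick_N (H : ℕ) : ∃ a : ℕ, 1200 * Real.sqrt (H + 1) + 1 < (2 : ℝ) ^ (a + 1) ∧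
    (2 : ℝ) ^ (a + 1) ≤ 2 * (1200 * Real.sqrt (H + 1) + 1) := by
  have hx : (1 : ℝ) ≤ 1200 * Real.sqrt (H + 1) + 1 := by
    have := Real.sqrt_nonneg (H + 1 : ℝ)
    linarith
  obtain ⟨a, h1, h2⟩ := exists_nat_pow_near hx (by norm_num : (1 : ℝ) < 2)
  refine ⟨a, h2, ?_⟩
  rw [pow_succ]
  linarith

lemma log_two_mul_le {H : ℕ} (hH : 1 ≤ H) {N : ℝ} (h : 1200 * Real.sqrt (H + 1) + 1 < N) :
    Real.log (2 * (H : ℝ)) ≤ N := by
  have hH' : (1 : ℝ) ≤ H := by exact_mod_cast hH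
  have h0 : 0 < 2 * (H : ℝ) := by positivity
  rw [Real.log_le_iff_le_exp h0]
  have h1 : N / 2 + 1 ≤ Real.exp (N / 2) := Real.add_one_le_exp _
  have h2 : Real.exp N = Real.exp (N / 2) ^ 2 := by
    rw [← Real.exp_nat_mul]
    congr 1
    push_cast
    ring
  have hs := Real.sq_sqrt (by positivity : (0 : ℝ) ≤ (H : ℝ) + 1)
  have hs0 := Real.sqrt_nonneg ((H : ℝ) + 1)
  have h3 : 600 * Real.sqrt (H + 1) ≤ N / 2 := by linarith
  have h4 : 600 * Real.sqrt (H + 1) ≤ Real.exp (N / 2) := by linarith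
  have h5 : (600 * Real.sqrt (H + 1)) ^ 2 ≤ Real.exp (N / 2) ^ 2 :=
    pow_le_pow_left₀ (by positivity) h4 2
  rw [h2]
  refine le_trans ?_ h5
  rw [mul_pow, hs]
  nlinarith

/-- the binomial bound in exponential form -/
lemma choose_le_exp (n j : ℕ) (hn : 1 ≤ n) (hj : 1 ≤ j) :
    (n.choose j : ℝ) ≤ Real.exp ((j : ℝ) * (1 + Real.log n - Real.log j)) := by
  have hn' : (0 : ℝ) < n := by exact_mod_cast hn
  have hj' : (0 : ℝ) < j := by exact_mod_cast hj
  have h1 : (n.choose j : ℝ) ≤ (n : ℝ) ^ j / (j.factorial : ℝ) := Nat.choose_le_pow_div j n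
  have h2 := Real.pow_div_factorial_le_exp (x := (j : ℝ)) hj'.le j
  have h3 : (n : ℝ) ^ j / (j.factorial : ℝ) = ((n : ℝ) ^ j / (j : ℝ) ^ j) * ((j : ℝ) ^ j / (j.factorial : ℝ)) := by
    have : (j : ℝ) ^ j ≠ 0 := by positivity
    have : (j.factorial : ℝ) ≠ 0 := by positivity
    field_simp
  rw [h3] at h1
  refine h1.trans ?_
  have h4 : Real.exp ((j : ℝ) * (1 + Real.log n - Real.log j)) =
      Real.exp ((j : ℝ) * Real.log n) / Real.exp ((j : ℝ) * Real.log j) * Real.exp (j : ℝ) := by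
    rw [← Real.exp_sub, ← Real.exp_add]
    congr 1
    ring
  rw [h4]
  have e1 : Real.exp ((j : ℝ) * Real.log n) = (n : ℝ) ^ j := by
    rw [mul_comm, Real.exp_mul, Real.exp_log hn', Real.rpow_natCast]
  have e2 : Real.exp ((j : ℝ) * Real.log j) = (j : ℝ) ^ j := by
    rw [mul_comm, Real.exp_mul, Real.exp_log hj', Real.rpow_natCast]
  rw [e1, e2]
  exact mul_le_mul_of_nonneg_left h2 (by positivity)

variable {ι : Type*} [Fintype ι] [DecidableEq ι] {H : ℕ}

/-- iterating a norm bound -/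
lemma pow_norm_le {c : ℝ} (hc0 : 0 ≤ c)
    (h : ∀ u ∈ WW ι (Pos H), ‖QT ι H u‖ ^ 2 ≤ c * ‖u‖ ^ 2) (m : ℕ) {v : TupSp ι (Pos H)}
    (hv : v ∈ WW ι (Pos H)) : ‖((QT ι H) ^ m) v‖ ^ 2 ≤ c ^ m * ‖v‖ ^ 2 := by
  induction m with
  | zero => simp
  | succ m ih =>
    have e : ((QT ι H) ^ (m + 1)) v = QT ι H (((QT ι H) ^ m) v) := by
      rw [pow_succ', mul_ap]
    rw [e]
    refine (h _ (pow_mem_WW m v hv)).trans ?_
    have e2 : c ^ (m + 1) * ‖v‖ ^ 2 = c * (c ^ m * ‖v‖ ^ 2) := by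
      rw [pow_succ', mul_assoc]
    rw [e2]
    exact mul_le_mul_of_nonneg_left ih hc0

/-- the Hilbert-Schmidt norm of a long power -/
lemma hs_power (a m : ℕ) (hg : gSeq H ≤ (2 : ℝ) ^ (a + 1) - 1) {c : ℝ} (hc0 : 0 ≤ c)
    (h : ∀ u ∈ WW ι (Pos H), ‖QT ι H u‖ ^ 2 ≤ c * ‖u‖ ^ 2) {d : ℕ}
    (e : OrthonormalBasis (Fin d) ℝ (WW ι (Pos H))) :
    ∑ α, ‖((QT ι H) ^ (m + 2 ^ (a + 1))) (e α : TupSp ι (Pos H))‖ ^ 2 ≤
      c ^ m * Real.exp (2 * (Fintype.card ι : ℝ) * gSeq H) := by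
  have h1 : ∀ α, ‖((QT ι H) ^ (m + 2 ^ (a + 1))) (e α : TupSp ι (Pos H))‖ ^ 2 ≤
      c ^ m * ‖((QT ι H) ^ (2 ^ (a + 1))) (e α : TupSp ι (Pos H))‖ ^ 2 := by
    intro α
    rw [pow_add, mul_ap]
    exact pow_norm_le hc0 h m (pow_mem_WW _ _ (e α).2)
  refine (sum_le_sum fun α _ => h1 α).trans ?_
  rw [← mul_sum]
  exact mul_le_mul_of_nonneg_left (hs_bound a hg e) (pow_nonneg hc0 _)

/-- the contribution of a nontrivial level -/
theorem level_term (hH : 1 ≤ H) (a : ℕ) (hN : 1200 * Real.sqrt (H + 1) + 1 < (2 : ℝ) ^ (a + 1))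
    (hk1 : 1 ≤ Fintype.card ι) (hk2 : Fintype.card ι ≤ 2 ^ H) {d : ℕ}
    (e : OrthonormalBasis (Fin d) ℝ (WW ι (Pos H))) :
    ∑ α, ‖((QT ι H) ^ (28800 * 2 ^ (a + 1) + 2 ^ (a + 1))) (e α : TupSp ι (Pos H))‖ ^ 2 ≤
      (((2 ^ H).choose (Fintype.card ι) : ℝ))⁻¹ * Real.exp (-3 * (Fintype.card ι : ℝ)) := by
  set j : ℝ := (Fintype.card ι : ℝ) with hj
  have hj1 : 1 ≤ j := by rw [hj]; exact_mod_cast hk1
  set NR : ℝ := (2 : ℝ) ^ (a + 1) with hNR
  have hs0 := Real.sqrt_nonneg ((H : ℝ) + 1)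
  have hN1 : 1201 ≤ NR := by
    have h1 : (1 : ℝ) ≤ Real.sqrt (H + 1) := by
      rw [Real.one_le_sqrt]
      have : (0 : ℝ) ≤ H := Nat.cast_nonneg _
      linarith
    linarith
  have hgle : gSeq H ≤ 1200 * Real.sqrt (H + 1) := gSeq_le H
  have hg : gSeq H ≤ NR - 1 := by linarith
  have hL : Real.log (2 * (H : ℝ)) ≤ NR := log_two_mul_le hH hN
  have hH' : (1 : ℝ) ≤ H := by exact_mod_cast hH
  set L : ℝ := Real.log (2 * (H : ℝ)) with hLdef
  set g : ℝ := gSeq H with hgdef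
  have hlogn : Real.log ((2 ^ H : ℕ) : ℝ) = (H : ℝ) * Real.log 2 := by
    push_cast
    rw [Real.log_pow]
  set ν : ℝ := (H : ℝ) * Real.log 2 - L - Real.log j with hν
  have hchoose : (((2 ^ H).choose (Fintype.card ι) : ℕ) : ℝ) ≤ Real.exp (j * (1 + ν + L)) := by
    have h1 := choose_le_exp (2 ^ H) (Fintype.card ι) (Nat.one_le_two_pow) hk1
    rw [hlogn, ← hj] at h1
    refine h1.trans (Real.exp_le_exp.mpr (le_of_eq ?_))
    rw [hν]
    ring
  have hcpos : (0 : ℝ) < ((2 ^ H).choose (Fintype.card ι) : ℝ) := by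
    exact_mod_cast Nat.choose_pos hk2
  have hinv : Real.exp (-(j * (1 + ν + L))) ≤ (((2 ^ H).choose (Fintype.card ι) : ℝ))⁻¹ := by
    rw [Real.exp_neg]
    exact inv_anti₀ hcpos hchoose
  -- suffices
  suffices hS : ∑ α, ‖((QT ι H) ^ (28800 * 2 ^ (a + 1) + 2 ^ (a + 1))) (e α : TupSp ι (Pos H))‖ ^ 2 ≤
      Real.exp (-(j * (1 + ν + L)) + -3 * j) by
    refine hS.trans ?_
    rw [Real.exp_add]
    exact mul_le_mul_of_nonneg_right hinv (Real.exp_pos _).le
  have hmR : (((28800 * 2 ^ (a + 1) : ℕ)) : ℝ) = 28800 * NR := by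
    push_cast
    rw [hNR]
  by_cases hcase : 20 * NR ≤ ν
  · -- low levels
    have hν0 : 0 ≤ ν := by linarith
    have hE : (Fintype.card ι : ℝ) * (2 * H / 2 ^ H) ≤ Real.exp (-ν) := by
      have h1 : Real.exp (-ν) = j * (2 * H) / 2 ^ H := by
        rw [hν]
        have h2 : -((H : ℝ) * Real.log 2 - L - Real.log j) = L + Real.log j - (H : ℝ) * Real.log 2 := by ring
        rw [h2, Real.exp_sub, Real.exp_add, hLdef, Real.exp_log (by positivity), Real.exp_log (by linarith)]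
        have h3 : Real.exp ((H : ℝ) * Real.log 2) = 2 ^ H := by
          rw [mul_comm, Real.exp_mul, Real.exp_log (by norm_num), Real.rpow_natCast]
        rw [h3]
        ring
      rw [h1, ← hj]
      exact le_of_eq (by ring)
    have hb := hs_power (H := H) a (28800 * 2 ^ (a + 1)) hg (Real.exp_pos _).le
      (fun u hu => QT_low a hg hk1 hν0 hE hu) e
    refine hb.trans ?_
    rw [← Real.exp_nat_mul, ← Real.exp_add]
    apply Real.exp_le_exp.mpr
    rw [hmR, ← hj, ← hNR]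
    have e1 : 28800 * NR * (j * (5 / 2 - ν / (4 * NR))) = j * (72000 * NR - 7200 * ν) := by
      have : NR ≠ 0 := by linarith
      field_simp
      ring
    rw [e1]
    have hkey : 72000 * NR - 7200 * ν + 2 * g + (1 + ν + L) + 3 ≤ 0 := by linarith
    nlinarith
  · -- higher levels
    push Not at hcase
    have hb := hs_power (H := H) a (28800 * 2 ^ (a + 1)) hg (Real.exp_pos _).le
      (fun u hu => QT_gap hk1 hk2 hu) e
    refine hb.trans ?_
    rw [← Real.exp_nat_mul, ← Real.exp_add]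
    apply Real.exp_le_exp.mpr
    rw [hmR, ← hj]
    have e1 : 28800 * NR * (-(1 / 600 * (j / 2))) = j * (-(24 * NR)) := by ring
    rw [e1]
    have hkey : -(24 * NR) + 2 * g + (1 + ν + L) + 3 ≤ 0 := by linarith
    nlinarith

/-- the trivial level -/
theorem level_zero [IsEmpty ι] (r : ℕ)
    (e : OrthonormalBasis (Fin (Module.finrank ℝ (WW ι (Pos H)))) ℝ (WW ι (Pos H))) :
    ∑ α, ‖((QT ι H) ^ r) (e α : TupSp ι (Pos H))‖ ^ 2 ≤ 1 := by
  have hQ : ∀ f : TupSp ι (Pos H), QT ι H f = f := by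
    intro f
    ext x
    rw [QT_apply]
    have h : ∀ g : Perm (Pos H), f (fun i => g⁻¹ (x i)) = f x := by
      intro g
      rw [show (fun i => g⁻¹ (x i)) = x from funext fun i => isEmptyElim i]
    simp only [h, Exp_const]
  have hP : ∀ (r : ℕ) (f : TupSp ι (Pos H)), ((QT ι H) ^ r) f = f := by
    intro r f
    induction r with
    | zero => simp
    | succ r ih => rw [pow_succ, mul_ap, hQ, ih]
  simp only [hP]
  have h1 : ∀ α, ‖(e α : TupSp ι (Pos H))‖ ^ 2 = 1 := by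
    intro α
    have h3 : ‖(e α : TupSp ι (Pos H))‖ = 1 := e.orthonormal.1 α
    rw [h3]
    norm_num
  simp only [h1]
  rw [sum_const, card_univ, Fintype.card_fin, nsmul_eq_mul, mul_one]
  have h2 : Module.finrank ℝ (WW ι (Pos H)) ≤ Module.finrank ℝ (TupSp ι (Pos H)) :=
    Submodule.finrank_le _
  rw [finrank_euclideanSpace] at h2
  have h3 : Fintype.card (ι → Pos H) = 1 := by
    simp
  rw [h3] at h2
  exact_mod_cast h2

/-- the sum over all the levels -/
theorem chi_total (H : ℕ) (hH : 1 ≤ H) (a : ℕ)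
    (hN : 1200 * Real.sqrt (H + 1) + 1 < (2 : ℝ) ^ (a + 1)) :
    ((Fintype.card (Pos H)).factorial : ℝ) *
      ‖((Qrec H (lreg (X := Pos H))) ^ (28800 * 2 ^ (a + 1) + 2 ^ (a + 1))) (deltaOne (Pos H))‖ ^ 2 ≤
      20 / 19 := by
  classical
  set b : ℕ → ℝ := fun j => (((2 ^ H).choose j : ℝ))⁻¹ * Real.exp (-3 * (j : ℝ)) with hb
  have h1 := chi_le_sum H (28800 * 2 ^ (a + 1) + 2 ^ (a + 1)) (fun J => b J.card) (by
    intro J e
    by_cases hJ : J = ∅
    · subst hJ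
      have : IsEmpty ((∅ : Finset (Pos H)) : Type _) := ⟨fun x => Finset.notMem_empty _ x.2⟩
      refine (level_zero _ e).trans (le_of_eq ?_)
      simp [hb]
    · have hk1 : 1 ≤ Fintype.card J := by
        rw [Fintype.card_coe]
        exact Finset.card_pos.mpr (Finset.nonempty_iff_ne_empty.mpr hJ)
      have hk2 : Fintype.card J ≤ 2 ^ H := by
        rw [Fintype.card_coe]
        simpa using Finset.card_le_univ J
      have := level_term hH a hN hk1 hk2 e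
      rw [Fintype.card_coe] at this
      exact this)
  refine h1.trans ?_
  have h2 : ∑ J : Finset (Pos H), b J.card = ∑ J ∈ (Finset.univ : Finset (Pos H)).powerset, b J.card := by
    rw [Finset.powerset_univ]
  rw [h2, Finset.sum_powerset_apply_card]
  have hcard : (Finset.univ : Finset (Pos H)).card = 2 ^ H := by
    simp
  rw [hcard]
  have h3 : ∀ j ∈ range (2 ^ H + 1), ((2 ^ H).choose j) • b j = (Real.exp (-3)) ^ j := by
    intro j hj
    have hj' : j ≤ 2 ^ H := Nat.lt_succ_iff.mp (mem_range.mp hj)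
    have hc : (0 : ℝ) < ((2 ^ H).choose j : ℝ) := by exact_mod_cast Nat.choose_pos hj'
    rw [nsmul_eq_mul, hb]
    simp only
    rw [← mul_assoc, mul_inv_cancel₀ hc.ne', one_mul, ← Real.exp_nat_mul]
    congr 1
    ring
  rw [sum_congr rfl h3]
  -- the geometric series
  have hy : Real.exp (-3) ≤ 1 / 20 := by
    have h4 : (20 : ℝ) ≤ Real.exp 3 := by
      have h5 : Real.exp 3 = Real.exp 1 ^ 3 := by
        rw [← Real.exp_nat_mul]
        norm_num
      rw [h5]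
      have h6 : (2.718 : ℝ) ^ 3 ≤ Real.exp 1 ^ 3 :=
        pow_le_pow_left₀ (by norm_num) (by linarith [Real.exp_one_gt_d9]) 3
      refine le_trans ?_ h6
      norm_num
    rw [Real.exp_neg, inv_eq_one_div]
    exact one_div_le_one_div_of_le (by norm_num) h4
  have hy0 : 0 ≤ Real.exp (-3) := (Real.exp_pos _).le
  have hgeo : ∀ m : ℕ, ∑ j ∈ range m, Real.exp (-3) ^ j ≤ 20 / 19 := by
    intro m
    induction m with
    | zero => simp; norm_num
    | succ m ih =>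
      rw [Finset.sum_range_succ', Finset.sum_congr rfl (fun j _ => pow_succ (Real.exp (-3)) j),
        ← Finset.sum_mul]
      simp only [pow_zero]
      nlinarith
  exact hgeo _

/-! ### transport to the official shuffle -/

/-- the relabelling isometry of the regular representation -/
noncomputable def Ubin (D : ℕ) : RegSpace (Fin (2 * 2 ^ D)) →L[ℝ] RegSpace (Pos (D + 1)) :=
  ((LinearIsometryEquiv.piLpCongrLeft 2 ℝ ℝ ((phi D).permCongr.symm) :
    RegSpace (Fin (2 * 2 ^ D)) ≃ₗᵢ[ℝ] RegSpace (Pos (D + 1))).toContinuousLinearEquiv :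
      RegSpace (Fin (2 * 2 ^ D)) →L[ℝ] RegSpace (Pos (D + 1)))

lemma Ubin_apply (D : ℕ) (f : RegSpace (Fin (2 * 2 ^ D))) (π : Perm (Pos (D + 1))) :
    Ubin D f π = f ((phi D).permCongr π) := rfl

lemma Ubin_norm (D : ℕ) (f : RegSpace (Fin (2 * 2 ^ D))) : ‖Ubin D f‖ = ‖f‖ :=
  (LinearIsometryEquiv.piLpCongrLeft 2 ℝ ℝ ((phi D).permCongr.symm) :
    RegSpace (Fin (2 * 2 ^ D)) ≃ₗᵢ[ℝ] RegSpace (Pos (D + 1))).norm_map f

lemma Ubin_intertwine (D : ℕ) (g : Perm (Pos (D + 1))) (f : RegSpace (Fin (2 * 2 ^ D))) :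
    Ubin D (rhoBin D g f) = lreg g (Ubin D f) := by
  ext π
  rw [Ubin_apply, lreg_apply, Ubin_apply]
  show (rhoBin D g f) _ = _
  unfold rhoBin
  show lreg ((phi D).permCongrHom g) f _ = _
  rw [lreg_apply]
  have h := (phi D).permCongrHom.map_mul g⁻¹ π
  have h2 := (phi D).permCongrHom.map_inv g
  have key : ((phi D).permCongrHom g)⁻¹ * (phi D).permCongr π = (phi D).permCongr (g⁻¹ * π) := by
    show ((phi D).permCongrHom g)⁻¹ * (phi D).permCongrHom π = (phi D).permCongrHom (g⁻¹ * π)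
    rw [h, h2]
  rw [key]

lemma Ubin_delta (D : ℕ) : Ubin D (deltaOne (Fin (2 * 2 ^ D))) = deltaOne (Pos (D + 1)) := by
  ext π
  rw [Ubin_apply]
  unfold deltaOne
  simp only [PiLp.single_apply]
  have h : (phi D).permCongr π = 1 ↔ π = 1 := by
    constructor
    · intro h
      have h1 : (phi D).permCongrHom π = (phi D).permCongrHom 1 := by
        rw [map_one]
        exact h
      exact (phi D).permCongrHom.injective h1
    · rintro rfl
      exact map_one (phi D).permCongrHom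
  by_cases hπ : π = 1
  · rw [if_pos hπ, if_pos (h.mpr hπ)]
  · rw [if_neg hπ, if_neg (fun e => hπ (h.mp e))]

/-- the law of the official shuffle as an iterated pass -/
lemma law_transport (D r : ℕ) :
    ‖lawVec (2 ^ D) (r * (D + 1))‖ ^ 2 =
      ‖((Qrec (D + 1) (lreg (X := Pos (D + 1)))) ^ r) (deltaOne (Pos (D + 1)))‖ ^ 2 := by
  rw [lawVec_eq, stepOp_eq, pow_mul', pass_eq_Qrec, ← Ubin_norm]
  congr 1
  have h := pow_natural (Ubin D) (A₁ := Qrec (D + 1) (rhoBin D)) (A₂ := Qrec (D + 1) (lreg (X := Pos (D + 1))))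
    (fun f => Qrec_natural (Ubin D) (fun g f => Ubin_intertwine D g f) f) r
    (deltaOne (Fin (2 * 2 ^ D)))
  rw [h, Ubin_delta]

/-- total variation at `r` passes -/
theorem tv_at_passes2 (D a : ℕ) (hN : 1200 * Real.sqrt ((D + 1 : ℕ) + 1) + 1 < (2 : ℝ) ^ (a + 1)) :
    tvToUniform (convPowP (thorpLaw (2 ^ D)) ((28800 * 2 ^ (a + 1) + 2 ^ (a + 1)) * (D + 1))) ≤ 1 / 4 := by
  set r := 28800 * 2 ^ (a + 1) + 2 ^ (a + 1) with hr
  have h1 := chi_total (D + 1) (by omega) a hN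
  rw [← hr, ← law_transport] at h1
  set μ := convPowP (thorpLaw (2 ^ D)) (r * (D + 1)) with hμ
  have hmass : ∑ g, μ g = 1 := convPow_sum _ (thorpLaw_sum _) _
  have hnorm : ‖lawVec (2 ^ D) (r * (D + 1))‖ ^ 2 = ∑ g, μ g ^ 2 := by
    rw [EuclideanSpace.real_norm_sq_eq]
    rfl
  rw [hnorm] at h1
  have hcard : Fintype.card (Pos (D + 1)) = 2 * 2 ^ D := by
    simp [pow_succ']
  rw [hcard] at h1
  have htv := tv_sq_le μ hmass
  have h3 : (tvToUniform μ) ^ 2 ≤ (1 / 4) ^ 2 := by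
    refine htv.trans ?_
    norm_num
    linarith
  have h4 : 0 ≤ (1 / 4 : ℝ) := by norm_num
  exact abs_le_of_sq_le_sq' h3 h4 |>.2

/-- the main theorem -/
theorem thorp_main2 (d : ℕ) :
    (∀ t : ℕ, (10 : ℝ) ^ 8 * ((d : ℝ) + 1) * Real.sqrt ((d : ℝ) + 1) ≤ t →
      tvToUniform (convPowP (thorpLaw (2 ^ d)) t) ≤ 1 / 4) ∧
    (thorpMix (2 ^ d) : ℝ) ≤ (10 : ℝ) ^ 8 * ((d : ℝ) + 1) * Real.sqrt ((d : ℝ) + 1) := by
  obtain ⟨a, hN, hN2⟩ := pick_N (d + 1)
  set T := (28800 * 2 ^ (a + 1) + 2 ^ (a + 1)) * (d + 1) with hT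
  have h0 : tvToUniform (convPowP (thorpLaw (2 ^ d)) T) ≤ 1 / 4 := tv_at_passes2 d a hN
  have hnum : (T : ℝ) ≤ (10 : ℝ) ^ 8 * ((d : ℝ) + 1) * Real.sqrt ((d : ℝ) + 1) := by
    have e : (T : ℝ) = 28801 * (2 : ℝ) ^ (a + 1) * ((d : ℝ) + 1) := by
      rw [hT]
      push_cast
      ring
    rw [e]
    set s := Real.sqrt ((d : ℝ) + 1) with hs
    have hd : (1 : ℝ) ≤ (d : ℝ) + 1 := by
      have : (0 : ℝ) ≤ d := Nat.cast_nonneg _
      linarith
    have hs1 : 1 ≤ s := by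
      rw [hs, Real.one_le_sqrt]
      exact hd
    have hss : s ^ 2 = (d : ℝ) + 1 := Real.sq_sqrt (by linarith)
    have hq : Real.sqrt (((d + 1 : ℕ) : ℝ) + 1) ≤ 1.42 * s := by
      rw [show ((d + 1 : ℕ) : ℝ) + 1 = (d : ℝ) + 2 by push_cast; ring]
      apply Real.sqrt_le_iff.mpr
      constructor
      · positivity
      · nlinarith
    have h2 : (2 : ℝ) ^ (a + 1) ≤ 3410 * s := by
      refine hN2.trans ?_
      nlinarith
    have h3 : 28801 * (2 : ℝ) ^ (a + 1) ≤ 10 ^ 8 * s := by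
      nlinarith
    calc 28801 * (2 : ℝ) ^ (a + 1) * ((d : ℝ) + 1) ≤ 10 ^ 8 * s * ((d : ℝ) + 1) :=
          mul_le_mul_of_nonneg_right h3 (by linarith)
      _ = _ := by ring
  have hmono : ∀ t : ℕ, T ≤ t → tvToUniform (convPowP (thorpLaw (2 ^ d)) t) ≤ 1 / 4 := by
    intro t ht
    induction t, ht using Nat.le_induction with
    | base => exact h0
    | succ t _ ih =>
      exact (tv_conv_le _ _ (thorpLaw_nonneg _) (thorpLaw_sum _)).trans ih
  constructor
  · intro t ht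
    refine hmono t ?_
    have : (T : ℝ) ≤ t := hnum.trans ht
    exact_mod_cast this
  · have h1 : thorpMix (2 ^ d) ≤ T := Nat.sInf_le h0
    have h2 : (thorpMix (2 ^ d) : ℝ) ≤ T := by exact_mod_cast h1
    exact h2.trans hnum

end Vale.Agent.Lib.P162
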