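import Vale.Agent.Lib.P162.Col2

/-!
# The recursion for the moments of the two sided kernel, second form
-/

namespace Vale.Agent.Lib.P162

open Equiv Finset

set_option linter.unusedSectionVars false
set_option linter.unusedSimpArgs false
set_option linter.unusedVariables false

variable {ι : Type*} [Fintype ι] [DecidableEq ι]

/-- the Hölder step on the smaller block, with the density as a weight -/
theorem split_bound2 (D e : ℕ) (S : Finset ι) (f : ι → Bool) (t₁ : ι → Pos D) (b : ι → Bool)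
    (β₁ : Bool) (hx : ∀ i ∈ S, ∀ j ∈ S, t₁ i = t₁ j → f i = f j → i = j)
    (hb : wtD D S f t₁ b ≠ 0) {q : ℝ} (hq : 0 < q) (hqe : q < e) :
    avg (fun t : ι → Pos D => rrD D S f t₁ b t ^ q *
        (betaD D (blk S b (!β₁)) t₁ t * betaD D (blk S b β₁) t₁ t) ^ (1 + q)) ≤
      normP D (blk S b (!β₁)) t₁ (1 + q) *
        ((normP D (blk S b β₁) t₁ (1 + q * ((e : ℝ) / (e - q)))) ^ (1 - q / e) *
        (Real.exp (((2 : ℝ) ^ e - 1) * (3 / 4) ^ D * (blk S b β₁).card)) ^ (q / e)) := by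
  set S₁ := blk S b β₁ with hS₁
  set S₀ := blk S b (!β₁) with hS₀
  set p := 1 + q with hp
  have hp1 : 0 < p := by linarith
  have he0 : (0:ℝ) < e := by linarith
  have hs0 : 0 < (e:ℝ) - q := by linarith
  set s : ℝ := (e : ℝ) / (e - q) with hs
  set s' : ℝ := (e : ℝ) / q with hs'
  have hss : s.HolderConjugate s' := by
    rw [Real.holderConjugate_iff]
    constructor
    · rw [hs, lt_div_iff₀ hs0]
      linarith
    · rw [hs, hs']
      field_simp
      ring
  have hsinv : 1 / s = 1 - q / e := by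
    rw [hs]
    field_simp
  have hs'inv : 1 / s' = q / e := by
    rw [hs']
    field_simp
  have hs'0 : 0 < s' := by positivity
  have hs0' : 0 < s := by positivity
  have hqs' : q * s' = e := by
    rw [hs']
    field_simp
  have hinv1 : 1 / s + 1 / s' = 1 := by
    rw [hsinv, hs'inv]
    ring
  -- injectivity on the blocks
  have hinjb : ∀ β, InjF t₁ (blk S b β) := by
    intro β i hi j hj hij
    obtain ⟨hi1, hi2⟩ := mem_blk.mp hi
    obtain ⟨hj1, hj2⟩ := mem_blk.mp hj
    exact hx i hi1 j hj1 hij (wtD_sep hb hi1 hj1 hij (hi2.trans hj2.symm))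
  have hdisj : ∀ i, i ∈ S₀ → i ∉ S₁ := by
    intro i hi hi'
    have h1 := (mem_blk.mp hi).2
    have h2 := (mem_blk.mp hi').2
    rw [h2] at h1
    cases β₁ <;> simp at h1
  set Y : ℝ := (normP D S₁ t₁ (1 + q * s)) ^ (1 - q / e) *
    (Real.exp (((2 : ℝ) ^ e - 1) * (3 / 4) ^ D * S₁.card)) ^ (q / e) with hY
  have hY0 : 0 ≤ Y := by
    apply mul_nonneg (Real.rpow_nonneg (normP_nonneg _ _ _ _) _)
    exact Real.rpow_nonneg (Real.exp_pos _).le _
  rw [← avg_merge S₁]
  -- evaluate on merged points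
  have hmerge0 : ∀ y z : ι → Pos D, betaD D S₀ t₁ (merge S₁ y z) = betaD D S₀ t₁ y :=
    fun y z => betaD_congr_right D S₀ t₁ fun i hi => merge_not_mem (hdisj i hi)
  have hmerge1 : ∀ y z : ι → Pos D, betaD D S₁ t₁ (merge S₁ y z) = betaD D S₁ t₁ z :=
    fun y z => betaD_congr_right D S₁ t₁ fun i hi => merge_mem hi
  have hexp : ∀ y z : ι → Pos D, rrD D S f t₁ b (merge S₁ y z) ^ q *
      (betaD D S₀ t₁ (merge S₁ y z) * betaD D S₁ t₁ (merge S₁ y z)) ^ p =
      betaD D S₀ t₁ y ^ p * (rrD D S f t₁ b (merge S₁ y z) ^ q * betaD D S₁ t₁ z ^ p) := by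
    intro y z
    rw [hmerge0, hmerge1, Real.mul_rpow (betaD_nonneg _ _ _ _) (betaD_nonneg _ _ _ _)]
    ring
  simp only [hexp, avg_mul_left]
  -- the bound for the inner average
  have hinner : ∀ y : ι → Pos D, betaD D S₀ t₁ y ^ p *
      avg (fun z => rrD D S f t₁ b (merge S₁ y z) ^ q * betaD D S₁ t₁ z ^ p) ≤
      betaD D S₀ t₁ y ^ p * Y := by
    intro y
    by_cases hy0 : betaD D S₀ t₁ y = 0
    · rw [hy0, Real.zero_rpow hp1.ne']
      simp
    · apply mul_le_mul_of_nonneg_left _ (Real.rpow_nonneg (betaD_nonneg _ _ _ _) _)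
      have hyinj : InjF y S₀ := by
        intro i hi j hj hij
        by_contra hne
        exact hy0 (betaD_eq_zero D S₀ (hinjb _).injOn hi hj hne hij)
      -- the factors for Hölder
      set F : (ι → Pos D) → ℝ := fun z => betaD D S₁ t₁ z ^ (1 / s + q) with hF
      set G : (ι → Pos D) → ℝ := fun z => betaD D S₁ t₁ z ^ (1 / s') *
        rrD D S f t₁ b (merge S₁ y z) ^ q with hG
      have hF0 : ∀ z, 0 ≤ F z := fun z => Real.rpow_nonneg (betaD_nonneg _ _ _ _) _
      have hG0 : ∀ z, 0 ≤ G z := fun z =>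
        mul_nonneg (Real.rpow_nonneg (betaD_nonneg _ _ _ _) _)
          (Real.rpow_nonneg (rrD_nonneg _ _ _ _ _ _) _)
      have h1 : ∀ z, rrD D S f t₁ b (merge S₁ y z) ^ q * betaD D S₁ t₁ z ^ p = F z * G z := by
        intro z
        have hb0 := betaD_nonneg D S₁ t₁ z
        have hA : (1 / s + q) + 1 / s' = p := by
          rw [hp]
          linarith
        simp only [hF, hG]
        by_cases hz : betaD D S₁ t₁ z = 0
        · rw [hz, Real.zero_rpow hp1.ne', Real.zero_rpow (by positivity : (1:ℝ) / s + q ≠ 0)]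
          simp
        · have hzp : 0 < betaD D S₁ t₁ z := lt_of_le_of_ne hb0 (Ne.symm hz)
          rw [← hA, Real.rpow_add hzp]
          ring
      simp only [h1]
      have hH := avg_holder hss hF0 hG0
      refine hH.trans ?_
      have e1 : (avg fun z => F z ^ s) = normP D S₁ t₁ (1 + q * s) := by
        unfold normP
        refine avg_congr fun z => ?_
        simp only [hF]
        rw [← Real.rpow_mul (betaD_nonneg _ _ _ _)]
        congr 1
        rw [add_mul, one_div, inv_mul_cancel₀ hs0'.ne']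
      have e2 : (avg fun z => G z ^ s') = avg fun z =>
          betaD D S₁ t₁ z * rrD D S f t₁ b (merge S₁ y z) ^ e := by
        refine avg_congr fun z => ?_
        simp only [hG]
        rw [Real.mul_rpow (Real.rpow_nonneg (betaD_nonneg _ _ _ _) _)
          (Real.rpow_nonneg (rrD_nonneg _ _ _ _ _ _) _), ← Real.rpow_mul (betaD_nonneg _ _ _ _),
          ← Real.rpow_mul (rrD_nonneg _ _ _ _ _ _), hqs', Real.rpow_natCast, one_div,
          inv_mul_cancel₀ hs'0.ne', Real.rpow_one]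
      rw [e1, e2, hsinv, hs'inv, hY]
      apply mul_le_mul_of_nonneg_left _ (Real.rpow_nonneg (normP_nonneg _ _ _ _) _)
      apply Real.rpow_le_rpow (avg_nonneg fun z => mul_nonneg (betaD_nonneg _ _ _ _)
        (pow_nonneg (rrD_nonneg _ _ _ _ _ _) _)) _ (by positivity)
      exact U2_bound D e S f t₁ b β₁ hx hb y hyinj
  refine (avg_mono hinner).trans ?_
  rw [avg_mul_right]
  unfold normP
  exact le_refl _

/-- one step of the recursion, second form -/
theorem rec_bound2 (D e : ℕ) {q q' φ φ' : ℝ} (hq : 0 < q) (hqe : q < e)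
    (hq' : q' = q * ((e : ℝ) / (e - q)))
    (hφ : φ ≤ (1 - q / e) * φ' + (q / e) * (((2 : ℝ) ^ e - 1) * (3 / 4) ^ D))
    (h0 : ∀ (S : Finset ι) (x : ι → Pos D), InjF x S → normP D S x (1 + q) ≤ Real.exp (S.card * φ))
    (h1 : ∀ (S : Finset ι) (x : ι → Pos D), InjF x S → normP D S x (1 + q') ≤ Real.exp (S.card * φ'))
    (S : Finset ι) (x : ι → Pos (D + 1)) (hx : InjF x S) :
    normP (D + 1) S x (1 + q) ≤ Real.exp (S.card *
      ((φ + ((1 - q / e) * φ' + (q / e) * (((2 : ℝ) ^ e - 1) * (3 / 4) ^ D))) / 2)) := by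
  refine (jensen_step D S x hq).trans ?_
  have he0 : (0:ℝ) < e := by linarith
  set κ : ℝ := ((2 : ℝ) ^ e - 1) * (3 / 4) ^ D with hκdef
  set Ξ := (1 - q / e) * φ' + (q / e) * κ with hΞ
  have hqe' : 0 < 1 - q / e := by
    rw [sub_pos, div_lt_one he0]
    exact hqe
  have hxx : ∀ i ∈ S, ∀ j ∈ S, tl x i = tl x j → hd x i = hd x j → i = j := by
    intro i hi j hj h1 h2
    apply hx i hi j hj
    rw [← Fin.cons_self_tail (x i), ← Fin.cons_self_tail (x j)]
    show (Fin.cons (hd x i) (tl x i) : Pos (D + 1)) = Fin.cons (hd x j) (tl x j)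
    rw [h1, h2]
  refine avg_weight_le (fun b => wtD_nonneg _ _ _ _ _) (avg_wtD _ _ _ _) fun b hb => ?_
  -- injectivity on the blocks
  have hinjb : ∀ β, InjF (tl x) (blk S b β) := by
    intro β i hi j hj hij
    obtain ⟨hi1, hi2⟩ := mem_blk.mp hi
    obtain ⟨hj1, hj2⟩ := mem_blk.mp hj
    exact hxx i hi1 j hj1 hij (wtD_sep hb hi1 hj1 hij (hi2.trans hj2.symm))
  -- choose the smaller block
  obtain ⟨β₁, hβ₁⟩ : ∃ β₁, 2 * (blk S b β₁).card ≤ S.card := by
    have hc := card_blk S b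
    by_cases h : 2 * (blk S b false).card ≤ S.card
    · exact ⟨false, h⟩
    · exact ⟨true, by omega⟩
  have hsplit := split_bound2 D e S (hd x) (tl x) b β₁ hxx hb hq hqe
  have hcomm : ∀ t : ι → Pos D, uuD D S (tl x) b t =
      betaD D (blk S b (!β₁)) (tl x) t * betaD D (blk S b β₁) (tl x) t := by
    intro t
    unfold uuD
    cases β₁
    · simp [mul_comm]
    · simp
  simp only [hcomm]
  refine hsplit.trans ?_
  have hcc' : (blk S b (!β₁)).card + (blk S b β₁).card = S.card := by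
    have hc := card_blk S b
    cases β₁
    · simp only [Bool.not_false]
      omega
    · simp only [Bool.not_true]
      omega
  set c₀ := (blk S b (!β₁)).card with hc₀
  set c₁ := (blk S b β₁).card with hc₁
  have hcc : (c₀ : ℝ) + c₁ = S.card := by
    exact_mod_cast hcc'
  have h2 := h0 _ _ (hinjb (!β₁))
  have h3 := h1 _ _ (hinjb β₁)
  rw [← hc₀] at h2
  rw [← hc₁] at h3
  rw [← hq']
  have h4 : normP D (blk S b β₁) (tl x) (1 + q') ^ (1 - q / e) ≤
      Real.exp (c₁ * φ') ^ (1 - q / e) :=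
    Real.rpow_le_rpow (normP_nonneg _ _ _ _) h3 hqe'.le
  rw [← Real.exp_mul] at h4
  have h5 : Real.exp (κ * c₁) ^ (q / e) = Real.exp (κ * c₁ * (q / e)) := by
    rw [← Real.exp_mul]
  rw [h5]
  have hn1 : 0 ≤ normP D (blk S b β₁) (tl x) (1 + q') ^ (1 - q / e) :=
    Real.rpow_nonneg (normP_nonneg _ _ _ _) _
  calc normP D (blk S b (!β₁)) (tl x) (1 + q) *
        (normP D (blk S b β₁) (tl x) (1 + q') ^ (1 - q / e) * Real.exp (κ * c₁ * (q / e)))
      ≤ Real.exp (c₀ * φ) * (Real.exp (c₁ * φ' * (1 - q / e)) * Real.exp (κ * c₁ * (q / e))) := by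
        apply mul_le_mul h2 (mul_le_mul_of_nonneg_right h4 (Real.exp_pos _).le)
          (mul_nonneg hn1 (Real.exp_pos _).le) (Real.exp_pos _).le
    _ = Real.exp (c₀ * φ + c₁ * Ξ) := by
        rw [← Real.exp_add, ← Real.exp_add, hΞ]
        congr 1
        ring
    _ ≤ Real.exp ((S.card : ℝ) * ((φ + Ξ) / 2)) := by
        apply Real.exp_le_exp.mpr
        have hc1 : (c₁ : ℝ) * 2 ≤ S.card := by
          have : c₁ * 2 ≤ S.card := by omega
          exact_mod_cast this
        have hc0 : (c₀ : ℝ) = S.card - c₁ := by linarith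
        rw [hc0]
        have hd : 0 ≤ Ξ - φ := by linarith
        nlinarith

/-! ### the moment bound -/

/-- the Hölder exponents -/
def eSeq (D : ℕ) : ℕ := D / 4 + 1

/-- the reciprocal of the admissible moment -/
noncomputable def wSeq (D : ℕ) : ℝ := 8 * (1 + Real.log ((D : ℝ) + 1))

/-- the exponent of the moment bound -/
noncomputable def psiSeq (D : ℕ) : ℝ := 10 * (1 - (9 / 10) ^ D)

lemma wSeq_ge (D : ℕ) : 8 ≤ wSeq D := by
  unfold wSeq
  have h : 0 ≤ Real.log ((D : ℝ) + 1) := Real.log_nonneg (by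
    have : (0:ℝ) ≤ D := Nat.cast_nonneg _
    linarith)
  linarith

lemma kappa_le (D : ℕ) : ((2:ℝ) ^ (eSeq D) - 1) * (3 / 4) ^ D ≤ 2 * (9 / 10) ^ D := by
  have h1 : (2:ℝ) ^ (D / 4) ≤ (6 / 5) ^ D := by
    calc (2:ℝ) ^ (D / 4) ≤ ((6 / 5 : ℝ) ^ 4) ^ (D / 4) :=
          pow_le_pow_left₀ (by norm_num) (by norm_num) _
      _ = (6 / 5 : ℝ) ^ (4 * (D / 4)) := by rw [pow_mul]
      _ ≤ (6 / 5 : ℝ) ^ D := pow_le_pow_right₀ (by norm_num) (Nat.mul_div_le D 4)
  have h2 : (9 / 10 : ℝ) ^ D = (6 / 5) ^ D * (3 / 4) ^ D := by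
    rw [← mul_pow]
    norm_num
  have h3 : (2:ℝ) ^ (eSeq D) = 2 * 2 ^ (D / 4) := by
    unfold eSeq
    rw [pow_succ]
    ring
  rw [h2, h3]
  have h4 : (0:ℝ) ≤ (3 / 4) ^ D := by positivity
  have h5 : (2 * 2 ^ (D / 4) - 1 : ℝ) ≤ 2 * (6 / 5) ^ D := by linarith
  calc (2 * 2 ^ (D / 4) - 1 : ℝ) * (3 / 4) ^ D ≤ (2 * (6 / 5) ^ D) * (3 / 4) ^ D :=
        mul_le_mul_of_nonneg_right h5 h4
    _ = _ := by ring

lemma kappa_nonneg (e D : ℕ) : 0 ≤ ((2:ℝ) ^ e - 1) * (3 / 4) ^ D := by
  have h : (1:ℝ) ≤ 2 ^ e := one_le_pow₀ (by norm_num)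
  exact mul_nonneg (by linarith) (by positivity)

lemma wSeq_step (D : ℕ) : wSeq D + 1 / (eSeq D : ℝ) ≤ wSeq (D + 1) := by
  unfold wSeq
  have hD : (0:ℝ) ≤ D := Nat.cast_nonneg _
  have h1 : (0:ℝ) < (D : ℝ) + 1 := by linarith
  have h2 : (0:ℝ) < (D : ℝ) + 2 := by linarith
  have e1 : (((D + 1 : ℕ) : ℝ) + 1) = (D : ℝ) + 2 := by
    push_cast
    ring
  rw [e1]
  have h3 : 1 - (((D : ℝ) + 2) / ((D : ℝ) + 1))⁻¹ ≤ Real.log (((D : ℝ) + 2) / ((D : ℝ) + 1)) :=
    Real.one_sub_inv_le_log_of_pos (by positivity)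
  rw [Real.log_div h2.ne' h1.ne', inv_div] at h3
  have h4 : 1 - ((D : ℝ) + 1) / ((D : ℝ) + 2) = 1 / ((D : ℝ) + 2) := by
    field_simp
    ring
  rw [h4] at h3
  have he : (D : ℝ) + 1 ≤ 4 * (eSeq D : ℝ) := by
    have : D + 1 ≤ 4 * eSeq D := by
      unfold eSeq
      omega
    exact_mod_cast this
  have he0 : (0:ℝ) < eSeq D := by
    have : 0 < eSeq D := by
      unfold eSeq
      omega
    exact_mod_cast this
  have h5 : 1 / (eSeq D : ℝ) ≤ 8 * (1 / ((D : ℝ) + 2)) := by
    rw [div_le_iff₀ he0, mul_assoc, one_div, inv_mul_eq_div, mul_div_assoc', le_div_iff₀ h2]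
    linarith
  linarith

/-- the moment bound, second form -/
theorem moment_bound2 (D : ℕ) : ∀ (S : Finset ι) (x : ι → Pos D), InjF x S → ∀ q : ℝ, 0 < q →
    q * wSeq D ≤ 1 → normP D S x (1 + q) ≤ Real.exp (S.card * (q * psiSeq D)) := by
  induction D with
  | zero =>
    intro S x hx q hq _
    refine (normP_trivial 0 S x hq.le).trans ?_
    simp [psiSeq]
  | succ D ih =>
    intro S x hx q hq hqw
    set e := eSeq D with he
    have he1 : (1:ℝ) ≤ e := by
      have : 1 ≤ e := by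
        rw [he]
        unfold eSeq
        omega
      exact_mod_cast this
    have hw8 := wSeq_ge (D + 1)
    have hq8 : q ≤ 1 / 8 := by
      rw [le_div_iff₀ (by norm_num)]
      nlinarith
    have hqe : q < e := by linarith
    have he0 : (0:ℝ) < e := by linarith
    have hs0 : 0 < (e:ℝ) - q := by linarith
    set q' := q * ((e : ℝ) / (e - q)) with hq'
    have hq'0 : 0 < q' := by positivity
    have hstep := wSeq_step D
    rw [← he] at hstep
    have hqD : q * wSeq D ≤ 1 := by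
      have h1 : 0 < 1 / (e:ℝ) := by positivity
      nlinarith
    have hq'D : q' * wSeq D ≤ 1 := by
      rw [hq']
      have h1 : q * ((e:ℝ) / (e - q)) * wSeq D = (q * wSeq D) * e / (e - q) := by
        field_simp
      rw [h1, div_le_one hs0]
      have h2 : q * (wSeq D + 1 / (e:ℝ)) ≤ 1 := by
        refine le_trans ?_ hqw
        exact mul_le_mul_of_nonneg_left hstep hq.le
      have h3 : q * (wSeq D + 1 / (e:ℝ)) * e = q * wSeq D * e + q := by
        field_simp
      nlinarith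
    set Ψ := psiSeq D with hΨ
    have hmain := rec_bound2 (ι := ι) D e (φ := q * Ψ) (φ' := q' * Ψ) hq hqe hq' ?_
      (fun S x hx => ih S x hx q hq hqD) (fun S x hx => ih S x hx q' hq'0 hq'D) S x hx
    · refine hmain.trans (Real.exp_le_exp.mpr ?_)
      apply mul_le_mul_of_nonneg_left _ (Nat.cast_nonneg _)
      have h1 : (1 - q / (e:ℝ)) * (q' * Ψ) = q * Ψ := by
        rw [hq']
        field_simp
      rw [h1]
      have hκ := kappa_le D
      rw [← he] at hκ
      have hκ0 := kappa_nonneg e D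
      set κ := ((2:ℝ) ^ e - 1) * (3 / 4) ^ D with hκdef
      have hpsi : psiSeq (D + 1) = Ψ + (9 / 10) ^ D := by
        rw [hΨ]
        unfold psiSeq
        rw [pow_succ]
        ring
      rw [hpsi]
      have h2 : q / (e:ℝ) * κ ≤ q * κ := by
        have h3 : q / (e:ℝ) ≤ q := div_le_self hq.le he1
        exact mul_le_mul_of_nonneg_right h3 hκ0
      have h4 : q * κ ≤ q * (2 * (9 / 10) ^ D) := mul_le_mul_of_nonneg_left hκ hq.le
      nlinarith
    · have h1 : (1 - q / (e:ℝ)) * (q' * Ψ) = q * Ψ := by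
        rw [hq']
        field_simp
      rw [h1]
      have hκ0 := kappa_nonneg e D
      have : 0 ≤ q / (e:ℝ) * (((2:ℝ) ^ e - 1) * (3 / 4) ^ D) := by positivity
      linarith

lemma psiSeq_le (D : ℕ) : psiSeq D ≤ 10 := by
  unfold psiSeq
  have : (0:ℝ) ≤ (9 / 10) ^ D := by positivity
  linarith

/-- the moment bound, convenient form -/
theorem moment_bound3 (D : ℕ) (S : Finset ι) (x : ι → Pos D) (hx : InjF x S) {q : ℝ} (hq : 0 < q)
    (hw : q * wSeq D ≤ 1) : normP D S x (1 + q) ≤ Real.exp (S.card * (q * 10)) := by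
  refine (moment_bound2 D S x hx q hq hw).trans (Real.exp_le_exp.mpr ?_)
  apply mul_le_mul_of_nonneg_left _ (Nat.cast_nonneg _)
  exact mul_le_mul_of_nonneg_left (psiSeq_le D) hq.le

end Vale.Agent.Lib.P162
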