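import Vale.Agent.Lib.P162.Final2
import Vale.Agent.Lib.P162.LpRec2

/-!
# The mixing time bound `O(d log d)` for the Thorp shuffle on `2 ^ (d + 1)` cards
-/

namespace Vale.Agent.Lib.P162

open Equiv Finset Matrix
open scoped InnerProductSpace

set_option linter.unusedSectionVars false
set_option linter.unusedSimpArgs false
set_option linter.unusedVariables false

section one

variable {ι : Type*} [Fintype ι] [DecidableEq ι] {D : ℕ}

/-- the moment bound in the counting normalisation -/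
lemma KK_moment2 (x : MT ι D) {q : ℝ} (hq : 0 < q) (hw : q * wSeq D ≤ 1) :
    ∑ y : MT ι D, KK ι D x y ^ (1 + q) ≤
      (((2 : ℝ) ^ D) ^ Fintype.card ι) ^ (-q) *
        Real.exp (Fintype.card ι * (q * 10)) := by
  set m : ℝ := ((2 : ℝ) ^ D) ^ Fintype.card ι with hm
  have hm0 : 0 < m := by positivity
  have hinj : InjF x.1 Finset.univ := fun i _ j _ h => x.2 h
  have h1 := moment_bound3 D Finset.univ x.1 hinj hq hw
  rw [card_univ] at h1
  have h2 : ∀ y : MT ι D, KK ι D x y ^ (1 + q) = m ^ (-(1 + q)) * betaD D Finset.univ x.1 y.1 ^ (1 + q) := by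
    intro y
    rw [KK_eq_beta, ← hm, Real.mul_rpow hm0.le (KK_nonneg _ _), ← mul_assoc, ← Real.rpow_add hm0]
    simp
  simp only [h2]
  rw [← mul_sum]
  have h3 : ∑ y : MT ι D, betaD D Finset.univ x.1 y.1 ^ (1 + q) ≤ m * normP D Finset.univ x.1 (1 + q) := by
    unfold normP avg
    rw [card_tuples, ← hm, ← mul_assoc, mul_inv_cancel₀ hm0.ne', one_mul, sum_MT (F := fun y => betaD D Finset.univ x.1 y ^ (1 + q))]
    intro y hy
    have h4 : betaD D Finset.univ x.1 y = 0 := by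
      unfold Function.Injective at hy
      push Not at hy
      obtain ⟨i, j, hij, hne⟩ := hy
      exact betaD_eq_zero D Finset.univ hinj.injOn (mem_coe.mp (mem_univ i)) (mem_coe.mp (mem_univ j)) hne hij
    rw [h4, Real.zero_rpow (by linarith)]
  have h5 : m ^ (-(1 + q)) * m = m ^ (-q) := by
    nth_rewrite 2 [← Real.rpow_one m]
    rw [← Real.rpow_add hm0]
    congr 1
    ring
  calc m ^ (-(1 + q)) * ∑ y : MT ι D, betaD D Finset.univ x.1 y.1 ^ (1 + q)
      ≤ m ^ (-(1 + q)) * (m * normP D Finset.univ x.1 (1 + q)) :=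
        mul_le_mul_of_nonneg_left h3 (by positivity)
    _ = m ^ (-q) * normP D Finset.univ x.1 (1 + q) := by rw [← mul_assoc, h5]
    _ ≤ _ := mul_le_mul_of_nonneg_left h1 (by positivity)

/-- the Hilbert-Schmidt bound -/
theorem hs_bound2 (a : ℕ) (hg : wSeq D ≤ (2 : ℝ) ^ (a + 1) - 1) {d : ℕ}
    (e : OrthonormalBasis (Fin d) ℝ (WW ι (Pos D))) :
    ∑ α, ‖((QT ι D) ^ (2 ^ (a + 1))) (e α : TupSp ι (Pos D))‖ ^ 2 ≤
      Real.exp (10 * (Fintype.card ι : ℝ)) := by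
  classical
  refine (hs_le_frobenius _ e).trans ?_
  refine (power_bound (AA ι D) (a + 1)).trans ?_
  set G : ℝ := (2 : ℝ) ^ (a + 1) - 1 with hG
  have hg0 : 8 ≤ wSeq D := wSeq_ge D
  have hG0 : 0 < G := by linarith
  set q : ℝ := 1 / G with hq
  have hq0 : 0 < q := by positivity
  have hqG : q * G = 1 := by
    rw [hq]; field_simp
  set m : ℝ := ((2 : ℝ) ^ D) ^ Fintype.card ι with hm
  have hm0 : 0 < m := by positivity
  set k : ℝ := (Fintype.card ι : ℝ) with hk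
  have hk0 : 0 ≤ k := Nat.cast_nonneg _
  set L : ℝ := m ^ (-q) * Real.exp (k * (q * 10)) with hL
  have hL0 : 0 ≤ L := by positivity
  have hKL : ∀ x : MT ι D, ∑ y, KK ι D x y ^ pexp (a + 1) 0 ≤ L := by
    intro x
    rw [pexp_eq, ← hG, ← hq]
    refine KK_moment2 x hq0 ?_
    rw [← hqG]
    exact mul_le_mul_of_nonneg_left hg hq0.le
  have hY : ∀ x : MT ι D, ∑ y, ((KK ι D) ^ (2 ^ a)) x y ^ 2 ≤ L ^ G :=
    fun x => young_final (KK ι D) KK_nonneg KK_symm a L hL0 hKL x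
  -- the value of the bound
  have hLG : L ^ G ≤ m⁻¹ * Real.exp (10 * k) := by
    rw [hL, Real.mul_rpow (by positivity) (by positivity), ← Real.rpow_mul hm0.le, ← Real.exp_mul]
    have e1 : -q * G = -1 := by rw [neg_mul, hqG]
    rw [e1, Real.rpow_neg_one]
    apply mul_le_mul_of_nonneg_left _ (by positivity)
    apply Real.exp_le_exp.mpr
    apply le_of_eq
    calc k * (q * 10) * G = k * 10 * (q * G) := by ring
      _ = 10 * k := by rw [hqG]; ring
  -- the trace as a sum of squares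
  set P := (KK ι D) ^ (2 ^ a) with hP
  have hPsym : Pᵀ = P := by
    rw [hP, transpose_pow]
    congr 1
    ext x y
    exact KK_symm y x
  have e1 : (AA ι D * (AA ι D)ᵀ) ^ (2 ^ (a + 1)) = P * Pᵀ := by
    rw [hPsym, hP, ← pow_add, pow_succ]
    congr 1
    ring
  rw [e1, tr_mul_transpose]
  calc ∑ x, ∑ y, P x y ^ 2 ≤ ∑ _x : MT ι D, (m⁻¹ * Real.exp (10 * k)) :=
        sum_le_sum fun x _ => (hY x).trans hLG
    _ = (Fintype.card (MT ι D) : ℝ) * (m⁻¹ * Real.exp (10 * k)) := by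
        rw [sum_const, card_univ, nsmul_eq_mul]
    _ ≤ m * (m⁻¹ * Real.exp (10 * k)) :=
        mul_le_mul_of_nonneg_right card_MT_le (by positivity)
    _ = Real.exp (10 * k) := by
        rw [← mul_assoc, mul_inv_cancel₀ hm0.ne', one_mul]

/-- the eigenvalue bound -/
theorem eigen_bound2 (a : ℕ) (hg : wSeq D ≤ (2 : ℝ) ^ (a + 1) - 1) (hk : 1 ≤ Fintype.card ι)
    {ν : ℝ} (hν : 0 ≤ ν)
    (hE : (Fintype.card ι : ℝ) * (2 * D / 2 ^ D) ≤ Real.exp (-ν))
    {f : TupSp ι (Pos D)} (hf : f ∈ WW ι (Pos D)) {μ : ℝ} (hμ : 0 ≤ μ)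
    (heig : QTa ι D (QT ι D f) = μ • f) (hf0 : f ≠ 0) :
    μ ^ 2 ≤ Real.exp ((Fintype.card ι : ℝ) * (5 - ν / (2 * (2 : ℝ) ^ (a + 1)))) := by
  obtain ⟨x, hinj, hx⟩ := eigen_sup hf hμ heig hf0
  refine hx.trans ?_
  set N : ℝ := (2 : ℝ) ^ (a + 1) with hN
  have hN1 : 2 ≤ N := by
    rw [hN, pow_succ]
    have : (1:ℝ) ≤ 2 ^ a := one_le_pow₀ (by norm_num)
    linarith
  set G : ℝ := N - 1 with hG
  have hg0 : 8 ≤ wSeq D := wSeq_ge D
  have hG0 : 0 < G := by linarith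
  set q : ℝ := 1 / G with hq
  have hq0 : 0 < q := by positivity
  have hqG : q * G = 1 := by
    rw [hq]; field_simp
  set k : ℝ := (Fintype.card ι : ℝ) with hkR
  have hk1 : 1 ≤ k := by rw [hkR]; exact_mod_cast hk
  -- Hölder
  have hH : (1 + q).HolderConjugate N := by
    rw [Real.holderConjugate_iff]
    refine ⟨by linarith, ?_⟩
    have e1 : N = G + 1 := by rw [hG]; ring
    rw [e1, hq]
    field_simp
  have hH1 := avg_holder hH (f := fun y => betaD D Finset.univ x y) (g := fun y => TzD ι D y)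
    (fun y => betaD_nonneg _ _ _ _) (fun y => TzD_nonneg _)
  refine hH1.trans ?_
  -- the first factor
  have hinjF : InjF x Finset.univ := fun i _ j _ h => hinj h
  have h1 : avg (fun y => betaD D Finset.univ x y ^ (1 + q)) ≤ Real.exp (2 * k) := by
    have hw : q * wSeq D ≤ 1 := by
      rw [← hqG]
      exact mul_le_mul_of_nonneg_left hg hq0.le
    have := moment_bound3 D Finset.univ x hinjF hq0 hw
    rw [card_univ] at this
    refine le_trans this (Real.exp_le_exp.mpr ?_)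
    have hq8 : q * 8 ≤ 1 := by nlinarith
    nlinarith
  have h1' : avg (fun y => betaD D Finset.univ x y ^ (1 + q)) ^ (1 / (1 + q)) ≤ Real.exp (2 * k) := by
    have h0 : 0 ≤ avg (fun y => betaD D Finset.univ x y ^ (1 + q)) :=
      avg_nonneg fun y => Real.rpow_nonneg (betaD_nonneg _ _ _ _) _
    refine (Real.rpow_le_rpow h0 h1 (by positivity)).trans ?_
    have h3 : 1 / (1 + q) ≤ 1 := by
      rw [div_le_one (by linarith)]
      linarith
    have h4 : 1 ≤ Real.exp (2 * k) := Real.one_le_exp (by positivity)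
    calc Real.exp (2 * k) ^ (1 / (1 + q)) ≤ Real.exp (2 * k) ^ (1 : ℝ) :=
          Real.rpow_le_rpow_of_exponent_le h4 h3
      _ = _ := Real.rpow_one _
  -- the second factor
  set c₂ : ℝ := Real.log 2 with hc₂
  have hc0 : 0 < c₂ := Real.log_pos (by norm_num)
  have hc1 : c₂ ≤ 1 := by
    have := Real.log_two_lt_d9
    rw [hc₂]
    linarith
  have e2 : (2 : ℝ) = Real.exp c₂ := (Real.exp_log (by norm_num)).symm
  have e2k : (2 : ℝ) ^ Fintype.card ι = Real.exp (k * c₂) := by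
    rw [hkR, mul_comm, Real.exp_mul, Real.exp_log (by norm_num), Real.rpow_natCast]
  -- the average of the Moebius size
  set l := (Fintype.card ι + 1) / 2 with hl
  have hl2 : k ≤ 2 * (l : ℝ) := by
    have : Fintype.card ι ≤ 2 * l := by omega
    rw [hkR]
    exact_mod_cast this
  have hZ : avg (fun w => zetaD ι D w) ≤ Real.exp (k * c₂ + k * c₂ + c₂ - ν * k / 2) := by
    refine (avg_zetaD_le (ι := ι) D).trans ?_
    have h5 : ((Fintype.card ι : ℝ) * (2 * D / 2 ^ D)) ^ l ≤ Real.exp (- (ν * k / 2)) := by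
      have h6 : (0:ℝ) ≤ (Fintype.card ι : ℝ) * (2 * D / 2 ^ D) := by positivity
      refine (pow_le_pow_left₀ h6 hE l).trans ?_
      rw [← Real.exp_nat_mul]
      apply Real.exp_le_exp.mpr
      nlinarith
    rw [e2k]
    have h7 : Real.exp (k * c₂ + k * c₂ + c₂ - ν * k / 2) =
        Real.exp (k * c₂) * (Real.exp (k * c₂) * (Real.exp c₂ * Real.exp (-(ν * k / 2)))) := by
      rw [← Real.exp_add, ← Real.exp_add, ← Real.exp_add]
      congr 1
      ring
    rw [h7, ← e2]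
    refine mul_le_mul_of_nonneg_left (mul_le_mul_of_nonneg_left ?_ (Real.exp_pos _).le) (Real.exp_pos _).le
    exact mul_le_mul_of_nonneg_left h5 (by norm_num)
  have hNgt : 1 < N := by linarith
  have hT : avg (fun y => TzD ι D y ^ N) ≤
      Real.exp (k * c₂ * (N - 1) + (k * c₂ + k * c₂ + c₂ - ν * k / 2)) := by
    refine (TzD_moment hNgt).trans ?_
    rw [e2k, ← Real.exp_mul, Real.exp_add]
    exact mul_le_mul_of_nonneg_left hZ (Real.exp_pos _).le
  have hT' : avg (fun y => TzD ι D y ^ N) ^ (1 / N) ≤ Real.exp (3 * k - ν * k / (2 * N)) := by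
    have h0 : 0 ≤ avg (fun y => TzD ι D y ^ N) :=
      avg_nonneg fun y => Real.rpow_nonneg (TzD_nonneg _) _
    refine (Real.rpow_le_rpow h0 hT (by positivity)).trans ?_
    rw [← Real.exp_mul]
    apply Real.exp_le_exp.mpr
    have hN0 : 0 < N := by linarith
    have e3 : (k * c₂ * (N - 1) + (k * c₂ + k * c₂ + c₂ - ν * k / 2)) * (1 / N) =
        k * c₂ + (k * c₂ + c₂) / N - ν * k / (2 * N) := by
      field_simp
      ring
    rw [e3]
    have h8 : (k * c₂ + c₂) / N ≤ k * c₂ + c₂ := by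
      apply div_le_self (by positivity)
      linarith
    nlinarith
  -- conclude
  have hfin : avg (fun y => betaD D Finset.univ x y ^ (1 + q)) ^ (1 / (1 + q)) *
      avg (fun y => TzD ι D y ^ N) ^ (1 / N) ≤ Real.exp (2 * k) * Real.exp (3 * k - ν * k / (2 * N)) :=
    mul_le_mul h1' hT' (Real.rpow_nonneg (avg_nonneg fun y => Real.rpow_nonneg (TzD_nonneg _) _) _)
      (Real.exp_pos _).le
  refine hfin.trans (le_of_eq ?_)
  rw [← Real.exp_add]
  congr 1
  have hN0 : N ≠ 0 := by linarith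
  field_simp
  ring

/-- the norm of a pass at low levels -/
theorem QT_low2 (a : ℕ) (hg : wSeq D ≤ (2 : ℝ) ^ (a + 1) - 1) (hk : 1 ≤ Fintype.card ι)
    {ν : ℝ} (hν : 0 ≤ ν)
    (hE : (Fintype.card ι : ℝ) * (2 * D / 2 ^ D) ≤ Real.exp (-ν))
    {u : TupSp ι (Pos D)} (hu : u ∈ WW ι (Pos D)) :
    ‖QT ι D u‖ ^ 2 ≤ Real.exp ((Fintype.card ι : ℝ) * (5 / 2 - ν / (4 * (2 : ℝ) ^ (a + 1)))) * ‖u‖ ^ 2 := by
  set c : ℝ := Real.exp ((Fintype.card ι : ℝ) * (5 / 2 - ν / (4 * (2 : ℝ) ^ (a + 1)))) with hc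
  have : CompleteSpace (TupSp ι (Pos D)) := FiniteDimensional.complete ℝ _
  set T : TupSp ι (Pos D) →L[ℝ] TupSp ι (Pos D) := (QTa ι D).comp (QT ι D) with hT
  have hTa : ∀ v, T v = QTa ι D (QT ι D v) := fun v => rfl
  have hsym : ∀ v w, ⟪T v, w⟫_ℝ = ⟪v, T w⟫_ℝ := by
    intro v w
    rw [hTa, hTa, QTa_inner, real_inner_comm, QTa_inner, real_inner_comm]
  have hW : ∀ w ∈ WW ι (Pos D), T w ∈ WW ι (Pos D) := fun w hw => QTa_mem_WW (QT_mem_WW hw)
  obtain ⟨b, μ, hb⟩ := exists_eigen_restrict (WW ι (Pos D)) T hsym hW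
  have hμ : ∀ i, μ i ≤ c := by
    intro i
    have h1 : μ i = ‖QT ι D (b i : TupSp ι (Pos D))‖ ^ 2 := by
      have h2 : ⟪(b i : TupSp ι (Pos D)), T (b i : TupSp ι (Pos D))⟫_ℝ = μ i := by
        rw [hb i, inner_smul_right, real_inner_self_eq_norm_sq]
        have h3 : ‖(b i : TupSp ι (Pos D))‖ = 1 := b.orthonormal.1 i
        rw [h3]
        simp
      rw [← h2, hTa, QTa_inner, real_inner_self_eq_norm_sq]
    have h0 : 0 ≤ μ i := by rw [h1]; positivity
    have hne : (b i : TupSp ι (Pos D)) ≠ 0 := by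
      intro h2
      have h3 : ‖(b i : TupSp ι (Pos D))‖ = 1 := b.orthonormal.1 i
      rw [h2] at h3
      simp at h3
    have h4 := eigen_bound2 a hg hk hν hE (b i).2 h0 (hb i) hne
    have e : Real.exp ((Fintype.card ι : ℝ) * (5 - ν / (2 * (2 : ℝ) ^ (a + 1)))) = c ^ 2 := by
      rw [hc, ← Real.exp_nat_mul]
      congr 1
      have : (2:ℝ) ^ (a + 1) ≠ 0 := by positivity
      push_cast
      field_simp
      ring
    rw [e] at h4
    exact (pow_le_pow_iff_left₀ h0 (Real.exp_pos _).le (by norm_num)).mp h4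
  set u' : WW ι (Pos D) := ⟨u, hu⟩ with hu'
  have h1 : u = ∑ i, ⟪b i, u'⟫_ℝ • (b i : TupSp ι (Pos D)) := by
    have h2 : u' = ∑ i, ⟪b i, u'⟫_ℝ • b i := (b.sum_repr' _).symm
    have := congrArg Subtype.val h2
    simpa using this
  have h2 : ∀ i, ⟪u, (b i : TupSp ι (Pos D))⟫_ℝ = ⟪b i, u'⟫_ℝ := by
    intro i
    rw [real_inner_comm]
    rfl
  have hexp : T u = ∑ i, ⟪b i, u'⟫_ℝ • (μ i • (b i : TupSp ι (Pos D))) := by
    conv_lhs => rw [h1]
    rw [map_sum]
    refine sum_congr rfl fun i _ => ?_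
    rw [map_smul, hb i]
  have h3 : ‖QT ι D u‖ ^ 2 = ∑ i, μ i * ⟪b i, u'⟫_ℝ ^ 2 := by
    rw [← real_inner_self_eq_norm_sq, ← QTa_inner, ← hTa, hexp, inner_sum]
    refine sum_congr rfl fun i _ => ?_
    rw [inner_smul_right, inner_smul_right, h2]
    ring
  have h4 : ‖u‖ ^ 2 = ∑ i, ⟪b i, u'⟫_ℝ ^ 2 := by
    have h5 : ‖u'‖ ^ 2 = ∑ i, ‖⟪b i, u'⟫_ℝ‖ ^ 2 := (b.sum_sq_norm_inner_right u').symm
    have h6 : ‖u'‖ = ‖u‖ := rfl
    rw [← h6, h5]
    simp
  rw [h3, h4, mul_sum]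
  refine sum_le_sum fun i _ => ?_
  exact mul_le_mul_of_nonneg_right (hμ i) (by positivity)

end one

section two

variable {ι : Type*} [Fintype ι] [DecidableEq ι] {H : ℕ}

/-- the Hilbert-Schmidt norm of a long power -/
lemma hs_power2 (a m : ℕ) (hg : wSeq H ≤ (2 : ℝ) ^ (a + 1) - 1) {c : ℝ} (hc0 : 0 ≤ c)
    (h : ∀ u ∈ WW ι (Pos H), ‖QT ι H u‖ ^ 2 ≤ c * ‖u‖ ^ 2) {d : ℕ}
    (e : OrthonormalBasis (Fin d) ℝ (WW ι (Pos H))) :
    ∑ α, ‖((QT ι H) ^ (m + 2 ^ (a + 1))) (e α : TupSp ι (Pos H))‖ ^ 2 ≤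
      c ^ m * Real.exp (10 * (Fintype.card ι : ℝ)) := by
  have h1 : ∀ α, ‖((QT ι H) ^ (m + 2 ^ (a + 1))) (e α : TupSp ι (Pos H))‖ ^ 2 ≤
      c ^ m * ‖((QT ι H) ^ (2 ^ (a + 1))) (e α : TupSp ι (Pos H))‖ ^ 2 := by
    intro α
    rw [pow_add, mul_ap]
    exact pow_norm_le hc0 h m (pow_mem_WW _ _ (e α).2)
  refine (sum_le_sum fun α _ => h1 α).trans ?_
  rw [← mul_sum]
  exact mul_le_mul_of_nonneg_left (hs_bound2 a hg e) (pow_nonneg hc0 _)

/-- the contribution of a nontrivial level -/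
theorem level_term2 (hH : 1 ≤ H) (a : ℕ) (hN : wSeq H + Real.log (2 * (H : ℝ)) + 1 < (2 : ℝ) ^ (a + 1))
    (hk1 : 1 ≤ Fintype.card ι) (hk2 : Fintype.card ι ≤ 2 ^ H) {d : ℕ}
    (e : OrthonormalBasis (Fin d) ℝ (WW ι (Pos H))) :
    ∑ α, ‖((QT ι H) ^ (28800 * 2 ^ (a + 1) + 2 ^ (a + 1))) (e α : TupSp ι (Pos H))‖ ^ 2 ≤
      (((2 ^ H).choose (Fintype.card ι) : ℝ))⁻¹ * Real.exp (-3 * (Fintype.card ι : ℝ)) := by
  set j : ℝ := (Fintype.card ι : ℝ) with hj
  have hj1 : 1 ≤ j := by rw [hj]; exact_mod_cast hk1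
  set NR : ℝ := (2 : ℝ) ^ (a + 1) with hNR
  have hH' : (1 : ℝ) ≤ H := by exact_mod_cast hH
  have hL0 : 0 ≤ Real.log (2 * (H : ℝ)) := Real.log_nonneg (by linarith)
  have hw8 := wSeq_ge H
  have hN1 : 9 ≤ NR := by linarith
  have hg : wSeq H ≤ NR - 1 := by linarith
  have hL : Real.log (2 * (H : ℝ)) ≤ NR := by linarith
  set L : ℝ := Real.log (2 * (H : ℝ)) with hLdef
  have hlogn : Real.log ((2 ^ H : ℕ) : ℝ) = (H : ℝ) * Real.log 2 := by
    push_cast
    rw [Real.log_pow]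
  set ν : ℝ := (H : ℝ) * Real.log 2 - L - Real.log j with hν
  have hchoose : (((2 ^ H).choose (Fintype.card ι) : ℕ) : ℝ) ≤ Real.exp (j * (1 + ν + L)) := by
    have h1 := choose_le_exp (2 ^ H) (Fintype.card ι) (Nat.one_le_two_pow) hk1
    rw [hlogn, ← hj] at h1
    refine h1.trans (Real.exp_le_exp.mpr (le_of_eq ?_))
    rw [hν]
    ring
  have hcpos : (0 : ℝ) < ((2 ^ H).choose (Fintype.card ι) : ℝ) := by
    exact_mod_cast Nat.choose_pos hk2
  have hinv : Real.exp (-(j * (1 + ν + L))) ≤ (((2 ^ H).choose (Fintype.card ι) : ℝ))⁻¹ := by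
    rw [Real.exp_neg]
    exact inv_anti₀ hcpos hchoose
  -- suffices
  suffices hS : ∑ α, ‖((QT ι H) ^ (28800 * 2 ^ (a + 1) + 2 ^ (a + 1))) (e α : TupSp ι (Pos H))‖ ^ 2 ≤
      Real.exp (-(j * (1 + ν + L)) + -3 * j) by
    refine hS.trans ?_
    rw [Real.exp_add]
    exact mul_le_mul_of_nonneg_right hinv (Real.exp_pos _).le
  have hmR : (((28800 * 2 ^ (a + 1) : ℕ)) : ℝ) = 28800 * NR := by
    push_cast
    rw [hNR]
  by_cases hcase : 20 * NR ≤ ν
  · -- low levels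
    have hν0 : 0 ≤ ν := by linarith
    have hE : (Fintype.card ι : ℝ) * (2 * H / 2 ^ H) ≤ Real.exp (-ν) := by
      have h1 : Real.exp (-ν) = j * (2 * H) / 2 ^ H := by
        rw [hν]
        have h2 : -((H : ℝ) * Real.log 2 - L - Real.log j) = L + Real.log j - (H : ℝ) * Real.log 2 := by ring
        rw [h2, Real.exp_sub, Real.exp_add, hLdef, Real.exp_log (by positivity), Real.exp_log (by linarith)]
        have h3 : Real.exp ((H : ℝ) * Real.log 2) = 2 ^ H := by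
          rw [mul_comm, Real.exp_mul, Real.exp_log (by norm_num), Real.rpow_natCast]
        rw [h3]
        ring
      rw [h1, ← hj]
      exact le_of_eq (by ring)
    have hb := hs_power2 (H := H) a (28800 * 2 ^ (a + 1)) hg (Real.exp_pos _).le
      (fun u hu => QT_low2 a hg hk1 hν0 hE hu) e
    refine hb.trans ?_
    rw [← Real.exp_nat_mul, ← Real.exp_add]
    apply Real.exp_le_exp.mpr
    rw [hmR, ← hj, ← hNR]
    have e1 : 28800 * NR * (j * (5 / 2 - ν / (4 * NR))) = j * (72000 * NR - 7200 * ν) := by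
      have : NR ≠ 0 := by linarith
      field_simp
      ring
    rw [e1]
    have hkey : 72000 * NR - 7200 * ν + 10 + (1 + ν + L) + 3 ≤ 0 := by linarith
    nlinarith
  · -- higher levels
    push Not at hcase
    have hb := hs_power2 (H := H) a (28800 * 2 ^ (a + 1)) hg (Real.exp_pos _).le
      (fun u hu => QT_gap hk1 hk2 hu) e
    refine hb.trans ?_
    rw [← Real.exp_nat_mul, ← Real.exp_add]
    apply Real.exp_le_exp.mpr
    rw [hmR, ← hj]
    have e1 : 28800 * NR * (-(1 / 600 * (j / 2))) = j * (-(24 * NR)) := by ring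
    rw [e1]
    have hkey : -(24 * NR) + 10 + (1 + ν + L) + 3 ≤ 0 := by linarith
    nlinarith

/-- the sum over all the levels -/
theorem chi_total2 (H : ℕ) (hH : 1 ≤ H) (a : ℕ)
    (hN : wSeq H + Real.log (2 * (H : ℝ)) + 1 < (2 : ℝ) ^ (a + 1)) :
    ((Fintype.card (Pos H)).factorial : ℝ) *
      ‖((Qrec H (lreg (X := Pos H))) ^ (28800 * 2 ^ (a + 1) + 2 ^ (a + 1))) (deltaOne (Pos H))‖ ^ 2 ≤
      20 / 19 := by
  classical
  set b : ℕ → ℝ := fun j => (((2 ^ H).choose j : ℝ))⁻¹ * Real.exp (-3 * (j : ℝ)) with hb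
  have h1 := chi_le_sum H (28800 * 2 ^ (a + 1) + 2 ^ (a + 1)) (fun J => b J.card) (by
    intro J e
    by_cases hJ : J = ∅
    · subst hJ
      have : IsEmpty ((∅ : Finset (Pos H)) : Type _) := ⟨fun x => Finset.notMem_empty _ x.2⟩
      refine (level_zero _ e).trans (le_of_eq ?_)
      simp [hb]
    · have hk1 : 1 ≤ Fintype.card J := by
        rw [Fintype.card_coe]
        exact Finset.card_pos.mpr (Finset.nonempty_iff_ne_empty.mpr hJ)
      have hk2 : Fintype.card J ≤ 2 ^ H := by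
        rw [Fintype.card_coe]
        simpa using Finset.card_le_univ J
      have := level_term2 hH a hN hk1 hk2 e
      rw [Fintype.card_coe] at this
      exact this)
  refine h1.trans ?_
  have h2 : ∑ J : Finset (Pos H), b J.card = ∑ J ∈ (Finset.univ : Finset (Pos H)).powerset, b J.card := by
    rw [Finset.powerset_univ]
  rw [h2, Finset.sum_powerset_apply_card]
  have hcard : (Finset.univ : Finset (Pos H)).card = 2 ^ H := by
    simp
  rw [hcard]
  have h3 : ∀ j ∈ range (2 ^ H + 1), ((2 ^ H).choose j) • b j = (Real.exp (-3)) ^ j := by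
    intro j hj
    have hj' : j ≤ 2 ^ H := Nat.lt_succ_iff.mp (mem_range.mp hj)
    have hc : (0 : ℝ) < ((2 ^ H).choose j : ℝ) := by exact_mod_cast Nat.choose_pos hj'
    rw [nsmul_eq_mul, hb]
    simp only
    rw [← mul_assoc, mul_inv_cancel₀ hc.ne', one_mul, ← Real.exp_nat_mul]
    congr 1
    ring
  rw [sum_congr rfl h3]
  -- the geometric series
  have hy : Real.exp (-3) ≤ 1 / 20 := by
    have h4 : (20 : ℝ) ≤ Real.exp 3 := by
      have h5 : Real.exp 3 = Real.exp 1 ^ 3 := by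
        rw [← Real.exp_nat_mul]
        norm_num
      rw [h5]
      have h6 : (2.718 : ℝ) ^ 3 ≤ Real.exp 1 ^ 3 :=
        pow_le_pow_left₀ (by norm_num) (by linarith [Real.exp_one_gt_d9]) 3
      refine le_trans ?_ h6
      norm_num
    rw [Real.exp_neg, inv_eq_one_div]
    exact one_div_le_one_div_of_le (by norm_num) h4
  have hy0 : 0 ≤ Real.exp (-3) := (Real.exp_pos _).le
  have hgeo : ∀ m : ℕ, ∑ j ∈ range m, Real.exp (-3) ^ j ≤ 20 / 19 := by
    intro m
    induction m with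
    | zero => simp; norm_num
    | succ m ih =>
      rw [Finset.sum_range_succ', Finset.sum_congr rfl (fun j _ => pow_succ (Real.exp (-3)) j),
        ← Finset.sum_mul]
      simp only [pow_zero]
      nlinarith
  exact hgeo _

end two

/-- total variation at `r` passes -/
theorem tv_at_passes3 (D a : ℕ)
    (hN : wSeq (D + 1) + Real.log (2 * ((D + 1 : ℕ) : ℝ)) + 1 < (2 : ℝ) ^ (a + 1)) :
    tvToUniform (convPowP (thorpLaw (2 ^ D)) ((28800 * 2 ^ (a + 1) + 2 ^ (a + 1)) * (D + 1))) ≤ 1 / 4 := by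
  set r := 28800 * 2 ^ (a + 1) + 2 ^ (a + 1) with hr
  have h1 := chi_total2 (D + 1) (by omega) a hN
  rw [← hr, ← law_transport] at h1
  set μ := convPowP (thorpLaw (2 ^ D)) (r * (D + 1)) with hμ
  have hmass : ∑ g, μ g = 1 := convPow_sum _ (thorpLaw_sum _) _
  have hnorm : ‖lawVec (2 ^ D) (r * (D + 1))‖ ^ 2 = ∑ g, μ g ^ 2 := by
    rw [EuclideanSpace.real_norm_sq_eq]
    rfl
  rw [hnorm] at h1
  have hcard : Fintype.card (Pos (D + 1)) = 2 * 2 ^ D := by
    simp [pow_succ']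
  rw [hcard] at h1
  have htv := tv_sq_le μ hmass
  have h3 : (tvToUniform μ) ^ 2 ≤ (1 / 4) ^ 2 := by
    refine htv.trans ?_
    norm_num
    linarith
  have h4 : 0 ≤ (1 / 4 : ℝ) := by norm_num
  exact abs_le_of_sq_le_sq' h3 h4 |>.2

/-- the main theorem -/
theorem thorp_main3 (d : ℕ) :
    (∀ t : ℕ, (10 : ℝ) ^ 6 * ((d : ℝ) + 1) * (1 + Real.log ((d : ℝ) + 1)) ≤ t →
      tvToUniform (convPowP (thorpLaw (2 ^ d)) t) ≤ 1 / 4) ∧
    (thorpMix (2 ^ d) : ℝ) ≤ (10 : ℝ) ^ 6 * ((d : ℝ) + 1) * (1 + Real.log ((d : ℝ) + 1)) := by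
  have hd0 : (0 : ℝ) ≤ d := Nat.cast_nonneg _
  have hd1 : (1 : ℝ) ≤ (d : ℝ) + 1 := by linarith
  set ℓ := Real.log ((d : ℝ) + 1) with hℓ
  have hℓ0 : 0 ≤ ℓ := Real.log_nonneg hd1
  have hlog2 : Real.log 2 ≤ 0.7 := by
    have := Real.log_two_lt_d9
    linarith
  -- the size of the exponent
  set X : ℝ := wSeq (d + 1) + Real.log (2 * ((d + 1 : ℕ) : ℝ)) + 1 with hX
  have e1 : Real.log (2 * ((d + 1 : ℕ) : ℝ)) = Real.log 2 + ℓ := by
    push_cast
    rw [Real.log_mul (by norm_num) (by positivity)]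
  have e2 : Real.log (((d + 1 : ℕ) : ℝ) + 1) ≤ Real.log 2 + ℓ := by
    rw [hℓ, ← Real.log_mul (by norm_num) (by positivity)]
    apply Real.log_le_log (by positivity)
    push_cast
    linarith
  have hX1 : 1 ≤ X := by
    have := wSeq_ge (d + 1)
    have h0 : 0 ≤ Real.log (2 * ((d + 1 : ℕ) : ℝ)) := by
      rw [e1]
      have := Real.log_pos (by norm_num : (1:ℝ) < 2)
      linarith
    rw [hX]
    linarith
  have hX2 : X ≤ 16 * (1 + ℓ) := by
    have h3 : wSeq (d + 1) ≤ 8 * (1 + (Real.log 2 + ℓ)) := by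
      unfold wSeq
      linarith
    rw [hX, e1]
    linarith
  obtain ⟨a, h1, h2⟩ := exists_nat_pow_near hX1 (by norm_num : (1 : ℝ) < 2)
  have hN : X < (2 : ℝ) ^ (a + 1) := h2
  have hN2 : (2 : ℝ) ^ (a + 1) ≤ 2 * X := by
    rw [pow_succ]
    linarith
  set T := (28800 * 2 ^ (a + 1) + 2 ^ (a + 1)) * (d + 1) with hT
  have h0 : tvToUniform (convPowP (thorpLaw (2 ^ d)) T) ≤ 1 / 4 := tv_at_passes3 d a hN
  have hnum : (T : ℝ) ≤ (10 : ℝ) ^ 6 * ((d : ℝ) + 1) * (1 + ℓ) := by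
    have e : (T : ℝ) = 28801 * (2 : ℝ) ^ (a + 1) * ((d : ℝ) + 1) := by
      rw [hT]
      push_cast
      ring
    rw [e]
    have h3 : 28801 * (2 : ℝ) ^ (a + 1) ≤ 10 ^ 6 * (1 + ℓ) := by
      nlinarith
    calc 28801 * (2 : ℝ) ^ (a + 1) * ((d : ℝ) + 1) ≤ 10 ^ 6 * (1 + ℓ) * ((d : ℝ) + 1) :=
          mul_le_mul_of_nonneg_right h3 (by linarith)
      _ = _ := by ring
  have hmono : ∀ t : ℕ, T ≤ t → tvToUniform (convPowP (thorpLaw (2 ^ d)) t) ≤ 1 / 4 := by
    intro t ht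
    induction t, ht using Nat.le_induction with
    | base => exact h0
    | succ t _ ih =>
      exact (tv_conv_le _ _ (thorpLaw_nonneg _) (thorpLaw_sum _)).trans ih
  constructor
  · intro t ht
    refine hmono t ?_
    have : (T : ℝ) ≤ t := hnum.trans ht
    exact_mod_cast this
  · have h1 : thorpMix (2 ^ d) ≤ T := Nat.sInf_le h0
    have h2 : (thorpMix (2 ^ d) : ℝ) ≤ T := by exact_mod_cast h1
    exact h2.trans hnum

end Vale.Agent.Lib.P162
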