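import Vale.Agent.Lib.P162.TraceSpan

/-!
# The spaces with vanishing marginals are orthogonal to the low level spaces
-/

namespace Vale.Agent.Lib.P162

open Equiv Finset
open scoped InnerProductSpace

set_option linter.unusedSectionVars false
set_option linter.unusedSimpArgs false
set_option linter.unusedVariables false

variable {ι X : Type*} [Fintype ι] [DecidableEq ι] [Fintype X] [DecidableEq X]

/-- the pattern of a tuple relative to a set of values -/
def keyS (S : Finset X) (x : ι → X) : ι → Option X := fun i => if x i ∈ S then none else some (x i)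

/-- the sum over a pattern class -/
noncomputable def fibS (S : Finset X) (φ : TupSp ι X) (k : ι → Option X) : ℝ :=
  ∑ x : ι → X, if keyS S x = k then φ x else 0

lemma keyS_update_ne (S : Finset X) (x : ι → X) {i l : ι} (hl : l ≠ i) (v : X) :
    keyS S (Function.update x i v) l = keyS S x l := by
  simp [keyS, hl]

/-- summing over one coordinate -/
lemma sum_eq_zero_of_marginal [Nonempty X] (i : ι) (G : (ι → X) → ℝ)
    (h : ∀ x, ∑ v, G (Function.update x i v) = 0) : ∑ x, G x = 0 := by
  have h1 := avg_update i G
  have h2 : ∀ z : ι → X, avg (fun p : X => G (Function.update z i p)) = 0 := by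
    intro z
    unfold avg
    rw [h z, mul_zero]
  simp only [h2] at h1
  rw [avg_const] at h1
  unfold avg at h1
  have hc : (Fintype.card (ι → X) : ℝ) ≠ 0 := by
    have : 0 < Fintype.card (ι → X) := Fintype.card_pos
    positivity
  have := (mul_eq_zero.mp h1.symm).resolve_left (inv_ne_zero hc)
  exact this

lemma fibS_eq_zero [Nonempty X] (S : Finset X) (hS : (Sᶜ).card < Fintype.card ι) {φ : TupSp ι X}
    (hφ : φ ∈ WW ι X) (n : ℕ) : ∀ k : ι → Option X,
    (Finset.univ.filter fun i => k i = none).card = n → fibS S φ k = 0 := by
  induction n with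
  | zero =>
    intro k hk
    unfold fibS
    refine sum_eq_zero fun x _ => ?_
    by_cases hx : keyS S x = k
    · rw [if_pos hx]
      apply hφ.1
      intro hinj
      have h0 : ∀ i, k i ≠ none := by
        intro i hi
        have : i ∈ Finset.univ.filter fun i => k i = none := by simp [hi]
        rw [card_eq_zero] at hk
        rw [hk] at this
        simp at this
      have h1 : ∀ i, x i ∉ S := by
        intro i hi
        apply h0 i
        rw [← hx]
        simp [keyS, hi]
      have h2 : (Finset.univ : Finset ι).card ≤ (Sᶜ).card :=
        card_le_card_of_injOn x (fun i _ => by simpa using h1 i) (fun i _ j _ h => hinj h)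
      rw [card_univ] at h2
      omega
    · rw [if_neg hx]
  | succ n ih =>
    intro k hk
    obtain ⟨i, hi⟩ : ∃ i, k i = none := by
      by_contra hne
      push Not at hne
      have : (Finset.univ.filter fun i => k i = none) = ∅ := by
        ext i
        simp [hne i]
      rw [this] at hk
      simp at hk
    -- the updated patterns have fewer free coordinates
    have h1 : ∀ d : X, fibS S φ (Function.update k i (some d)) = 0 := by
      intro d
      apply ih
      have : (Finset.univ.filter fun l => Function.update k i (some d) l = none) =
          (Finset.univ.filter fun l => k l = none).erase i := by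
        ext l
        by_cases hl : l = i
        · subst hl; simp
        · simp [hl]
      rw [this, card_erase_of_mem (by simp [hi]), hk]
      rfl
    -- the marginal
    set G : (ι → X) → ℝ := fun x => if ∀ l, l ≠ i → keyS S x l = k l then φ x else 0 with hG
    have h2 : ∑ x, G x = 0 := by
      apply sum_eq_zero_of_marginal i
      intro x
      by_cases hx : ∀ l, l ≠ i → keyS S x l = k l
      · have : ∀ v, G (Function.update x i v) = φ (Function.update x i v) := by
          intro v
          simp only [hG]
          rw [if_pos]
          intro l hl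
          rw [keyS_update_ne S x hl]
          exact hx l hl
        simp only [this]
        exact hφ.2 x i
      · have : ∀ v, G (Function.update x i v) = 0 := by
          intro v
          simp only [hG]
          rw [if_neg]
          intro h
          apply hx
          intro l hl
          rw [← h l hl, keyS_update_ne S x hl]
        simp only [this, sum_const_zero]
    -- the decomposition
    have h3 : ∀ x, G x = (if keyS S x = k then φ x else 0) +
        ∑ d ∈ Sᶜ, (if keyS S x = Function.update k i (some d) then φ x else 0) := by
      intro x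
      simp only [hG]
      by_cases hx : ∀ l, l ≠ i → keyS S x l = k l
      · rw [if_pos hx]
        by_cases hxi : x i ∈ S
        · have e1 : keyS S x = k := by
            funext l
            by_cases hl : l = i
            · subst hl
              rw [hi]
              simp [keyS, hxi]
            · exact hx l hl
          rw [if_pos e1, sum_eq_zero]
          · ring
          · intro d hd
            rw [if_neg]
            intro h
            have := congrFun h i
            simp [keyS, hxi] at this
        · have e1 : keyS S x ≠ k := by
            intro h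
            have := congrFun h i
            rw [hi] at this
            simp [keyS, hxi] at this
          rw [if_neg e1, zero_add, sum_eq_single (x i)]
          · rw [if_pos]
            funext l
            by_cases hl : l = i
            · subst hl
              simp [keyS, hxi]
            · rw [Function.update_of_ne hl]
              exact hx l hl
          · intro d _ hd
            rw [if_neg]
            intro h
            have := congrFun h i
            simp only [Function.update_self, keyS, if_neg hxi] at this
            exact hd (Option.some.inj this).symm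
          · intro h
            exact absurd (by simpa using hxi) h
      · rw [if_neg hx, if_neg, sum_eq_zero]
        · ring
        · intro d _
          rw [if_neg]
          intro h
          apply hx
          intro l hl
          rw [h, Function.update_of_ne hl]
        · intro h
          apply hx
          intro l _
          rw [h]
    simp only [h3, sum_add_distrib] at h2
    rw [sum_comm] at h2
    have h4 : ∑ d ∈ Sᶜ, ∑ x : ι → X, (if keyS S x = Function.update k i (some d) then φ x else 0) = 0 :=
      sum_eq_zero fun d _ => h1 d
    rw [h4, add_zero] at h2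
    exact h2

/-- invariant functions are constant on the injective tuples of a pattern class -/
lemma psi_const {S : Finset X} {ψ : TupSp ι X} (hψ : ψ ∈ invS tupRep S) (x' : ι → X)
    (hx' : Function.Injective x') (n : ℕ) : ∀ x : ι → X, Function.Injective x → keyS S x = keyS S x' →
    (Finset.univ.filter fun i => x i ≠ x' i).card = n → ψ x = ψ x' := by
  induction n using Nat.strong_induction_on with
  | _ n ih =>
    intro x hx hk hn
    by_cases hex : ∃ i, x i ≠ x' i
    · obtain ⟨i, hi⟩ := hex
      have ha : x i ∈ S := by
        by_contra h
        have := congrFun hk i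
        simp only [keyS, if_neg h] at this
        by_cases h' : x' i ∈ S
        · simp [h'] at this
        · simp only [if_neg h', Option.some.injEq] at this
          exact hi this
      have hb : x' i ∈ S := by
        by_contra h
        have := congrFun hk i
        simp only [keyS, if_neg h, if_pos ha] at this
        simp at this
      set a := x i with hadef
      set b := x' i with hbdef
      set y : ι → X := fun l => swap a b (x l) with hy
      have h1 : ψ y = ψ x := by
        have h2 := congrArg (fun f : TupSp ι X => f x) (hψ a ha b hb)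
        simp only [tupRep_apply, swap_inv] at h2
        exact h2
      have hyinj : Function.Injective y := fun l m h => hx ((swap a b).injective h)
      have hky : keyS S y = keyS S x' := by
        rw [← hk]
        funext l
        simp only [keyS, hy]
        by_cases hl : x l ∈ S
        · have : swap a b (x l) ∈ S := by
            by_cases h1 : x l = a
            · rw [h1, swap_apply_left]; exact hb
            · by_cases h2 : x l = b
              · rw [h2, swap_apply_right]; exact ha
              · rw [swap_apply_of_ne_of_ne h1 h2]; exact hl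
          rw [if_pos this, if_pos hl]
        · have h1 : x l ≠ a := fun h => hl (h ▸ ha)
          have h2 : x l ≠ b := fun h => hl (h ▸ hb)
          rw [swap_apply_of_ne_of_ne h1 h2, if_neg hl]
      have hsub : (Finset.univ.filter fun l => y l ≠ x' l) ⊂ (Finset.univ.filter fun l => x l ≠ x' l) := by
        refine ⟨fun l hl => ?_, fun h => ?_⟩
        · simp only [mem_filter, mem_univ, true_and] at hl ⊢
          intro hll
          apply hl
          simp only [hy]
          by_cases h1 : x l = a
          · have : l = i := hx h1
            subst this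
            exact absurd hll hi
          · by_cases h2 : x l = b
            · have : x' l = x' i := by rw [← hll, h2]
              have : l = i := hx' this
              subst this
              exact absurd hll hi
            · rw [swap_apply_of_ne_of_ne h1 h2, hll]
        · have : i ∈ Finset.univ.filter fun l => x l ≠ x' l := by simpa using hi
          have h3 := h this
          simp only [mem_filter, mem_univ, true_and, hy] at h3
          apply h3
          rw [← hadef, swap_apply_left]
      have hlt := card_lt_card hsub
      rw [hn] at hlt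
      rw [← h1]
      exact ih _ hlt y hyinj hky rfl
    · push Not at hex
      have : x = x' := funext hex
      rw [this]

/-- the spaces with vanishing marginals are orthogonal to invariant vectors -/
theorem WW_perp_invS [Nonempty X] (S : Finset X) (hS : (Sᶜ).card < Fintype.card ι) {φ ψ : TupSp ι X}
    (hφ : φ ∈ WW ι X) (hψ : ψ ∈ invS tupRep S) : ⟪ψ, φ⟫_ℝ = 0 := by
  classical
  simp only [PiLp.inner_apply, RCLike.inner_apply, conj_trivial]
  -- sum over pattern classes
  have h1 : ∀ x : ι → X, φ x * ψ x =
      ∑ k : ι → Option X, if keyS S x = k then φ x * ψ x else 0 := by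
    intro x
    simp
  rw [Finset.sum_congr rfl fun x _ => h1 x, sum_comm]
  refine sum_eq_zero fun k _ => ?_
  by_cases hex : ∃ x0 : ι → X, Function.Injective x0 ∧ keyS S x0 = k
  · obtain ⟨x0, hx0, hk0⟩ := hex
    have h2 : ∀ x : ι → X, (if keyS S x = k then φ x * ψ x else 0) =
        (if keyS S x = k then φ x else 0) * ψ x0 := by
      intro x
      by_cases hx : keyS S x = k
      · rw [if_pos hx, if_pos hx]
        by_cases hinj : Function.Injective x
        · rw [psi_const hψ x0 hx0 _ x hinj (hx.trans hk0.symm) rfl]
        · rw [hφ.1 x hinj]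
          ring
      · rw [if_neg hx, if_neg hx, zero_mul]
    simp only [h2]
    rw [← sum_mul]
    have h3 := fibS_eq_zero S hS hφ _ k rfl
    unfold fibS at h3
    rw [h3, zero_mul]
  · refine sum_eq_zero fun x _ => ?_
    by_cases hx : keyS S x = k
    · rw [if_pos hx]
      have : ¬ Function.Injective x := fun h => hex ⟨x, h, hx⟩
      rw [hφ.1 x this]
      ring
    · rw [if_neg hx]

/-- the spaces with vanishing marginals are orthogonal to the low levels -/
theorem WW_perp_level [Nonempty X] (hι1 : 1 ≤ Fintype.card ι) (hι2 : Fintype.card ι ≤ Fintype.card X)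
    {φ : TupSp ι X} (hφ : φ ∈ WW ι X) :
    φ ∈ (levelSpace (tupRep (ι := ι) (X := X)) (Fintype.card X - Fintype.card ι))ᗮ := by
  rw [Submodule.mem_orthogonal]
  intro ψ hψ
  unfold levelSpace at hψ
  induction hψ using Submodule.iSup_induction' with
  | mem S x hx =>
    refine WW_perp_invS S.1 ?_ hφ hx
    rw [card_compl, S.2]
    omega
  | zero => simp
  | add x y _ _ hx hy =>
    rw [inner_add_left, hx, hy, add_zero]

section gap

variable {V : Type*} [NormedAddCommGroup V] [InnerProductSpace ℝ V] [FiniteDimensional ℝ V]

/-- the quadratic form of the exponential on an invariant subspace -/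
lemma expo_le_on_invariant (W : Submodule ℝ V) {A : V →L[ℝ] V} (hA : IsSym A)
    (hW : ∀ w ∈ W, A w ∈ W) {c s : ℝ} (hs : 0 ≤ s) (hc : ∀ w ∈ W, c * ‖w‖ ^ 2 ≤ ⟪w, A w⟫_ℝ)
    {u : V} (hu : u ∈ W) : ⟪u, expo (-s) A u⟫_ℝ ≤ Real.exp (-(s * c)) * ‖u‖ ^ 2 := by
  have : CompleteSpace V := FiniteDimensional.complete ℝ V
  obtain ⟨b, μ, hb⟩ := exists_eigen_restrict W A hA hW
  have hμ : ∀ i, c ≤ μ i := by
    intro i
    have h1 := hc _ (b i).2
    rw [hb i, inner_smul_right, real_inner_self_eq_norm_sq] at h1
    have h2 : ‖(b i : V)‖ = 1 := b.orthonormal.1 i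
    rw [h2] at h1
    simpa using h1
  set u' : W := ⟨u, hu⟩ with hu'
  have h1 : u = ∑ i, ⟪b i, u'⟫_ℝ • (b i : V) := by
    have h2 : u' = ∑ i, ⟪b i, u'⟫_ℝ • b i := (b.sum_repr' _).symm
    have := congrArg Subtype.val h2
    simpa using this
  have h2 : ∀ i, ⟪u, (b i : V)⟫_ℝ = ⟪b i, u'⟫_ℝ := by
    intro i
    rw [real_inner_comm]
    rfl
  have hexpo : expo (-s) A u = ∑ i, ⟪b i, u'⟫_ℝ • (Real.exp (-s * μ i) • (b i : V)) := by
    conv_lhs => rw [h1]
    rw [map_sum]
    refine sum_congr rfl fun i _ => ?_
    rw [map_smul, expo_apply_of_eigen _ (hb i)]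
  have h3 : ⟪u, expo (-s) A u⟫_ℝ = ∑ i, Real.exp (-s * μ i) * ⟪b i, u'⟫_ℝ ^ 2 := by
    rw [hexpo, inner_sum]
    refine sum_congr rfl fun i _ => ?_
    rw [inner_smul_right, inner_smul_right, h2]
    ring
  have h4 : ‖u‖ ^ 2 = ∑ i, ⟪b i, u'⟫_ℝ ^ 2 := by
    have h5 : ‖u'‖ ^ 2 = ∑ i, ‖⟪b i, u'⟫_ℝ‖ ^ 2 := (b.sum_sq_norm_inner_right u').symm
    have h6 : ‖u'‖ = ‖u‖ := rfl
    rw [← h6, h5]
    simp
  rw [h3, h4, mul_sum]
  refine sum_le_sum fun i _ => ?_
  apply mul_le_mul_of_nonneg_right _ (by positivity)
  apply Real.exp_le_exp.mpr
  have := hμ i
  nlinarith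

end gap

variable {D : ℕ}

lemma Lap_mem_orth {m : ℕ} {ρ : Perm (Pos D) →* (TupSp ι (Pos D) →L[ℝ] TupSp ι (Pos D))} (hρ : IsOrth ρ)
    {w : TupSp ι (Pos D)} (hw : w ∈ (levelSpace ρ m)ᗮ) : Lap ρ w ∈ (levelSpace ρ m)ᗮ := by
  unfold Lap
  rw [smul_apply]
  apply Submodule.smul_mem
  rw [_root_.sum_apply]
  apply Submodule.sum_mem
  intro x _
  rw [_root_.sum_apply]
  apply Submodule.sum_mem
  intro y _
  rw [sub_apply]
  apply Submodule.sub_mem _ (by simpa using hw)
  exact level_orth_invariant hρ hw _

/-- the gap bound: a pass contracts the spaces with vanishing marginals -/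
theorem QT_gap (hι1 : 1 ≤ Fintype.card ι) (hι2 : Fintype.card ι ≤ 2 ^ D) {φ : TupSp ι (Pos D)}
    (hφ : φ ∈ WW ι (Pos D)) :
    ‖QT ι D φ‖ ^ 2 ≤ Real.exp (-((1 / 600) * ((Fintype.card ι : ℝ) / 2))) * ‖φ‖ ^ 2 := by
  have hcard : Fintype.card (Pos D) = 2 ^ D := by simp
  have hmem := WW_perp_level hι1 (by rw [hcard]; exact hι2) hφ
  rw [hcard] at hmem
  set m := 2 ^ D - Fintype.card ι with hm
  have hρ := tupRep_isOrth (ι := ι) (X := Pos D)
  have h1 := Qrec_bound D (tupRep (ι := ι) (X := Pos D)) hρ φ
  have hτ : 1 / 600 ≤ tauSeq D := by
    unfold tauSeq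
    have : (0 : ℝ) ≤ (3 / 4) ^ D := by positivity
    linarith
  have hgap : ∀ w ∈ (levelSpace (tupRep (ι := ι) (X := Pos D)) m)ᗮ,
      ((Fintype.card ι : ℝ) / 2) * ‖w‖ ^ 2 ≤ ⟪w, Lap tupRep w⟫_ℝ := by
    intro w hw
    have h2 := level_gap hρ m (by rw [hcard]; positivity) hw
    rw [hcard] at h2
    have e : (((2 ^ D : ℕ) : ℝ) - m) / 2 = (Fintype.card ι : ℝ) / 2 := by
      rw [hm, Nat.cast_sub hι2]
      ring
    rwa [e] at h2
  have h3 := expo_le_on_invariant _ (Lap_isSym hρ) (fun w hw => Lap_mem_orth hρ hw)
    (s := tauSeq D) (tau_numbers D).1 hgap hmem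
  refine h1.trans (h3.trans ?_)
  apply mul_le_mul_of_nonneg_right _ (by positivity)
  apply Real.exp_le_exp.mpr
  have h4 : (0:ℝ) ≤ (Fintype.card ι : ℝ) / 2 := by positivity
  nlinarith

end Vale.Agent.Lib.P162
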