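import Mathlib

/-!
# A dyadic Hölder inequality for traces of products of matrices
-/

namespace Vale.Agent.Lib.P162

open Finset Matrix

set_option linter.unusedSectionVars false
set_option linter.unusedSimpArgs false
set_option linter.unusedVariables false

variable {M : Type*} [Fintype M] [DecidableEq M]

lemma tr_mul_transpose (A : Matrix M M ℝ) : trace (A * Aᵀ) = ∑ i, ∑ j, A i j ^ 2 := by
  unfold trace
  refine sum_congr rfl fun i _ => ?_
  simp only [diag_apply, mul_apply, transpose_apply]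
  exact sum_congr rfl fun j _ => by ring

lemma tr_mul_transpose_nonneg (A : Matrix M M ℝ) : 0 ≤ trace (A * Aᵀ) := by
  rw [tr_mul_transpose]
  exact sum_nonneg fun i _ => sum_nonneg fun j _ => by positivity

/-- Cauchy-Schwarz for the trace -/
lemma tr_cs (A B : Matrix M M ℝ) : trace (A * B) ^ 2 ≤ trace (A * Aᵀ) * trace (B * Bᵀ) := by
  rw [tr_mul_transpose, tr_mul_transpose]
  have h1 : trace (A * B) = ∑ p : M × M, A p.1 p.2 * B p.2 p.1 := by
    unfold trace
    rw [Fintype.sum_prod_type]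
    refine sum_congr rfl fun i _ => ?_
    simp only [diag_apply, mul_apply]
  have h2 : (∑ i, ∑ j, A i j ^ 2) = ∑ p : M × M, A p.1 p.2 ^ 2 := by
    rw [Fintype.sum_prod_type]
  have h3 : (∑ i, ∑ j, B i j ^ 2) = ∑ p : M × M, B p.2 p.1 ^ 2 := by
    rw [Fintype.sum_prod_type_right]
  rw [h1, h2, h3]
  exact sum_mul_sq_le_sq_mul_sq _ _ _

lemma tr_pow_comm (U V : Matrix M M ℝ) (c : ℕ) : trace ((U * V) ^ c) = trace ((V * U) ^ c) := by
  cases c with
  | zero => simp
  | succ m =>
    have h : U * (V * U) ^ m = (U * V) ^ m * U := by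
      have : SemiconjBy U (V * U) (U * V) := by
        unfold SemiconjBy
        rw [mul_assoc]
      exact (this.pow_right m).eq
    rw [pow_succ (U * V) m, pow_succ' (V * U) m]
    calc trace ((U * V) ^ m * (U * V)) = trace ((U * V) ^ m * U * V) := by rw [mul_assoc]
      _ = trace (U * (V * U) ^ m * V) := by rw [h]
      _ = trace (V * (U * (V * U) ^ m)) := by rw [trace_mul_comm]
      _ = trace (V * U * (V * U) ^ m) := by rw [mul_assoc]

lemma transpose_mul_self_pow (X : Matrix M M ℝ) (m : ℕ) :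
    (((X * Xᵀ) ^ m)ᵀ) = (X * Xᵀ) ^ m := by
  rw [transpose_pow, transpose_mul, transpose_transpose]

/-- the dyadic Schatten quantity -/
noncomputable def sch (X : Matrix M M ℝ) (k : ℕ) : ℝ := trace ((X * Xᵀ) ^ (2 ^ k))

lemma tr_pow_nonneg (X : Matrix M M ℝ) (n : ℕ) : 0 ≤ trace ((X * Xᵀ) ^ n) := by
  obtain ⟨m, rfl | rfl⟩ := Nat.even_or_odd' n
  · have e : (X * Xᵀ) ^ (2 * m) = (X * Xᵀ) ^ m * ((X * Xᵀ) ^ m)ᵀ := by
      rw [transpose_mul_self_pow, two_mul, pow_add]
    rw [e]
    exact tr_mul_transpose_nonneg _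
  · have e : (X * Xᵀ) ^ (2 * m + 1) = ((X * Xᵀ) ^ m * X) * ((X * Xᵀ) ^ m * X)ᵀ := by
      rw [transpose_mul, transpose_mul_self_pow, two_mul, pow_succ, pow_add]
      simp only [mul_assoc]
      congr 1
      have : X * (Xᵀ * (X * Xᵀ) ^ m) = (X * Xᵀ) * (X * Xᵀ) ^ m := by
        simp only [mul_assoc]
      rw [this, ← pow_succ', ← pow_succ]
    rw [e]
    exact tr_mul_transpose_nonneg _

lemma sch_nonneg (X : Matrix M M ℝ) (k : ℕ) : 0 ≤ sch X k := tr_pow_nonneg X _

lemma sch_transpose (X : Matrix M M ℝ) (k : ℕ) : sch Xᵀ k = sch X k := by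
  unfold sch
  rw [transpose_transpose, tr_pow_comm]

/-- products of a sequence of letters -/
def wordP (X : ℕ → Matrix M M ℝ) : ℕ → Matrix M M ℝ
  | 0 => 1
  | L + 1 => wordP X L * X L

lemma wordP_group (X : ℕ → Matrix M M ℝ) (L : ℕ) :
    wordP X (2 * L) = wordP (fun j => X (2 * j) * X (2 * j + 1)) L := by
  induction L with
  | zero => rfl
  | succ L ih =>
    rw [show 2 * (L + 1) = 2 * L + 1 + 1 by ring]
    show wordP X (2 * L) * X (2 * L) * X (2 * L + 1) = wordP _ L * (X (2 * L) * X (2 * L + 1))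
    rw [ih, mul_assoc]

lemma prod_range_two (f : ℕ → ℝ) (L : ℕ) :
    ∏ i ∈ range (2 * L), f i = ∏ j ∈ range L, (f (2 * j) * f (2 * j + 1)) := by
  induction L with
  | zero => simp
  | succ L ih =>
    rw [show 2 * (L + 1) = 2 * L + 1 + 1 by ring, prod_range_succ, prod_range_succ, ih,
      prod_range_succ, mul_assoc]

/-- the two letter inequality follows from the inequality for words -/
lemma two_letter (k : ℕ)
    (hk : ∀ X : ℕ → Matrix M M ℝ, trace (wordP X (2 ^ (k + 1))) ^ (2 ^ (k + 1)) ≤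
      ∏ i ∈ range (2 ^ (k + 1)), sch (X i) k)
    (X Y : Matrix M M ℝ) : sch (X * Y) k ^ 2 ≤ sch X (k + 1) * sch Y (k + 1) := by
  set c := 2 ^ k with hc
  have hc0 : c ≠ 0 := by positivity
  set P := Xᵀ * X with hP
  set Q := Y * Yᵀ with hQ
  have e1 : sch (X * Y) k = trace ((Q * P) ^ c) := by
    unfold sch
    rw [← hc, transpose_mul]
    have : X * Y * (Yᵀ * Xᵀ) = X * (Q * Xᵀ) := by
      rw [hQ]
      simp only [mul_assoc]
    rw [this, tr_pow_comm]
    have : Q * Xᵀ * X = Q * P := by
      rw [hP, mul_assoc]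
    rw [this]
  -- the word with alternating letters
  set Z : ℕ → Matrix M M ℝ := fun j => if j % 2 = 0 then Q else P with hZ
  have hw : wordP Z (2 * c) = (Q * P) ^ c := by
    rw [wordP_group]
    have : (fun j => Z (2 * j) * Z (2 * j + 1)) = fun _ => Q * P := by
      funext j
      simp only [hZ]
      have h1 : (2 * j) % 2 = 0 := by omega
      have h2 : (2 * j + 1) % 2 ≠ 0 := by omega
      rw [if_pos h1, if_neg h2]
    rw [this]
    clear_value c
    clear hc hc0 e1
    induction c with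
    | zero => rfl
    | succ c ih =>
      show wordP _ c * (Q * P) = _
      rw [ih, pow_succ]
  have e2 : (2:ℕ) ^ (k + 1) = 2 * c := by
    rw [hc, pow_succ]; ring
  have h := hk Z
  rw [e2, hw, ← e1, prod_range_two] at h
  have hq : sch Q k = sch Y (k + 1) := by
    unfold sch
    have hqt : Qᵀ = Q := by
      rw [hQ, transpose_mul, transpose_transpose]
    rw [hqt, ← pow_two, ← pow_mul, hQ]
    congr 2
    rw [pow_succ]; ring
  have hp : sch P k = sch X (k + 1) := by
    unfold sch
    have hpt : Pᵀ = P := by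
      rw [hP, transpose_mul, transpose_transpose]
    rw [hpt, ← pow_two, ← pow_mul, hP, tr_pow_comm]
    congr 2
    rw [pow_succ]; ring
  have h3 : (∏ j ∈ range c, (sch (Z (2 * j)) k * sch (Z (2 * j + 1)) k)) =
      (sch X (k + 1) * sch Y (k + 1)) ^ c := by
    have : ∀ j, sch (Z (2 * j)) k * sch (Z (2 * j + 1)) k = sch X (k + 1) * sch Y (k + 1) := by
      intro j
      simp only [hZ]
      have h1 : (2 * j) % 2 = 0 := by omega
      have h2 : (2 * j + 1) % 2 ≠ 0 := by omega
      rw [if_pos h1, if_neg h2, hq, hp, mul_comm]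
    simp only [this, prod_const, card_range]
  rw [h3, mul_comm 2 c, pow_mul'] at h
  -- take roots
  have h0 : 0 ≤ sch (X * Y) k ^ 2 := by positivity
  have h1 : 0 ≤ sch X (k + 1) * sch Y (k + 1) := mul_nonneg (sch_nonneg _ _) (sch_nonneg _ _)
  exact (pow_le_pow_iff_left₀ h0 h1 hc0).mp h

/-- the inequality for words of dyadic length -/
theorem word_bound (k : ℕ) : ∀ X : ℕ → Matrix M M ℝ,
    trace (wordP X (2 ^ (k + 1))) ^ (2 ^ (k + 1)) ≤ ∏ i ∈ range (2 ^ (k + 1)), sch (X i) k := by
  induction k with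
  | zero =>
    intro X
    have h := tr_cs (X 0) (X 1)
    simpa [wordP, sch, prod_range_succ] using h
  | succ k ih =>
    intro X
    set L := 2 ^ (k + 1) with hL
    have e1 : (2:ℕ) ^ (k + 1 + 1) = 2 * L := by
      rw [hL, pow_succ]; ring
    rw [e1, wordP_group, prod_range_two, mul_comm 2 L, pow_mul]
    set Z : ℕ → Matrix M M ℝ := fun j => X (2 * j) * X (2 * j + 1) with hZ
    have h1 := ih Z
    have h0 : 0 ≤ trace (wordP Z L) ^ L := by
      have : Even L := by
        rw [hL, pow_succ]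
        exact ⟨2 ^ k, by ring⟩
      exact this.pow_nonneg _
    calc (trace (wordP Z L) ^ L) ^ 2 ≤ (∏ i ∈ range L, sch (Z i) k) ^ 2 :=
          pow_le_pow_left₀ h0 h1 2
      _ = ∏ i ∈ range L, sch (Z i) k ^ 2 := by rw [prod_pow]
      _ ≤ ∏ j ∈ range L, (sch (X (2 * j)) (k + 1) * sch (X (2 * j + 1)) (k + 1)) := by
          apply prod_le_prod
          · intro i _; positivity
          · intro i _
            exact two_letter k ih _ _

lemma wordP_split (X : ℕ → Matrix M M ℝ) (N : ℕ) (A : Matrix M M ℝ) (hX : ∀ i, i < N → X i = A)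
    (n : ℕ) (hn : n ≤ N) : wordP X n = A ^ n := by
  induction n with
  | zero => rfl
  | succ n ih =>
    show wordP X n * X n = _
    rw [ih (by omega), hX n (by omega), pow_succ]

/-- the power inequality used in the sequel -/
theorem power_bound (A : Matrix M M ℝ) (k : ℕ) :
    trace (A ^ (2 ^ k) * (A ^ (2 ^ k))ᵀ) ≤ trace ((A * Aᵀ) ^ (2 ^ k)) := by
  set N := 2 ^ k with hN
  have hN0 : N ≠ 0 := by positivity
  set X : ℕ → Matrix M M ℝ := fun i => if i < N then A else Aᵀ with hX
  have hw1 : wordP X N = A ^ N := wordP_split X N A (fun i hi => by simp [hX, hi]) N le_rfl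
  have hw2 : ∀ n, n ≤ N → wordP X (N + n) = A ^ N * Aᵀ ^ n := by
    intro n hn
    induction n with
    | zero => simp [hw1]
    | succ n ih =>
      show wordP X (N + n) * X (N + n) = _
      rw [ih (by omega)]
      have : X (N + n) = Aᵀ := by
        simp [hX]
      rw [this, pow_succ, mul_assoc]
  have e1 : (2:ℕ) ^ (k + 1) = N + N := by
    rw [hN, pow_succ]; ring
  have h := word_bound k X
  rw [e1, hw2 N le_rfl, prod_range_add] at h
  have h1 : ∏ i ∈ range N, sch (X i) k = sch A k ^ N := by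
    have : ∀ i ∈ range N, sch (X i) k = sch A k := by
      intro i hi
      simp [hX, mem_range.mp hi]
    rw [prod_congr rfl this]
    simp
  have h2 : ∏ i ∈ range N, sch (X (N + i)) k = sch A k ^ N := by
    have : ∀ i ∈ range N, sch (X (N + i)) k = sch A k := by
      intro i hi
      simp [hX, sch_transpose]
    rw [prod_congr rfl this]
    simp
  rw [h1, h2, ← pow_add, ← transpose_pow] at h
  have h3 : 0 ≤ trace (A ^ N * (A ^ N)ᵀ) := tr_mul_transpose_nonneg _
  exact (pow_le_pow_iff_left₀ h3 (sch_nonneg _ _) (by omega)).mp h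

end Vale.Agent.Lib.P162
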