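import Vale.Agent.Lib.P162.Avg

/-!
# A doubling form of Young's inequality for symmetric kernels
-/

namespace Vale.Agent.Lib.P162

open Finset Matrix

set_option linter.unusedSectionVars false
set_option linter.unusedSimpArgs false
set_option linter.unusedVariables false

variable {M : Type*} [Fintype M] [DecidableEq M]

/-- one doubling step -/
theorem young_step (K : Matrix M M ℝ) (hK : ∀ x y, 0 ≤ K x y) (hs : ∀ x y, K x y = K y x)
    {p r L : ℝ} (hp : 1 < p) (hr : 1 < r) (hpr : 1 / r = 2 / p - 1)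
    (hL : ∀ x, ∑ y, K x y ^ p ≤ L) (x : M) :
    ∑ z, (K * K) x z ^ r ≤ L ^ (r + 1) := by
  have hp0 : 0 < p := by linarith
  have hr0 : 0 < r := by linarith
  by_cases hM : IsEmpty M
  · have : IsEmpty M := hM
    exact (this.false x).elim
  obtain ⟨x0⟩ := not_isEmpty_iff.mp hM
  have hL0 : 0 ≤ L := le_trans (sum_nonneg fun y _ => Real.rpow_nonneg (hK _ _) _) (hL x0)
  -- the conjugate exponent of r
  have hH : r.HolderConjugate (r / (r - 1)) := Real.HolderConjugate.conjExponent hr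
  set r' := r / (r - 1) with hr'
  have hr'0 : 0 < r' := hH.symm.pos
  have hinv : 1 / r + 1 / r' = 1 := by
    have := hH.inv_add_inv_eq_one
    simpa [one_div] using this
  have hexp : (1 - p / r) * r' = p / 2 := by
    have h1 : 2 / p = 1 / r + 1 := by linarith
    have hr1 : r - 1 ≠ 0 := by linarith
    rw [hr']
    field_simp at h1 ⊢
    nlinarith
  have hpr1 : p < r := by
    have h1 : 1 / r < 1 / p := by
      have : 1 / p < 1 := by
        rw [div_lt_one hp0]; exact hp
      have e : 2 / p = 1 / p + 1 / p := by ring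
      linarith
    exact (one_div_lt_one_div hr0 hp0).mp h1
  have hexp0 : 0 < 1 - p / r := by
    rw [sub_pos, div_lt_one hr0]
    exact hpr1
  -- the pointwise bound
  have hpt : ∀ z, (K * K) x z ^ r ≤ (∑ y, K x y ^ p * K y z ^ p) * L ^ (r - 1) := by
    intro z
    set a : M → ℝ := fun y => K x y with ha
    set b : M → ℝ := fun y => K y z with hb
    have ha0 : ∀ y, 0 ≤ a y := fun y => hK _ _
    have hb0 : ∀ y, 0 ≤ b y := fun y => hK _ _
    have hab0 : ∀ y, 0 ≤ a y * b y := fun y => mul_nonneg (ha0 y) (hb0 y)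
    have e1 : (K * K) x z = ∑ y, (a y * b y) ^ (p / r) * (a y * b y) ^ (1 - p / r) := by
      rw [mul_apply]
      refine sum_congr rfl fun y _ => ?_
      by_cases h0 : a y * b y = 0
      · rw [h0, Real.zero_rpow (by positivity), zero_mul]
      · have hpos : 0 < a y * b y := lt_of_le_of_ne (hab0 y) (Ne.symm h0)
        rw [← Real.rpow_add hpos]
        simp
        rfl
    have h1 := Real.inner_le_Lp_mul_Lq (Finset.univ) (fun y => (a y * b y) ^ (p / r))
      (fun y => (a y * b y) ^ (1 - p / r)) hH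
    simp only [abs_of_nonneg (Real.rpow_nonneg (hab0 _) _)] at h1
    rw [← e1] at h1
    have e2 : ∀ y, ((a y * b y) ^ (p / r)) ^ r = a y ^ p * b y ^ p := by
      intro y
      rw [← Real.rpow_mul (hab0 y), show p / r * r = p by field_simp,
        Real.mul_rpow (ha0 y) (hb0 y)]
    have e3 : ∀ y, ((a y * b y) ^ (1 - p / r)) ^ r' = (a y * b y) ^ (p / 2) := by
      intro y
      rw [← Real.rpow_mul (hab0 y), hexp]
    simp only [e2, e3] at h1
    -- Cauchy-Schwarz
    have hcs : ∑ y, (a y * b y) ^ (p / 2) ≤ L := by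
      have h2 : ∀ y, (a y * b y) ^ (p / 2) = a y ^ (p / 2) * b y ^ (p / 2) := fun y =>
        Real.mul_rpow (ha0 y) (hb0 y)
      simp only [h2]
      have h3 := Real.sum_mul_le_sqrt_mul_sqrt (Finset.univ) (fun y => a y ^ (p / 2))
        (fun y => b y ^ (p / 2))
      have e4 : ∀ y, (a y ^ (p / 2)) ^ 2 = a y ^ p := by
        intro y
        rw [← Real.rpow_natCast, ← Real.rpow_mul (ha0 y)]
        congr 1
        push_cast
        ring
      have e5 : ∀ y, (b y ^ (p / 2)) ^ 2 = b y ^ p := by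
        intro y
        rw [← Real.rpow_natCast, ← Real.rpow_mul (hb0 y)]
        congr 1
        push_cast
        ring
      simp only [e4, e5] at h3
      refine h3.trans ?_
      have h4 : ∑ y, a y ^ p ≤ L := hL x
      have h5 : ∑ y, b y ^ p ≤ L := by
        have : ∀ y, b y = K z y := fun y => hs _ _
        simp only [this]
        exact hL z
      calc √(∑ y, a y ^ p) * √(∑ y, b y ^ p) ≤ √L * √L :=
            mul_le_mul (Real.sqrt_le_sqrt h4) (Real.sqrt_le_sqrt h5) (Real.sqrt_nonneg _)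
              (Real.sqrt_nonneg _)
        _ = L := Real.mul_self_sqrt hL0
    have hS0 : 0 ≤ ∑ y, a y ^ p * b y ^ p :=
      sum_nonneg fun y _ => mul_nonneg (Real.rpow_nonneg (ha0 y) _) (Real.rpow_nonneg (hb0 y) _)
    have hT0 : 0 ≤ ∑ y, (a y * b y) ^ (p / 2) := sum_nonneg fun y _ => Real.rpow_nonneg (hab0 y) _
    have h2 : (K * K) x z ≤ (∑ y, a y ^ p * b y ^ p) ^ (1 / r) * L ^ (1 / r') :=
      h1.trans (mul_le_mul_of_nonneg_left (Real.rpow_le_rpow hT0 hcs (by positivity))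
        (Real.rpow_nonneg hS0 _))
    have hKK0 : 0 ≤ (K * K) x z := by
      rw [mul_apply]
      exact sum_nonneg fun y _ => mul_nonneg (hK _ _) (hK _ _)
    have h3 := Real.rpow_le_rpow hKK0 h2 hr0.le
    rw [Real.mul_rpow (Real.rpow_nonneg hS0 _) (Real.rpow_nonneg hL0 _), ← Real.rpow_mul hS0,
      ← Real.rpow_mul hL0, show 1 / r * r = 1 by field_simp, Real.rpow_one] at h3
    have e6 : 1 / r' * r = r - 1 := by
      have hr1 : r - 1 ≠ 0 := by linarith
      rw [hr']
      field_simp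
    rw [e6] at h3
    exact h3
  refine (sum_le_sum fun z _ => hpt z).trans ?_
  rw [← sum_mul]
  have h2 : ∑ z, ∑ y, K x y ^ p * K y z ^ p ≤ L * L := by
    rw [sum_comm]
    have h3 : ∀ y, ∑ z, K x y ^ p * K y z ^ p ≤ K x y ^ p * L := by
      intro y
      rw [← mul_sum]
      exact mul_le_mul_of_nonneg_left (hL y) (Real.rpow_nonneg (hK _ _) _)
    refine (sum_le_sum fun y _ => h3 y).trans ?_
    rw [← sum_mul]
    exact mul_le_mul_of_nonneg_right (hL x) hL0
  have h3 : L ^ (r + 1) = L * L * L ^ (r - 1) := by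
    by_cases hLz : L = 0
    · rw [hLz, Real.zero_rpow (by linarith)]
      simp
    · have hLp : 0 < L := lt_of_le_of_ne hL0 (Ne.symm hLz)
      have e7 : r + 1 = 1 + 1 + (r - 1) := by ring
      rw [e7, Real.rpow_add hLp, Real.rpow_add hLp, Real.rpow_one]
  rw [h3]
  exact mul_le_mul_of_nonneg_right h2 (Real.rpow_nonneg hL0 _)

/-- the exponents of the iteration -/
noncomputable def pexp (a i : ℕ) : ℝ := (1 - (2 : ℝ) ^ i / 2 ^ a)⁻¹

lemma pexp_props (a i : ℕ) (hi : i < a) :
    1 < pexp a i ∧ 1 / pexp a i = 1 - (2 : ℝ) ^ i / 2 ^ a := by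
  have h1 : (2 : ℝ) ^ i / 2 ^ a ≤ 1 / 2 := by
    rw [div_le_iff₀ (by positivity)]
    have : (2:ℝ) ^ a = 2 ^ (a - i - 1) * 2 ^ i * 2 := by
      rw [← pow_add, ← pow_succ]
      congr 1
      omega
    rw [this]
    have h2 : (1:ℝ) ≤ 2 ^ (a - i - 1) := one_le_pow₀ (by norm_num)
    have h3 : (0:ℝ) < 2 ^ i := by positivity
    nlinarith
  have h2 : (0:ℝ) < (2 : ℝ) ^ i / 2 ^ a := by positivity
  have h3 : 0 < 1 - (2 : ℝ) ^ i / 2 ^ a := by linarith
  constructor
  · unfold pexp
    rw [one_lt_inv₀ h3]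
    linarith
  · unfold pexp
    rw [one_div, inv_inv]

/-- the iterated doubling -/
theorem young_iter (K : Matrix M M ℝ) (hK : ∀ x y, 0 ≤ K x y) (hs : ∀ x y, K x y = K y x)
    (a : ℕ) (L : ℝ) (hL0 : 0 ≤ L) (hL : ∀ x, ∑ y, K x y ^ pexp a 0 ≤ L) (i : ℕ) (hi : i < a) :
    (∀ x y, 0 ≤ (K ^ (2 ^ i)) x y) ∧ (∀ x y, (K ^ (2 ^ i)) x y = (K ^ (2 ^ i)) y x) ∧
    ∀ x, ∑ y, (K ^ (2 ^ i)) x y ^ pexp a i ≤ L ^ ((2 : ℝ) ^ i * pexp a i / pexp a 0) := by
  induction i with
  | zero =>
    simp only [pow_zero, pow_one]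
    refine ⟨hK, hs, fun x => ?_⟩
    have hp := (pexp_props a 0 hi).1
    have : (1:ℝ) * pexp a 0 / pexp a 0 = 1 := by
      field_simp
    rw [this, Real.rpow_one]
    exact hL x
  | succ i ih =>
    obtain ⟨h1, h2, h3⟩ := ih (by omega)
    set K' := K ^ (2 ^ i) with hK'
    have e : K ^ (2 ^ (i + 1)) = K' * K' := by
      rw [hK', pow_succ, pow_mul, pow_two]
    rw [e]
    have hp1 := pexp_props a i (by omega)
    have hp2 := pexp_props a (i + 1) hi
    have hp0 := pexp_props a 0 (by omega)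
    refine ⟨fun x y => ?_, fun x y => ?_, fun x => ?_⟩
    · rw [mul_apply]
      exact sum_nonneg fun z _ => mul_nonneg (h1 _ _) (h1 _ _)
    · rw [mul_apply, mul_apply]
      refine sum_congr rfl fun z _ => ?_
      rw [h2 x z, h2 z y, mul_comm]
    · have hpr : 1 / pexp a (i + 1) = 2 / pexp a i - 1 := by
        have e1 : 2 / pexp a i = 2 * (1 / pexp a i) := by ring
        rw [e1, hp1.2, hp2.2, pow_succ]
        ring
      have h4 := young_step K' h1 h2 hp1.1 hp2.1 hpr h3 x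
      refine h4.trans (le_of_eq ?_)
      rw [← Real.rpow_mul hL0]
      congr 1
      have hp10 : pexp a i ≠ 0 := by linarith [hp1.1]
      have hp20 : pexp a (i + 1) ≠ 0 := by linarith [hp2.1]
      have hp00 : pexp a 0 ≠ 0 := by linarith [hp0.1]
      have h5 : pexp a (i + 1) + 1 = 2 * pexp a (i + 1) / pexp a i := by
        have h6 : 2 / pexp a i = 1 / pexp a (i + 1) + 1 := by linarith
        have h7 : 2 * pexp a (i + 1) / pexp a i = pexp a (i + 1) * (2 / pexp a i) := by ring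
        rw [h7, h6]
        field_simp
        ring
      rw [h5]
      push_cast
      rw [pow_succ]
      field_simp

/-- the final form: from a moment bound for `K` to an `L²` bound for a dyadic power of `K` -/
theorem young_final (K : Matrix M M ℝ) (hK : ∀ x y, 0 ≤ K x y) (hs : ∀ x y, K x y = K y x)
    (a : ℕ) (L : ℝ) (hL0 : 0 ≤ L) (hL : ∀ x, ∑ y, K x y ^ pexp (a + 1) 0 ≤ L) (x : M) :
    ∑ y, (K ^ (2 ^ a)) x y ^ 2 ≤ L ^ ((2 : ℝ) ^ (a + 1) - 1) := by
  obtain ⟨h1, h2, h3⟩ := young_iter K hK hs (a + 1) L hL0 hL a (by omega)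
  have hp : pexp (a + 1) a = 2 := by
    unfold pexp
    rw [pow_succ]
    have : (2:ℝ) ^ a ≠ 0 := by positivity
    field_simp
    norm_num
  have hq := h3 x
  rw [hp] at hq
  have e1 : ∀ y, (K ^ (2 ^ a)) x y ^ (2 : ℝ) = (K ^ (2 ^ a)) x y ^ 2 := by
    intro y
    exact_mod_cast Real.rpow_natCast ((K ^ (2 ^ a)) x y) 2
  simp only [e1] at hq
  refine hq.trans (le_of_eq ?_)
  congr 1
  have hp0 := pexp_props (a + 1) 0 (by omega)
  have h0 : (1:ℝ) / pexp (a + 1) 0 = 1 - 2 ^ 0 / 2 ^ (a + 1) := hp0.2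
  have e2 : (2 : ℝ) ^ a * 2 / pexp (a + 1) 0 = (2 : ℝ) ^ (a + 1) * (1 / pexp (a + 1) 0) := by
    rw [pow_succ]
    ring
  rw [e2, h0]
  have : (2:ℝ) ^ (a + 1) ≠ 0 := by positivity
  field_simp

end Vale.Agent.Lib.P162
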