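import Vale.Agent.Lib.P162.GapOrth
import Vale.Agent.Lib.P162.Schatten
import Vale.Agent.Lib.P162.Young

/-!
# The Hilbert-Schmidt norm of a power of a pass on tuples
-/

namespace Vale.Agent.Lib.P162

open Equiv Finset Matrix
open scoped InnerProductSpace

set_option linter.unusedSectionVars false
set_option linter.unusedSimpArgs false
set_option linter.unusedVariables false

variable {ι : Type*} [Fintype ι] [DecidableEq ι] {D : ℕ}

/-- injective tuples -/
abbrev MT (ι : Type*) [Fintype ι] [DecidableEq ι] (D : ℕ) := {x : ι → Pos D // Function.Injective x}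

/-- the transition matrix of a pass on injective tuples -/
noncomputable def AA (ι : Type*) [Fintype ι] [DecidableEq ι] (D : ℕ) : Matrix (MT ι D) (MT ι D) ℝ :=
  fun z w => hitP D Finset.univ z.1 w.1

lemma sum_MT (F : (ι → Pos D) → ℝ) (h : ∀ x, ¬ Function.Injective x → F x = 0) :
    ∑ x, F x = ∑ z : MT ι D, F z.1 := by
  classical
  rw [← Finset.sum_subtype (Finset.univ.filter fun x : ι → Pos D => Function.Injective x)
    (by simp) F]
  rw [Finset.sum_filter_of_ne]
  intro x _ hx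
  by_contra hn
  exact hx (h x hn)

lemma QT_formula {f : TupSp ι (Pos D)} (hf : f ∈ WW ι (Pos D)) (w : ι → Pos D) :
    QT ι D f w = ∑ z : MT ι D, hitP D Finset.univ z.1 w * f z.1 := by
  rw [QT_eq_avg]
  unfold avg tauD
  rw [card_tuples, mul_sum, sum_MT]
  · refine sum_congr rfl fun z _ => ?_
    rw [card_univ]
    have : ((2:ℝ) ^ D) ^ Fintype.card ι ≠ 0 := by positivity
    field_simp
  · intro x hx
    rw [hf.1 x hx]
    simp

lemma QT_pow_formula (N : ℕ) {f : TupSp ι (Pos D)} (hf : f ∈ WW ι (Pos D)) (w : MT ι D) :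
    ((QT ι D) ^ N) f w.1 = ∑ z : MT ι D, ((AA ι D) ^ N) z w * f z.1 := by
  induction N generalizing f w with
  | zero =>
    simp only [pow_zero, one_apply_eq_self]
    rw [sum_eq_single w]
    · simp
    · intro z _ hz
      rw [Matrix.one_apply_ne hz, zero_mul]
    · simp
  | succ N ih =>
    rw [pow_succ, mul_ap, ih (QT_mem_WW hf) w]
    simp only [QT_formula hf, mul_sum]
    rw [sum_comm]
    refine sum_congr rfl fun y _ => ?_
    rw [pow_succ', Matrix.mul_apply, sum_mul]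
    refine sum_congr rfl fun z _ => ?_
    show ((AA ι D) ^ N) z w * (hitP D Finset.univ y.1 z.1 * f y.1) = AA ι D y z * ((AA ι D) ^ N) z w * f y.1
    unfold AA
    ring

/-- Bessel's inequality turns the sum over an orthonormal basis into the Frobenius norm -/
lemma hs_le_frobenius (N : ℕ) {d : ℕ}
    (e : OrthonormalBasis (Fin d) ℝ (WW ι (Pos D))) :
    ∑ α, ‖((QT ι D) ^ N) (e α : TupSp ι (Pos D))‖ ^ 2 ≤
      trace ((AA ι D) ^ N * (((AA ι D) ^ N)ᵀ)) := by
  classical
  rw [tr_mul_transpose]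
  have h0 : ∀ α, ((QT ι D) ^ N) (e α : TupSp ι (Pos D)) ∈ WW ι (Pos D) :=
    fun α => pow_mem_WW N _ (e α).2
  have h1 : ∀ α, ‖((QT ι D) ^ N) (e α : TupSp ι (Pos D))‖ ^ 2 =
      ∑ w : MT ι D, (((QT ι D) ^ N) (e α : TupSp ι (Pos D)) w.1) ^ 2 := by
    intro α
    rw [EuclideanSpace.real_norm_sq_eq, sum_MT]
    intro x hx
    rw [(h0 α).1 x hx]
    simp
  simp only [h1]
  rw [sum_comm]
  rw [show (∑ i : MT ι D, ∑ j : MT ι D, ((AA ι D) ^ N) i j ^ 2) =
    ∑ j : MT ι D, ∑ i : MT ι D, ((AA ι D) ^ N) i j ^ 2 from sum_comm]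
  refine sum_le_sum fun w _ => ?_
  -- the vector of the matrix column
  set u : TupSp ι (Pos D) := WithLp.toLp 2 (fun x =>
    if h : Function.Injective x then ((AA ι D) ^ N) ⟨x, h⟩ w else 0) with hu
  have hun : ‖u‖ ^ 2 = ∑ z : MT ι D, ((AA ι D) ^ N) z w ^ 2 := by
    rw [EuclideanSpace.real_norm_sq_eq, sum_MT]
    · refine sum_congr rfl fun z _ => ?_
      simp [hu, z.2]
    · intro x hx
      simp [hu, hx]
  have hin : ∀ α, ((QT ι D) ^ N) (e α : TupSp ι (Pos D)) w.1 = ⟪(e α : TupSp ι (Pos D)), u⟫_ℝ := by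
    intro α
    rw [QT_pow_formula N (e α).2 w]
    simp only [PiLp.inner_apply, RCLike.inner_apply, conj_trivial]
    rw [sum_MT]
    · refine sum_congr rfl fun z _ => ?_
      simp [hu, z.2]
    · intro x hx
      simp [hu, hx]
  simp only [hin]
  rw [← hun]
  have hO : Orthonormal ℝ (fun α => (e α : TupSp ι (Pos D))) :=
    e.orthonormal.comp_linearIsometry (WW ι (Pos D)).subtypeₗᵢ
  have hB := hO.sum_inner_products_le (s := Finset.univ) (x := u)
  simpa using hB

/-- the Beneš kernel on injective tuples -/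
noncomputable def KK (ι : Type*) [Fintype ι] [DecidableEq ι] (D : ℕ) : Matrix (MT ι D) (MT ι D) ℝ :=
  AA ι D * (AA ι D)ᵀ

lemma KK_nonneg (x y : MT ι D) : 0 ≤ KK ι D x y := by
  unfold KK
  rw [Matrix.mul_apply]
  exact sum_nonneg fun z _ => mul_nonneg (hitP_nonneg _ _ _ _) (hitP_nonneg _ _ _ _)

lemma KK_symm (x y : MT ι D) : KK ι D x y = KK ι D y x := by
  unfold KK
  rw [Matrix.mul_apply, Matrix.mul_apply]
  refine sum_congr rfl fun z _ => ?_
  simp only [transpose_apply]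
  ring

lemma hitP_eq_zero_of_not_inj {x w : ι → Pos D} (hx : Function.Injective x)
    (hw : ¬ Function.Injective w) : hitP D Finset.univ x w = 0 := by
  by_contra hne
  obtain ⟨g, hg⟩ := exists_of_hitP_ne D Finset.univ x w hne
  apply hw
  intro i j hij
  apply hx
  apply g.injective
  rw [hg i (mem_univ _), hg j (mem_univ _), hij]

/-- the entries of the Beneš kernel -/
lemma KK_eq_beta (x y : MT ι D) :
    betaD D Finset.univ x.1 y.1 = ((2 : ℝ) ^ D) ^ Fintype.card ι * KK ι D x y := by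
  unfold betaD avg tauD KK
  rw [card_tuples, Matrix.mul_apply, sum_MT, card_univ]
  · rw [mul_sum, mul_sum]
    refine sum_congr rfl fun z _ => ?_
    simp only [AA, transpose_apply]
    have : ((2:ℝ) ^ D) ^ Fintype.card ι ≠ 0 := by positivity
    field_simp
  · intro w hw
    rw [hitP_eq_zero_of_not_inj x.2 hw]
    simp

lemma card_MT_le : (Fintype.card (MT ι D) : ℝ) ≤ ((2 : ℝ) ^ D) ^ Fintype.card ι := by
  rw [← card_tuples]
  exact_mod_cast Fintype.card_subtype_le _

/-- the moment bound in the counting normalisation -/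
lemma KK_moment (x : MT ι D) {q : ℝ} (hq : 0 < q) :
    ∑ y : MT ι D, KK ι D x y ^ (1 + q) ≤
      (((2 : ℝ) ^ D) ^ Fintype.card ι) ^ (-q) *
        Real.exp (Fintype.card ι * (Real.exp (q * gSeq D) - 1)) := by
  set m : ℝ := ((2 : ℝ) ^ D) ^ Fintype.card ι with hm
  have hm0 : 0 < m := by positivity
  have hinj : InjF x.1 Finset.univ := fun i _ j _ h => x.2 h
  have h1 := moment_bound D Finset.univ x.1 hinj q hq
  rw [card_univ] at h1
  have h2 : ∀ y : MT ι D, KK ι D x y ^ (1 + q) = m ^ (-(1 + q)) * betaD D Finset.univ x.1 y.1 ^ (1 + q) := by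
    intro y
    rw [KK_eq_beta, ← hm, Real.mul_rpow hm0.le (KK_nonneg _ _), ← mul_assoc, ← Real.rpow_add hm0]
    simp
  simp only [h2]
  rw [← mul_sum]
  have h3 : ∑ y : MT ι D, betaD D Finset.univ x.1 y.1 ^ (1 + q) ≤ m * normP D Finset.univ x.1 (1 + q) := by
    unfold normP avg
    rw [card_tuples, ← hm, ← mul_assoc, mul_inv_cancel₀ hm0.ne', one_mul, sum_MT (F := fun y => betaD D Finset.univ x.1 y ^ (1 + q))]
    intro y hy
    have h4 : betaD D Finset.univ x.1 y = 0 := by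
      unfold Function.Injective at hy
      push Not at hy
      obtain ⟨i, j, hij, hne⟩ := hy
      exact betaD_eq_zero D Finset.univ hinj.injOn (mem_coe.mp (mem_univ i)) (mem_coe.mp (mem_univ j)) hne hij
    rw [h4, Real.zero_rpow (by linarith)]
  have h5 : m ^ (-(1 + q)) * m = m ^ (-q) := by
    nth_rewrite 2 [← Real.rpow_one m]
    rw [← Real.rpow_add hm0]
    congr 1
    ring
  calc m ^ (-(1 + q)) * ∑ y : MT ι D, betaD D Finset.univ x.1 y.1 ^ (1 + q)
      ≤ m ^ (-(1 + q)) * (m * normP D Finset.univ x.1 (1 + q)) :=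
        mul_le_mul_of_nonneg_left h3 (by positivity)
    _ = m ^ (-q) * normP D Finset.univ x.1 (1 + q) := by rw [← mul_assoc, h5]
    _ ≤ _ := mul_le_mul_of_nonneg_left h1 (by positivity)

/-- the exponents of the doubling iteration -/
lemma pexp_eq (a : ℕ) : pexp (a + 1) 0 = 1 + 1 / ((2 : ℝ) ^ (a + 1) - 1) := by
  unfold pexp
  have h1 : (1:ℝ) < 2 ^ (a + 1) := one_lt_pow₀ (by norm_num) (by omega)
  have h2 : (2:ℝ) ^ (a + 1) - 1 ≠ 0 := by linarith
  have h3 : (2:ℝ) ^ (a + 1) ≠ 0 := by positivity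
  field_simp
  ring

/-- the Hilbert-Schmidt bound -/
theorem hs_bound (a : ℕ) (hg : gSeq D ≤ (2 : ℝ) ^ (a + 1) - 1) {d : ℕ}
    (e : OrthonormalBasis (Fin d) ℝ (WW ι (Pos D))) :
    ∑ α, ‖((QT ι D) ^ (2 ^ (a + 1))) (e α : TupSp ι (Pos D))‖ ^ 2 ≤
      Real.exp (2 * (Fintype.card ι : ℝ) * gSeq D) := by
  classical
  refine (hs_le_frobenius _ e).trans ?_
  refine (power_bound (AA ι D) (a + 1)).trans ?_
  set G : ℝ := (2 : ℝ) ^ (a + 1) - 1 with hG
  have hg0 : 1200 ≤ gSeq D := gSeq_ge D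
  have hG0 : 0 < G := by linarith
  set q : ℝ := 1 / G with hq
  have hq0 : 0 < q := by positivity
  have hqG : q * G = 1 := by
    rw [hq]; field_simp
  set m : ℝ := ((2 : ℝ) ^ D) ^ Fintype.card ι with hm
  have hm0 : 0 < m := by positivity
  set k : ℝ := (Fintype.card ι : ℝ) with hk
  have hk0 : 0 ≤ k := Nat.cast_nonneg _
  set L : ℝ := m ^ (-q) * Real.exp (k * (Real.exp (q * gSeq D) - 1)) with hL
  have hL0 : 0 ≤ L := by positivity
  have hKL : ∀ x : MT ι D, ∑ y, KK ι D x y ^ pexp (a + 1) 0 ≤ L := by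
    intro x
    rw [pexp_eq, ← hG, ← hq]
    exact KK_moment x hq0
  have hY : ∀ x : MT ι D, ∑ y, ((KK ι D) ^ (2 ^ a)) x y ^ 2 ≤ L ^ G :=
    fun x => young_final (KK ι D) KK_nonneg KK_symm a L hL0 hKL x
  -- the value of the bound
  have hLG : L ^ G ≤ m⁻¹ * Real.exp (2 * k * gSeq D) := by
    rw [hL, Real.mul_rpow (by positivity) (by positivity), ← Real.rpow_mul hm0.le, ← Real.exp_mul]
    have e1 : -q * G = -1 := by rw [neg_mul, hqG]
    rw [e1, Real.rpow_neg_one]
    apply mul_le_mul_of_nonneg_left _ (by positivity)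
    apply Real.exp_le_exp.mpr
    have hu0 : 0 ≤ q * gSeq D := by positivity
    have hu1 : q * gSeq D ≤ 1 := by
      rw [← hqG]
      exact mul_le_mul_of_nonneg_left hg hq0.le
    have h2 : Real.exp (q * gSeq D) - 1 ≤ 2 * (q * gSeq D) := by
      have := exp_le_quad hu0 hu1
      nlinarith
    have h3 : (Real.exp (q * gSeq D) - 1) * G ≤ 2 * gSeq D := by
      calc (Real.exp (q * gSeq D) - 1) * G ≤ 2 * (q * gSeq D) * G :=
            mul_le_mul_of_nonneg_right h2 hG0.le
        _ = 2 * gSeq D * (q * G) := by ring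
        _ = 2 * gSeq D := by rw [hqG, mul_one]
    calc k * (Real.exp (q * gSeq D) - 1) * G = k * ((Real.exp (q * gSeq D) - 1) * G) := by ring
      _ ≤ k * (2 * gSeq D) := mul_le_mul_of_nonneg_left h3 hk0
      _ = 2 * k * gSeq D := by ring
  -- the trace as a sum of squares
  set P := (KK ι D) ^ (2 ^ a) with hP
  have hPsym : Pᵀ = P := by
    rw [hP, transpose_pow]
    congr 1
    ext x y
    exact KK_symm y x
  have e1 : (AA ι D * (AA ι D)ᵀ) ^ (2 ^ (a + 1)) = P * Pᵀ := by
    rw [hPsym, hP, ← pow_add, pow_succ]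
    congr 1
    ring
  rw [e1, tr_mul_transpose]
  calc ∑ x, ∑ y, P x y ^ 2 ≤ ∑ _x : MT ι D, (m⁻¹ * Real.exp (2 * k * gSeq D)) :=
        sum_le_sum fun x _ => (hY x).trans hLG
    _ = (Fintype.card (MT ι D) : ℝ) * (m⁻¹ * Real.exp (2 * k * gSeq D)) := by
        rw [sum_const, card_univ, nsmul_eq_mul]
    _ ≤ m * (m⁻¹ * Real.exp (2 * k * gSeq D)) :=
        mul_le_mul_of_nonneg_right card_MT_le (by positivity)
    _ = Real.exp (2 * k * gSeq D) := by
        rw [← mul_assoc, mul_inv_cancel₀ hm0.ne', one_mul]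

end Vale.Agent.Lib.P162
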