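import Vale.Agent.Lib.P162.Ops

/-!
# Majorants for gauge averages, and Rademacher moments
-/

namespace Vale.Agent.Lib.P162

open scoped InnerProductSpace

set_option linter.unusedSectionVars false
set_option linter.unusedSimpArgs false
set_option linter.unusedVariables false

variable {V : Type*} [NormedAddCommGroup V] [InnerProductSpace ℝ V]
variable {Y : Type*} [Fintype Y] [DecidableEq Y]

/-- the sign of a Boolean: `false ↦ 1`, `true ↦ -1` -/
def sgnB (b : Bool) : ℝ := if b then -1 else 1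

@[simp] lemma sgnB_false : sgnB false = 1 := rfl
@[simp] lemma sgnB_true : sgnB true = -1 := rfl

lemma sgnB_xor (a b : Bool) : sgnB (xor a b) = sgnB a * sgnB b := by
  cases a <;> cases b <;> simp

lemma sgnB_not (a : Bool) : sgnB (!a) = - sgnB a := by
  cases a <;> simp

lemma sgnB_sq (a : Bool) : sgnB a * sgnB a = 1 := by
  cases a <;> simp

/-- pointwise xor of coins -/
def coinXor (c d : Y → Bool) : Y → Bool := fun y => xor (c y) (d y)

lemma coinXor_invol (c d : Y → Bool) : coinXor (coinXor c d) d = c := by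
  funext y
  simp [coinXor]

/-- xor with `d` as a bijection on coins -/
def coinXorEquiv (d : Y → Bool) : (Y → Bool) ≃ (Y → Bool) where
  toFun c := coinXor c d
  invFun c := coinXor c d
  left_inv c := coinXor_invol c d
  right_inv c := coinXor_invol c d

/-- characters of the coin group -/
def IsChar (χ : (Y → Bool) → ℝ) : Prop := ∀ c d, χ (coinXor c d) = χ c * χ d

lemma IsChar.mul {χ χ' : (Y → Bool) → ℝ} (h : IsChar χ) (h' : IsChar χ') :
    IsChar (fun c => χ c * χ' c) := by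
  intro c d
  simp only [h c d, h' c d]
  ring

lemma isChar_one : IsChar (fun _ : Y → Bool => (1 : ℝ)) := fun _ _ => by simp

lemma IsChar.sum_nonneg {χ : (Y → Bool) → ℝ} (h : IsChar χ) : 0 ≤ ∑ c, χ c := by
  by_contra hneg
  rw [not_le] at hneg
  have hS : ∀ d, ∑ c, χ c = χ d * ∑ c, χ c := by
    intro d
    rw [Finset.mul_sum, ← Equiv.sum_comp (coinXorEquiv d)]
    refine Finset.sum_congr rfl fun c _ => ?_
    show χ (coinXor c d) = _
    rw [h c d, mul_comm]
  have h1 : ∀ d, χ d = 1 := by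
    intro d
    have := hS d
    have hne : ∑ c, χ c ≠ 0 := ne_of_lt hneg
    field_simp at this
    linarith
  simp only [h1] at hneg
  have : (0 : ℝ) ≤ ∑ _c : Y → Bool, (1 : ℝ) := by positivity
  linarith

section majorant

variable {I : Type*} [Fintype I] (ψ : I → (Y → Bool) → ℝ) (T : I → V →L[ℝ] V)
  (κ : I → ℝ) (ω : ℝ)

/-- gauged operator -/
noncomputable def gaugeOp (c : Y → Bool) : V →L[ℝ] V := ∑ i, (ω * κ i * ψ i c) • T i

/-- scalar majorant -/
noncomputable def gaugeSum (c : Y → Bool) : ℝ := ∑ i, ω * ψ i c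

variable {ψ T κ ω}

lemma sum_char_pow_succ (χ : (Y → Bool) → ℝ) (j : ℕ) :
    ∑ c, χ c * (gaugeSum ψ ω c) ^ (j + 1) =
      ∑ i, ω * ∑ c, (χ c * ψ i c) * (gaugeSum ψ ω c) ^ j := by
  simp only [Finset.mul_sum]
  rw [Finset.sum_comm]
  refine Finset.sum_congr rfl fun c _ => ?_
  rw [pow_succ']
  generalize (gaugeSum ψ ω c) ^ j = P
  show χ c * ((∑ i, ω * ψ i c) * P) = _
  rw [Finset.sum_mul, Finset.mul_sum]
  refine Finset.sum_congr rfl fun i _ => ?_
  ring

lemma gauge_A_nonneg (hψ : ∀ i, IsChar (ψ i)) (hω : 0 ≤ ω) (j : ℕ) :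
    ∀ χ : (Y → Bool) → ℝ, IsChar χ → 0 ≤ ∑ c, χ c * (gaugeSum ψ ω c) ^ j := by
  induction j with
  | zero =>
    intro χ hχ
    simpa using hχ.sum_nonneg
  | succ j ih =>
    intro χ hχ
    rw [sum_char_pow_succ]
    exact Finset.sum_nonneg fun i _ => mul_nonneg hω (ih _ (hχ.mul (hψ i)))

theorem gauge_majorant (hψ : ∀ i, IsChar (ψ i)) (hω : 0 ≤ ω) (hκ : ∀ i, |κ i| ≤ 1)
    (hsym : ∀ i, IsSym (T i)) (hnorm : ∀ i u, ‖T i u‖ ≤ ‖u‖) (w : V) (j : ℕ) :
    ∀ (χ : (Y → Bool) → ℝ) (u : V), IsChar χ →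
      |∑ c, χ c * ⟪u, ((gaugeOp ψ T κ ω c) ^ j) w⟫_ℝ| ≤
        ‖u‖ * ‖w‖ * ∑ c, χ c * (gaugeSum ψ ω c) ^ j := by
  induction j with
  | zero =>
    intro χ u hχ
    simp only [pow_zero, one_apply_eq_self, mul_one]
    rw [← Finset.sum_mul, abs_mul, abs_of_nonneg hχ.sum_nonneg, mul_comm]
    exact mul_le_mul_of_nonneg_right (abs_real_inner_le_norm u w) hχ.sum_nonneg
  | succ j ih =>
    intro χ u hχ
    have e1 : ∀ c, ⟪u, ((gaugeOp ψ T κ ω c) ^ (j + 1)) w⟫_ℝ =
        ∑ i, (ω * κ i * ψ i c) * ⟪T i u, ((gaugeOp ψ T κ ω c) ^ j) w⟫_ℝ := by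
      intro c
      rw [pow_succ', mul_ap]
      generalize ((gaugeOp ψ T κ ω c) ^ j) w = z
      unfold gaugeOp
      rw [sum_apply, inner_sum]
      refine Finset.sum_congr rfl fun i _ => ?_
      rw [smul_apply, inner_smul_right, hsym i u z]
    have e2 : ∑ c, χ c * ⟪u, ((gaugeOp ψ T κ ω c) ^ (j + 1)) w⟫_ℝ =
        ∑ i, (ω * κ i) * ∑ c, (χ c * ψ i c) * ⟪T i u, ((gaugeOp ψ T κ ω c) ^ j) w⟫_ℝ := by
      simp only [e1, Finset.mul_sum]
      rw [Finset.sum_comm]
      refine Finset.sum_congr rfl fun c _ => ?_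
      refine Finset.sum_congr rfl fun i _ => ?_
      ring
    rw [e2, sum_char_pow_succ, Finset.mul_sum]
    refine (Finset.abs_sum_le_sum_abs _ _).trans (Finset.sum_le_sum fun i _ => ?_)
    have hA := gauge_A_nonneg hψ hω j _ (hχ.mul (hψ i))
    have h1 := ih _ (T i u) (hχ.mul (hψ i))
    rw [abs_mul, abs_mul, abs_of_nonneg hω]
    calc ω * |κ i| * |∑ c, (χ c * ψ i c) * ⟪T i u, ((gaugeOp ψ T κ ω c) ^ j) w⟫_ℝ|
        ≤ ω * 1 * (‖T i u‖ * ‖w‖ * ∑ c, (χ c * ψ i c) * (gaugeSum ψ ω c) ^ j) := by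
          apply mul_le_mul _ h1 (abs_nonneg _) (by positivity)
          exact mul_le_mul_of_nonneg_left (hκ i) hω
      _ ≤ ω * 1 * (‖u‖ * ‖w‖ * ∑ c, (χ c * ψ i c) * (gaugeSum ψ ω c) ^ j) := by
          apply mul_le_mul_of_nonneg_left _ (by positivity)
          apply mul_le_mul_of_nonneg_right _ hA
          exact mul_le_mul_of_nonneg_right (hnorm i u) (norm_nonneg _)
      _ = ‖u‖ * ‖w‖ * (ω * ∑ c, (χ c * ψ i c) * (gaugeSum ψ ω c) ^ j) := by ring

end majorant

section moments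

/-- the Rademacher sum of the coin signs -/
noncomputable def Rad (c : Y → Bool) : ℝ := ∑ y, sgnB (c y)

lemma sum_exp_Rad (θ : ℝ) :
    ∑ c : Y → Bool, Real.exp (θ * Rad c) = (2 * Real.cosh θ) ^ (Fintype.card Y) := by
  have h1 : ∀ c : Y → Bool, Real.exp (θ * Rad c) = ∏ y, Real.exp (θ * sgnB (c y)) := by
    intro c
    unfold Rad
    rw [Finset.mul_sum, Real.exp_sum]
  simp only [h1]
  have h2 := Finset.prod_univ_sum (fun _ : Y => (Finset.univ : Finset Bool))
    (fun (_ : Y) (b : Bool) => Real.exp (θ * sgnB b))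
  rw [Fintype.piFinset_univ] at h2
  rw [← h2]
  simp only [Fintype.sum_bool, sgnB_true, sgnB_false, Finset.prod_const, Finset.card_univ]
  congr 1
  rw [Real.cosh_eq]
  simp only [mul_neg, mul_one]
  ring

/-- Moments of the Rademacher sum -/
theorem moment_Rad (hY : 0 < Fintype.card Y) (j : ℕ) :
    (∑ c : Y → Bool, (Rad c ^ 2 / (Fintype.card Y : ℝ)) ^ j) / 2 ^ (Fintype.card Y) ≤
      2 * (j.factorial : ℝ) * 3 ^ j := by
  rcases Nat.eq_zero_or_pos j with rfl | hj
  · simp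
  set m : ℝ := (Fintype.card Y : ℝ) with hm
  have hmpos : 0 < m := by
    rw [hm]; exact_mod_cast hY
  have hjR : (0 : ℝ) < j := by exact_mod_cast hj
  set θ : ℝ := Real.sqrt (2 * j / m) with hθ
  have hθ2 : θ ^ 2 = 2 * j / m := Real.sq_sqrt (by positivity)
  have hθpos : 0 < θ := Real.sqrt_pos.mpr (by positivity)
  -- pointwise bound
  have hpt : ∀ c : Y → Bool, θ ^ (2 * j) * Rad c ^ (2 * j) / ((2 * j).factorial : ℝ) ≤
      Real.exp (θ * Rad c) + Real.exp ((-θ) * Rad c) := by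
    intro c
    have h1 := Real.pow_div_factorial_le_exp (θ * |Rad c|) (by positivity) (2 * j)
    have h2 : (θ * |Rad c|) ^ (2 * j) = θ ^ (2 * j) * Rad c ^ (2 * j) := by
      rw [mul_pow, pow_mul |Rad c|, sq_abs, pow_mul (Rad c)]
    rw [h2] at h1
    refine h1.trans ?_
    rcases abs_cases (Rad c) with ⟨h, _⟩ | ⟨h, _⟩
    · rw [h]
      have := Real.exp_pos ((-θ) * Rad c)
      linarith
    · rw [h]
      have := Real.exp_pos (θ * Rad c)
      have e : θ * - Rad c = (-θ) * Rad c := by ring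
      rw [e]
      linarith
  have hsum : ∑ c : Y → Bool, θ ^ (2 * j) * Rad c ^ (2 * j) / ((2 * j).factorial : ℝ) ≤
      2 * (2 * Real.cosh θ) ^ (Fintype.card Y) := by
    refine (Finset.sum_le_sum fun c _ => hpt c).trans ?_
    rw [Finset.sum_add_distrib, sum_exp_Rad, sum_exp_Rad, Real.cosh_neg]
    linarith
  have hcosh : (2 * Real.cosh θ) ^ (Fintype.card Y) ≤
      2 ^ (Fintype.card Y) * Real.exp (j : ℝ) := by
    rw [mul_pow]
    apply mul_le_mul_of_nonneg_left _ (by positivity)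
    have h1 := Real.cosh_le_exp_half_sq θ
    have h2 : Real.cosh θ ^ (Fintype.card Y) ≤ Real.exp (θ ^ 2 / 2) ^ (Fintype.card Y) :=
      pow_le_pow_left₀ (Real.cosh_pos θ).le h1 _
    refine h2.trans (le_of_eq ?_)
    rw [← Real.exp_nat_mul]
    congr 1
    rw [hθ2, ← hm]
    field_simp
  set F : ℝ := ((2 * j).factorial : ℝ) with hF
  have hFpos : 0 < F := by rw [hF]; positivity
  have hθj : θ ^ (2 * j) = (2 * j / m) ^ j := by rw [pow_mul, hθ2]
  -- rewrite the target sum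
  have hrw : ∑ c : Y → Bool, (Rad c ^ 2 / m) ^ j =
      (F / (2 * (j : ℝ)) ^ j) * ∑ c : Y → Bool, θ ^ (2 * j) * Rad c ^ (2 * j) / F := by
    rw [Finset.mul_sum]
    refine Finset.sum_congr rfl fun c _ => ?_
    rw [hθj, div_pow, div_pow, pow_mul (Rad c)]
    field_simp
  rw [hrw]
  have h2F : F ≤ (j.factorial : ℝ) * (2 * (j : ℝ)) ^ j := by
    have h3 := Nat.factorial_mul_descFactorial (show j ≤ 2 * j by omega)
    have h4 := Nat.descFactorial_le_pow (2 * j) j
    have h5 : 2 * j - j = j := by omega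
    rw [h5] at h3
    rw [hF, ← h3]
    push_cast
    apply mul_le_mul_of_nonneg_left _ (by positivity)
    exact_mod_cast h4
  have h2j : (0 : ℝ) < (2 * (j : ℝ)) ^ j := by positivity
  have hF2 : F / (2 * (j : ℝ)) ^ j ≤ (j.factorial : ℝ) := by
    rw [div_le_iff₀ h2j]; exact h2F
  have hexp : Real.exp (j : ℝ) ≤ 3 ^ j := by
    have : Real.exp (j : ℝ) = Real.exp 1 ^ j := by
      rw [← Real.exp_nat_mul]; simp
    rw [this]
    exact pow_le_pow_left₀ (Real.exp_pos 1).le (by linarith [Real.exp_one_lt_d9]) _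
  have h2m : (0 : ℝ) < 2 ^ Fintype.card Y := by positivity
  rw [div_le_iff₀ h2m]
  have hS0 : 0 ≤ ∑ c : Y → Bool, θ ^ (2 * j) * Rad c ^ (2 * j) / F := by
    apply Finset.sum_nonneg
    intro c _
    apply div_nonneg _ hFpos.le
    apply mul_nonneg (by positivity)
    rw [pow_mul]; positivity
  calc (F / (2 * (j : ℝ)) ^ j) * ∑ c : Y → Bool, θ ^ (2 * j) * Rad c ^ (2 * j) / F
      ≤ (j.factorial : ℝ) * (2 * (2 ^ Fintype.card Y * 3 ^ j)) := by
        apply mul_le_mul hF2 _ hS0 (by positivity)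
        refine hsum.trans ?_
        have : (2 * Real.cosh θ) ^ (Fintype.card Y) ≤ 2 ^ (Fintype.card Y) * 3 ^ j :=
          hcosh.trans (mul_le_mul_of_nonneg_left hexp h2m.le)
        linarith
    _ = _ := by ring

end moments

end Vale.Agent.Lib.P162
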