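import Vale.Agent.Lib.P162.Star
import Vale.Agent.Lib.P162.Majorant

/-!
# The one step estimate, part 1: slices, the difference operator and its moments
-/

namespace Vale.Agent.Lib.P162

open scoped InnerProductSpace
open Equiv

set_option linter.unusedSectionVars false
set_option linter.unusedSimpArgs false
set_option linter.unusedVariables false

variable {V : Type*} [NormedAddCommGroup V] [InnerProductSpace ℝ V]
variable {Y : Type*} [Fintype Y] [DecidableEq Y]

/-- the flip of the second coordinate by a coin depending on the first -/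
def flipPerm (c : Y → Bool) : Perm (Y × Bool) where
  toFun x := (x.1, xor x.2 (c x.1))
  invFun x := (x.1, xor x.2 (c x.1))
  left_inv x := by simp
  right_inv x := by simp

@[simp] lemma flipPerm_apply (c : Y → Bool) (x : Y × Bool) :
    flipPerm c x = (x.1, xor x.2 (c x.1)) := rfl

lemma flipPerm_mul (c d : Y → Bool) : flipPerm c * flipPerm d = flipPerm (coinXor c d) := by
  ext x
  · rfl
  · cases hx : x.2 <;> cases hc : c x.1 <;> cases hd : d x.1 <;> simp [coinXor, hx, hc, hd]

lemma flipPerm_inv (c : Y → Bool) : (flipPerm c)⁻¹ = flipPerm c := rfl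

/-- the permutation acting on the slice `b` -/
def slicePerm (b : Bool) (g : Perm Y) : Perm (Y × Bool) where
  toFun x := if x.2 = b then (g x.1, x.2) else x
  invFun x := if x.2 = b then (g⁻¹ x.1, x.2) else x
  left_inv x := by
    rcases x with ⟨y, i⟩
    by_cases h : i = b <;> simp [h]
  right_inv x := by
    rcases x with ⟨y, i⟩
    by_cases h : i = b <;> simp [h]

lemma slicePerm_apply (b : Bool) (g : Perm Y) (x : Y × Bool) :
    slicePerm b g x = if x.2 = b then (g x.1, x.2) else x := rfl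

/-- slices as a homomorphism -/
def sliceHom (b : Bool) : Perm Y →* Perm (Y × Bool) where
  toFun := slicePerm b
  map_one' := by
    ext x <;> by_cases h : x.2 = b <;> simp [slicePerm_apply, h]
  map_mul' g h := by
    ext x <;> by_cases h' : x.2 = b <;> simp [slicePerm_apply, h']

lemma sliceHom_apply (b : Bool) (g : Perm Y) : sliceHom b g = slicePerm b g := rfl

lemma slicePerm_swap (b : Bool) (y y' : Y) :
    slicePerm b (swap y y') = swap (y, b) (y', b) := by
  ext x
  · by_cases h : x.2 = b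
    · rcases x with ⟨x1, x2⟩
      simp only at h
      subst h
      simp only [slicePerm_apply, if_true, swap_apply_def, Prod.mk.injEq, and_true]
      split_ifs <;> simp
    · have h1 : x ≠ (y, b) := fun e => h (by rw [e])
      have h2 : x ≠ (y', b) := fun e => h (by rw [e])
      simp only [slicePerm_apply, if_neg h, swap_apply_of_ne_of_ne h1 h2]
  · by_cases h : x.2 = b
    · rcases x with ⟨x1, x2⟩
      simp only at h
      subst h
      simp only [slicePerm_apply, if_true, swap_apply_def, Prod.mk.injEq, and_true]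
      split_ifs <;> simp
    · have h1 : x ≠ (y, b) := fun e => h (by rw [e])
      have h2 : x ≠ (y', b) := fun e => h (by rw [e])
      simp only [slicePerm_apply, if_neg h, swap_apply_of_ne_of_ne h1 h2]

/-- different slices commute -/
lemma slicePerm_commute (g h : Perm Y) :
    slicePerm false g * slicePerm true h = slicePerm true h * slicePerm false g := by
  ext x <;> rcases x with ⟨y, b⟩ <;> cases b <;> simp [slicePerm_apply]

variable (ρ : Perm (Y × Bool) →* (V →L[ℝ] V))

/-- the operator `∑ s s' t` on an edge pair -/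
noncomputable def edgeOp (y y' : Y) : V →L[ℝ] V :=
  ρ (swap (y, false) (y', false)) + ρ (swap (y, true) (y', true))
    - ρ (swap (y, false) (y', true)) - ρ (swap (y, true) (y', false))

/-- the difference operator -/
noncomputable def Gop : V →L[ℝ] V :=
  (1 / (4 * (Fintype.card Y : ℝ))) • ∑ y : Y, ∑ y' : Y, edgeOp ρ y y'

/-- the Laplacian of a slice -/
noncomputable def sliceLap (b : Bool) : V →L[ℝ] V := Lap (ρ.comp (sliceHom b))

lemma sum_pair_expand {A : Type*} [AddCommMonoid A] (f : Y × Bool → Y × Bool → A) :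
    ∑ x : Y × Bool, ∑ x' : Y × Bool, f x x' =
      ∑ y : Y, ∑ y' : Y, (f (y, true) (y', true) + f (y, true) (y', false) +
        (f (y, false) (y', true) + f (y, false) (y', false))) := by
  rw [Fintype.sum_prod_type]
  refine Finset.sum_congr rfl fun y _ => ?_
  rw [Fintype.sum_bool, Fintype.sum_prod_type, Fintype.sum_prod_type, ← Finset.sum_add_distrib]
  refine Finset.sum_congr rfl fun y' _ => ?_
  rw [Fintype.sum_bool, Fintype.sum_bool]

lemma Lap_eq_expand (hY : 0 < Fintype.card Y) :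
    Lap ρ = (1 / (4 * (Fintype.card Y : ℝ))) • ∑ y : Y, ∑ y' : Y,
      ((4 : ℝ) • (1 : V →L[ℝ] V) - ρ (swap (y, false) (y', false))
        - ρ (swap (y, true) (y', true)) - ρ (swap (y, false) (y', true))
        - ρ (swap (y, true) (y', false))) := by
  unfold Lap
  rw [sum_pair_expand]
  have hc : (1 / (2 * (Fintype.card (Y × Bool) : ℝ))) = 1 / (4 * (Fintype.card Y : ℝ)) := by
    rw [Fintype.card_prod, Fintype.card_bool]
    push_cast
    ring_nf
  rw [hc]
  congr 1
  refine Finset.sum_congr rfl fun y _ => ?_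
  refine Finset.sum_congr rfl fun y' _ => ?_
  module

lemma sliceLap_eq (b : Bool) :
    sliceLap ρ b = (1 / (2 * (Fintype.card Y : ℝ))) • ∑ y : Y, ∑ y' : Y,
      ((1 : V →L[ℝ] V) - ρ (swap (y, b) (y', b))) := by
  unfold sliceLap Lap
  congr 1
  refine Finset.sum_congr rfl fun y _ => ?_
  refine Finset.sum_congr rfl fun y' _ => ?_
  show 1 - ρ (sliceHom b (swap y y')) = _
  rw [sliceHom_apply, slicePerm_swap]

/-- the key algebraic identity: `a = b - G` -/
lemma Lap_sub_slices (hY : 0 < Fintype.card Y) :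
    sliceLap ρ false + sliceLap ρ true = Lap ρ - Gop ρ := by
  rw [Lap_eq_expand ρ hY, sliceLap_eq, sliceLap_eq]
  unfold Gop
  have hm : (Fintype.card Y : ℝ) ≠ 0 := by
    have : (0 : ℝ) < Fintype.card Y := by exact_mod_cast hY
    exact ne_of_gt this
  have h2 : (1 / (2 * (Fintype.card Y : ℝ))) = (2 : ℝ) * (1 / (4 * (Fintype.card Y : ℝ))) := by
    field_simp
    norm_num
  rw [h2]
  generalize (1 / (4 * (Fintype.card Y : ℝ))) = w
  simp only [Finset.smul_sum, ← Finset.sum_add_distrib, ← Finset.sum_sub_distrib]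
  refine Finset.sum_congr rfl fun y _ => ?_
  refine Finset.sum_congr rfl fun y' _ => ?_
  unfold edgeOp
  module

lemma Gop_isSym {ρ : Perm (Y × Bool) →* (V →L[ℝ] V)} (hρ : IsOrth ρ) : IsSym (Gop ρ) := by
  apply IsSym.smul
  apply IsSym.sum
  intro y _
  apply IsSym.sum
  intro y' _
  exact (((hρ.isSym_swap _ _).add (hρ.isSym_swap _ _)).sub (hρ.isSym_swap _ _)).sub
    (hρ.isSym_swap _ _)

/-- `Lap` and `Gop` commute -/
lemma Gop_commute_Lap : Commute (Gop ρ) (Lap ρ) := by
  unfold Gop
  apply Commute.smul_left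
  apply Commute.sum_left
  intro y _
  apply Commute.sum_left
  intro y' _
  unfold edgeOp
  exact (((Lap_commute _).add_left (Lap_commute _)).sub_left (Lap_commute _)).sub_left
    (Lap_commute _)

/-- Flip invariance -/
def FlipInv (v : V) : Prop := ∀ c : Y → Bool, ρ (flipPerm c) v = v

variable {ρ}

/-! ### the gauge transform and the moment bound -/

/-- index type of pairs -/
abbrev PairIdx (Y : Type*) := (Y × Bool) × (Y × Bool)

/-- the characters attached to a pair -/
def pairChar (p : PairIdx Y) (c : Y → Bool) : ℝ := sgnB (c p.1.1) * sgnB (c p.2.1)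

lemma pairChar_isChar (p : PairIdx Y) : IsChar (pairChar p) := by
  intro c d
  unfold pairChar coinXor
  rw [sgnB_xor, sgnB_xor]
  ring

/-- the sign attached to a pair -/
def pairSign (p : PairIdx Y) : ℝ := sgnB p.1.2 * sgnB p.2.2

lemma pairSign_abs (p : PairIdx Y) : |pairSign p| ≤ 1 := by
  unfold pairSign
  cases p.1.2 <;> cases p.2.2 <;> simp

/-- the operator attached to a pair -/
noncomputable def pairOp (ρ : Perm (Y × Bool) →* (V →L[ℝ] V)) (p : PairIdx Y) : V →L[ℝ] V :=
  ρ (swap p.1 p.2)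

lemma Gop_eq_pairs (ρ : Perm (Y × Bool) →* (V →L[ℝ] V)) :
    Gop ρ = ∑ p : PairIdx Y, ((1 / (4 * (Fintype.card Y : ℝ))) * pairSign p) • pairOp ρ p := by
  unfold Gop
  have h1 : ∑ p : PairIdx Y, ((1 / (4 * (Fintype.card Y : ℝ))) * pairSign p) • pairOp ρ p =
      (1 / (4 * (Fintype.card Y : ℝ))) • ∑ p : PairIdx Y, pairSign p • pairOp ρ p := by
    rw [Finset.smul_sum]
    exact Finset.sum_congr rfl fun p _ => mul_smul _ _ _
  rw [h1]
  congr 1
  rw [Fintype.sum_prod_type]
  rw [sum_pair_expand (fun x x' => pairSign (x, x') • pairOp ρ (x, x'))]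
  refine Finset.sum_congr rfl fun y _ => ?_
  refine Finset.sum_congr rfl fun y' _ => ?_
  unfold edgeOp pairSign pairOp
  simp
  abel

lemma gauge_semiconj (ρ : Perm (Y × Bool) →* (V →L[ℝ] V)) (c : Y → Bool) :
    ρ (flipPerm c) * Gop ρ =
      gaugeOp pairChar (pairOp ρ) pairSign (1 / (4 * (Fintype.card Y : ℝ))) c * ρ (flipPerm c) := by
  rw [Gop_eq_pairs]
  unfold gaugeOp
  rw [Finset.mul_sum, Finset.sum_mul]
  let f : PairIdx Y ≃ PairIdx Y := Equiv.prodCongr (flipPerm c) (flipPerm c)
  refine Fintype.sum_equiv f _ _ fun p => ?_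
  rw [mul_smul_comm, smul_mul_assoc]
  have hs : (1 / (4 * (Fintype.card Y : ℝ))) * pairSign p =
      (1 / (4 * (Fintype.card Y : ℝ))) * pairSign (f p) * pairChar (f p) c := by
    rw [mul_assoc]
    congr 1
    rcases p with ⟨⟨y, i⟩, ⟨y', i'⟩⟩
    simp only [f, pairSign, pairChar, Equiv.prodCongr_apply, Prod.map, flipPerm_apply, sgnB_xor]
    have h1 := sgnB_sq (c y)
    have h2 := sgnB_sq (c y')
    calc sgnB i * sgnB i' = sgnB i * sgnB i' * (sgnB (c y) * sgnB (c y)) *
          (sgnB (c y') * sgnB (c y')) := by rw [h1, h2]; ring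
      _ = _ := by ring
  rw [hs]
  congr 1
  unfold pairOp
  exact (rho_conj_swap ρ (flipPerm c) p.1 p.2).symm

lemma Gop_pow_gauge (ρ : Perm (Y × Bool) →* (V →L[ℝ] V)) (c : Y → Bool) (j : ℕ) :
    ρ (flipPerm c) * (Gop ρ) ^ j =
      (gaugeOp pairChar (pairOp ρ) pairSign (1 / (4 * (Fintype.card Y : ℝ))) c) ^ j *
        ρ (flipPerm c) := by
  have h : SemiconjBy (ρ (flipPerm c)) (Gop ρ)
      (gaugeOp pairChar (pairOp ρ) pairSign (1 / (4 * (Fintype.card Y : ℝ))) c) :=
    gauge_semiconj ρ c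
  exact (h.pow_right j).eq

lemma gaugeSum_eq (c : Y → Bool) (hY : 0 < Fintype.card Y) :
    gaugeSum (pairChar (Y := Y)) (1 / (4 * (Fintype.card Y : ℝ))) c =
      Rad c ^ 2 / (Fintype.card Y : ℝ) := by
  unfold gaugeSum
  rw [Fintype.sum_prod_type]
  have h1 : ∀ x : Y × Bool, ∑ x' : Y × Bool, (1 / (4 * (Fintype.card Y : ℝ))) *
      pairChar (x, x') c = (1 / (4 * (Fintype.card Y : ℝ))) * sgnB (c x.1) * (2 * Rad c) := by
    intro x
    rw [← Finset.mul_sum, mul_assoc]
    congr 1
    unfold pairChar Rad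
    simp only
    rw [← Finset.mul_sum]
    congr 1
    rw [Fintype.sum_prod_type]
    simp only [Fintype.sum_bool]
    rw [Finset.mul_sum]
    refine Finset.sum_congr rfl fun y _ => ?_
    ring
  simp only [h1]
  rw [Fintype.sum_prod_type]
  simp only [Fintype.sum_bool]
  have h2 : ∀ y : Y, (1 / (4 * (Fintype.card Y : ℝ))) * sgnB (c y) * (2 * Rad c) +
      (1 / (4 * (Fintype.card Y : ℝ))) * sgnB (c y) * (2 * Rad c) =
        (Rad c / (Fintype.card Y : ℝ)) * sgnB (c y) := by
    intro y
    have : (Fintype.card Y : ℝ) ≠ 0 := by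
      have : (0 : ℝ) < Fintype.card Y := by exact_mod_cast hY
      exact ne_of_gt this
    field_simp
    ring
  simp only [(h2 _)]
  rw [← Finset.mul_sum]
  show Rad c / (Fintype.card Y : ℝ) * Rad c = _
  ring

/-- moment bound for the difference operator on flip invariant vectors -/
theorem moment_G (hρ : IsOrth ρ) (hY : 0 < Fintype.card Y) {w : V} (hw : FlipInv ρ w) (j : ℕ) :
    |⟪w, ((Gop ρ) ^ j) w⟫_ℝ| ≤ 2 * (j.factorial : ℝ) * 3 ^ j * ‖w‖ ^ 2 := by
  have hω : (0 : ℝ) ≤ 1 / (4 * (Fintype.card Y : ℝ)) := by positivity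
  have hmaj := gauge_majorant (ψ := pairChar (Y := Y)) (T := pairOp ρ) (κ := pairSign)
    pairChar_isChar hω pairSign_abs (fun p => hρ.isSym_swap _ _)
    (fun p u => le_of_eq (hρ.norm _ u)) w j (fun _ => 1) w isChar_one
  have hinv : ∀ c : Y → Bool,
      ⟪w, ((gaugeOp pairChar (pairOp ρ) pairSign (1 / (4 * (Fintype.card Y : ℝ))) c) ^ j) w⟫_ℝ =
        ⟪w, ((Gop ρ) ^ j) w⟫_ℝ := by
    intro c
    have h1 := congrArg (fun T : V →L[ℝ] V => T w) (Gop_pow_gauge ρ c j)
    simp only [mul_ap] at h1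
    rw [hw c] at h1
    rw [← h1]
    calc ⟪w, ρ (flipPerm c) (((Gop ρ) ^ j) w)⟫_ℝ
        = ⟪ρ (flipPerm c) w, ρ (flipPerm c) (((Gop ρ) ^ j) w)⟫_ℝ := by rw [hw c]
      _ = _ := hρ _ _ _
  simp only [one_mul, hinv] at hmaj
  rw [Finset.sum_const, Finset.card_univ, nsmul_eq_mul, abs_mul] at hmaj
  simp only [gaugeSum_eq _ hY] at hmaj
  have hcard : (Fintype.card (Y → Bool) : ℝ) = 2 ^ Fintype.card Y := by simp
  rw [hcard, abs_of_pos (by positivity : (0 : ℝ) < 2 ^ Fintype.card Y)] at hmaj
  have hM := moment_Rad hY j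
  have h2 : (0 : ℝ) < 2 ^ Fintype.card Y := by positivity
  rw [div_le_iff₀ h2] at hM
  have h3 : 2 ^ Fintype.card Y * |⟪w, ((Gop ρ) ^ j) w⟫_ℝ| ≤
      2 ^ Fintype.card Y * (2 * (j.factorial : ℝ) * 3 ^ j * ‖w‖ ^ 2) := by
    refine hmaj.trans ?_
    have : ‖w‖ * ‖w‖ * ∑ c : Y → Bool, (Rad c ^ 2 / (Fintype.card Y : ℝ)) ^ j ≤
        ‖w‖ * ‖w‖ * (2 * (j.factorial : ℝ) * 3 ^ j * 2 ^ Fintype.card Y) :=
      mul_le_mul_of_nonneg_left hM (by positivity)
    refine this.trans (le_of_eq ?_)
    ring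
  exact le_of_mul_le_mul_left h3 h2

end Vale.Agent.Lib.P162
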