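import Vale.Agent.Lib.P162.Key1

/-!
# The one step estimate, part 2: series bound, variance bound and the key step
-/

namespace Vale.Agent.Lib.P162

open scoped InnerProductSpace
open Equiv

set_option linter.unusedSectionVars false
set_option linter.unusedSimpArgs false
set_option linter.unusedVariables false

variable {V : Type*} [NormedAddCommGroup V] [InnerProductSpace ℝ V]
variable {Y : Type*} [Fintype Y] [DecidableEq Y]
variable {ρ : Perm (Y × Bool) →* (V →L[ℝ] V)}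

lemma two_mul_factorial_le (i : ℕ) :
    ((2 * i).factorial : ℝ) ≤ 4 ^ i * ((i.factorial : ℝ) * (i.factorial : ℝ)) := by
  have h1 := Nat.choose_mul_factorial_mul_factorial (show i ≤ 2 * i by omega)
  have h2 : 2 * i - i = i := by omega
  rw [h2] at h1
  have h3 : (2 * i).choose i ≤ 4 ^ i := by
    have := Nat.choose_le_two_pow (2 * i) i
    rwa [pow_mul, show (2 : ℕ) ^ 2 = 4 by norm_num] at this
  have h4 : (2 * i).factorial ≤ 4 ^ i * (i.factorial * i.factorial) := by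
    rw [← h1, mul_assoc]
    exact Nat.mul_le_mul_right _ h3
  exact_mod_cast h4

lemma norm_pow_G (hρ : IsOrth ρ) (hY : 0 < Fintype.card Y) {w : V} (hw : FlipInv ρ w) (i : ℕ) :
    ‖((Gop ρ) ^ i) w‖ ≤ 2 * 6 ^ i * (i.factorial : ℝ) * ‖w‖ := by
  have hG := Gop_isSym hρ
  have h1 : ‖((Gop ρ) ^ i) w‖ ^ 2 = ⟪w, ((Gop ρ) ^ (2 * i)) w⟫_ℝ := by
    rw [← real_inner_self_eq_norm_sq, (hG.pow i) w, ← mul_ap, ← pow_add, two_mul]
  have h2 := moment_G hρ hY hw (2 * i)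
  have h3 := le_trans (le_abs_self _) h2
  rw [← h1] at h3
  have h4 := two_mul_factorial_le i
  have h5 : (3 : ℝ) ^ (2 * i) = 9 ^ i := by
    rw [pow_mul]; norm_num
  rw [h5] at h3
  have h6 : ‖((Gop ρ) ^ i) w‖ ^ 2 ≤ (2 * 6 ^ i * (i.factorial : ℝ) * ‖w‖) ^ 2 := by
    refine h3.trans ?_
    have h7 : (36 : ℝ) ^ i = 4 ^ i * 9 ^ i := by
      rw [← mul_pow]; norm_num
    have h8 : (6 : ℝ) ^ i * 6 ^ i = 36 ^ i := by
      rw [← mul_pow]; norm_num
    have hnn : 0 ≤ ‖w‖ ^ 2 := by positivity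
    calc 2 * ((2 * i).factorial : ℝ) * 9 ^ i * ‖w‖ ^ 2
        ≤ 2 * (4 ^ i * ((i.factorial : ℝ) * (i.factorial : ℝ))) * 9 ^ i * ‖w‖ ^ 2 := by
          gcongr
      _ ≤ 4 * (4 ^ i * ((i.factorial : ℝ) * (i.factorial : ℝ))) * 9 ^ i * ‖w‖ ^ 2 := by
          gcongr
          norm_num
      _ = (2 * 6 ^ i * (i.factorial : ℝ) * ‖w‖) ^ 2 := by
          rw [mul_pow, mul_pow, mul_pow]
          have h9 : ((6 : ℝ) ^ i) ^ 2 = 4 ^ i * 9 ^ i := by
            rw [pow_two, h8, h7]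
          rw [h9]
          ring
  exact (pow_le_pow_iff_left₀ (norm_nonneg _) (by positivity) two_ne_zero).mp h6

/-- series bound for the exponential of the difference operator on flip invariant vectors -/
theorem expo_G_le [CompleteSpace V] (hρ : IsOrth ρ) (hY : 0 < Fintype.card Y) {w : V}
    (hw : FlipInv ρ w) (h1 : ⟪w, Gop ρ w⟫_ℝ = 0) {τ : ℝ} (hτ0 : 0 ≤ τ) (hτ : τ ≤ 1 / 12) :
    ⟪w, expo τ (Gop ρ) w⟫_ℝ ≤ ‖w‖ ^ 2 + 12 * τ ^ 2 * (‖Gop ρ w‖ * ‖w‖) := by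
  have hG := Gop_isSym hρ
  set B := ‖Gop ρ w‖ * ‖w‖ with hB
  have hB0 : 0 ≤ B := by positivity
  have hs := hasSum_inner_expo τ (Gop ρ) w w
  set a : ℕ → ℝ := fun j => (τ ^ j / (j.factorial : ℝ)) * ⟪w, ((Gop ρ) ^ j) w⟫_ℝ with ha
  have hs2 := (hasSum_nat_add_iff' 2).mpr hs
  have hr0 : 0 ≤ 6 * τ := by positivity
  have hr1 : 6 * τ < 1 := by linarith
  have hgeo := (hasSum_geometric_of_lt_one hr0 hr1).mul_left (B * τ ^ 2 * 6)
  have hterm : ∀ j : ℕ, a (j + 2) ≤ B * τ ^ 2 * 6 * (6 * τ) ^ j := by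
    intro j
    have e1 : ⟪w, ((Gop ρ) ^ (j + 2)) w⟫_ℝ = ⟪Gop ρ w, ((Gop ρ) ^ (j + 1)) w⟫_ℝ := by
      rw [pow_succ' _ (j + 1), mul_ap, hG w]
    have e2 := real_inner_le_norm (Gop ρ w) (((Gop ρ) ^ (j + 1)) w)
    have e3 := norm_pow_G hρ hY hw (j + 1)
    have hfact : ((j + 2).factorial : ℝ) = (j + 2) * ((j + 1).factorial : ℝ) := by
      rw [Nat.factorial_succ (j + 1)]
      push_cast
      ring
    have e4 : ⟪w, ((Gop ρ) ^ (j + 2)) w⟫_ℝ ≤ B * (2 * 6 ^ (j + 1) * ((j + 1).factorial : ℝ)) := by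
      rw [e1]
      refine e2.trans ?_
      rw [hB]
      have := mul_le_mul_of_nonneg_left e3 (norm_nonneg (Gop ρ w))
      refine this.trans (le_of_eq ?_)
      ring
    have hpos : 0 < ((j + 1).factorial : ℝ) := by positivity
    have hj2 : (0 : ℝ) < (j : ℝ) + 2 := by positivity
    have hτj : 0 ≤ τ ^ (j + 2) := by positivity
    calc a (j + 2) = (τ ^ (j + 2) / ((j + 2).factorial : ℝ)) * ⟪w, ((Gop ρ) ^ (j + 2)) w⟫_ℝ := rfl
      _ ≤ (τ ^ (j + 2) / ((j + 2).factorial : ℝ)) *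
            (B * (2 * 6 ^ (j + 1) * ((j + 1).factorial : ℝ))) :=
          mul_le_mul_of_nonneg_left e4 (by positivity)
      _ = B * τ ^ (j + 2) * 6 ^ (j + 1) * (2 / ((j : ℝ) + 2)) := by
          rw [hfact]
          field_simp
      _ ≤ B * τ ^ (j + 2) * 6 ^ (j + 1) * 1 := by
          apply mul_le_mul_of_nonneg_left _ (by positivity)
          rw [div_le_one hj2]
          have : (0 : ℝ) ≤ j := by positivity
          linarith
      _ = B * τ ^ 2 * 6 * (6 * τ) ^ j := by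
          rw [mul_pow]
          ring
  have hle := hasSum_le hterm hs2 hgeo
  simp only [Finset.sum_range_succ, Finset.sum_range_zero, zero_add] at hle
  have ha0 : a 0 = ‖w‖ ^ 2 := by
    simp [ha, real_inner_self_eq_norm_sq]
  have ha1 : a 1 = 0 := by
    simp [ha, h1]
  rw [ha0, ha1] at hle
  have hinv : (1 - 6 * τ)⁻¹ ≤ 2 := by
    rw [inv_le_comm₀ (by linarith) (by norm_num)]
    linarith
  have hmul : B * τ ^ 2 * 6 * (1 - 6 * τ)⁻¹ ≤ B * τ ^ 2 * 6 * 2 :=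
    mul_le_mul_of_nonneg_left hinv (by positivity)
  have : ⟪w, expo τ (Gop ρ) w⟫_ℝ = ⟪w, expo τ (Gop ρ) w⟫_ℝ := rfl
  linarith

/-! ### the variance bound -/

variable (ρ) in
/-- the transposition on an edge -/
noncomputable def edgeT (y : Y) : V →L[ℝ] V := ρ (swap (y, false) (y, true))

lemma flipPerm_single (y : Y) :
    flipPerm (fun z => decide (z = y)) = swap (y, false) (y, true) := by
  ext x
  · rcases x with ⟨z, i⟩
    by_cases h : z = y
    · subst h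
      cases i <;> simp
    · have h1 : (z, i) ≠ (y, false) := fun e => h (congrArg Prod.fst e)
      have h2 : (z, i) ≠ (y, true) := fun e => h (congrArg Prod.fst e)
      simp [swap_apply_of_ne_of_ne h1 h2, h]
  · rcases x with ⟨z, i⟩
    by_cases h : z = y
    · subst h
      cases i <;> simp
    · have h1 : (z, i) ≠ (y, false) := fun e => h (congrArg Prod.fst e)
      have h2 : (z, i) ≠ (y, true) := fun e => h (congrArg Prod.fst e)
      simp [swap_apply_of_ne_of_ne h1 h2, h]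

lemma FlipInv.edgeT {v : V} (hv : FlipInv ρ v) (y : Y) : edgeT ρ y v = v := by
  have := hv (fun z => decide (z = y))
  rwa [flipPerm_single] at this

lemma edgeOp_self_apply {v : V} (y : Y) (hv : edgeT ρ y v = v) : edgeOp ρ y y v = 0 := by
  unfold edgeOp
  have h : ρ (swap (y, true) (y, false)) v = v := by
    rw [swap_comm]; exact hv
  have h' : ρ (swap (y, false) (y, true)) v = v := hv
  simp only [sub_apply, add_apply, swap_self, h, h']
  have e : ∀ z : Y × Bool, ρ (Equiv.refl (Y × Bool)) v = v := fun _ => rho_one_apply ρ v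
  rw [e (y, false)]
  abel

lemma edgeOp_symm (y y' : Y) : edgeOp ρ y' y = edgeOp ρ y y' := by
  unfold edgeOp
  rw [swap_comm (y', false) (y, false), swap_comm (y', true) (y, true),
    swap_comm (y', false) (y, true), swap_comm (y', true) (y, false)]
  abel

lemma swap_edge_other {y z : Y} (h : z ≠ y) (i : Bool) :
    swap (y, false) (y, true) (z, i) = (z, i) := by
  apply swap_apply_of_ne_of_ne
  · exact fun e => h (congrArg Prod.fst e)
  · exact fun e => h (congrArg Prod.fst e)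

lemma swap_edge_same (y : Y) (i : Bool) :
    swap (y, false) (y, true) (y, i) = (y, !i) := by
  cases i <;> simp

lemma edge_anticomm {y y' : Y} (h : y ≠ y') :
    edgeT ρ y * edgeOp ρ y y' = - (edgeOp ρ y y' * edgeT ρ y) := by
  have key : ∀ i i' : Bool, edgeT ρ y * ρ (swap (y, i) (y', i')) =
      ρ (swap (y, !i) (y', i')) * edgeT ρ y := by
    intro i i'
    unfold edgeT
    rw [← rho_conj_swap, swap_edge_same, swap_edge_other h.symm]
  unfold edgeOp
  rw [mul_sub, mul_sub, mul_add, key, key, key, key]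
  simp only [Bool.not_false, Bool.not_true, sub_mul, add_mul]
  abel

lemma edge_comm {y y' z : Y} (h1 : z ≠ y) (h2 : z ≠ y') :
    edgeT ρ z * edgeOp ρ y y' = edgeOp ρ y y' * edgeT ρ z := by
  have key : ∀ i i' : Bool, edgeT ρ z * ρ (swap (y, i) (y', i')) =
      ρ (swap (y, i) (y', i')) * edgeT ρ z := by
    intro i i'
    unfold edgeT
    rw [← rho_conj_swap, swap_edge_other h1.symm, swap_edge_other h2.symm]
  unfold edgeOp
  rw [mul_sub, mul_sub, mul_add, key, key, key, key]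
  simp only [sub_mul, add_mul]

lemma edge_orth (hρ : IsOrth ρ) {v : V} (hv : FlipInv ρ v) {y y' z z' : Y} (h0 : y ≠ y')
    (h1 : y ≠ z) (h2 : y ≠ z') : ⟪edgeOp ρ y y' v, edgeOp ρ z z' v⟫_ℝ = 0 := by
  have ht : edgeT ρ y v = v := hv.edgeT y
  have e1 : edgeT ρ y (edgeOp ρ y y' v) = - edgeOp ρ y y' v := by
    have := congrArg (fun T : V →L[ℝ] V => T v) (edge_anticomm (ρ := ρ) h0)
    have h' : (-(edgeOp ρ y y' * edgeT ρ y)) v = - edgeOp ρ y y' (edgeT ρ y v) := rfl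
    simp only [mul_ap] at this
    rw [h', ht] at this
    exact this
  have e2 : edgeT ρ y (edgeOp ρ z z' v) = edgeOp ρ z z' v := by
    have := congrArg (fun T : V →L[ℝ] V => T v) (edge_comm (ρ := ρ) h1 h2)
    simp only [mul_ap, ht] at this
    exact this
  have e3 := hρ (swap (y, false) (y, true)) (edgeOp ρ y y' v) (edgeOp ρ z z' v)
  have e4 : ρ (swap (y, false) (y, true)) = edgeT ρ y := rfl
  rw [e4, e1, e2, inner_neg_left] at e3
  linarith

lemma edge_orth_self (hρ : IsOrth ρ) {v : V} (hv : FlipInv ρ v) (y y' : Y) :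
    ⟪v, edgeOp ρ y y' v⟫_ℝ = 0 := by
  by_cases h0 : y = y'
  · subst h0
    rw [edgeOp_self_apply y (hv.edgeT y), inner_zero_right]
  have ht : edgeT ρ y v = v := hv.edgeT y
  have e1 : edgeT ρ y (edgeOp ρ y y' v) = - edgeOp ρ y y' v := by
    have := congrArg (fun T : V →L[ℝ] V => T v) (edge_anticomm (ρ := ρ) h0)
    have h' : (-(edgeOp ρ y y' * edgeT ρ y)) v = - edgeOp ρ y y' (edgeT ρ y v) := rfl
    simp only [mul_ap] at this
    rw [h', ht] at this
    exact this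
  have e3 := hρ (swap (y, false) (y, true)) v (edgeOp ρ y y' v)
  have e4 : ρ (swap (y, false) (y, true)) = edgeT ρ y := rfl
  rw [e4, e1, ht, inner_neg_right] at e3
  linarith

/-- the first moment vanishes -/
theorem first_moment_G (hρ : IsOrth ρ) {v : V} (hv : FlipInv ρ v) : ⟪v, Gop ρ v⟫_ℝ = 0 := by
  unfold Gop
  rw [smul_apply, inner_smul_right]
  simp only [sum_apply, inner_sum]
  simp [edge_orth_self hρ hv]

/-- the defect of a pair -/
noncomputable def defect (ρ : Perm (Y × Bool) →* (V →L[ℝ] V)) (v : V) (x x' : Y × Bool) : ℝ :=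
  ‖v‖ ^ 2 - ⟪v, ρ (swap x x') v⟫_ℝ

lemma defect_nonneg (hρ : IsOrth ρ) (v : V) (x x' : Y × Bool) : 0 ≤ defect ρ v x x' := by
  unfold defect
  linarith [hρ.inner_le (swap x x') v]

lemma norm_sub_one_sq (hρ : IsOrth ρ) (v : V) (x x' : Y × Bool) :
    ‖ρ (swap x x') v - v‖ ^ 2 = 2 * defect ρ v x x' := by
  rw [@norm_sub_sq_real, hρ.norm, real_inner_comm]
  unfold defect
  ring

lemma four_norm_sq (a b c d : V) :
    ‖a + b - c - d‖ ^ 2 ≤ 4 * (‖a‖ ^ 2 + ‖b‖ ^ 2 + ‖c‖ ^ 2 + ‖d‖ ^ 2) := by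
  have h : ‖a + b - c - d‖ ≤ ‖a‖ + ‖b‖ + ‖c‖ + ‖d‖ := by
    calc ‖a + b - c - d‖ ≤ ‖a + b - c‖ + ‖d‖ := norm_sub_le _ _
      _ ≤ ‖a + b‖ + ‖c‖ + ‖d‖ := by gcongr; exact norm_sub_le _ _
      _ ≤ ‖a‖ + ‖b‖ + ‖c‖ + ‖d‖ := by gcongr; exact norm_add_le _ _
  have h2 : ‖a + b - c - d‖ ^ 2 ≤ (‖a‖ + ‖b‖ + ‖c‖ + ‖d‖) ^ 2 :=
    pow_le_pow_left₀ (norm_nonneg _) h 2
  refine h2.trans ?_
  nlinarith [sq_nonneg (‖a‖ - ‖b‖), sq_nonneg (‖a‖ - ‖c‖), sq_nonneg (‖a‖ - ‖d‖),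
    sq_nonneg (‖b‖ - ‖c‖), sq_nonneg (‖b‖ - ‖d‖), sq_nonneg (‖c‖ - ‖d‖)]

lemma edgeOp_norm_sq (hρ : IsOrth ρ) (v : V) (y y' : Y) :
    ‖edgeOp ρ y y' v‖ ^ 2 ≤ 8 * (defect ρ v (y, false) (y', false) + defect ρ v (y, true) (y', true)
      + defect ρ v (y, false) (y', true) + defect ρ v (y, true) (y', false)) := by
  have e : edgeOp ρ y y' v = (ρ (swap (y, false) (y', false)) v - v)
      + (ρ (swap (y, true) (y', true)) v - v)
      - (ρ (swap (y, false) (y', true)) v - v)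
      - (ρ (swap (y, true) (y', false)) v - v) := by
    unfold edgeOp
    simp only [sub_apply, add_apply]
    abel
  rw [e]
  refine (four_norm_sq _ _ _ _).trans (le_of_eq ?_)
  rw [norm_sub_one_sq hρ, norm_sub_one_sq hρ, norm_sub_one_sq hρ, norm_sub_one_sq hρ]
  ring

lemma sum_edge_inner_le (hρ : IsOrth ρ) {v : V} (hv : FlipInv ρ v) (p : Y × Y) :
    ∑ q : Y × Y, ⟪edgeOp ρ p.1 p.2 v, edgeOp ρ q.1 q.2 v⟫_ℝ ≤ 2 * ‖edgeOp ρ p.1 p.2 v‖ ^ 2 := by
  rcases p with ⟨y, y'⟩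
  simp only
  by_cases h0 : y = y'
  · subst h0
    rw [edgeOp_self_apply y (hv.edgeT y)]
    simp
  have hvan : ∀ q : Y × Y, q ∉ ({(y, y'), (y', y)} : Finset (Y × Y)) →
      ⟪edgeOp ρ y y' v, edgeOp ρ q.1 q.2 v⟫_ℝ = 0 := by
    rintro ⟨z, z'⟩ hq
    simp only [Finset.mem_insert, Finset.mem_singleton, Prod.mk.injEq, not_or, not_and] at hq
    by_cases hzz : z = z'
    · subst hzz
      simp only
      rw [edgeOp_self_apply z (hv.edgeT z), inner_zero_right]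
    by_cases h1 : y ≠ z ∧ y ≠ z'
    · exact edge_orth hρ hv h0 h1.1 h1.2
    by_cases h2 : y' ≠ z ∧ y' ≠ z'
    · simp only
      rw [← edgeOp_symm y y']
      exact edge_orth hρ hv (Ne.symm h0) h2.1 h2.2
    exfalso
    rw [not_and_or, not_not, not_not] at h1 h2
    rcases h1 with h1 | h1 <;> rcases h2 with h2 | h2
    · exact h0 (h1.trans h2.symm)
    · exact hq.1 h1.symm h2.symm
    · exact hq.2 h2.symm h1.symm
    · exact h0 (h1.trans h2.symm)
  rw [← Finset.sum_subset (Finset.subset_univ _) (fun q _ hq => hvan q hq)]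
  have hne : (y, y') ≠ (y', y) := fun e => h0 (congrArg Prod.fst e)
  rw [Finset.sum_pair hne]
  simp only
  rw [edgeOp_symm y y', real_inner_self_eq_norm_sq]
  linarith

/-- the variance bound -/
theorem var_G (hρ : IsOrth ρ) (hY : 0 < Fintype.card Y) {v : V} (hv : FlipInv ρ v) :
    ‖Gop ρ v‖ ^ 2 ≤ (4 / (Fintype.card Y : ℝ)) * ⟪v, Lap ρ v⟫_ℝ := by
  have hm : (0 : ℝ) < Fintype.card Y := by exact_mod_cast hY
  set S : V := ∑ p : Y × Y, edgeOp ρ p.1 p.2 v with hS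
  have h1 : Gop ρ v = (1 / (4 * (Fintype.card Y : ℝ))) • S := by
    unfold Gop
    rw [smul_apply, hS, Fintype.sum_prod_type]
    simp only [sum_apply]
  have h2 : ‖S‖ ^ 2 = ∑ p : Y × Y, ∑ q : Y × Y, ⟪edgeOp ρ p.1 p.2 v, edgeOp ρ q.1 q.2 v⟫_ℝ := by
    rw [← real_inner_self_eq_norm_sq, hS, sum_inner]
    simp only [inner_sum]
  have h3 : ‖S‖ ^ 2 ≤ ∑ p : Y × Y, 2 * ‖edgeOp ρ p.1 p.2 v‖ ^ 2 := by
    rw [h2]
    exact Finset.sum_le_sum fun p _ => sum_edge_inner_le hρ hv p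
  have h4 : ∑ p : Y × Y, 2 * ‖edgeOp ρ p.1 p.2 v‖ ^ 2 ≤
      16 * ∑ x : Y × Bool, ∑ x' : Y × Bool, defect ρ v x x' := by
    rw [sum_pair_expand, Finset.mul_sum, Fintype.sum_prod_type]
    refine Finset.sum_le_sum fun y _ => ?_
    rw [Finset.mul_sum]
    refine Finset.sum_le_sum fun y' _ => ?_
    have := edgeOp_norm_sq hρ v y y'
    linarith
  have h5 : ∑ x : Y × Bool, ∑ x' : Y × Bool, defect ρ v x x' =
      4 * (Fintype.card Y : ℝ) * ⟪v, Lap ρ v⟫_ℝ := by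
    rw [inner_Lap]
    have hc : (Fintype.card (Y × Bool) : ℝ) = 2 * (Fintype.card Y : ℝ) := by
      rw [Fintype.card_prod, Fintype.card_bool]
      push_cast
      ring
    rw [hc]
    unfold defect
    field_simp
    ring
  rw [h1, norm_smul, mul_pow, Real.norm_eq_abs, sq_abs]
  have h6 : ‖S‖ ^ 2 ≤ 16 * (4 * (Fintype.card Y : ℝ) * ⟪v, Lap ρ v⟫_ℝ) := by
    rw [← h5]
    exact h3.trans h4
  have h7 : (1 / (4 * (Fintype.card Y : ℝ))) ^ 2 * ‖S‖ ^ 2 ≤
      (1 / (4 * (Fintype.card Y : ℝ))) ^ 2 * (16 * (4 * (Fintype.card Y : ℝ) * ⟪v, Lap ρ v⟫_ℝ)) :=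
    mul_le_mul_of_nonneg_left h6 (by positivity)
  refine h7.trans (le_of_eq ?_)
  field_simp
  ring

end Vale.Agent.Lib.P162
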