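import Vale.Agent.Lib.P162.Key2

/-!
# The one step estimate, part 3: the spectral gap and the key step
-/

namespace Vale.Agent.Lib.P162

open scoped InnerProductSpace
open Equiv

set_option linter.unusedSectionVars false
set_option linter.unusedSimpArgs false
set_option linter.unusedVariables false

variable {V : Type*} [NormedAddCommGroup V] [InnerProductSpace ℝ V]

section gap

variable {X : Type*} [Fintype X] [DecidableEq X] {ρ : Perm X →* (V →L[ℝ] V)}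

variable (ρ) in
/-- vectors fixed by all transpositions -/
def invAll : Submodule ℝ V where
  carrier := {z | ∀ x x', ρ (swap x x') z = z}
  add_mem' := by
    intro a b ha hb x x'
    change ∀ x x', _ at ha
    change ∀ x x', _ at hb
    rw [map_add, ha, hb]
  zero_mem' := by
    intro x x'
    simp
  smul_mem' := by
    intro c a ha x x'
    change ∀ x x', _ at ha
    rw [map_smul, ha]

lemma mem_invAll {z : V} : z ∈ invAll ρ ↔ ∀ x x', ρ (swap x x') z = z := Iff.rfl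

lemma invAll_fixed {z : V} (hz : z ∈ invAll ρ) (g : Perm X) : ρ g z = z := by
  induction g using Equiv.Perm.swap_induction_on with
  | one => exact rho_one_apply ρ z
  | swap_mul f x y hxy ih =>
    rw [rho_mul_apply, ih]
    exact hz x y

lemma orth_invariant (hρ : IsOrth ρ) {w : V} (hw : w ∈ (invAll ρ)ᗮ) (g : Perm X) :
    ρ g w ∈ (invAll ρ)ᗮ := by
  rw [Submodule.mem_orthogonal] at hw ⊢
  intro z hz
  have := hρ.adj g⁻¹ z w
  rw [inv_inv, invAll_fixed hz] at this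
  rw [← this]
  exact hw z hz

/-- the spectral gap of the transposition Laplacian -/
theorem gap [FiniteDimensional ℝ V] (hρ : IsOrth ρ) (hX : 0 < Fintype.card X) {u : V}
    (hu : u ∈ (invAll ρ)ᗮ) : ‖u‖ ^ 2 ≤ 2 * ⟪u, Lap ρ u⟫_ℝ := by
  have hm : Fintype.card X - 1 + 1 = Fintype.card X := by omega
  have h := Lap_lower_sub (m := Fintype.card X - 1) hρ (invAll ρ)ᗮ
    (fun g w hw => orth_invariant hρ hw g) ?_ hX hu
  · have e : ((Fintype.card X : ℝ) - ((Fintype.card X - 1 : ℕ) : ℝ)) = 1 := by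
      rw [Nat.cast_sub hX]
      push_cast
      ring
    rw [e] at h
    linarith
  · intro S hS w hw hfix
    have hS' : S = Finset.univ := by
      apply Finset.eq_univ_of_card
      have := Finset.card_le_univ S
      omega
    have hzm : w ∈ invAll ρ := by
      intro x x'
      exact hfix x (by simp [hS']) x' (by simp [hS'])
    have := Submodule.inner_right_of_mem_orthogonal hzm hw
    exact inner_self_eq_zero.mp this

lemma Lap_zero_of_inv {z : V} (hz : z ∈ invAll ρ) : Lap ρ z = 0 := by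
  unfold Lap
  rw [smul_apply]
  simp only [sum_apply, sub_apply, one_apply_eq_self]
  simp [hz _ _]

end gap

section key

variable {Y : Type*} [Fintype Y] [DecidableEq Y] {ρ : Perm (Y × Bool) →* (V →L[ℝ] V)}

lemma Gop_zero_of_inv {z : V} (hz : z ∈ invAll ρ) : Gop ρ z = 0 := by
  unfold Gop
  rw [smul_apply]
  simp only [sum_apply, edgeOp, sub_apply, add_apply]
  simp [hz _ _]

theorem core_bound [FiniteDimensional ℝ V] (hρ : IsOrth ρ) (hY : 0 < Fintype.card Y) {u : V}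
    (hu : FlipInv ρ u) {τ κ₀ ε : ℝ} (hτ0 : 0 ≤ τ) (hτ : τ ≤ 1 / 12) (hκ0 : 0 ≤ κ₀)
    (hκ : 1 / (2 * (Fintype.card Y : ℝ)) ≤ κ₀ ^ 2) (hε : 48 * τ ^ 2 * κ₀ ≤ ε) :
    ⟪u, expo τ (Gop ρ) u⟫_ℝ ≤ ‖u‖ ^ 2 + ε * ⟪u, Lap ρ u⟫_ℝ := by
  have hm : (0 : ℝ) < Fintype.card Y := by exact_mod_cast hY
  have hX : 0 < Fintype.card (Y × Bool) := by
    rw [Fintype.card_prod, Fintype.card_bool]; omega
  obtain ⟨z, hz, u₁, hu₁, rfl⟩ := Submodule.exists_add_mem_mem_orthogonal (K := invAll ρ) u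
  have hzu : ⟪z, u₁⟫_ℝ = 0 := Submodule.inner_right_of_mem_orthogonal hz hu₁
  have hf1 : FlipInv ρ u₁ := by
    intro c
    have := hu c
    rw [map_add, invAll_fixed hz] at this
    exact add_left_cancel this
  have hG := Gop_isSym hρ
  have hGz : Gop ρ z = 0 := Gop_zero_of_inv hz
  have hE : expo τ (Gop ρ) z = z := by
    have := expo_apply_of_eigen τ (A := Gop ρ) (z := z) (μ := 0) (by rw [hGz, zero_smul])
    simpa using this
  have hL := Lap_isSym hρ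
  have hLz : Lap ρ z = 0 := Lap_zero_of_inv hz
  have hEsym := hG.expo τ
  have e1 : ⟪z + u₁, expo τ (Gop ρ) (z + u₁)⟫_ℝ = ‖z‖ ^ 2 + ⟪u₁, expo τ (Gop ρ) u₁⟫_ℝ := by
    rw [map_add, hE, inner_add_left, inner_add_right, inner_add_right,
      ← hEsym z u₁, hE, hzu, real_inner_comm z u₁, hzu, real_inner_self_eq_norm_sq]
    ring
  have e2 : ‖z + u₁‖ ^ 2 = ‖z‖ ^ 2 + ‖u₁‖ ^ 2 := by
    rw [@norm_add_sq_real, hzu]; ring
  have e3 : ⟪z + u₁, Lap ρ (z + u₁)⟫_ℝ = ⟪u₁, Lap ρ u₁⟫_ℝ := by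
    rw [map_add, hLz, zero_add, inner_add_left, ← hL z u₁, hLz, inner_zero_left, zero_add]
  rw [e1, e2, e3]
  have h1 := first_moment_G hρ hf1
  have h2 := expo_G_le hρ hY hf1 h1 hτ0 hτ
  have hvar := var_G hρ hY hf1
  have hgap := gap hρ hX hu₁
  set B := ⟪u₁, Lap ρ u₁⟫_ℝ with hB
  have hB0 : 0 ≤ B := Lap_isPsd hρ u₁
  have hprod : ‖Gop ρ u₁‖ * ‖u₁‖ ≤ 4 * κ₀ * B := by
    have hsq : (‖Gop ρ u₁‖ * ‖u₁‖) ^ 2 ≤ (4 * κ₀ * B) ^ 2 := by
      rw [mul_pow]
      have s1 : ‖Gop ρ u₁‖ ^ 2 * ‖u₁‖ ^ 2 ≤ ((4 / (Fintype.card Y : ℝ)) * B) * (2 * B) :=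
        mul_le_mul hvar hgap (by positivity) (by positivity)
      refine s1.trans ?_
      have s2 : ((4 / (Fintype.card Y : ℝ)) * B) * (2 * B) =
          16 * (1 / (2 * (Fintype.card Y : ℝ))) * B ^ 2 := by
        field_simp
        ring
      rw [s2]
      have s3 : 16 * (1 / (2 * (Fintype.card Y : ℝ))) * B ^ 2 ≤ 16 * κ₀ ^ 2 * B ^ 2 := by
        gcongr
      refine s3.trans (le_of_eq ?_)
      ring
    exact (pow_le_pow_iff_left₀ (by positivity) (by positivity) two_ne_zero).mp hsq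
  have h3 : 12 * τ ^ 2 * (‖Gop ρ u₁‖ * ‖u₁‖) ≤ 12 * τ ^ 2 * (4 * κ₀ * B) :=
    mul_le_mul_of_nonneg_left hprod (by positivity)
  have h4 : 12 * τ ^ 2 * (4 * κ₀ * B) = (48 * τ ^ 2 * κ₀) * B := by ring
  have h5 : (48 * τ ^ 2 * κ₀) * B ≤ ε * B := mul_le_mul_of_nonneg_right hε hB0
  linarith

/-- The key step -/
theorem key_step [FiniteDimensional ℝ V] (hρ : IsOrth ρ) (hY : 0 < Fintype.card Y) {v : V}
    (hv : FlipInv ρ v) {τ κ₀ ε : ℝ} (hτ0 : 0 ≤ τ) (hτ : τ ≤ 1 / 12) (hκ0 : 0 ≤ κ₀)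
    (hκ : 1 / (2 * (Fintype.card Y : ℝ)) ≤ κ₀ ^ 2) (hε : 48 * τ ^ 2 * κ₀ ≤ ε) (hε0 : 0 ≤ ε) :
    ⟪v, expo (-τ) (sliceLap ρ false + sliceLap ρ true) v⟫_ℝ ≤
      ⟪v, expo (-(τ - ε)) (Lap ρ) v⟫_ℝ := by
  have : CompleteSpace V := FiniteDimensional.complete ℝ V
  rw [Lap_sub_slices ρ hY]
  have hcomm : Commute (Lap ρ) (-(Gop ρ)) := ((Gop_commute_Lap ρ).symm).neg_right
  rw [sub_eq_add_neg, expo_add_of_commute _ hcomm, expo_neg, neg_neg]
  set E := expo (-τ / 2) (Lap ρ) with hE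
  have hL := Lap_isSym hρ
  have hEsym : IsSym E := hL.expo _
  have hEE : expo (-τ) (Lap ρ) = E * E := by
    rw [hE, ← expo_add_time]
    congr 1
    ring
  have hEG : Commute E (expo τ (Gop ρ)) :=
    Commute.expo_both (Gop_commute_Lap ρ).symm _ _
  have hu : FlipInv ρ (E v) := by
    intro c
    have h1 : Commute (ρ (flipPerm c)) E := Commute.expo_right (Lap_commute _) _
    have h2 := congrArg (fun T : V →L[ℝ] V => T v) h1.eq
    simp only [mul_ap] at h2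
    rw [h2, hv c]
  have hcore := core_bound hρ hY hu hτ0 hτ hκ0 hκ hε
  have hlow := one_add_le_inner_expo hL (Lap_isPsd hρ) hε0 (E v)
  have e1 : ⟪v, (expo (-τ) (Lap ρ) * expo τ (Gop ρ)) v⟫_ℝ = ⟪E v, expo τ (Gop ρ) (E v)⟫_ℝ := by
    rw [hEE, mul_assoc, mul_ap, ← hEsym v, hEG.eq]
    rfl
  have e2 : ⟪E v, expo ε (Lap ρ) (E v)⟫_ℝ = ⟪v, expo (-(τ - ε)) (Lap ρ) v⟫_ℝ := by
    rw [hEsym v, ← mul_ap, ← mul_ap]
    have : E * expo ε (Lap ρ) * E = expo (-(τ - ε)) (Lap ρ) := by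
      rw [hE, ← expo_add_time, ← expo_add_time]
      congr 1
      ring
    rw [this]
  rw [e1, ← e2]
  linarith

end key

end Vale.Agent.Lib.P162
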