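import Vale.Agent.Lib.P162.Coord
import Vale.Agent.Lib.P162.Avg

/-!
# The law of a pass: expectations, routings and hitting probabilities
-/

namespace Vale.Agent.Lib.P162

open Equiv Finset
open scoped InnerProductSpace

set_option linter.unusedSectionVars false
set_option linter.unusedSimpArgs false
set_option linter.unusedVariables false

/-- one recursive routing step -/
def stepG (D : ℕ) (g0 g1 : Perm (Pos D)) (c : Pos D → Bool) : Perm (Pos (D + 1)) :=
  iota D false g0 * iota D true g1 * flipTop D c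

lemma stepG_cons (D : ℕ) (g0 g1 : Perm (Pos D)) (c : Pos D → Bool) (a : Bool) (u : Pos D) :
    stepG D g0 g1 c (Fin.cons a u) =
      Fin.cons (xor a (c u)) (if xor a (c u) = true then g1 u else g0 u) := by
  unfold stepG
  rw [Perm.mul_apply, Perm.mul_apply, flipTop_cons, iota_cons]
  cases h : xor a (c u)
  · simp [iota_cons]
  · simp [iota_cons]

lemma stepG_apply (D : ℕ) (g0 g1 : Perm (Pos D)) (c : Pos D → Bool) (x : Pos (D + 1)) :
    stepG D g0 g1 c x =
      Fin.cons (xor (x 0) (c (Fin.tail x)))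
        (if xor (x 0) (c (Fin.tail x)) = true then g1 (Fin.tail x) else g0 (Fin.tail x)) := by
  conv_lhs => rw [← Fin.cons_self_tail x]
  rw [stepG_cons]

/-- the expectation over the law of a pass -/
noncomputable def Exp : (D : ℕ) → (Perm (Pos D) → ℝ) → ℝ
  | 0, F => F 1
  | D + 1, F => Exp D fun g0 => Exp D fun g1 => avg fun c : Pos D → Bool => F (stepG D g0 g1 c)

lemma Exp_succ (D : ℕ) (F : Perm (Pos (D + 1)) → ℝ) :
    Exp (D + 1) F = Exp D fun g0 => Exp D fun g1 => avg fun c : Pos D → Bool => F (stepG D g0 g1 c) :=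
  rfl

lemma Exp_congr (D : ℕ) {F G : Perm (Pos D) → ℝ} (h : ∀ g, F g = G g) : Exp D F = Exp D G := by
  rw [funext h]

lemma Exp_add (D : ℕ) : ∀ F G : Perm (Pos D) → ℝ, Exp D (fun g => F g + G g) = Exp D F + Exp D G := by
  induction D with
  | zero => intro F G; rfl
  | succ D ih =>
    intro F G
    simp only [Exp_succ, avg_add, ih]

lemma Exp_mul_left (D : ℕ) (a : ℝ) : ∀ F : Perm (Pos D) → ℝ, Exp D (fun g => a * F g) = a * Exp D F := by
  induction D with
  | zero => intro F; rfl
  | succ D ih =>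
    intro F
    simp only [Exp_succ, avg_mul_left, ih]

lemma Exp_mul_right (D : ℕ) (a : ℝ) (F : Perm (Pos D) → ℝ) :
    Exp D (fun g => F g * a) = Exp D F * a := by
  rw [mul_comm, ← Exp_mul_left]
  exact Exp_congr D fun g => mul_comm _ _

lemma Exp_const (D : ℕ) : ∀ a : ℝ, Exp D (fun _ => a) = a := by
  induction D with
  | zero => intro a; rfl
  | succ D ih =>
    intro a
    simp only [Exp_succ, avg_const, ih]

lemma Exp_zero_fun (D : ℕ) : Exp D (fun _ => 0) = 0 := Exp_const D 0

lemma Exp_sum (D : ℕ) {κ : Type*} (s : Finset κ) (F : κ → Perm (Pos D) → ℝ) :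
    Exp D (fun g => ∑ k ∈ s, F k g) = ∑ k ∈ s, Exp D (F k) := by
  classical
  induction s using Finset.induction_on with
  | empty => simp [Exp_zero_fun]
  | insert a s ha ih =>
    simp only [sum_insert ha]
    rw [Exp_add, ih]

lemma Exp_avg (D : ℕ) {Y : Type*} [Fintype Y] (F : Y → Perm (Pos D) → ℝ) :
    avg (fun y => Exp D (F y)) = Exp D (fun g => avg fun y => F y g) := by
  unfold avg
  rw [Exp_mul_left, Exp_sum]

/-- the routings in the support of the law of a pass -/
def Rout : (D : ℕ) → Perm (Pos D) → Prop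
  | 0, _ => True
  | D + 1, h => ∃ g0 g1 c, Rout D g0 ∧ Rout D g1 ∧ h = stepG D g0 g1 c

lemma Exp_mono_rout (D : ℕ) : ∀ {F G : Perm (Pos D) → ℝ}, (∀ g, Rout D g → F g ≤ G g) →
    Exp D F ≤ Exp D G := by
  induction D with
  | zero => intro F G h; exact h 1 trivial
  | succ D ih =>
    intro F G h
    refine ih fun g0 h0 => ih fun g1 h1 => avg_mono fun c => ?_
    exact h _ ⟨g0, g1, c, h0, h1, rfl⟩

lemma Exp_mono (D : ℕ) {F G : Perm (Pos D) → ℝ} (h : ∀ g, F g ≤ G g) : Exp D F ≤ Exp D G :=
  Exp_mono_rout D fun g _ => h g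

lemma Exp_nonneg (D : ℕ) {F : Perm (Pos D) → ℝ} (h : ∀ g, 0 ≤ F g) : 0 ≤ Exp D F := by
  have := Exp_mono D h
  rwa [Exp_zero_fun] at this

lemma Exp_abs_le (D : ℕ) (F : Perm (Pos D) → ℝ) : |Exp D F| ≤ Exp D (fun g => |F g|) := by
  rw [abs_le]
  constructor
  · have := Exp_mono D (fun g => neg_abs_le (F g))
    have e : Exp D (fun g => - |F g|) = - Exp D (fun g => |F g|) := by
      have := Exp_mul_left D (-1) (fun g => |F g|)
      simpa using this
    linarith
  · exact Exp_mono D fun g => le_abs_self _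

section rep

variable {V : Type*} [NormedAddCommGroup V] [InnerProductSpace ℝ V]

/-- a pass as an expectation -/
lemma Exp_Qrec (D : ℕ) : ∀ (ρ : Perm (Pos D) →* (V →L[ℝ] V)) (l : V →L[ℝ] ℝ) (f : V),
    l (Qrec D ρ f) = Exp D (fun g => l (ρ g f)) := by
  induction D with
  | zero =>
    intro ρ l f
    show l f = l (ρ 1 f)
    simp
  | succ D ih =>
    intro ρ l f
    rw [Qrec_succ, Exp_succ]
    show l (Qrec D (ρ.comp (iota D false)) (Qrec D (ρ.comp (iota D true)) (Eop ρ f))) = _
    rw [ih]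
    refine Exp_congr D fun g0 => ?_
    have h1 := ih (ρ.comp (iota D true)) (l.comp (ρ.comp (iota D false) g0)) (Eop ρ f)
    simp only [ContinuousLinearMap.comp_apply] at h1
    rw [h1]
    refine Exp_congr D fun g1 => ?_
    unfold Eop avg
    simp only [smul_apply, _root_.sum_apply, map_smul, map_sum]
    rw [smul_eq_mul, one_div]
    congr 1
    refine sum_congr rfl fun c _ => ?_
    unfold stepG
    rw [map_mul, map_mul]
    rfl

end rep

section hit

variable {ι : Type*} [Fintype ι] [DecidableEq ι]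

/-- first bits of a tuple -/
def hd {D : ℕ} (z : ι → Pos (D + 1)) : ι → Bool := fun i => z i 0

/-- tails of a tuple -/
def tl {D : ℕ} (z : ι → Pos (D + 1)) : ι → Pos D := fun i => Fin.tail (z i)

/-- tuples from first bits and tails -/
def joinT {D : ℕ} (b : ι → Bool) (t : ι → Pos D) : ι → Pos (D + 1) := fun i => Fin.cons (b i) (t i)

@[simp] lemma hd_joinT {D : ℕ} (b : ι → Bool) (t : ι → Pos D) : hd (joinT b t) = b := by
  funext i; simp [hd, joinT]

@[simp] lemma tl_joinT {D : ℕ} (b : ι → Bool) (t : ι → Pos D) : tl (joinT b t) = t := by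
  funext i; simp [tl, joinT]

lemma joinT_hd_tl {D : ℕ} (z : ι → Pos (D + 1)) : joinT (hd z) (tl z) = z := by
  funext i; simp [hd, tl, joinT, Fin.cons_self_tail]

/-- tuples as pairs of first bits and tails -/
def tupE (D : ℕ) : (ι → Bool) × (ι → Pos D) ≃ (ι → Pos (D + 1)) where
  toFun p := joinT p.1 p.2
  invFun z := (hd z, tl z)
  left_inv p := by simp
  right_inv z := joinT_hd_tl z

lemma avg_tup (D : ℕ) (F : (ι → Pos (D + 1)) → ℝ) :
    avg F = avg (fun b : ι → Bool => avg fun t : ι → Pos D => F (joinT b t)) := by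
  rw [← avg_equiv (tupE D) F, avg_prod]
  rfl

/-- the block of a bit pattern -/
def blk (S : Finset ι) (b : ι → Bool) (β : Bool) : Finset ι := S.filter fun i => b i = β

lemma mem_blk {S : Finset ι} {b : ι → Bool} {β : Bool} {i : ι} : i ∈ blk S b β ↔ i ∈ S ∧ b i = β := by
  simp [blk]

lemma card_blk (S : Finset ι) (b : ι → Bool) : (blk S b false).card + (blk S b true).card = S.card := by
  have h := Finset.card_filter_add_card_filter_not (s := S) (fun i => b i = false)
  have e : (S.filter fun i => ¬ b i = false) = blk S b true := by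
    ext i; simp [blk]
  rw [e] at h
  exact h

/-- the probability of a prescribed image of the marks in `S` -/
noncomputable def hitP (D : ℕ) (S : Finset ι) (z w : ι → Pos D) : ℝ :=
  Exp D fun g => if ∀ i ∈ S, g (z i) = w i then 1 else 0

/-- the coin probability of first bits -/
noncomputable def coinP (D : ℕ) (S : Finset ι) (f : ι → Bool) (t : ι → Pos D) (b : ι → Bool) : ℝ :=
  avg fun c : Pos D → Bool => if ∀ i ∈ S, xor (f i) (c (t i)) = b i then 1 else 0

lemma hitP_nonneg (D : ℕ) (S : Finset ι) (z w : ι → Pos D) : 0 ≤ hitP D S z w :=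
  Exp_nonneg D fun g => by split_ifs <;> norm_num

lemma hitP_le_one (D : ℕ) (S : Finset ι) (z w : ι → Pos D) : hitP D S z w ≤ 1 := by
  have := Exp_mono D (F := fun g => if ∀ i ∈ S, g (z i) = w i then (1:ℝ) else 0) (G := fun _ => 1)
    (fun g => by split_ifs <;> norm_num)
  rwa [Exp_const] at this

lemma coinP_nonneg (D : ℕ) (S : Finset ι) (f : ι → Bool) (t : ι → Pos D) (b : ι → Bool) :
    0 ≤ coinP D S f t b :=
  avg_nonneg fun c => by split_ifs <;> norm_num

lemma cons_eq_iff {D : ℕ} (a : Bool) (u : Pos D) (x : Pos (D + 1)) :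
    (Fin.cons a u : Pos (D + 1)) = x ↔ a = x 0 ∧ u = Fin.tail x := by
  constructor
  · rintro rfl
    simp
  · rintro ⟨rfl, rfl⟩
    simp [Fin.cons_self_tail]

lemma stepG_indicator (D : ℕ) (S : Finset ι) (z w : ι → Pos (D + 1)) (g0 g1 : Perm (Pos D))
    (c : Pos D → Bool) :
    (if ∀ i ∈ S, stepG D g0 g1 c (z i) = w i then (1 : ℝ) else 0) =
      (if ∀ i ∈ S, xor (hd z i) (c (tl z i)) = hd w i then 1 else 0) *
        ((if ∀ i ∈ blk S (hd w) false, g0 (tl z i) = tl w i then 1 else 0) *
          (if ∀ i ∈ blk S (hd w) true, g1 (tl z i) = tl w i then 1 else 0)) := by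
  have key : (∀ i ∈ S, stepG D g0 g1 c (z i) = w i) ↔
      (∀ i ∈ S, xor (hd z i) (c (tl z i)) = hd w i) ∧
        (∀ i ∈ blk S (hd w) false, g0 (tl z i) = tl w i) ∧
          (∀ i ∈ blk S (hd w) true, g1 (tl z i) = tl w i) := by
    constructor
    · intro h
      have h1 : ∀ i ∈ S, xor (hd z i) (c (tl z i)) = hd w i ∧
          (if xor (hd z i) (c (tl z i)) = true then g1 (tl z i) else g0 (tl z i)) = tl w i := by
        intro i hi
        have := h i hi
        rw [stepG_apply, cons_eq_iff] at this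
        exact this
      refine ⟨fun i hi => (h1 i hi).1, ?_, ?_⟩
      · intro i hi
        obtain ⟨his, hb⟩ := mem_blk.mp hi
        obtain ⟨h2, h3⟩ := h1 i his
        rw [h2, hb] at h3
        simpa using h3
      · intro i hi
        obtain ⟨his, hb⟩ := mem_blk.mp hi
        obtain ⟨h2, h3⟩ := h1 i his
        rw [h2, hb] at h3
        simpa using h3
    · rintro ⟨h1, h2, h3⟩ i hi
      rw [stepG_apply, cons_eq_iff]
      refine ⟨h1 i hi, ?_⟩
      have h4 := h1 i hi
      show (if xor (hd z i) (c (tl z i)) = true then g1 (tl z i) else g0 (tl z i)) = tl w i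
      rw [h4]
      cases hb : hd w i
      · simpa using h2 i (mem_blk.mpr ⟨hi, hb⟩)
      · simpa using h3 i (mem_blk.mpr ⟨hi, hb⟩)
  by_cases h : ∀ i ∈ S, stepG D g0 g1 c (z i) = w i
  · obtain ⟨h1, h2, h3⟩ := key.mp h
    rw [if_pos h, if_pos h1, if_pos h2, if_pos h3]
    norm_num
  · rw [if_neg h]
    by_cases h1 : ∀ i ∈ S, xor (hd z i) (c (tl z i)) = hd w i
    · by_cases h2 : ∀ i ∈ blk S (hd w) false, g0 (tl z i) = tl w i
      · by_cases h3 : ∀ i ∈ blk S (hd w) true, g1 (tl z i) = tl w i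
        · exact absurd (key.mpr ⟨h1, h2, h3⟩) h
        · rw [if_neg h3]; simp
      · rw [if_neg h2]; simp
    · rw [if_neg h1]; simp

/-- the recursion for the hitting probabilities -/
lemma hitP_succ (D : ℕ) (S : Finset ι) (z w : ι → Pos (D + 1)) :
    hitP (D + 1) S z w = coinP D S (hd z) (tl z) (hd w) *
      (hitP D (blk S (hd w) false) (tl z) (tl w) * hitP D (blk S (hd w) true) (tl z) (tl w)) := by
  unfold hitP coinP
  rw [Exp_succ]
  simp only [stepG_indicator, avg_mul_right]
  set C := avg fun c : Pos D → Bool => if ∀ i ∈ S, xor (hd z i) (c (tl z i)) = hd w i then (1:ℝ) else 0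
  simp only [Exp_mul_left]
  congr 1
  simp only [mul_comm, ← Exp_mul_right, Exp_mul_left]

/-- the density of a pass with respect to the uniform law -/
noncomputable def tauD (D : ℕ) (S : Finset ι) (z w : ι → Pos D) : ℝ :=
  ((2 : ℝ) ^ D) ^ S.card * hitP D S z w

/-- the normalised coin probability -/
noncomputable def wtD (D : ℕ) (S : Finset ι) (f : ι → Bool) (t : ι → Pos D) (b : ι → Bool) : ℝ :=
  (2 : ℝ) ^ S.card * coinP D S f t b

lemma tauD_succ (D : ℕ) (S : Finset ι) (z w : ι → Pos (D + 1)) :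
    tauD (D + 1) S z w = wtD D S (hd z) (tl z) (hd w) *
      (tauD D (blk S (hd w) false) (tl z) (tl w) * tauD D (blk S (hd w) true) (tl z) (tl w)) := by
  unfold tauD wtD
  rw [hitP_succ]
  have hc := card_blk S (hd w)
  have e : ((2 : ℝ) ^ (D + 1)) ^ S.card = (2 : ℝ) ^ S.card * (((2 : ℝ) ^ D) ^ (blk S (hd w) false).card *
      ((2 : ℝ) ^ D) ^ (blk S (hd w) true).card) := by
    rw [← pow_add, hc, pow_succ, mul_pow]
    ring
  rw [e]
  ring

lemma tauD_nonneg (D : ℕ) (S : Finset ι) (z w : ι → Pos D) : 0 ≤ tauD D S z w :=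
  mul_nonneg (by positivity) (hitP_nonneg _ _ _ _)

lemma tauD_le (D : ℕ) (S : Finset ι) (z w : ι → Pos D) : tauD D S z w ≤ ((2 : ℝ) ^ D) ^ S.card := by
  unfold tauD
  have := hitP_le_one D S z w
  have h : (0:ℝ) ≤ ((2 : ℝ) ^ D) ^ S.card := by positivity
  nlinarith

lemma card_pos' (D : ℕ) : (Fintype.card (Pos D) : ℝ) = 2 ^ D := by
  simp

lemma avg_tauD_right (D : ℕ) (S : Finset ι) (z : ι → Pos D) :
    avg (fun w => tauD D S z w) = 1 := by
  unfold tauD hitP
  rw [avg_mul_left, Exp_avg]
  have h : ∀ g : Perm (Pos D), avg (fun w : ι → Pos D => if ∀ i ∈ S, g (z i) = w i then (1:ℝ) else 0) =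
      (((2 : ℝ) ^ D) ^ S.card)⁻¹ := by
    intro g
    have := avg_hit S (fun i => g (z i))
    rw [card_pos'] at this
    rw [← this]
    refine avg_congr fun y => ?_
    simp only [eq_comm]
  simp only [h, Exp_const]
  field_simp

lemma avg_tauD_left (D : ℕ) (S : Finset ι) (w : ι → Pos D) :
    avg (fun z => tauD D S z w) = 1 := by
  unfold tauD hitP
  rw [avg_mul_left, Exp_avg]
  have h : ∀ g : Perm (Pos D), avg (fun z : ι → Pos D => if ∀ i ∈ S, g (z i) = w i then (1:ℝ) else 0) =
      (((2 : ℝ) ^ D) ^ S.card)⁻¹ := by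
    intro g
    have := avg_hit S (fun i => g.symm (w i))
    rw [card_pos'] at this
    rw [← this]
    refine avg_congr fun y => ?_
    congr 1
    apply propext
    refine forall₂_congr fun i _ => ?_
    rw [Equiv.eq_symm_apply]
  simp only [h, Exp_const]
  field_simp

lemma tauD_congr_right (D : ℕ) (S : Finset ι) (z : ι → Pos D) {w w' : ι → Pos D}
    (h : ∀ i ∈ S, w i = w' i) : tauD D S z w = tauD D S z w' := by
  unfold tauD hitP
  congr 1
  refine Exp_congr D fun g => ?_
  congr 1
  apply propext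
  refine forall₂_congr fun i hi => ?_
  rw [h i hi]

lemma tauD_congr_left (D : ℕ) (S : Finset ι) (w : ι → Pos D) {z z' : ι → Pos D}
    (h : ∀ i ∈ S, z i = z' i) : tauD D S z w = tauD D S z' w := by
  unfold tauD hitP
  congr 1
  refine Exp_congr D fun g => ?_
  congr 1
  apply propext
  refine forall₂_congr fun i hi => ?_
  rw [h i hi]

/-- if the density is positive then some permutation carries `z` to `w` on `S` -/
lemma exists_of_hitP_ne (D : ℕ) (S : Finset ι) (z w : ι → Pos D) (h : hitP D S z w ≠ 0) :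
    ∃ g : Perm (Pos D), ∀ i ∈ S, g (z i) = w i := by
  by_contra hne
  push Not at hne
  apply h
  unfold hitP
  have : ∀ g : Perm (Pos D), (if ∀ i ∈ S, g (z i) = w i then (1:ℝ) else 0) = 0 := by
    intro g
    rw [if_neg]
    push Not
    exact hne g
  simp only [this, Exp_const]

end hit

end Vale.Agent.Lib.P162
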