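import Vale.Agent.Lib.P162.Key3

/-!
# Level subspaces, the regular representations and dimension bounds
-/

namespace Vale.Agent.Lib.P162

open scoped InnerProductSpace
open Equiv

set_option linter.unusedSectionVars false
set_option linter.unusedSimpArgs false
set_option linter.unusedVariables false

variable {V : Type*} [NormedAddCommGroup V] [InnerProductSpace ℝ V]
variable {X : Type*} [Fintype X] [DecidableEq X]

section generic

variable {ρ : Perm X →* (V →L[ℝ] V)}

variable (ρ) in
/-- vectors fixed by the transpositions of a set -/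
def invS (S : Finset X) : Submodule ℝ V where
  carrier := {v | ∀ a ∈ S, ∀ b ∈ S, ρ (swap a b) v = v}
  add_mem' := by
    intro u v hu hv a ha b hb
    change ∀ a ∈ S, ∀ b ∈ S, _ at hu
    change ∀ a ∈ S, ∀ b ∈ S, _ at hv
    rw [map_add, hu a ha b hb, hv a ha b hb]
  zero_mem' := by
    intro a _ b _
    simp
  smul_mem' := by
    intro c u hu a ha b hb
    change ∀ a ∈ S, ∀ b ∈ S, _ at hu
    rw [map_smul, hu a ha b hb]

lemma mem_invS {S : Finset X} {v : V} :
    v ∈ invS ρ S ↔ ∀ a ∈ S, ∀ b ∈ S, ρ (swap a b) v = v := Iff.rfl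

variable (ρ) in
/-- the span of all vectors fixed by the transpositions of some `(m+1)`-set -/
def levelSpace (m : ℕ) : Submodule ℝ V :=
  ⨆ S : {S : Finset X // S.card = m + 1}, invS ρ S.1

lemma invS_map (g : Perm X) {S : Finset X} {v : V} (hv : v ∈ invS ρ S) :
    ρ g v ∈ invS ρ (S.map g.toEmbedding) := by
  intro a ha b hb
  simp only [Finset.mem_map, Equiv.coe_toEmbedding] at ha hb
  obtain ⟨a', ha', rfl⟩ := ha
  obtain ⟨b', hb', rfl⟩ := hb
  have h := congrArg (fun T : V →L[ℝ] V => T v) (rho_conj_swap ρ g a' b')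
  simp only [mul_ap] at h
  rw [h, hv a' ha' b' hb']

lemma levelSpace_invariant (g : Perm X) {m : ℕ} {v : V} (hv : v ∈ levelSpace ρ m) :
    ρ g v ∈ levelSpace ρ m := by
  unfold levelSpace at hv ⊢
  induction hv using Submodule.iSup_induction' with
  | mem S x hx =>
    refine Submodule.mem_iSup_of_mem ⟨S.1.map g.toEmbedding, by simp [S.2]⟩ (invS_map g hx)
  | zero => simp
  | add x y _ _ hx hy =>
    rw [map_add]
    exact Submodule.add_mem _ hx hy

lemma level_orth_invariant (hρ : IsOrth ρ) {m : ℕ} {w : V} (hw : w ∈ (levelSpace ρ m)ᗮ)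
    (g : Perm X) : ρ g w ∈ (levelSpace ρ m)ᗮ := by
  rw [Submodule.mem_orthogonal] at hw ⊢
  intro z hz
  have := hρ.adj g⁻¹ z w
  rw [inv_inv] at this
  rw [← this]
  exact hw _ (levelSpace_invariant _ hz)

/-- lower bound for the Laplacian off the level space -/
theorem level_gap [FiniteDimensional ℝ V] (hρ : IsOrth ρ) (m : ℕ) (hX : 0 < Fintype.card X)
    {u : V} (hu : u ∈ (levelSpace ρ m)ᗮ) :
    (((Fintype.card X : ℝ) - m) / 2) * ‖u‖ ^ 2 ≤ ⟪u, Lap ρ u⟫_ℝ := by
  refine Lap_lower_sub hρ (levelSpace ρ m)ᗮ (fun g w hw => level_orth_invariant hρ hw g) ?_ hX hu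
  intro S hS w hw hfix
  obtain ⟨S', hS', hcard⟩ := Finset.exists_subset_card_eq hS
  have hmem : w ∈ levelSpace ρ m := by
    unfold levelSpace
    refine Submodule.mem_iSup_of_mem ⟨S', hcard⟩ ?_
    intro a ha b hb
    exact hfix a (hS' ha) b (hS' hb)
  have := Submodule.inner_right_of_mem_orthogonal hmem hw
  exact inner_self_eq_zero.mp this

end generic

section regular

/-- the regular representation space -/
abbrev RegSpace (X : Type*) [Fintype X] [DecidableEq X] := EuclideanSpace ℝ (Perm X)

/-- the operator induced by a relabelling of group elements -/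
noncomputable def regOp (e : Perm X ≃ Perm X) : RegSpace X →L[ℝ] RegSpace X :=
  ((LinearIsometryEquiv.piLpCongrLeft 2 ℝ ℝ e :
    RegSpace X ≃ₗᵢ[ℝ] RegSpace X).toContinuousLinearEquiv :
      RegSpace X →L[ℝ] RegSpace X)

lemma regOp_apply (e : Perm X ≃ Perm X) (f : RegSpace X) (π : Perm X) :
    regOp e f π = f (e.symm π) := rfl

lemma regOp_inner (e : Perm X ≃ Perm X) (u v : RegSpace X) :
    ⟪regOp e u, regOp e v⟫_ℝ = ⟪u, v⟫_ℝ :=
  (LinearIsometryEquiv.piLpCongrLeft 2 ℝ ℝ e).inner_map_map u v

/-- left regular representation -/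
noncomputable def lreg : Perm X →* (RegSpace X →L[ℝ] RegSpace X) where
  toFun g := regOp (Equiv.mulLeft g)
  map_one' := by
    ext f π
    show f ((1 : Perm X)⁻¹ * π) = f π
    simp
  map_mul' g h := by
    ext f π
    show f _ = f _
    simp [mul_assoc]

/-- right regular representation -/
noncomputable def rreg : Perm X →* (RegSpace X →L[ℝ] RegSpace X) where
  toFun g := regOp (Equiv.mulRight g⁻¹)
  map_one' := by
    ext f π
    show f (π * ((1 : Perm X)⁻¹)⁻¹) = f π
    simp
  map_mul' g h := by
    ext f π
    show f _ = f _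
    simp [mul_assoc]

lemma lreg_apply (g : Perm X) (f : RegSpace X) (π : Perm X) : lreg g f π = f (g⁻¹ * π) := rfl

lemma rreg_apply (g : Perm X) (f : RegSpace X) (π : Perm X) : rreg g f π = f (π * g) := by
  show f _ = f _
  simp

lemma lreg_isOrth : IsOrth (lreg (X := X)) := fun g u v => regOp_inner _ u v

lemma rreg_isOrth : IsOrth (rreg (X := X)) := fun g u v => regOp_inner _ u v

lemma Lap_lreg_eq_rreg : Lap (lreg (X := X)) = Lap (rreg (X := X)) := by
  ext f π
  unfold Lap
  simp only [smul_apply, sum_apply, sub_apply, one_apply_eq_self]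
  simp only [PiLp.smul_apply, WithLp.ofLp_sum, Finset.sum_apply, PiLp.sub_apply, lreg_apply,
    rreg_apply]
  congr 1
  refine (Fintype.sum_equiv π _ _ fun a => ?_).symm
  refine (Fintype.sum_equiv π _ _ fun b => ?_)
  congr 2
  rw [swap_inv]
  rw [swap_apply_apply]
  group

/-- being invariant under the swaps of `S` implies invariance under everything fixing `Sᶜ` -/
lemma fix_of_swaps (S : Finset X) (f : Perm X → ℝ)
    (hf : ∀ π : Perm X, ∀ a ∈ S, ∀ b ∈ S, f (π * swap a b) = f π) (k : ℕ) :
    ∀ h : Perm X, (∀ x, x ∉ S → h x = x) → h.support.card ≤ k → ∀ π, f (π * h) = f π := by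
  induction k with
  | zero =>
    intro h _ hk π
    have h1 : h.support = ∅ := Finset.card_eq_zero.mp (Nat.le_zero.mp hk)
    rw [Equiv.Perm.support_eq_empty_iff] at h1
    rw [h1, mul_one]
  | succ k ih =>
    intro h hfix hk π
    by_cases h1 : h = 1
    · rw [h1, mul_one]
    obtain ⟨a, ha⟩ : ∃ a, h a ≠ a := by
      by_contra hcon
      rw [not_exists] at hcon
      apply h1
      ext x
      simpa using not_not.mp (hcon x)
    have haS : a ∈ S := by
      by_contra hcon
      exact ha (hfix a hcon)
    have hbS : h a ∈ S := by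
      by_contra hcon
      have := hfix _ hcon
      exact ha (h.injective this)
    set h' := swap a (h a) * h with hh'
    have hfix' : ∀ x, x ∉ S → h' x = x := by
      intro x hx
      rw [hh', Perm.mul_apply, hfix x hx]
      apply swap_apply_of_ne_of_ne
      · exact fun e => hx (e ▸ haS)
      · exact fun e => hx (e ▸ hbS)
    have hcard : h'.support.card ≤ k := by
      have := Equiv.Perm.card_support_swap_mul ha
      rw [← hh'] at this
      omega
    have hdec : h = swap a (h a) * h' := by
      rw [hh', ← mul_assoc, swap_mul_self, one_mul]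
    rw [hdec, ← mul_assoc, ih h' hfix' hcard, hf π a haS (h a) hbS]

lemma finrank_invS_rreg (S : Finset X) :
    Module.finrank ℝ (invS (rreg (X := X)) S) ≤
      (Fintype.card X) ^ (Fintype.card X - S.card) := by
  let φ : Perm X → (↥(Sᶜ) → X) := fun π x => π x
  let T : ((↥(Sᶜ) → X) → ℝ) →ₗ[ℝ] RegSpace X :=
    { toFun := fun g => WithLp.toLp 2 (fun π => g (φ π))
      map_add' := fun g g' => rfl
      map_smul' := fun c g => rfl }
  have hle : invS (rreg (X := X)) S ≤ LinearMap.range T := by
    intro f hf
    have hfac : Function.FactorsThrough (fun π => f π) φ := by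
      intro π π' h
      have hh : ∀ x, x ∉ S → (π⁻¹ * π') x = x := by
        intro x hx
        have h1 := congrFun h ⟨x, by simpa using hx⟩
        simp only [φ] at h1
        rw [Perm.mul_apply, ← h1]
        simp
      have h2 := fix_of_swaps S (fun π => f π) (fun π a ha b hb => by
        have := congrArg (fun F : RegSpace X => F π) (hf a ha b hb)
        simp only [rreg_apply] at this
        exact this) _ (π⁻¹ * π') hh le_rfl π
      simp only [mul_inv_cancel_left] at h2
      exact h2.symm
    refine ⟨Function.extend φ (fun π => f π) 0, ?_⟩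
    ext π
    show Function.extend φ (fun π => f π) 0 (φ π) = f π
    exact hfac.extend_apply _ π
  have h1 := Submodule.finrank_mono hle
  have h2 := LinearMap.finrank_range_le T
  rw [Module.finrank_fintype_fun_eq_card, Fintype.card_fun, Fintype.card_coe,
    Finset.card_compl] at h2
  exact h1.trans h2

/-- rank of a finite sum of subspaces -/
lemma finrank_sup_le {ι : Type*} (s : Finset ι) (W : ι → Submodule ℝ V)
    [FiniteDimensional ℝ V] : Module.finrank ℝ (s.sup W : Submodule ℝ V) ≤
      ∑ i ∈ s, Module.finrank ℝ (W i) := by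
  classical
  induction s using Finset.induction_on with
  | empty => simp
  | insert a s ha ih =>
    rw [Finset.sup_insert, Finset.sum_insert ha]
    exact (Submodule.finrank_add_le_finrank_add_finrank _ _).trans (Nat.add_le_add_left ih _)

/-- dimension of the level spaces of the right regular representation -/
theorem finrank_level (k : ℕ) (hk : k < Fintype.card X) :
    Module.finrank ℝ (levelSpace (rreg (X := X)) (Fintype.card X - k - 1)) ≤
      ((Fintype.card X) ^ 2) ^ k := by
  set n := Fintype.card X with hn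
  unfold levelSpace
  rw [← Finset.sup_univ_eq_iSup]
  refine (finrank_sup_le _ _).trans ?_
  have h1 : ∀ S : {S : Finset X // S.card = n - k - 1 + 1},
      Module.finrank ℝ (invS (rreg (X := X)) S.1) ≤ n ^ k := by
    rintro ⟨S, hS⟩
    refine (finrank_invS_rreg S).trans (le_of_eq ?_)
    rw [hS]
    congr 1
    omega
  refine (Finset.sum_le_sum fun S _ => h1 S).trans ?_
  rw [Finset.sum_const, Finset.card_univ, Fintype.card_finset_len, smul_eq_mul, ← hn]
  have h2 : n.choose (n - k - 1 + 1) ≤ n ^ k := by
    have e : n - k - 1 + 1 = n - k := by omega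
    rw [e, Nat.choose_symm (by omega)]
    exact Nat.choose_le_pow _ _
  calc n.choose (n - k - 1 + 1) * n ^ k ≤ n ^ k * n ^ k := Nat.mul_le_mul_right _ h2
    _ = (n ^ 2) ^ k := by rw [← pow_mul, two_mul, pow_add]

end regular

end Vale.Agent.Lib.P162
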