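import Vale.Agent.Lib.P162.HSBound

/-!
# Low levels: a sup-norm bound for a pass on tuples of marks with few marks
-/

namespace Vale.Agent.Lib.P162

open Equiv Finset
open scoped InnerProductSpace

set_option linter.unusedSectionVars false
set_option linter.unusedSimpArgs false
set_option linter.unusedVariables false

/-- two paths share a switch -/
def Meet {D : ℕ} (z w z' w' : Pos D) : Prop :=
  ∃ s : Fin D, (∀ t, s < t → z t = z' t) ∧ (∀ t, t < s → w t = w' t)

lemma Meet.symm {D : ℕ} {z w z' w' : Pos D} (h : Meet z w z' w') : Meet z' w' z w := by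
  obtain ⟨s, h1, h2⟩ := h
  exact ⟨s, fun t ht => (h1 t ht).symm, fun t ht => (h2 t ht).symm⟩

lemma meet_of_tail {D : ℕ} {z w z' w' : Pos (D + 1)} (h : Fin.tail z = Fin.tail z') :
    Meet z w z' w' := by
  refine ⟨0, fun t ht => ?_, fun t ht => absurd ht (Fin.not_lt_zero t)⟩
  obtain ⟨t', rfl⟩ := Fin.exists_succ_eq.mpr (Fin.ne_of_gt ht)
  exact congrFun h t'

lemma meet_succ {D : ℕ} {z w z' w' : Pos (D + 1)} (h0 : w 0 = w' 0)
    (h : Meet (Fin.tail z) (Fin.tail w) (Fin.tail z') (Fin.tail w')) : Meet z w z' w' := by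
  obtain ⟨s, h1, h2⟩ := h
  refine ⟨s.succ, fun t ht => ?_, fun t ht => ?_⟩
  · obtain ⟨t', rfl⟩ := Fin.exists_succ_eq.mpr (Fin.ne_of_gt (lt_of_le_of_lt (Fin.zero_le _) ht))
    exact h1 t' (Fin.succ_lt_succ_iff.mp ht)
  · induction t using Fin.cases with
    | zero => exact h0
    | succ t' => exact h2 t' (Fin.succ_lt_succ_iff.mp ht)

variable {ι : Type*} [Fintype ι] [DecidableEq ι]

/-- an isolated mark has fresh coins at all its switches -/
theorem hitP_insert_iso (D : ℕ) : ∀ (R : Finset ι) (z w : ι → Pos D) (u : ι), u ∉ R →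
    (∀ i ∈ R, ¬ Meet (z u) (w u) (z i) (w i)) →
    hitP D (insert u R) z w = ((2 : ℝ) ^ D)⁻¹ * hitP D R z w := by
  induction D with
  | zero =>
    intro R z w u _ _
    have h1 : ∀ S : Finset ι, hitP 0 S z w = 1 := by
      intro S
      unfold hitP
      show (if ∀ i ∈ S, (1 : Perm (Pos 0)) (z i) = w i then (1:ℝ) else 0) = 1
      rw [if_pos]
      intro i _
      exact Subsingleton.elim _ _
    rw [h1, h1]
    simp
  | succ D ih =>
    intro R z w u hu hR
    rw [hitP_succ, hitP_succ]
    have hfresh : ∀ v ∈ R, tl z v ≠ tl z u := by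
      intro v hv h
      exact hR v hv (meet_of_tail h.symm)
    have hc : coinP D (insert u R) (hd z) (tl z) (hd w) =
        (2:ℝ)⁻¹ * coinP D R (hd z) (tl z) (hd w) := by
      have := wtD_insert_fresh D hu (hd z) (tl z) (hd w) hfresh
      unfold wtD at this
      rw [card_insert_of_notMem hu, pow_succ] at this
      have h2 : (2:ℝ) ^ R.card ≠ 0 := by positivity
      field_simp
      field_simp at this
      linarith
    rw [hc]
    set β := hd w u with hβ
    have hblk1 : blk (insert u R) (hd w) β = insert u (blk R (hd w) β) := by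
      ext i
      simp only [mem_blk, mem_insert]
      constructor
      · rintro ⟨rfl | h1, h2⟩
        · exact Or.inl rfl
        · exact Or.inr ⟨h1, h2⟩
      · rintro (rfl | ⟨h1, h2⟩)
        · exact ⟨Or.inl rfl, rfl⟩
        · exact ⟨Or.inr h1, h2⟩
    have hblk2 : blk (insert u R) (hd w) (!β) = blk R (hd w) (!β) := by
      ext i
      simp only [mem_blk, mem_insert]
      constructor
      · rintro ⟨rfl | h1, h2⟩
        · exfalso
          rw [← hβ] at h2
          cases hb : β <;> simp [hb] at h2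
        · exact ⟨h1, h2⟩
      · rintro ⟨h1, h2⟩
        exact ⟨Or.inr h1, h2⟩
    have hu' : u ∉ blk R (hd w) β := fun h => hu (mem_blk.mp h).1
    have hmeet : ∀ i ∈ blk R (hd w) β, ¬ Meet (tl z u) (tl w u) (tl z i) (tl w i) := by
      intro i hi hm
      obtain ⟨h1, h2⟩ := mem_blk.mp hi
      exact hR i h1 (meet_succ (show hd w u = hd w i from (h2.trans hβ).symm) hm)
    have hIH := ih (blk R (hd w) β) (tl z) (tl w) u hu' hmeet
    have e2 : ((2:ℝ) ^ (D + 1))⁻¹ = (2:ℝ)⁻¹ * ((2:ℝ) ^ D)⁻¹ := by
      rw [pow_succ, mul_inv]; ring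
    cases hb : β
    · rw [hb] at hblk1 hblk2 hIH
      simp only [Bool.not_false] at hblk2
      rw [hblk1, hblk2, hIH, e2]
      ring
    · rw [hb] at hblk1 hblk2 hIH
      simp only [Bool.not_true] at hblk2
      rw [hblk1, hblk2, hIH, e2]
      ring

/-- the density does not see an isolated mark -/
theorem tauD_insert_iso (D : ℕ) (R : Finset ι) (z w : ι → Pos D) (u : ι) (hu : u ∉ R)
    (h : ∀ i ∈ R, ¬ Meet (z u) (w u) (z i) (w i)) :
    tauD D (insert u R) z w = tauD D R z w := by
  unfold tauD
  rw [hitP_insert_iso D R z w u hu h, card_insert_of_notMem hu, pow_succ]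
  have : (2:ℝ) ^ D ≠ 0 := by positivity
  field_simp

/-- the Moebius sum of the densities -/
noncomputable def PsiD (D : ℕ) (z w : ι → Pos D) : ℝ :=
  (-1 : ℝ) ^ Fintype.card ι * ∑ R ∈ (Finset.univ : Finset ι).powerset, (-1 : ℝ) ^ R.card * tauD D R z w

/-- no mark is isolated -/
def NoIso {D : ℕ} (z w : ι → Pos D) : Prop :=
  ∀ u, ∃ i, i ≠ u ∧ Meet (z u) (w u) (z i) (w i)

lemma PsiD_eq_zero (D : ℕ) {z w : ι → Pos D} (h : ¬ NoIso z w) : PsiD D z w = 0 := by
  unfold NoIso at h
  push Not at h
  obtain ⟨u, hu⟩ := h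
  unfold PsiD
  have huniv : (Finset.univ : Finset ι) = insert u (Finset.univ.erase u) := by
    rw [Finset.insert_erase (mem_univ u)]
  have hu' : u ∉ (Finset.univ : Finset ι).erase u := by simp
  rw [huniv, Finset.sum_powerset_insert hu']
  rw [← sum_add_distrib]
  rw [sum_eq_zero, mul_zero]
  intro t ht
  have ht' := mem_powerset.mp ht
  have hut : u ∉ t := fun h => hu' (ht' h)
  rw [tauD_insert_iso D t z w u hut (fun i hi => hu i (fun e => hut (e ▸ hi))),
    card_insert_of_notMem hut, pow_succ]
  ring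

lemma abs_PsiD_le (D : ℕ) (z w : ι → Pos D) :
    |PsiD D z w| ≤ ∑ R ∈ (Finset.univ : Finset ι).powerset, tauD D R z w := by
  unfold PsiD
  rw [abs_mul, abs_pow, abs_neg, abs_one, one_pow, one_mul]
  refine (abs_sum_le_sum_abs _ _).trans (sum_le_sum fun R _ => ?_)
  rw [abs_mul, abs_pow, abs_neg, abs_one, one_pow, one_mul, abs_of_nonneg (tauD_nonneg _ _ _ _)]

/-- a function of a tuple with zero marginals integrates to zero against anything depending on
fewer coordinates -/
lemma avg_marginal_zero {D : ℕ} {f : TupSp ι (Pos D)} (hf : f ∈ WW ι (Pos D)) (i : ι)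
    (G : (ι → Pos D) → ℝ) (hG : ∀ z v, G (Function.update z i v) = G z) :
    avg (fun z => G z * f z) = 0 := by
  rw [← avg_update i]
  have h : ∀ z : ι → Pos D, avg (fun p : Pos D => G (Function.update z i p) * f (Function.update z i p)) = 0 := by
    intro z
    simp only [hG]
    rw [avg_mul_left]
    have := hf.2 z i
    unfold avg
    rw [this]
    simp
  simp only [h]
  simp [avg]

/-- a pass on the zero-marginal space as integration against the Moebius sum -/
theorem QT_eq_avg_Psi {D : ℕ} {f : TupSp ι (Pos D)} (hf : f ∈ WW ι (Pos D)) (w : ι → Pos D) :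
    QT ι D f w = avg (fun z => PsiD D z w * f z) := by
  have h1 : ∀ z, PsiD D z w * f z = (-1 : ℝ) ^ Fintype.card ι *
      ∑ R ∈ (Finset.univ : Finset ι).powerset, (-1 : ℝ) ^ R.card * (tauD D R z w * f z) := by
    intro z
    unfold PsiD
    rw [mul_assoc, sum_mul]
    congr 1
    refine sum_congr rfl fun R _ => ?_
    ring
  simp only [h1]
  rw [avg_mul_left, avg_sum]
  simp only [avg_mul_left]
  rw [sum_eq_single (Finset.univ : Finset ι)]
  · rw [QT_eq_avg, card_univ, ← mul_assoc, ← mul_pow]
    simp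
  · intro R _ hR
    have : ∃ i, i ∉ R := by
      by_contra hn
      push Not at hn
      exact hR (Finset.eq_univ_iff_forall.mpr hn)
    obtain ⟨i, hi⟩ := this
    rw [avg_marginal_zero hf i (fun z => tauD D R z w), mul_zero]
    intro z v
    refine tauD_congr_left D R w fun j hj => ?_
    rw [Function.update_of_ne]
    exact fun e => hi (e ▸ hj)
  · intro h
    exact absurd (mem_powerset.mpr (subset_refl _)) h

/-- the size of the Moebius sum in the target variable -/
noncomputable def zetaD (ι : Type*) [Fintype ι] [DecidableEq ι] (D : ℕ) (w : ι → Pos D) : ℝ :=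
  avg fun z => |PsiD D z w|

lemma zetaD_nonneg (D : ℕ) (w : ι → Pos D) : 0 ≤ zetaD ι D w :=
  avg_nonneg fun _ => abs_nonneg _

lemma zetaD_le (D : ℕ) (w : ι → Pos D) : zetaD ι D w ≤ 2 ^ Fintype.card ι := by
  unfold zetaD
  refine (avg_mono fun z => abs_PsiD_le D z w).trans ?_
  rw [avg_sum]
  simp only [avg_tauD_left]
  simp [card_powerset]

/-- bound for a pass on the zero-marginal space in sup norm -/
lemma abs_QT_le {D : ℕ} {f : TupSp ι (Pos D)} (hf : f ∈ WW ι (Pos D)) {M : ℝ}
    (hM : ∀ z, |f z| ≤ M) (w : ι → Pos D) : |QT ι D f w| ≤ M * zetaD ι D w := by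
  rw [QT_eq_avg_Psi hf]
  refine (abs_avg_le _).trans ?_
  unfold zetaD
  rw [← avg_mul_left]
  refine avg_mono fun z => ?_
  rw [abs_mul, mul_comm]
  exact mul_le_mul_of_nonneg_right (hM z) (abs_nonneg _)


/-! ### indicators -/

open Classical in
/-- the indicator of a proposition -/
noncomputable def ind (P : Prop) : ℝ := if P then 1 else 0

lemma ind_nonneg (P : Prop) : 0 ≤ ind P := by
  unfold ind; split_ifs <;> norm_num

lemma ind_le_one (P : Prop) : ind P ≤ 1 := by
  unfold ind; split_ifs <;> norm_num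

lemma ind_pos {P : Prop} (h : P) : ind P = 1 := by
  unfold ind; rw [if_pos h]

lemma ind_neg {P : Prop} (h : ¬ P) : ind P = 0 := by
  unfold ind; rw [if_neg h]

lemma ite_eq_ind (P : Prop) [Decidable P] : (if P then (1 : ℝ) else 0) = ind P := by
  by_cases h : P
  · rw [if_pos h, ind_pos h]
  · rw [if_neg h, ind_neg h]

lemma ind_mono {P Q : Prop} (h : P → Q) : ind P ≤ ind Q := by
  by_cases hP : P
  · rw [ind_pos hP, ind_pos (h hP)]
  · rw [ind_neg hP]
    exact ind_nonneg Q

lemma ind_congr {P Q : Prop} (h : P ↔ Q) : ind P = ind Q := by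
  rw [propext h]

lemma ind_and (P Q : Prop) : ind (P ∧ Q) = ind P * ind Q := by
  by_cases hP : P <;> by_cases hQ : Q <;> simp [ind, hP, hQ]

lemma ind_exists_le {κ : Type*} (s : Finset κ) (P : κ → Prop) :
    ind (∃ k ∈ s, P k) ≤ ∑ k ∈ s, ind (P k) := by
  by_cases h : ∃ k ∈ s, P k
  · rw [ind_pos h]
    obtain ⟨k, hk, hP⟩ := h
    calc (1:ℝ) = ind (P k) := (ind_pos hP).symm
      _ ≤ _ := single_le_sum (f := fun k => ind (P k)) (fun i _ => ind_nonneg _) hk
  · rw [ind_neg h]
    exact sum_nonneg fun i _ => ind_nonneg _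

/-! ### the number of inputs at a switch -/

/-- at most two inputs of a routing pass through a given switch -/
theorem rout_count (D : ℕ) : ∀ (g : Perm (Pos D)), Rout D g → ∀ (s : Fin D) (a b : Pos D),
    (Finset.univ.filter fun z : Pos D => (∀ t, s < t → z t = a t) ∧ (∀ t, t < s → g z t = b t)).card ≤ 2 := by
  induction D with
  | zero =>
    intro g _ s
    exact s.elim0
  | succ D ih =>
    rintro g ⟨g0, g1, c, h0, h1, rfl⟩ s a b
    induction s using Fin.cases with
    | zero =>
      have hc := Finset.card_le_card_of_injOn (s := Finset.univ.filter fun z : Pos (D + 1) =>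
        (∀ t, (0 : Fin (D + 1)) < t → z t = a t) ∧ (∀ t, t < 0 → stepG D g0 g1 c z t = b t))
        (t := (Finset.univ : Finset Bool)) (fun z => z 0) (fun z _ => by simp) (by
          intro z hz z' hz' hzz
          have h2 := (mem_filter.mp (mem_coe.mp hz)).2.1
          have h3 := (mem_filter.mp (mem_coe.mp hz')).2.1
          funext t
          induction t using Fin.cases with
          | zero => exact hzz
          | succ t => rw [h2 _ (Fin.succ_pos t), h3 _ (Fin.succ_pos t)])
      simpa using hc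
    | succ s =>
      set β := b 0 with hβ
      set g' : Perm (Pos D) := if β = true then g1 else g0 with hg'
      have hg'R : Rout D g' := by
        rw [hg']; split_ifs
        · exact h1
        · exact h0
      have hc := Finset.card_le_card_of_injOn (s := Finset.univ.filter fun z : Pos (D + 1) =>
        (∀ t, s.succ < t → z t = a t) ∧ (∀ t, t < s.succ → stepG D g0 g1 c z t = b t))
        (t := Finset.univ.filter fun u : Pos D =>
          (∀ t, s < t → u t = Fin.tail a t) ∧ (∀ t, t < s → g' u t = Fin.tail b t))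
        (fun z => Fin.tail z) (by
          intro z hz
          obtain ⟨-, h2, h3⟩ := mem_filter.mp (mem_coe.mp hz)
          have h4 : xor (z 0) (c (Fin.tail z)) = β := by
            have := h3 0 (Fin.succ_pos s)
            rw [stepG_apply] at this
            simpa using this
          refine mem_coe.mpr (mem_filter.mpr ⟨mem_univ _, fun t ht => ?_, fun t ht => ?_⟩)
          · exact h2 t.succ (Fin.succ_lt_succ_iff.mpr ht)
          · have := h3 t.succ (Fin.succ_lt_succ_iff.mpr ht)
            rw [stepG_apply] at this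
            simp only [Fin.cons_succ] at this
            rw [h4] at this
            rw [hg']
            show (if β = true then g1 else g0) (Fin.tail z) t = b t.succ
            rw [← this]
            cases β <;> rfl) (by
          intro z hz z' hz' hzz
          obtain ⟨-, -, h3⟩ := mem_filter.mp (mem_coe.mp hz)
          obtain ⟨-, -, h3'⟩ := mem_filter.mp (mem_coe.mp hz')
          have h4 : xor (z 0) (c (Fin.tail z)) = β := by
            have := h3 0 (Fin.succ_pos s)
            rw [stepG_apply] at this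
            simpa using this
          have h4' : xor (z' 0) (c (Fin.tail z')) = β := by
            have := h3' 0 (Fin.succ_pos s)
            rw [stepG_apply] at this
            simpa using this
          have h5 : Fin.tail z = Fin.tail z' := hzz
          rw [← h4', h5] at h4
          have h6 : z 0 = z' 0 := by
            revert h4
            cases z 0 <;> cases z' 0 <;> cases c (Fin.tail z') <;> simp
          rw [← Fin.cons_self_tail z, ← Fin.cons_self_tail z', h5, h6])
      exact hc.trans (ih g' hg'R s _ _)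

/-! ### the probability that a path meets a given path -/

lemma ind_Meet_le {D : ℕ} (z w a b : Pos D) :
    ind (Meet z w a b) ≤ ∑ s : Fin D, ind ((∀ t, s < t → z t = a t) ∧ (∀ t, t < s → w t = b t)) := by
  have := ind_exists_le (Finset.univ : Finset (Fin D))
    (fun s => (∀ t, s < t → z t = a t) ∧ (∀ t, t < s → w t = b t))
  refine le_trans (le_of_eq ?_) this
  apply ind_congr
  simp [Meet]

lemma avg_ind_Ioi {D : ℕ} (s : Fin D) (a : Pos D) :
    avg (fun z : Pos D => ind (∀ t, s < t → z t = a t)) = ((2 : ℝ) ^ (D - 1 - (s : ℕ)))⁻¹ := by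
  have h := avg_hit (Finset.Ioi s) a
  rw [Fin.card_Ioi, Fintype.card_bool] at h
  push_cast at h
  rw [← h]
  refine avg_congr fun y => ?_
  rw [ite_eq_ind]
  apply ind_congr
  simp

lemma avg_ind_Iio {D : ℕ} (s : Fin D) (a : Pos D) :
    avg (fun z : Pos D => ind (∀ t, t < s → z t = a t)) = ((2 : ℝ) ^ (s : ℕ))⁻¹ := by
  have h := avg_hit (Finset.Iio s) a
  rw [Fin.card_Iio, Fintype.card_bool] at h
  push_cast at h
  rw [← h]
  refine avg_congr fun y => ?_
  rw [ite_eq_ind]
  apply ind_congr
  simp

/-- the chance that two independent uniform endpoints meet a fixed path -/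
lemma avg_meet_free {D : ℕ} (a b : Pos D) :
    avg (fun z : Pos D => avg fun w : Pos D => ind (Meet z w a b)) ≤ 2 * D / 2 ^ D := by
  have h1 : ∀ z w : Pos D, ind (Meet z w a b) ≤
      ∑ s : Fin D, ind (∀ t, s < t → z t = a t) * ind (∀ t, t < s → w t = b t) := by
    intro z w
    refine (ind_Meet_le z w a b).trans (le_of_eq ?_)
    refine sum_congr rfl fun s _ => ?_
    rw [ind_and]
  have h2 : ∀ s : Fin D, avg (fun z : Pos D => avg fun w : Pos D =>
      ind (∀ t, s < t → z t = a t) * ind (∀ t, t < s → w t = b t)) = 2 / 2 ^ D := by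
    intro s
    simp only [avg_mul_left, avg_mul_right, avg_ind_Ioi, avg_ind_Iio]
    have hs := s.2
    have e : (2:ℝ) ^ D = 2 * (2 ^ (D - 1 - (s:ℕ)) * 2 ^ (s:ℕ)) := by
      rw [← pow_add, ← pow_succ']
      congr 1
      omega
    rw [e]
    field_simp
  calc avg (fun z : Pos D => avg fun w : Pos D => ind (Meet z w a b))
      ≤ avg (fun z : Pos D => avg fun w : Pos D =>
          ∑ s : Fin D, ind (∀ t, s < t → z t = a t) * ind (∀ t, t < s → w t = b t)) :=
        avg_mono fun z => avg_mono fun w => h1 z w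
    _ = ∑ s : Fin D, (2 / 2 ^ D : ℝ) := by
        simp only [avg_sum]
        exact sum_congr rfl fun s _ => h2 s
    _ = 2 * D / 2 ^ D := by
        rw [sum_const, card_univ, Fintype.card_fin, nsmul_eq_mul]
        ring

/-- the chance that a random input of a routing meets a fixed path -/
lemma avg_meet_rout {D : ℕ} {g : Perm (Pos D)} (hg : Rout D g) (a b : Pos D) :
    avg (fun z : Pos D => ind (Meet z (g z) a b)) ≤ 2 * D / 2 ^ D := by
  have h2 : ∀ s : Fin D, avg (fun z : Pos D =>
      ind ((∀ t, s < t → z t = a t) ∧ (∀ t, t < s → g z t = b t))) ≤ 2 / 2 ^ D := by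
    intro s
    classical
    unfold avg
    rw [card_pos']
    have e : ∑ z : Pos D, ind ((∀ t, s < t → z t = a t) ∧ (∀ t, t < s → g z t = b t)) =
        ((Finset.univ.filter fun z : Pos D => (∀ t, s < t → z t = a t) ∧ (∀ t, t < s → g z t = b t)).card : ℝ) := by
      rw [Finset.card_filter]
      push_cast
      refine sum_congr rfl fun z _ => ?_
      rw [ite_eq_ind]
    rw [e]
    have h3 : ((Finset.univ.filter fun z : Pos D => (∀ t, s < t → z t = a t) ∧ (∀ t, t < s → g z t = b t)).card : ℝ) ≤ 2 := by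
      exact_mod_cast rout_count D g hg s a b
    rw [inv_mul_eq_div]
    exact div_le_div_of_nonneg_right h3 (by positivity)
  calc avg (fun z : Pos D => ind (Meet z (g z) a b))
      ≤ avg (fun z : Pos D => ∑ s : Fin D,
          ind ((∀ t, s < t → z t = a t) ∧ (∀ t, t < s → g z t = b t))) :=
        avg_mono fun z => ind_Meet_le _ _ _ _
    _ ≤ ∑ s : Fin D, (2 / 2 ^ D : ℝ) := by
        rw [avg_sum]
        exact sum_le_sum fun s _ => h2 s
    _ = 2 * D / 2 ^ D := by
        rw [sum_const, card_univ, Fintype.card_fin, nsmul_eq_mul]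
        ring

/-! ### independent marks -/

section chain

variable {Ω₀ : Type*} [Fintype Ω₀] [Nonempty Ω₀]

/-- the mark `i` is related to a mark of smaller rank -/
def Eb (Rel : ι → ι → Ω₀ → Ω₀ → Prop) (rk : ι → ℕ) (ω : ι → Ω₀) (i : ι) : Prop :=
  ∃ i', rk i' < rk i ∧ Rel i i' (ω i) (ω i')

/-- chain rule for independent marks -/
theorem chain_bound (Rel : ι → ι → Ω₀ → Ω₀ → Prop) {ε : ℝ} (hε : 0 ≤ ε)
    (h : ∀ i i' q, i' ≠ i → avg (fun p => ind (Rel i i' p q)) ≤ ε) (rk : ι → ℕ)
    (N : Finset ι) :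
    avg (fun ω : ι → Ω₀ => ind (∀ i ∈ N, Eb Rel rk ω i)) ≤ ((Fintype.card ι : ℝ) * ε) ^ N.card := by
  classical
  induction N using Finset.induction_on_max_value rk with
  | empty =>
    simp only [notMem_empty, false_imp_iff, implies_true, card_empty, pow_zero]
    simp [ind, avg_const]
  | insert u N₁ hu hmax ih =>
    rw [card_insert_of_notMem hu, pow_succ]
    set K : ℝ := (Fintype.card ι : ℝ) * ε with hK
    have hK0 : 0 ≤ K := by positivity
    set A : (ι → Ω₀) → ℝ := fun ω => ind (∀ i ∈ N₁, Eb Rel rk ω i) with hA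
    have hA0 : ∀ ω, 0 ≤ A ω := fun ω => ind_nonneg _
    set T := Finset.univ.filter fun i' : ι => rk i' < rk u with hT
    have h1 : ∀ ω : ι → Ω₀, ind (∀ i ∈ insert u N₁, Eb Rel rk ω i) ≤
        A ω * ∑ i' ∈ T, ind (Rel u i' (ω u) (ω i')) := by
      intro ω
      have e : (∀ i ∈ insert u N₁, Eb Rel rk ω i) ↔ (∀ i ∈ N₁, Eb Rel rk ω i) ∧ Eb Rel rk ω u := by
        simp only [mem_insert, forall_eq_or_imp]
        tauto
      rw [ind_congr e, ind_and]
      refine mul_le_mul_of_nonneg_left ?_ (hA0 ω)
      refine le_trans (le_of_eq ?_) (ind_exists_le T (fun i' => Rel u i' (ω u) (ω i')))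
      apply ind_congr
      simp [Eb, hT]
    have hupd : ∀ (ω : ι → Ω₀) (v : Ω₀), A (Function.update ω u v) = A ω := by
      intro ω v
      simp only [hA]
      apply ind_congr
      refine forall₂_congr fun i hi => ?_
      have hiu : i ≠ u := fun e => hu (e ▸ hi)
      unfold Eb
      refine exists_congr fun i' => and_congr_right fun hrk => ?_
      have hi'u : i' ≠ u := by
        rintro rfl
        have := hmax i hi
        omega
      rw [Function.update_of_ne hiu, Function.update_of_ne hi'u]
    have h2 : ∀ ω : ι → Ω₀, avg (fun v : Ω₀ => A (Function.update ω u v) *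
        ∑ i' ∈ T, ind (Rel u i' (Function.update ω u v u) (Function.update ω u v i'))) ≤ A ω * K := by
      intro ω
      simp only [hupd]
      rw [avg_mul_left]
      refine mul_le_mul_of_nonneg_left ?_ (hA0 ω)
      rw [avg_sum]
      have h3 : ∀ i' ∈ T, avg (fun v : Ω₀ => ind (Rel u i' (Function.update ω u v u) (Function.update ω u v i'))) ≤ ε := by
        intro i' hi'
        have hne : i' ≠ u := by
          rintro rfl
          simp [hT] at hi'
        simp only [Function.update_self, Function.update_of_ne hne]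
        exact h u i' (ω i') hne
      refine (sum_le_sum h3).trans ?_
      rw [sum_const, nsmul_eq_mul, hK]
      refine mul_le_mul_of_nonneg_right ?_ hε
      exact_mod_cast Finset.card_le_univ T
    calc avg (fun ω : ι → Ω₀ => ind (∀ i ∈ insert u N₁, Eb Rel rk ω i))
        ≤ avg (fun ω : ι → Ω₀ => A ω * ∑ i' ∈ T, ind (Rel u i' (ω u) (ω i'))) := avg_mono h1
      _ = avg (fun ω : ι → Ω₀ => avg (fun v : Ω₀ => A (Function.update ω u v) *
            ∑ i' ∈ T, ind (Rel u i' (Function.update ω u v u) (Function.update ω u v i')))) :=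
          (avg_update u (fun ω => A ω * ∑ i' ∈ T, ind (Rel u i' (ω u) (ω i')))).symm
      _ ≤ avg (fun ω : ι → Ω₀ => A ω * K) := avg_mono h2
      _ = avg A * K := avg_mul_right _ _
      _ ≤ K ^ N₁.card * K := mul_le_mul_of_nonneg_right ih hK0

/-- no mark is isolated: the probability is small -/
theorem noiso_bound (Rel : ι → ι → Ω₀ → Ω₀ → Prop) {ε : ℝ} (hε : 0 ≤ ε)
    (h : ∀ i i' q, i' ≠ i → avg (fun p => ind (Rel i i' p q)) ≤ ε) :
    avg (fun ω : ι → Ω₀ => ind (∀ u, ∃ i, i ≠ u ∧ Rel u i (ω u) (ω i))) ≤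
      2 ^ Fintype.card ι * (2 * ((Fintype.card ι : ℝ) * ε) ^ ((Fintype.card ι + 1) / 2)) := by
  classical
  set k := Fintype.card ι with hk
  set l := (k + 1) / 2 with hl
  set K : ℝ := (k : ℝ) * ε with hK
  have hK0 : 0 ≤ K := by positivity
  obtain ⟨e⟩ : Nonempty (ι ≃ Fin k) := ⟨Fintype.equivFin ι⟩
  set rk : ι → ℕ := fun i => (e i : ℕ) with hrk
  set rk' : ι → ℕ := fun i => k - (e i : ℕ) with hrk'
  have hcov : ∀ ω : ι → Ω₀, (∀ u, ∃ i, i ≠ u ∧ Rel u i (ω u) (ω i)) →
      ∃ N ∈ Finset.powersetCard l (Finset.univ : Finset ι),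
        (∀ i ∈ N, Eb Rel rk ω i) ∨ (∀ i ∈ N, Eb Rel rk' ω i) := by
    intro ω hω
    set A := Finset.univ.filter (fun i => Eb Rel rk ω i) with hA
    set B := Finset.univ.filter (fun i => Eb Rel rk' ω i) with hB
    have hU : (Finset.univ : Finset ι) ⊆ A ∪ B := by
      intro u _
      obtain ⟨i, hne, hR⟩ := hω u
      have h1 : (e i : ℕ) ≠ (e u : ℕ) := by
        intro h2
        exact hne (e.injective (Fin.ext h2))
      rcases lt_or_gt_of_ne h1 with h2 | h2
      · exact mem_union_left _ (mem_filter.mpr ⟨mem_univ _, i, h2, hR⟩)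
      · refine mem_union_right _ (mem_filter.mpr ⟨mem_univ _, i, ?_, hR⟩)
        have := (e i).2
        simp only [hrk']
        omega
    have hcard : k ≤ A.card + B.card := by
      have h1 := Finset.card_le_card hU
      rw [card_univ, ← hk] at h1
      exact h1.trans (Finset.card_union_le _ _)
    by_cases hc : l ≤ A.card
    · obtain ⟨N, hN, hNc⟩ := Finset.exists_subset_card_eq hc
      refine ⟨N, mem_powersetCard.mpr ⟨subset_univ _, hNc⟩, Or.inl fun i hi => ?_⟩
      exact (mem_filter.mp (hN hi)).2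
    · have hc' : l ≤ B.card := by omega
      obtain ⟨N, hN, hNc⟩ := Finset.exists_subset_card_eq hc'
      refine ⟨N, mem_powersetCard.mpr ⟨subset_univ _, hNc⟩, Or.inr fun i hi => ?_⟩
      exact (mem_filter.mp (hN hi)).2
  have hpt : ∀ ω : ι → Ω₀, ind (∀ u, ∃ i, i ≠ u ∧ Rel u i (ω u) (ω i)) ≤
      ∑ N ∈ Finset.powersetCard l (Finset.univ : Finset ι),
        (ind (∀ i ∈ N, Eb Rel rk ω i) + ind (∀ i ∈ N, Eb Rel rk' ω i)) := by
    intro ω
    by_cases h0 : ∀ u, ∃ i, i ≠ u ∧ Rel u i (ω u) (ω i)
    · rw [ind_pos h0]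
      obtain ⟨N, hN, hN2⟩ := hcov ω h0
      have hnn : ∀ N' ∈ Finset.powersetCard l (Finset.univ : Finset ι),
          0 ≤ ind (∀ i ∈ N', Eb Rel rk ω i) + ind (∀ i ∈ N', Eb Rel rk' ω i) :=
        fun N' _ => add_nonneg (ind_nonneg _) (ind_nonneg _)
      refine le_trans ?_ (single_le_sum hnn hN)
      rcases hN2 with h3 | h3
      · rw [ind_pos h3]
        linarith [ind_nonneg (∀ i ∈ N, Eb Rel rk' ω i)]
      · rw [ind_pos h3]
        linarith [ind_nonneg (∀ i ∈ N, Eb Rel rk ω i)]
    · rw [ind_neg h0]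
      exact sum_nonneg fun N' _ => add_nonneg (ind_nonneg _) (ind_nonneg _)
  refine (avg_mono hpt).trans ?_
  rw [avg_sum]
  have h4 : ∀ N ∈ Finset.powersetCard l (Finset.univ : Finset ι),
      avg (fun ω : ι → Ω₀ => ind (∀ i ∈ N, Eb Rel rk ω i) + ind (∀ i ∈ N, Eb Rel rk' ω i)) ≤ 2 * K ^ l := by
    intro N hN
    have hNc := (mem_powersetCard.mp hN).2
    rw [avg_add]
    have h5 := chain_bound Rel hε h rk N
    have h6 := chain_bound Rel hε h rk' N
    rw [hNc, ← hk] at h5 h6
    linarith
  refine (sum_le_sum h4).trans ?_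
  rw [sum_const, nsmul_eq_mul, card_powersetCard, card_univ, ← hk]
  refine mul_le_mul_of_nonneg_right ?_ (by positivity)
  exact_mod_cast Nat.choose_le_two_pow k l

end chain

end Vale.Agent.Lib.P162
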