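import Vale.Agent.Lib.P162.LowLevel

/-!
# Low levels: the average of the Moebius sum
-/

namespace Vale.Agent.Lib.P162

open Equiv Finset
open scoped InnerProductSpace

set_option linter.unusedSectionVars false
set_option linter.unusedSimpArgs false
set_option linter.unusedVariables false

variable {ι : Type*} [Fintype ι] [DecidableEq ι]

/-- pinning a set of coordinates -/
lemma avg_pin {Y : Type*} [Fintype Y] [Nonempty Y] [DecidableEq Y] (R : Finset ι) (v : ι → Y)
    (F : (ι → Y) → ℝ) :
    (Fintype.card Y : ℝ) ^ R.card * avg (fun w => (if ∀ i ∈ R, v i = w i then (1 : ℝ) else 0) * F w) =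
      avg (fun y => F (merge R y v)) := by
  have hc : (0 : ℝ) < Fintype.card Y := by exact_mod_cast Fintype.card_pos
  rw [← avg_merge R (fun w => (if ∀ i ∈ R, v i = w i then (1 : ℝ) else 0) * F w), ← avg_mul_left]
  refine avg_congr fun y => ?_
  have h1 : ∀ x : ι → Y, (if ∀ i ∈ R, v i = merge R y x i then (1 : ℝ) else 0) * F (merge R y x) =
      (if ∀ i ∈ R, x i = v i then (1 : ℝ) else 0) * F (merge R y v) := by
    intro x
    by_cases h : ∀ i ∈ R, x i = v i
    · have h2 : merge R y x = merge R y v := by
        funext i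
        by_cases hi : i ∈ R
        · rw [merge_mem hi, merge_mem hi, h i hi]
        · rw [merge_not_mem hi, merge_not_mem hi]
      rw [h2, if_pos h, if_pos]
      intro i hi
      rw [merge_mem hi]
    · rw [if_neg h, if_neg]
      · simp
      · intro h3
        apply h
        intro i hi
        have := h3 i hi
        rw [merge_mem hi] at this
        exact this.symm
  simp only [h1]
  rw [avg_mul_right, avg_hit]
  have : (Fintype.card Y : ℝ) ^ R.card ≠ 0 := by positivity
  field_simp

/-- conditioning on the routing -/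
lemma tau_cond (D : ℕ) (R : Finset ι) (F : (ι → Pos D) → (ι → Pos D) → ℝ) :
    avg (fun z => avg (fun w => tauD D R z w * F z w)) =
      Exp D (fun g => avg (fun z => avg (fun w' => F z (merge R w' (fun i => g (z i)))))) := by
  rw [← Exp_avg]
  refine avg_congr fun z => ?_
  have h1 : ∀ w, tauD D R z w * F z w = ((2 : ℝ) ^ D) ^ R.card *
      Exp D (fun g => (if ∀ i ∈ R, g (z i) = w i then (1 : ℝ) else 0) * F z w) := by
    intro w
    unfold tauD hitP
    rw [Exp_mul_right, mul_assoc]
  simp only [h1]
  rw [avg_mul_left, Exp_avg, ← Exp_mul_left]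
  refine Exp_congr D fun g => ?_
  have h2 := avg_pin R (fun i => g (z i)) (fun w => F z w)
  rw [card_pos'] at h2
  exact h2

/-- the relation between the endpoints of two marks for a fixed routing -/
def RelG {D : ℕ} (g : Perm (Pos D)) (R : Finset ι) (i i' : ι) (p q : Pos D × Pos D) : Prop :=
  Meet p.1 (if i ∈ R then g p.1 else p.2) q.1 (if i' ∈ R then g q.1 else q.2)

lemma RelG_bound {D : ℕ} {g : Perm (Pos D)} (hg : Rout D g) (R : Finset ι) (i i' : ι) (q : Pos D × Pos D) :
    avg (fun p => ind (RelG g R i i' p q)) ≤ 2 * D / 2 ^ D := by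
  rw [avg_prod]
  unfold RelG
  by_cases hi : i ∈ R
  · simp only [if_pos hi, avg_const]
    exact avg_meet_rout hg _ _
  · simp only [if_neg hi]
    exact avg_meet_free _ _

/-- no isolated marks for a fixed routing -/
lemma noiso_cond {D : ℕ} {g : Perm (Pos D)} (hg : Rout D g) (R : Finset ι) :
    avg (fun z : ι → Pos D => avg (fun w' : ι → Pos D => ind (NoIso z (merge R w' (fun i => g (z i)))))) ≤
      2 ^ Fintype.card ι *
        (2 * ((Fintype.card ι : ℝ) * (2 * D / 2 ^ D)) ^ ((Fintype.card ι + 1) / 2)) := by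
  have h := noiso_bound (RelG g R) (ε := 2 * D / 2 ^ D) (by positivity)
    (fun i i' q _ => RelG_bound hg R i i' q)
  refine le_trans (le_of_eq ?_) h
  have h1 := avg_equiv (Equiv.arrowProdEquivProdArrow ι (fun _ => Pos D) (fun _ => Pos D))
    (fun P => ind (NoIso P.1 (merge R P.2 (fun i => g (P.1 i)))))
  rw [avg_prod] at h1
  rw [← h1]
  refine avg_congr fun ω => ?_
  rfl

/-- the average of the Moebius sum is small -/
theorem avg_zetaD_le (D : ℕ) :
    avg (fun w => zetaD ι D w) ≤ 2 ^ Fintype.card ι * (2 ^ Fintype.card ι *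
        (2 * ((Fintype.card ι : ℝ) * (2 * D / 2 ^ D)) ^ ((Fintype.card ι + 1) / 2))) := by
  set C : ℝ := 2 ^ Fintype.card ι *
        (2 * ((Fintype.card ι : ℝ) * (2 * D / 2 ^ D)) ^ ((Fintype.card ι + 1) / 2)) with hC
  have h1 : ∀ z w : ι → Pos D, |PsiD D z w| ≤
      ∑ R ∈ (Finset.univ : Finset ι).powerset, tauD D R z w * ind (NoIso z w) := by
    intro z w
    by_cases h : NoIso z w
    · simp only [ind_pos h, mul_one]
      exact abs_PsiD_le D z w
    · rw [PsiD_eq_zero D h, abs_zero]
      exact sum_nonneg fun R _ => mul_nonneg (tauD_nonneg _ _ _ _) (ind_nonneg _)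
  have h2 : avg (fun w => zetaD ι D w) ≤
      ∑ R ∈ (Finset.univ : Finset ι).powerset,
        avg (fun z => avg (fun w => tauD D R z w * ind (NoIso z w))) := by
    unfold zetaD
    rw [avg_comm]
    simp only [← avg_sum]
    exact avg_mono fun z => avg_mono fun w => h1 z w
  refine h2.trans ?_
  have h3 : ∀ R ∈ (Finset.univ : Finset ι).powerset,
      avg (fun z => avg (fun w => tauD D R z w * ind (NoIso z w))) ≤ C := by
    intro R _
    rw [tau_cond D R (fun z w => ind (NoIso z w))]
    have := Exp_mono_rout D (F := fun g => avg (fun z => avg (fun w' => ind (NoIso z (merge R w' (fun i => g (z i)))))))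
      (G := fun _ => C) (fun g hg => noiso_cond hg R)
    rwa [Exp_const] at this
  refine (sum_le_sum h3).trans (le_of_eq ?_)
  rw [sum_const, nsmul_eq_mul, card_powerset, card_univ]
  push_cast
  rfl

end Vale.Agent.Lib.P162
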