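import Vale.Agent.Lib.P162.LowLevel2

/-!
# Low levels: the bound for the norm of a pass on the zero-marginal space
-/

namespace Vale.Agent.Lib.P162

open Equiv Finset
open scoped InnerProductSpace

set_option linter.unusedSectionVars false
set_option linter.unusedSimpArgs false
set_option linter.unusedVariables false

variable {ι : Type*} [Fintype ι] [DecidableEq ι] {D : ℕ}

/-- the two sided kernel -/
lemma QTa_QT_apply (v : TupSp ι (Pos D)) (x : ι → Pos D) :
    QTa ι D (QT ι D v) x = avg (fun y => betaD D Finset.univ x y * v y) := by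
  rw [QTa_eq_avg]
  simp only [QT_eq_avg]
  simp only [← avg_mul_left]
  rw [avg_comm]
  refine avg_congr fun y => ?_
  unfold betaD
  rw [← avg_mul_right]
  refine avg_congr fun w => ?_
  ring

/-- the average of the Moebius size along a pass -/
noncomputable def TzD (ι : Type*) [Fintype ι] [DecidableEq ι] (D : ℕ) (y : ι → Pos D) : ℝ :=
  avg fun w => tauD D Finset.univ y w * zetaD ι D w

lemma TzD_nonneg (y : ι → Pos D) : 0 ≤ TzD ι D y :=
  avg_nonneg fun w => mul_nonneg (tauD_nonneg _ _ _ _) (zetaD_nonneg _ _)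

lemma TzD_moment {p : ℝ} (hp : 1 < p) :
    avg (fun y => TzD ι D y ^ p) ≤
      ((2 : ℝ) ^ Fintype.card ι) ^ (p - 1) * avg (fun w => zetaD ι D w) := by
  have h1 : ∀ y : ι → Pos D, TzD ι D y ^ p ≤ avg fun w => tauD D Finset.univ y w * zetaD ι D w ^ p := by
    intro y
    have := avg_jensen hp (w := fun w => tauD D Finset.univ y w) (u := fun w => zetaD ι D w)
      (fun w => tauD_nonneg _ _ _ _) (fun w => zetaD_nonneg _ _)
    rw [avg_tauD_right, Real.one_rpow, one_mul] at this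
    exact this
  refine (avg_mono h1).trans ?_
  rw [avg_comm]
  simp only [avg_mul_right, avg_tauD_left, one_mul]
  rw [← avg_mul_left]
  refine avg_mono fun w => ?_
  have h0 := zetaD_nonneg (ι := ι) D w
  have h2 := zetaD_le (ι := ι) D w
  have hp0 : 0 < p := by linarith
  by_cases hz : zetaD ι D w = 0
  · rw [hz, Real.zero_rpow hp0.ne']
    simp
  · have hz' : 0 < zetaD ι D w := lt_of_le_of_ne h0 (Ne.symm hz)
    have e : zetaD ι D w ^ p = zetaD ι D w ^ (p - 1) * zetaD ι D w := by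
      nth_rewrite 3 [← Real.rpow_one (zetaD ι D w)]
      rw [← Real.rpow_add hz']
      congr 1
      ring
    rw [e]
    exact mul_le_mul_of_nonneg_right (Real.rpow_le_rpow h0 h2 (by linarith)) h0

/-- the sup-norm estimate for an eigenfunction -/
lemma eigen_sup {f : TupSp ι (Pos D)} (hf : f ∈ WW ι (Pos D)) {μ : ℝ} (hμ : 0 ≤ μ)
    (heig : QTa ι D (QT ι D f) = μ • f) (hf0 : f ≠ 0) :
    ∃ x : ι → Pos D, Function.Injective x ∧
      μ ^ 2 ≤ avg (fun y => betaD D Finset.univ x y * TzD ι D y) := by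
  classical
  obtain ⟨x, -, hx⟩ := Finset.exists_max_image (Finset.univ : Finset (ι → Pos D)) (fun z => |f z|)
    ⟨Classical.arbitrary _, mem_univ _⟩
  have hM : ∀ z, |f z| ≤ |f x| := fun z => hx z (mem_univ _)
  have hfx : f x ≠ 0 := by
    intro h0
    apply hf0
    ext z
    have := hM z
    rw [h0, abs_zero] at this
    exact abs_nonpos_iff.mp this
  have hMpos : 0 < |f x| := abs_pos.mpr hfx
  have hinj : Function.Injective x := by
    by_contra hn
    exact hfx (hf.1 x hn)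
  refine ⟨x, hinj, ?_⟩
  -- one application
  have h1 : ∀ y, |(μ • f) y| ≤ |f x| * TzD ι D y := by
    intro y
    rw [← heig, QTa_eq_avg]
    refine (abs_avg_le _).trans ?_
    unfold TzD
    rw [← avg_mul_left]
    refine avg_mono fun w => ?_
    rw [abs_mul, abs_of_nonneg (tauD_nonneg _ _ _ _)]
    have := abs_QT_le hf hM w
    calc tauD D Finset.univ y w * |QT ι D f w| ≤ tauD D Finset.univ y w * (|f x| * zetaD ι D w) :=
          mul_le_mul_of_nonneg_left this (tauD_nonneg _ _ _ _)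
      _ = _ := by ring
  -- two applications
  have h2 : μ ^ 2 * f x = avg (fun y => betaD D Finset.univ x y * (μ • f) y) := by
    rw [← QTa_QT_apply, ← heig]
    have : (QTa ι D (QT ι D (QTa ι D (QT ι D f)))) = μ • (QTa ι D (QT ι D f)) := by
      conv_lhs => rw [heig]
      rw [map_smul, map_smul]
    rw [this, heig]
    simp only [PiLp.smul_apply, smul_eq_mul]
    ring
  have h3 : μ ^ 2 * |f x| ≤ |f x| * avg (fun y => betaD D Finset.univ x y * TzD ι D y) := by
    have h4 : |μ ^ 2 * f x| = μ ^ 2 * |f x| := by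
      rw [abs_mul, abs_of_nonneg (by positivity : 0 ≤ μ ^ 2)]
    rw [← h4, h2, ← avg_mul_left]
    refine (abs_avg_le _).trans (avg_mono fun y => ?_)
    rw [abs_mul, abs_of_nonneg (betaD_nonneg _ _ _ _)]
    calc betaD D Finset.univ x y * |(μ • f) y| ≤ betaD D Finset.univ x y * (|f x| * TzD ι D y) :=
          mul_le_mul_of_nonneg_left (h1 y) (betaD_nonneg _ _ _ _)
      _ = _ := by ring
  have h5 : μ ^ 2 * |f x| ≤ avg (fun y => betaD D Finset.univ x y * TzD ι D y) * |f x| := by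
    linarith
  exact le_of_mul_le_mul_right h5 hMpos

/-- the eigenvalue bound -/
theorem eigen_bound (a : ℕ) (hg : gSeq D ≤ (2 : ℝ) ^ (a + 1) - 1) (hk : 1 ≤ Fintype.card ι)
    {ν : ℝ} (hν : 0 ≤ ν)
    (hE : (Fintype.card ι : ℝ) * (2 * D / 2 ^ D) ≤ Real.exp (-ν))
    {f : TupSp ι (Pos D)} (hf : f ∈ WW ι (Pos D)) {μ : ℝ} (hμ : 0 ≤ μ)
    (heig : QTa ι D (QT ι D f) = μ • f) (hf0 : f ≠ 0) :
    μ ^ 2 ≤ Real.exp ((Fintype.card ι : ℝ) * (5 - ν / (2 * (2 : ℝ) ^ (a + 1)))) := by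
  obtain ⟨x, hinj, hx⟩ := eigen_sup hf hμ heig hf0
  refine hx.trans ?_
  set N : ℝ := (2 : ℝ) ^ (a + 1) with hN
  have hN1 : 2 ≤ N := by
    rw [hN, pow_succ]
    have : (1:ℝ) ≤ 2 ^ a := one_le_pow₀ (by norm_num)
    linarith
  set G : ℝ := N - 1 with hG
  have hg0 : 1200 ≤ gSeq D := gSeq_ge D
  have hG0 : 0 < G := by linarith
  set q : ℝ := 1 / G with hq
  have hq0 : 0 < q := by positivity
  have hqG : q * G = 1 := by
    rw [hq]; field_simp
  set k : ℝ := (Fintype.card ι : ℝ) with hkR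
  have hk1 : 1 ≤ k := by rw [hkR]; exact_mod_cast hk
  -- Hölder
  have hH : (1 + q).HolderConjugate N := by
    rw [Real.holderConjugate_iff]
    refine ⟨by linarith, ?_⟩
    have e1 : N = G + 1 := by rw [hG]; ring
    rw [e1, hq]
    field_simp
  have hH1 := avg_holder hH (f := fun y => betaD D Finset.univ x y) (g := fun y => TzD ι D y)
    (fun y => betaD_nonneg _ _ _ _) (fun y => TzD_nonneg _)
  refine hH1.trans ?_
  -- the first factor
  have hinjF : InjF x Finset.univ := fun i _ j _ h => hinj h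
  have h1 : avg (fun y => betaD D Finset.univ x y ^ (1 + q)) ≤ Real.exp (2 * k) := by
    have := moment_bound D Finset.univ x hinjF q hq0
    rw [card_univ] at this
    refine le_trans this (Real.exp_le_exp.mpr ?_)
    have hu0 : 0 ≤ q * gSeq D := by positivity
    have hu1 : q * gSeq D ≤ 1 := by
      rw [← hqG]
      exact mul_le_mul_of_nonneg_left hg hq0.le
    have h2 : Real.exp (q * gSeq D) - 1 ≤ 2 := by
      have := exp_le_quad hu0 hu1
      nlinarith
    nlinarith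
  have h1' : avg (fun y => betaD D Finset.univ x y ^ (1 + q)) ^ (1 / (1 + q)) ≤ Real.exp (2 * k) := by
    have h0 : 0 ≤ avg (fun y => betaD D Finset.univ x y ^ (1 + q)) :=
      avg_nonneg fun y => Real.rpow_nonneg (betaD_nonneg _ _ _ _) _
    refine (Real.rpow_le_rpow h0 h1 (by positivity)).trans ?_
    have h3 : 1 / (1 + q) ≤ 1 := by
      rw [div_le_one (by linarith)]
      linarith
    have h4 : 1 ≤ Real.exp (2 * k) := Real.one_le_exp (by positivity)
    calc Real.exp (2 * k) ^ (1 / (1 + q)) ≤ Real.exp (2 * k) ^ (1 : ℝ) :=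
          Real.rpow_le_rpow_of_exponent_le h4 h3
      _ = _ := Real.rpow_one _
  -- the second factor
  set c₂ : ℝ := Real.log 2 with hc₂
  have hc0 : 0 < c₂ := Real.log_pos (by norm_num)
  have hc1 : c₂ ≤ 1 := by
    have := Real.log_two_lt_d9
    rw [hc₂]
    linarith
  have e2 : (2 : ℝ) = Real.exp c₂ := (Real.exp_log (by norm_num)).symm
  have e2k : (2 : ℝ) ^ Fintype.card ι = Real.exp (k * c₂) := by
    rw [hkR, mul_comm, Real.exp_mul, Real.exp_log (by norm_num), Real.rpow_natCast]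
  -- the average of the Moebius size
  set l := (Fintype.card ι + 1) / 2 with hl
  have hl2 : k ≤ 2 * (l : ℝ) := by
    have : Fintype.card ι ≤ 2 * l := by omega
    rw [hkR]
    exact_mod_cast this
  have hZ : avg (fun w => zetaD ι D w) ≤ Real.exp (k * c₂ + k * c₂ + c₂ - ν * k / 2) := by
    refine (avg_zetaD_le (ι := ι) D).trans ?_
    have h5 : ((Fintype.card ι : ℝ) * (2 * D / 2 ^ D)) ^ l ≤ Real.exp (- (ν * k / 2)) := by
      have h6 : (0:ℝ) ≤ (Fintype.card ι : ℝ) * (2 * D / 2 ^ D) := by positivity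
      refine (pow_le_pow_left₀ h6 hE l).trans ?_
      rw [← Real.exp_nat_mul]
      apply Real.exp_le_exp.mpr
      nlinarith
    rw [e2k]
    have h7 : Real.exp (k * c₂ + k * c₂ + c₂ - ν * k / 2) =
        Real.exp (k * c₂) * (Real.exp (k * c₂) * (Real.exp c₂ * Real.exp (-(ν * k / 2)))) := by
      rw [← Real.exp_add, ← Real.exp_add, ← Real.exp_add]
      congr 1
      ring
    rw [h7, ← e2]
    refine mul_le_mul_of_nonneg_left (mul_le_mul_of_nonneg_left ?_ (Real.exp_pos _).le) (Real.exp_pos _).le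
    exact mul_le_mul_of_nonneg_left h5 (by norm_num)
  have hNgt : 1 < N := by linarith
  have hT : avg (fun y => TzD ι D y ^ N) ≤
      Real.exp (k * c₂ * (N - 1) + (k * c₂ + k * c₂ + c₂ - ν * k / 2)) := by
    refine (TzD_moment hNgt).trans ?_
    rw [e2k, ← Real.exp_mul, Real.exp_add]
    exact mul_le_mul_of_nonneg_left hZ (Real.exp_pos _).le
  have hT' : avg (fun y => TzD ι D y ^ N) ^ (1 / N) ≤ Real.exp (3 * k - ν * k / (2 * N)) := by
    have h0 : 0 ≤ avg (fun y => TzD ι D y ^ N) :=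
      avg_nonneg fun y => Real.rpow_nonneg (TzD_nonneg _) _
    refine (Real.rpow_le_rpow h0 hT (by positivity)).trans ?_
    rw [← Real.exp_mul]
    apply Real.exp_le_exp.mpr
    have hN0 : 0 < N := by linarith
    have e3 : (k * c₂ * (N - 1) + (k * c₂ + k * c₂ + c₂ - ν * k / 2)) * (1 / N) =
        k * c₂ + (k * c₂ + c₂) / N - ν * k / (2 * N) := by
      field_simp
      ring
    rw [e3]
    have h8 : (k * c₂ + c₂) / N ≤ k * c₂ + c₂ := by
      apply div_le_self (by positivity)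
      linarith
    nlinarith
  -- conclude
  have hfin : avg (fun y => betaD D Finset.univ x y ^ (1 + q)) ^ (1 / (1 + q)) *
      avg (fun y => TzD ι D y ^ N) ^ (1 / N) ≤ Real.exp (2 * k) * Real.exp (3 * k - ν * k / (2 * N)) :=
    mul_le_mul h1' hT' (Real.rpow_nonneg (avg_nonneg fun y => Real.rpow_nonneg (TzD_nonneg _) _) _)
      (Real.exp_pos _).le
  refine hfin.trans (le_of_eq ?_)
  rw [← Real.exp_add]
  congr 1
  have hN0 : N ≠ 0 := by linarith
  field_simp
  ring

/-- the norm of a pass at low levels -/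
theorem QT_low (a : ℕ) (hg : gSeq D ≤ (2 : ℝ) ^ (a + 1) - 1) (hk : 1 ≤ Fintype.card ι)
    {ν : ℝ} (hν : 0 ≤ ν)
    (hE : (Fintype.card ι : ℝ) * (2 * D / 2 ^ D) ≤ Real.exp (-ν))
    {u : TupSp ι (Pos D)} (hu : u ∈ WW ι (Pos D)) :
    ‖QT ι D u‖ ^ 2 ≤ Real.exp ((Fintype.card ι : ℝ) * (5 / 2 - ν / (4 * (2 : ℝ) ^ (a + 1)))) * ‖u‖ ^ 2 := by
  set c : ℝ := Real.exp ((Fintype.card ι : ℝ) * (5 / 2 - ν / (4 * (2 : ℝ) ^ (a + 1)))) with hc
  have : CompleteSpace (TupSp ι (Pos D)) := FiniteDimensional.complete ℝ _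
  set T : TupSp ι (Pos D) →L[ℝ] TupSp ι (Pos D) := (QTa ι D).comp (QT ι D) with hT
  have hTa : ∀ v, T v = QTa ι D (QT ι D v) := fun v => rfl
  have hsym : ∀ v w, ⟪T v, w⟫_ℝ = ⟪v, T w⟫_ℝ := by
    intro v w
    rw [hTa, hTa, QTa_inner, real_inner_comm, QTa_inner, real_inner_comm]
  have hW : ∀ w ∈ WW ι (Pos D), T w ∈ WW ι (Pos D) := fun w hw => QTa_mem_WW (QT_mem_WW hw)
  obtain ⟨b, μ, hb⟩ := exists_eigen_restrict (WW ι (Pos D)) T hsym hW
  have hμ : ∀ i, μ i ≤ c := by
    intro i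
    have h1 : μ i = ‖QT ι D (b i : TupSp ι (Pos D))‖ ^ 2 := by
      have h2 : ⟪(b i : TupSp ι (Pos D)), T (b i : TupSp ι (Pos D))⟫_ℝ = μ i := by
        rw [hb i, inner_smul_right, real_inner_self_eq_norm_sq]
        have h3 : ‖(b i : TupSp ι (Pos D))‖ = 1 := b.orthonormal.1 i
        rw [h3]
        simp
      rw [← h2, hTa, QTa_inner, real_inner_self_eq_norm_sq]
    have h0 : 0 ≤ μ i := by rw [h1]; positivity
    have hne : (b i : TupSp ι (Pos D)) ≠ 0 := by
      intro h2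
      have h3 : ‖(b i : TupSp ι (Pos D))‖ = 1 := b.orthonormal.1 i
      rw [h2] at h3
      simp at h3
    have h4 := eigen_bound a hg hk hν hE (b i).2 h0 (hb i) hne
    have e : Real.exp ((Fintype.card ι : ℝ) * (5 - ν / (2 * (2 : ℝ) ^ (a + 1)))) = c ^ 2 := by
      rw [hc, ← Real.exp_nat_mul]
      congr 1
      have : (2:ℝ) ^ (a + 1) ≠ 0 := by positivity
      push_cast
      field_simp
      ring
    rw [e] at h4
    exact (pow_le_pow_iff_left₀ h0 (Real.exp_pos _).le (by norm_num)).mp h4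
  set u' : WW ι (Pos D) := ⟨u, hu⟩ with hu'
  have h1 : u = ∑ i, ⟪b i, u'⟫_ℝ • (b i : TupSp ι (Pos D)) := by
    have h2 : u' = ∑ i, ⟪b i, u'⟫_ℝ • b i := (b.sum_repr' _).symm
    have := congrArg Subtype.val h2
    simpa using this
  have h2 : ∀ i, ⟪u, (b i : TupSp ι (Pos D))⟫_ℝ = ⟪b i, u'⟫_ℝ := by
    intro i
    rw [real_inner_comm]
    rfl
  have hexp : T u = ∑ i, ⟪b i, u'⟫_ℝ • (μ i • (b i : TupSp ι (Pos D))) := by
    conv_lhs => rw [h1]
    rw [map_sum]
    refine sum_congr rfl fun i _ => ?_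
    rw [map_smul, hb i]
  have h3 : ‖QT ι D u‖ ^ 2 = ∑ i, μ i * ⟪b i, u'⟫_ℝ ^ 2 := by
    rw [← real_inner_self_eq_norm_sq, ← QTa_inner, ← hTa, hexp, inner_sum]
    refine sum_congr rfl fun i _ => ?_
    rw [inner_smul_right, inner_smul_right, h2]
    ring
  have h4 : ‖u‖ ^ 2 = ∑ i, ⟪b i, u'⟫_ℝ ^ 2 := by
    have h5 : ‖u'‖ ^ 2 = ∑ i, ‖⟪b i, u'⟫_ℝ‖ ^ 2 := (b.sum_sq_norm_inner_right u').symm
    have h6 : ‖u'‖ = ‖u‖ := rfl
    rw [← h6, h5]
    simp
  rw [h3, h4, mul_sum]
  refine sum_le_sum fun i _ => ?_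
  exact mul_le_mul_of_nonneg_right (hμ i) (by positivity)

end Vale.Agent.Lib.P162
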