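import Vale.Agent.Lib.P162.LpRec

/-!
# The cycle weight of an injective relation and the contraction of its edges

For a finite set of directed edges `G` on the marks, `cW G` averages over all `Bool`-colourings the
product of `2 * 1[same colour]` along the edges.  For an injective relation this is `2 ^ (#cycles)`.
-/

namespace Vale.Agent.Lib.P162

open Equiv Finset

set_option linter.unusedSectionVars false
set_option linter.unusedSimpArgs false
set_option linter.unusedVariables false

variable {ι : Type*} [Fintype ι] [DecidableEq ι]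

/-- the factor of an edge -/
def eF (κ : ι → Bool) (p : ι × ι) : ℝ := if κ p.1 = κ p.2 then 2 else 0

lemma eF_nonneg (κ : ι → Bool) (p : ι × ι) : 0 ≤ eF κ p := by
  unfold eF; split_ifs <;> norm_num

lemma eF_le (κ : ι → Bool) (p : ι × ι) : eF κ p ≤ 2 := by
  unfold eF; split_ifs <;> norm_num

lemma eF_swap (κ : ι → Bool) (p : ι × ι) : eF κ p.swap = eF κ p := by
  unfold eF
  simp only [Prod.fst_swap, Prod.snd_swap, eq_comm]

/-- the cycle weight of a set of directed edges -/
noncomputable def cW (G : Finset (ι × ι)) : ℝ := avg fun κ : ι → Bool => ∏ p ∈ G, eF κ p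

lemma cW_nonneg (G : Finset (ι × ι)) : 0 ≤ cW G :=
  avg_nonneg fun κ => prod_nonneg fun p _ => eF_nonneg κ p

lemma cW_empty : cW (∅ : Finset (ι × ι)) = 1 := by
  unfold cW
  simp [avg_const]

lemma cW_le (G : Finset (ι × ι)) : cW G ≤ 2 ^ G.card := by
  unfold cW
  apply avg_le_of_le
  intro κ
  calc ∏ p ∈ G, eF κ p ≤ ∏ _p ∈ G, (2 : ℝ) :=
        prod_le_prod (fun p _ => eF_nonneg κ p) (fun p _ => eF_le κ p)
    _ = 2 ^ G.card := by rw [prod_const]

lemma avg_bool (f : Bool → ℝ) : avg f = (f true + f false) / 2 := by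
  unfold avg
  simp
  ring

/-- a vertex not touched by the edges -/
def FreeV (G : Finset (ι × ι)) (u : ι) : Prop := ∀ p ∈ G, p.1 ≠ u ∧ p.2 ≠ u

lemma prod_update_free {G : Finset (ι × ι)} {u : ι} (h : FreeV G u) (κ : ι → Bool) (b : Bool) :
    ∏ p ∈ G, eF (Function.update κ u b) p = ∏ p ∈ G, eF κ p := by
  refine prod_congr rfl fun p hp => ?_
  obtain ⟨h1, h2⟩ := h p hp
  unfold eF
  rw [Function.update_of_ne h1, Function.update_of_ne h2]

lemma cW_loop {G : Finset (ι × ι)} {u : ι} (h : FreeV G u) :
    cW (insert (u, u) G) = 2 * cW G := by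
  have hn : (u, u) ∉ G := fun hm => (h _ hm).1 rfl
  unfold cW
  rw [← avg_mul_left]
  refine avg_congr fun κ => ?_
  rw [prod_insert hn]
  simp [eF]

lemma cW_leaf_out {G : Finset (ι × ι)} {u v : ι} (h : FreeV G u) (hv : v ≠ u) :
    cW (insert (u, v) G) = cW G := by
  have hn : (u, v) ∉ G := fun hm => (h _ hm).1 rfl
  unfold cW
  rw [← avg_update u]
  refine avg_congr fun κ => ?_
  have e : ∀ b : Bool, ∏ p ∈ insert (u, v) G, eF (Function.update κ u b) p =
      (if b = κ v then 2 else 0) * ∏ p ∈ G, eF κ p := by
    intro b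
    rw [prod_insert hn, prod_update_free h]
    congr 1
    simp [eF, Function.update_of_ne hv]
  simp only [e, avg_mul_right]
  rw [avg_bool]
  cases κ v <;> simp

lemma cW_leaf_in {G : Finset (ι × ι)} {t u : ι} (h : FreeV G u) (ht : t ≠ u) :
    cW (insert (t, u) G) = cW G := by
  have hn : (t, u) ∉ G := fun hm => (h _ hm).2 rfl
  unfold cW
  rw [← avg_update u]
  refine avg_congr fun κ => ?_
  have e : ∀ b : Bool, ∏ p ∈ insert (t, u) G, eF (Function.update κ u b) p =
      (if κ t = b then 2 else 0) * ∏ p ∈ G, eF κ p := by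
    intro b
    rw [prod_insert hn, prod_update_free h]
    congr 1
    simp [eF, Function.update_of_ne ht]
  simp only [e, avg_mul_right]
  rw [avg_bool]
  cases κ t <;> simp

lemma cW_path {G : Finset (ι × ι)} {t u v : ι} (h : FreeV G u) (ht : t ≠ u) (hv : v ≠ u)
    (hn : (t, v) ∉ G) :
    cW (insert (t, u) (insert (u, v) G)) = cW (insert (t, v) G) := by
  have hn1 : (u, v) ∉ G := fun hm => (h _ hm).1 rfl
  have hn2 : (t, u) ∉ insert (u, v) G := by
    intro hm
    rcases mem_insert.mp hm with hm | hm
    · exact ht (Prod.ext_iff.mp hm).1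
    · exact (h _ hm).2 rfl
  unfold cW
  rw [← avg_update u]
  refine avg_congr fun κ => ?_
  have e : ∀ b : Bool, ∏ p ∈ insert (t, u) (insert (u, v) G), eF (Function.update κ u b) p =
      ((if κ t = b then 2 else 0) * (if b = κ v then 2 else 0)) * ∏ p ∈ G, eF κ p := by
    intro b
    rw [prod_insert hn2, prod_insert hn1, prod_update_free h, mul_assoc]
    congr 1
    · simp [eF, Function.update_of_ne ht]
    · congr 1
      simp [eF, Function.update_of_ne hv]
  simp only [e, avg_mul_right]
  rw [avg_bool, prod_insert hn]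
  congr 1
  unfold eF
  cases κ t <;> cases κ v <;> simp

section mE

variable {X : Type*} [DecidableEq X]

/-- the edges created by a tuple `z` of tails hitting a tuple `y` of heads -/
def mE (S Y : Finset ι) (z y : ι → X) : Finset (ι × ι) :=
  (S ×ˢ Y).filter fun p => z p.1 = y p.2

lemma mem_mE {S Y : Finset ι} {z y : ι → X} {p : ι × ι} :
    p ∈ mE S Y z y ↔ p.1 ∈ S ∧ p.2 ∈ Y ∧ z p.1 = y p.2 := by
  unfold mE
  simp [mem_filter, mem_product, and_assoc]

/-- injective relations, as sets of directed edges -/
def PInj (E : Finset (ι × ι)) : Prop :=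
  (∀ p ∈ E, ∀ p' ∈ E, p.1 = p'.1 → p = p') ∧ (∀ p ∈ E, ∀ p' ∈ E, p.2 = p'.2 → p = p')

lemma PInj.mono {E E' : Finset (ι × ι)} (h : PInj E) (hs : E' ⊆ E) : PInj E' :=
  ⟨fun p hp p' hp' => h.1 p (hs hp) p' (hs hp'), fun p hp p' hp' => h.2 p (hs hp) p' (hs hp')⟩

lemma PInj_mE {S Y : Finset ι} {z y : ι → X} (hz : InjF z S) (hy : InjF y Y) : PInj (mE S Y z y) := by
  constructor
  · intro p hp p' hp' h
    obtain ⟨h1, h2, h3⟩ := mem_mE.mp hp
    obtain ⟨h1', h2', h3'⟩ := mem_mE.mp hp'
    refine Prod.ext h ?_
    apply hy _ h2 _ h2'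
    rw [← h3, ← h3', h]
  · intro p hp p' hp' h
    obtain ⟨h1, h2, h3⟩ := mem_mE.mp hp
    obtain ⟨h1', h2', h3'⟩ := mem_mE.mp hp'
    refine Prod.ext ?_ h
    apply hz _ h1 _ h1'
    rw [h3, h3', h]

/-- the contraction of the edges of an injective relation -/
theorem contract (n : ℕ) : ∀ E : Finset (ι × ι), E.card = n → PInj E → ∀ (S Y : Finset ι) (y : ι → X),
    (∀ p ∈ E, p.1 ∉ S) → (∀ p ∈ E, p.2 ∉ Y) → InjF y Y →
    ∃ (Y' : Finset ι) (y' : ι → X), Y'.card ≤ Y.card ∧ InjF y' Y' ∧
      ∀ z : ι → X, InjF z S → cW (E ∪ mE S Y z y) = cW E * cW (mE S Y' z y') := by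
  induction n with
  | zero =>
    intro E hE hP S Y y hS hY hy
    have : E = ∅ := card_eq_zero.mp hE
    subst this
    refine ⟨Y, y, le_refl _, hy, fun z _ => ?_⟩
    rw [empty_union, cW_empty, one_mul]
  | succ n ih =>
    intro E hE hP S Y y hS hY hy
    have hne : E.Nonempty := by
      rw [← card_pos]; omega
    obtain ⟨⟨u, v⟩, huv⟩ := hne
    set E₀ := E.erase (u, v) with hE₀
    have hcard₀ : E₀.card = n := by
      rw [hE₀, card_erase_of_mem huv, hE]; rfl
    have hEins : E = insert (u, v) E₀ := (insert_erase huv).symm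
    have hP₀ : PInj E₀ := hP.mono (erase_subset _ _)
    have hS₀ : ∀ p ∈ E₀, p.1 ∉ S := fun p hp => hS p (mem_of_mem_erase hp)
    have hY₀ : ∀ p ∈ E₀, p.2 ∉ Y := fun p hp => hY p (mem_of_mem_erase hp)
    have hu1 : ∀ p ∈ E₀, p.1 ≠ u := by
      intro p hp h
      have h2 := hP.1 p (mem_of_mem_erase hp) (u, v) huv h
      exact (mem_erase.mp hp).1 h2
    have hv2 : ∀ p ∈ E₀, p.2 ≠ v := by
      intro p hp h
      have h2 := hP.2 p (mem_of_mem_erase hp) (u, v) huv h
      exact (mem_erase.mp hp).1 h2
    have huS : u ∉ S := hS _ huv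
    have hvY : v ∉ Y := hY _ huv
    have hM : ∀ (z : ι → X) (Y₁ : Finset ι) (y₁ : ι → X), u ∉ Y₁ → FreeV (mE S Y₁ z y₁) u := by
      intro z Y₁ y₁ hu p hp
      obtain ⟨h1, h2, -⟩ := mem_mE.mp hp
      exact ⟨fun h => huS (h ▸ h1), fun h => hu (h ▸ h2)⟩
    by_cases huv' : u = v
    · -- a loop
      subst huv'
      have hF : FreeV E₀ u := fun p hp => ⟨hu1 p hp, hv2 p hp⟩
      have huY : u ∉ Y := hvY
      obtain ⟨Y', y', h1, h2, h3⟩ := ih E₀ hcard₀ hP₀ S Y y hS₀ hY₀ hy
      refine ⟨Y', y', h1, h2, fun z hz => ?_⟩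
      have hF' : FreeV (E₀ ∪ mE S Y z y) u := by
        intro p hp
        rcases mem_union.mp hp with hp | hp
        · exact hF p hp
        · exact hM z Y y huY p hp
      rw [hEins, insert_union, cW_loop hF', cW_loop hF, h3 z hz]
      ring
    · by_cases hin : ∃ t, (t, u) ∈ E
      · -- the vertex has a predecessor
        obtain ⟨t, ht⟩ := hin
        have htu : t ≠ u := by
          rintro rfl
          have := hP.1 _ ht _ huv rfl
          exact huv' (Prod.ext_iff.mp this).2
        have ht₀ : (t, u) ∈ E₀ := by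
          refine mem_erase.mpr ⟨fun h => htu (Prod.ext_iff.mp h).1, ht⟩
        set E₁₀ := E₀.erase (t, u) with hE₁₀
        have hEins₀ : E₀ = insert (t, u) E₁₀ := (insert_erase ht₀).symm
        have hcard₁₀ : E₁₀.card + 1 = n := by
          rw [hE₁₀, card_erase_of_mem ht₀, hcard₀]
          have : 0 < n := by
            rw [← hcard₀]; exact card_pos.mpr ⟨_, ht₀⟩
          omega
        have hF : FreeV E₁₀ u := by
          intro p hp
          have hp₀ := mem_of_mem_erase hp
          refine ⟨hu1 p hp₀, fun h => ?_⟩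
          have h2 := hP.2 p (mem_of_mem_erase hp₀) (t, u) ht h
          exact (mem_erase.mp hp).1 h2
        have htS : t ∉ S := hS _ ht
        have huY : u ∉ Y := hY _ ht
        have hn : (t, v) ∉ E₁₀ := fun hm => hv2 _ (mem_of_mem_erase hm) rfl
        set E₁ := insert (t, v) E₁₀ with hE₁
        have hcard₁ : E₁.card = n := by
          rw [hE₁, card_insert_of_notMem hn, hcard₁₀]
        have hP₁ : PInj E₁ := by
          have hPs : PInj E₁₀ := hP₀.mono (erase_subset _ _)
          constructor
          · intro p hp p' hp' h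
            rcases mem_insert.mp hp with rfl | hp <;> rcases mem_insert.mp hp' with rfl | hp'
            · rfl
            · exfalso
              have h2 := hP.1 p' (mem_of_mem_erase (mem_of_mem_erase hp')) (t, u) ht h.symm
              exact (mem_erase.mp hp').1 h2
            · exfalso
              have h2 := hP.1 p (mem_of_mem_erase (mem_of_mem_erase hp)) (t, u) ht h
              exact (mem_erase.mp hp).1 h2
            · exact hPs.1 p hp p' hp' h
          · intro p hp p' hp' h
            rcases mem_insert.mp hp with rfl | hp <;> rcases mem_insert.mp hp' with rfl | hp'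
            · rfl
            · exact absurd h.symm (hv2 _ (mem_of_mem_erase hp'))
            · exact absurd h (hv2 _ (mem_of_mem_erase hp))
            · exact hPs.2 p hp p' hp' h
        have hS₁ : ∀ p ∈ E₁, p.1 ∉ S := by
          intro p hp
          rcases mem_insert.mp hp with rfl | hp
          · exact htS
          · exact hS₀ p (mem_of_mem_erase hp)
        have hY₁ : ∀ p ∈ E₁, p.2 ∉ Y := by
          intro p hp
          rcases mem_insert.mp hp with rfl | hp
          · exact hvY
          · exact hY₀ p (mem_of_mem_erase hp)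
        obtain ⟨Y', y', h1, h2, h3⟩ := ih E₁ hcard₁ hP₁ S Y y hS₁ hY₁ hy
        refine ⟨Y', y', h1, h2, fun z hz => ?_⟩
        have hvu : v ≠ u := fun h => huv' h.symm
        have hF' : FreeV (E₁₀ ∪ mE S Y z y) u := by
          intro p hp
          rcases mem_union.mp hp with hp | hp
          · exact hF p hp
          · exact hM z Y y huY p hp
        have hn' : (t, v) ∉ E₁₀ ∪ mE S Y z y := by
          intro hm
          rcases mem_union.mp hm with hm | hm
          · exact hn hm
          · exact htS (mem_mE.mp hm).1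
        have e1 : cW (E ∪ mE S Y z y) = cW (E₁ ∪ mE S Y z y) := by
          rw [hEins, hEins₀, insert_comm, insert_union, insert_union, cW_path hF' htu hvu hn',
            hE₁, insert_union]
        have e2 : cW E = cW E₁ := by
          rw [hEins, hEins₀, insert_comm, cW_path hF htu hvu hn]
        rw [e1, e2, h3 z hz]
      · -- no predecessor
        have hin' : ∀ p ∈ E₀, p.2 ≠ u := by
          intro p hp h
          apply hin
          refine ⟨p.1, ?_⟩
          have : p = (p.1, u) := Prod.ext rfl h
          rw [← this]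
          exact mem_of_mem_erase hp
        have hF : FreeV E₀ u := fun p hp => ⟨hu1 p hp, hin' p hp⟩
        have hvu : v ≠ u := fun h => huv' h.symm
        have e2 : cW E = cW E₀ := by
          rw [hEins, cW_leaf_out hF hvu]
        by_cases huY : u ∈ Y
        · -- the vertex is a head: move the head forward
          set Y₁ := insert v (Y.erase u) with hY₁def
          set y₁ := Function.update y v (y u) with hy₁def
          have hy₁v : y₁ v = y u := by simp [hy₁def]
          have hy₁o : ∀ j ∈ Y, y₁ j = y j := by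
            intro j hj
            rw [hy₁def, Function.update_of_ne]
            exact fun h => hvY (h ▸ hj)
          have hvn : v ∉ Y.erase u := fun h => hvY (mem_of_mem_erase h)
          have hcardY₁ : Y₁.card = Y.card := by
            rw [hY₁def, card_insert_of_notMem hvn, card_erase_of_mem huY]
            have := card_pos.mpr ⟨u, huY⟩
            omega
          have hinj₁ : InjF y₁ Y₁ := by
            intro i hi j hj hij
            have hi0 : i = v ∨ i ∈ Y.erase u := mem_insert.mp hi
            have hj0 : j = v ∨ j ∈ Y.erase u := mem_insert.mp hj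
            rcases hi0 with hiv | hie
            · rcases hj0 with hjv | hje
              · rw [hiv, hjv]
              · exfalso
                have hj' := mem_of_mem_erase hje
                rw [hiv, hy₁v, hy₁o j hj'] at hij
                exact (mem_erase.mp hje).1 (hy _ hj' _ huY hij.symm)
            · rcases hj0 with hjv | hje
              · exfalso
                have hi' := mem_of_mem_erase hie
                rw [hjv, hy₁v, hy₁o i hi'] at hij
                exact (mem_erase.mp hie).1 (hy _ hi' _ huY hij)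
              · have hi' := mem_of_mem_erase hie
                have hj' := mem_of_mem_erase hje
                rw [hy₁o i hi', hy₁o j hj'] at hij
                exact hy _ hi' _ hj' hij
          have hY₀' : ∀ p ∈ E₀, p.2 ∉ Y₁ := by
            intro p hp hm
            rcases mem_insert.mp hm with h | h
            · exact hv2 p hp h
            · exact hY₀ p hp (mem_of_mem_erase h)
          obtain ⟨Y', y', h1, h2, h3⟩ := ih E₀ hcard₀ hP₀ S Y₁ y₁ hS₀ hY₀' hinj₁
          refine ⟨Y', y', by omega, h2, fun z hz => ?_⟩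
          set M₀ := mE S (Y.erase u) z y with hM₀
          have hFM : FreeV (E₀ ∪ M₀) u := by
            intro p hp
            rcases mem_union.mp hp with hp | hp
            · exact hF p hp
            · exact hM z (Y.erase u) y (fun h => (mem_erase.mp h).1 rfl) p hp
          by_cases hk : ∃ k ∈ S, z k = y u
          · obtain ⟨k, hkS, hkz⟩ := hk
            have hku : k ≠ u := fun h => huS (h ▸ hkS)
            have e3 : mE S Y z y = insert (k, u) M₀ := by
              ext ⟨a, b⟩
              simp only [mem_mE, mem_insert, Prod.mk.injEq, hM₀, mem_erase]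
              constructor
              · rintro ⟨ha, hb, hab⟩
                by_cases hbu : b = u
                · left
                  refine ⟨?_, hbu⟩
                  apply hz a ha k hkS
                  rw [hab, hkz, hbu]
                · exact Or.inr ⟨ha, ⟨hbu, hb⟩, hab⟩
              · rintro (⟨rfl, rfl⟩ | ⟨ha, ⟨-, hb⟩, hab⟩)
                · exact ⟨hkS, huY, hkz⟩
                · exact ⟨ha, hb, hab⟩
            have e4 : mE S Y₁ z y₁ = insert (k, v) M₀ := by
              ext ⟨a, b⟩
              simp only [mem_mE, mem_insert, Prod.mk.injEq, hM₀, mem_erase, hY₁def]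
              constructor
              · rintro ⟨ha, hb, hab⟩
                rcases hb with rfl | ⟨hb1, hb2⟩
                · left
                  refine ⟨?_, rfl⟩
                  apply hz a ha k hkS
                  rw [hab, hkz, hy₁v]
                · right
                  refine ⟨ha, ⟨hb1, hb2⟩, ?_⟩
                  rw [hab, hy₁o b hb2]
              · rintro (⟨rfl, rfl⟩ | ⟨ha, ⟨hb1, hb2⟩, hab⟩)
                · exact ⟨hkS, Or.inl rfl, by rw [hy₁v]; exact hkz⟩
                · exact ⟨ha, Or.inr ⟨hb1, hb2⟩, by rw [hy₁o b hb2]; exact hab⟩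
            have hn' : (k, v) ∉ E₀ ∪ M₀ := by
              intro hm
              rcases mem_union.mp hm with hm | hm
              · exact hv2 _ hm rfl
              · exact hvn (mem_mE.mp hm).2.1
            have e5 : cW (E ∪ mE S Y z y) = cW (E₀ ∪ mE S Y₁ z y₁) := by
              have e6 : E ∪ mE S Y z y = insert (k, u) (insert (u, v) (E₀ ∪ M₀)) := by
                rw [hEins, e3, union_insert, insert_union]
              rw [e6, cW_path hFM hku hvu hn', e4, union_insert]
            rw [e5, h3 z hz, e2]
          · have hk' : ∀ k ∈ S, z k ≠ y u := fun k hkS h => hk ⟨k, hkS, h⟩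
            have e3 : mE S Y z y = M₀ := by
              ext ⟨a, b⟩
              simp only [mem_mE, hM₀, mem_erase]
              constructor
              · rintro ⟨ha, hb, hab⟩
                refine ⟨ha, ⟨?_, hb⟩, hab⟩
                rintro rfl
                exact hk' a ha hab
              · rintro ⟨ha, ⟨-, hb⟩, hab⟩
                exact ⟨ha, hb, hab⟩
            have e4 : mE S Y₁ z y₁ = M₀ := by
              ext ⟨a, b⟩
              simp only [mem_mE, hM₀, mem_erase, hY₁def, mem_insert]
              constructor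
              · rintro ⟨ha, hb, hab⟩
                rcases hb with rfl | ⟨hb1, hb2⟩
                · rw [hy₁v] at hab
                  exact absurd hab (hk' a ha)
                · exact ⟨ha, ⟨hb1, hb2⟩, by rw [hab, hy₁o b hb2]⟩
              · rintro ⟨ha, ⟨hb1, hb2⟩, hab⟩
                exact ⟨ha, Or.inr ⟨hb1, hb2⟩, by rw [hy₁o b hb2]; exact hab⟩
            have e5 : cW (E ∪ mE S Y z y) = cW (E₀ ∪ mE S Y₁ z y₁) := by
              rw [hEins, e3, e4, insert_union, cW_leaf_out hFM hvu]
            rw [e5, h3 z hz, e2]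
        · -- the vertex is not a head
          obtain ⟨Y', y', h1, h2, h3⟩ := ih E₀ hcard₀ hP₀ S Y y hS₀ hY₀ hy
          refine ⟨Y', y', h1, h2, fun z hz => ?_⟩
          have hFM : FreeV (E₀ ∪ mE S Y z y) u := by
            intro p hp
            rcases mem_union.mp hp with hp | hp
            · exact hF p hp
            · exact hM z Y y huY p hp
          rw [hEins, insert_union, cW_leaf_out hFM hvu, h3 z hz, ← hEins, e2]

/-- dropping a tail which is not a head -/
lemma cW_drop_left {S Y : Finset ι} {z y : ι → X} {k : ι} (hkS : k ∉ S) (hkY : k ∉ Y)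
    (hy : InjF y Y) : cW (mE (insert k S) Y z y) = cW (mE S Y z y) := by
  have hF : FreeV (mE S Y z y) k := by
    intro p hp
    obtain ⟨h1, h2, -⟩ := mem_mE.mp hp
    exact ⟨fun h => hkS (h ▸ h1), fun h => hkY (h ▸ h2)⟩
  by_cases hl : ∃ l ∈ Y, z k = y l
  · obtain ⟨l, hlY, hlz⟩ := hl
    have hlk : l ≠ k := fun h => hkY (h ▸ hlY)
    have e : mE (insert k S) Y z y = insert (k, l) (mE S Y z y) := by
      ext ⟨a, b⟩
      simp only [mem_mE, mem_insert, Prod.mk.injEq]
      constructor
      · rintro ⟨ha | ha, hb, hab⟩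
        · subst ha
          left
          refine ⟨rfl, hy _ hb _ hlY ?_⟩
          rw [← hab, hlz]
        · exact Or.inr ⟨ha, hb, hab⟩
      · rintro (⟨rfl, rfl⟩ | ⟨ha, hb, hab⟩)
        · exact ⟨Or.inl rfl, hlY, hlz⟩
        · exact ⟨Or.inr ha, hb, hab⟩
    rw [e, cW_leaf_out hF hlk]
  · congr 1
    ext ⟨a, b⟩
    simp only [mem_mE, mem_insert]
    constructor
    · rintro ⟨ha | ha, hb, hab⟩
      · subst ha
        exact absurd ⟨b, hb, hab⟩ hl
      · exact ⟨ha, hb, hab⟩
    · rintro ⟨ha, hb, hab⟩
      exact ⟨Or.inr ha, hb, hab⟩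

/-- dropping a head which is not a tail -/
lemma cW_drop_right {S Y : Finset ι} {z y : ι → X} {l : ι} (hlS : l ∉ S) (hlY : l ∉ Y)
    (hz : InjF z S) : cW (mE S (insert l Y) z y) = cW (mE S Y z y) := by
  have hF : FreeV (mE S Y z y) l := by
    intro p hp
    obtain ⟨h1, h2, -⟩ := mem_mE.mp hp
    exact ⟨fun h => hlS (h ▸ h1), fun h => hlY (h ▸ h2)⟩
  by_cases hk : ∃ k ∈ S, z k = y l
  · obtain ⟨k, hkS, hkz⟩ := hk
    have hkl : k ≠ l := fun h => hlS (h ▸ hkS)
    have e : mE S (insert l Y) z y = insert (k, l) (mE S Y z y) := by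
      ext ⟨a, b⟩
      simp only [mem_mE, mem_insert, Prod.mk.injEq]
      constructor
      · rintro ⟨ha, hb | hb, hab⟩
        · subst hb
          left
          refine ⟨hz _ ha _ hkS ?_, rfl⟩
          rw [hab, hkz]
        · exact Or.inr ⟨ha, hb, hab⟩
      · rintro (⟨rfl, rfl⟩ | ⟨ha, hb, hab⟩)
        · exact ⟨hkS, Or.inl rfl, hkz⟩
        · exact ⟨ha, Or.inr hb, hab⟩
    rw [e, cW_leaf_in hF hkl]
  · congr 1
    ext ⟨a, b⟩
    simp only [mem_mE, mem_insert]
    constructor
    · rintro ⟨ha, hb | hb, hab⟩
      · subst hb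
        exact absurd ⟨a, ha, hab⟩ hk
      · exact ⟨ha, hb, hab⟩
    · rintro ⟨ha, hb, hab⟩
      exact ⟨ha, Or.inr hb, hab⟩

/-- only the marks which are both a tail and a head matter -/
theorem cW_inter {S Y : Finset ι} {z y : ι → X} (hz : InjF z S) (hy : InjF y Y) :
    cW (mE S Y z y) = cW (mE (S ∩ Y) (S ∩ Y) z y) := by
  have h1 : ∀ T : Finset ι, (∀ k ∈ T, k ∉ Y) →
      cW (mE ((S ∩ Y) ∪ T) Y z y) = cW (mE (S ∩ Y) Y z y) := by
    intro T
    induction T using Finset.induction_on with
    | empty => intro _; rw [union_empty]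
    | insert k T hk ih =>
      intro hT
      have hkY := hT k (mem_insert_self _ _)
      have hk' : k ∉ (S ∩ Y) ∪ T := by
        intro hm
        rcases mem_union.mp hm with hm | hm
        · exact hkY (mem_inter.mp hm).2
        · exact hk hm
      rw [union_insert, cW_drop_left hk' hkY hy]
      exact ih fun j hj => hT j (mem_insert_of_mem hj)
  have h2 : ∀ T : Finset ι, (∀ k ∈ T, k ∉ S) →
      cW (mE (S ∩ Y) ((S ∩ Y) ∪ T) z y) = cW (mE (S ∩ Y) (S ∩ Y) z y) := by
    intro T
    induction T using Finset.induction_on with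
    | empty => intro _; rw [union_empty]
    | insert k T hk ih =>
      intro hT
      have hkS := hT k (mem_insert_self _ _)
      have hk' : k ∉ (S ∩ Y) ∪ T := by
        intro hm
        rcases mem_union.mp hm with hm | hm
        · exact hkS (mem_inter.mp hm).1
        · exact hk hm
      have hk2 : k ∉ S ∩ Y := fun hm => hkS (mem_inter.mp hm).1
      rw [union_insert, cW_drop_right hk2 hk' (hz.mono inter_subset_left)]
      exact ih fun j hj => hT j (mem_insert_of_mem hj)
  have e1 : S = (S ∩ Y) ∪ (S \ Y) := by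
    ext a; simp only [mem_union, mem_inter, mem_sdiff]; tauto
  have e2 : Y = (S ∩ Y) ∪ (Y \ S) := by
    ext a; simp only [mem_union, mem_inter, mem_sdiff]; tauto
  calc cW (mE S Y z y) = cW (mE ((S ∩ Y) ∪ (S \ Y)) Y z y) := by rw [← e1]
    _ = cW (mE (S ∩ Y) Y z y) := h1 _ fun k hk => (mem_sdiff.mp hk).2
    _ = cW (mE (S ∩ Y) ((S ∩ Y) ∪ (Y \ S)) z y) := by rw [← e2]
    _ = _ := h2 _ fun k hk => (mem_sdiff.mp hk).2

/-- a matching has a bounded number of edges -/
lemma card_mE_le {A : Finset ι} {z y : ι → X} (hy : InjF y A) : (mE A A z y).card ≤ A.card := by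
  apply card_le_card_of_injOn Prod.fst
  · intro p hp
    exact (mem_mE.mp hp).1
  · intro p hp p' hp' h
    obtain ⟨h1, h2, h3⟩ := mem_mE.mp hp
    obtain ⟨h1', h2', h3'⟩ := mem_mE.mp hp'
    refine Prod.ext h ?_
    apply hy _ h2 _ h2'
    rw [← h3, ← h3', h]

end mE

end Vale.Agent.Lib.P162
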