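import Vale.Agent.Lib.P162.N1

/-!
# The moment of the cycle weight under the two sided kernel
-/

namespace Vale.Agent.Lib.P162

open Equiv Finset

set_option linter.unusedSectionVars false
set_option linter.unusedSimpArgs false
set_option linter.unusedVariables false

/-! ### the expectation of the two sided kernel -/

lemma Exp_avg' (D : ℕ) {Y : Type*} [Fintype Y] (F : Y → Perm (Pos D) → ℝ) :
    Exp D (fun g => avg fun y => F y g) = avg (fun y => Exp D (F y)) := (Exp_avg D F).symm

lemma Exp_comm (D D' : ℕ) : ∀ F : Perm (Pos D) → Perm (Pos D') → ℝ,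
    Exp D (fun g => Exp D' (fun h => F g h)) = Exp D' (fun h => Exp D (fun g => F g h)) := by
  induction D with
  | zero => intro F; rfl
  | succ D ih =>
    intro F
    simp only [Exp_succ]
    have h1 : ∀ g0 g1 : Perm (Pos D), (avg fun c : Pos D → Bool => Exp D' (fun h => F (stepG D g0 g1 c) h)) =
        Exp D' (fun h => avg fun c : Pos D → Bool => F (stepG D g0 g1 c) h) := by
      intro g0 g1
      exact Exp_avg D' _
    simp only [h1]
    have h2 : ∀ g0 : Perm (Pos D), Exp D (fun g1 => Exp D' (fun h => avg fun c : Pos D → Bool => F (stepG D g0 g1 c) h)) =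
        Exp D' (fun h => Exp D (fun g1 => avg fun c : Pos D → Bool => F (stepG D g0 g1 c) h)) :=
      fun g0 => ih _
    simp only [h2]
    exact ih _

/-- the expectation over the two sided kernel -/
noncomputable def BenE (D : ℕ) (F : Perm (Pos D) → ℝ) : ℝ :=
  Exp D fun g => Exp D fun g' => F (g'⁻¹ * g)

lemma BenE_congr (D : ℕ) {F G : Perm (Pos D) → ℝ} (h : ∀ σ, F σ = G σ) : BenE D F = BenE D G := by
  rw [funext h]

lemma BenE_mono (D : ℕ) {F G : Perm (Pos D) → ℝ} (h : ∀ σ, F σ ≤ G σ) : BenE D F ≤ BenE D G :=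
  Exp_mono D fun g => Exp_mono D fun g' => h _

lemma BenE_mul_left (D : ℕ) (a : ℝ) (F : Perm (Pos D) → ℝ) :
    BenE D (fun σ => a * F σ) = a * BenE D F := by
  unfold BenE
  simp only [Exp_mul_left]

lemma BenE_mul_right (D : ℕ) (a : ℝ) (F : Perm (Pos D) → ℝ) :
    BenE D (fun σ => F σ * a) = BenE D F * a := by
  rw [mul_comm, ← BenE_mul_left]
  exact BenE_congr D fun σ => mul_comm _ _

lemma BenE_const (D : ℕ) (a : ℝ) : BenE D (fun _ => a) = a := by
  unfold BenE
  simp only [Exp_const]

lemma BenE_nonneg (D : ℕ) {F : Perm (Pos D) → ℝ} (h : ∀ σ, 0 ≤ F σ) : 0 ≤ BenE D F :=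
  Exp_nonneg D fun g => Exp_nonneg D fun g' => h _

/-- the image of a position under the two block permutations and the two coin layers -/
def nextT {D : ℕ} (σ₀ σ₁ : Perm (Pos D)) (c c' : Pos D → Bool) (p : Pos (D + 1)) : Pos (D + 1) :=
  Fin.cons (xor (xor (p 0) (c (Fin.tail p)))
      (c' (if xor (p 0) (c (Fin.tail p)) = true then σ₁ (Fin.tail p) else σ₀ (Fin.tail p))))
    (if xor (p 0) (c (Fin.tail p)) = true then σ₁ (Fin.tail p) else σ₀ (Fin.tail p))

lemma inv_stepG {D : ℕ} (g0 g1 g0' g1' : Perm (Pos D)) (c c' : Pos D → Bool) (p : Pos (D + 1)) :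
    (stepG D g0' g1' c')⁻¹ (stepG D g0 g1 c p) = nextT (g0'⁻¹ * g0) (g1'⁻¹ * g1) c c' p := by
  rw [Perm.inv_eq_iff_eq, stepG_apply]
  unfold nextT
  rw [stepG_cons]
  cases hs : xor (p 0) (c (Fin.tail p))
  · simp [Perm.mul_apply]
  · simp [Perm.mul_apply]

theorem BenE_succ (D : ℕ) (Φ : (Pos (D + 1) → Pos (D + 1)) → ℝ) :
    BenE (D + 1) (fun σ => Φ σ) = avg fun c : Pos D → Bool => avg fun c' : Pos D → Bool =>
      BenE D fun σ₀ => BenE D fun σ₁ => Φ (nextT σ₀ σ₁ c c') := by
  unfold BenE
  simp only [Exp_succ]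
  have e : ∀ (g0 g1 g0' g1' : Perm (Pos D)) (c c' : Pos D → Bool),
      Φ (⇑((stepG D g0' g1' c')⁻¹ * stepG D g0 g1 c)) = Φ (nextT (g0'⁻¹ * g0) (g1'⁻¹ * g1) c c') := by
    intro g0 g1 g0' g1' c c'
    congr 1
    funext p
    rw [Perm.mul_apply, inv_stepG]
  simp only [e, Exp_avg']
  refine avg_congr fun c => avg_congr fun c' => ?_
  refine Exp_congr D fun g0 => ?_
  exact Exp_comm D D _

/-! ### independent coins -/

section coins

variable {ι : Type*} [Fintype ι] [DecidableEq ι]

lemma avg_coin_prod {P : Type*} [Fintype P] [DecidableEq P] (τ : ι → P) (A : Finset ι)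
    (hτ : InjF τ A) (f : ι → Bool → ℝ) :
    avg (fun c : P → Bool => ∏ l ∈ A, f l (c (τ l))) = ∏ l ∈ A, avg (f l) := by
  induction A using Finset.induction_on with
  | empty => simp [avg_const]
  | insert k A hk ih =>
    have hτ' : InjF τ A := hτ.mono (subset_insert _ _)
    rw [prod_insert hk, ← ih hτ', ← avg_update (τ k)]
    rw [← avg_mul_left]
    refine avg_congr fun c => ?_
    have h1 : ∀ b : Bool, ∏ l ∈ insert k A, f l (Function.update c (τ k) b (τ l)) =
        f k b * ∏ l ∈ A, f l (c (τ l)) := by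
      intro b
      rw [prod_insert hk, Function.update_self]
      congr 1
      refine prod_congr rfl fun l hl => ?_
      rw [Function.update_of_ne]
      intro h
      exact hk ((hτ l (mem_insert_of_mem hl) k (mem_insert_self _ _) h) ▸ hl)
    simp only [h1, avg_mul_right]

/-- a large subset on which two maps with small fibres are injective -/
lemma exists_indep {P Q : Type*} [DecidableEq P] [DecidableEq Q] (τ : ι → P) (τ' : ι → Q) :
    ∀ A : Finset ι, (∀ k ∈ A, (A.filter fun l => τ l = τ k).card ≤ 2) →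
      (∀ k ∈ A, (A.filter fun l => τ' l = τ' k).card ≤ 2) →
      ∃ A' ⊆ A, A.card ≤ 3 * A'.card ∧ InjF τ A' ∧ InjF τ' A' := by
  intro A
  induction A using Finset.strongInduction with
  | H A ih =>
    intro h1 h2
    rcases A.eq_empty_or_nonempty with rfl | ⟨k, hk⟩
    · exact ⟨∅, Subset.refl _, by simp, by simp [InjF], by simp [InjF]⟩
    · set R := A.filter fun l => τ l ≠ τ k ∧ τ' l ≠ τ' k with hR
      have hRs : R ⊂ A := by
        refine ⟨filter_subset _ _, fun h => ?_⟩
        have := h hk
        simp [hR] at this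
      obtain ⟨A', hA', hc, hi1, hi2⟩ := ih R hRs
        (fun j hj => le_trans (card_le_card (by
          intro l hl
          have := mem_filter.mp hl
          exact mem_filter.mpr ⟨hRs.1 this.1, this.2⟩)) (h1 j (hRs.1 hj)))
        (fun j hj => le_trans (card_le_card (by
          intro l hl
          have := mem_filter.mp hl
          exact mem_filter.mpr ⟨hRs.1 this.1, this.2⟩)) (h2 j (hRs.1 hj)))
      have hkn : k ∉ A' := fun h => by
        have := hA' h
        simp [hR] at this
      have hne1 : ∀ l ∈ A', τ l ≠ τ k := fun l hl => (mem_filter.mp (hA' hl)).2.1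
      have hne2 : ∀ l ∈ A', τ' l ≠ τ' k := fun l hl => (mem_filter.mp (hA' hl)).2.2
      refine ⟨insert k A', ?_, ?_, ?_, ?_⟩
      · intro l hl
        rcases mem_insert.mp hl with rfl | hl
        · exact hk
        · exact hRs.1 (hA' hl)
      · rw [card_insert_of_notMem hkn]
        set F₁ := A.filter fun l => τ l = τ k with hF₁
        set F₂ := A.filter fun l => τ' l = τ' k with hF₂
        have hsub : A ⊆ R ∪ (F₁ ∪ F₂) := by
          intro l hl
          by_cases h : τ l = τ k
          · exact mem_union_right _ (mem_union_left _ (mem_filter.mpr ⟨hl, h⟩))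
          · by_cases h' : τ' l = τ' k
            · exact mem_union_right _ (mem_union_right _ (mem_filter.mpr ⟨hl, h'⟩))
            · exact mem_union_left _ (mem_filter.mpr ⟨hl, h, h'⟩)
        have hc1 := card_le_card hsub
        have hc2 := card_union_le R (F₁ ∪ F₂)
        have hc3 := card_union_add_card_inter F₁ F₂
        have hc4 : 1 ≤ (F₁ ∩ F₂).card :=
          card_pos.mpr ⟨k, mem_inter.mpr ⟨mem_filter.mpr ⟨hk, rfl⟩, mem_filter.mpr ⟨hk, rfl⟩⟩⟩
        have hc5 : F₁.card ≤ 2 := h1 k hk
        have hc6 : F₂.card ≤ 2 := h2 k hk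
        omega
      · intro i hi j hj hij
        rcases mem_insert.mp hi with hi' | hi' <;> rcases mem_insert.mp hj with hj' | hj'
        · rw [hi', hj']
        · rw [hi'] at hij
          exact absurd hij.symm (hne1 j hj')
        · rw [hj'] at hij
          exact absurd hij (hne1 i hi')
        · exact hi1 i hi' j hj' hij
      · intro i hi j hj hij
        rcases mem_insert.mp hi with hi' | hi' <;> rcases mem_insert.mp hj with hj' | hj'
        · rw [hi', hj']
        · rw [hi'] at hij
          exact absurd hij.symm (hne2 j hj')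
        · rw [hj'] at hij
          exact absurd hij (hne2 i hi')
        · exact hi2 i hi' j hj' hij

lemma hd_tl_inj {D : ℕ} {x : ι → Pos (D + 1)} {i j : ι} (h1 : tl x i = tl x j) (h2 : hd x i = hd x j) :
    x i = x j := by
  rw [← Fin.cons_self_tail (x i), ← Fin.cons_self_tail (x j)]
  show (Fin.cons (hd x i) (tl x i) : Pos (D + 1)) = Fin.cons (hd x j) (tl x j)
  rw [h1, h2]

lemma fibre_tl_le {D : ℕ} {x : ι → Pos (D + 1)} {A : Finset ι} (hx : InjF x A) (k : ι) :
    (A.filter fun l => tl x l = tl x k).card ≤ 2 := by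
  have h := card_le_card_of_injOn (s := A.filter fun l => tl x l = tl x k)
    (t := (Finset.univ : Finset Bool)) (hd x) (fun _ _ => mem_univ _) (by
      intro l hl l' hl' h
      have h1 := (mem_filter.mp (mem_coe.mp hl))
      have h2 := (mem_filter.mp (mem_coe.mp hl'))
      exact hx l h1.1 l' h2.1 (hd_tl_inj (h1.2.trans h2.2.symm) h))
  simpa using h

end coins

/-! ### the coin average -/

lemma coin_average {ι : Type*} [Fintype ι] [DecidableEq ι] {P Q : Type*} [Fintype P] [DecidableEq P]
    [Fintype Q] [DecidableEq Q] (τ : ι → P) (τ' : ι → Q) (A : Finset ι) (hτ : InjF τ A) (hτ' : InjF τ' A)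
    (f f' : ι → Bool) (w : ℝ) :
    avg (fun c : P → Bool => avg fun c' : Q → Bool => ∏ l ∈ A,
      (if xor (f' l) (c' (τ' l)) = false ∧ xor (f l) (c (τ l)) = true then w else 1)) =
      ((3 + w) / 4) ^ A.card := by
  have h1 : ∀ c : P → Bool, (avg fun c' : Q → Bool => ∏ l ∈ A,
      (if xor (f' l) (c' (τ' l)) = false ∧ xor (f l) (c (τ l)) = true then w else 1)) =
      ∏ l ∈ A, (if xor (f l) (c (τ l)) = true then (1 + w) / 2 else 1) := by
    intro c
    rw [avg_coin_prod τ' A hτ' (fun l b => if xor (f' l) b = false ∧ xor (f l) (c (τ l)) = true then w else 1)]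
    refine prod_congr rfl fun l _ => ?_
    rw [avg_bool]
    cases f' l <;> cases xor (f l) (c (τ l)) <;> simp <;> ring
  simp only [h1]
  rw [avg_coin_prod τ A hτ (fun l b => if xor (f l) b = true then (1 + w) / 2 else 1)]
  rw [← prod_const]
  refine prod_congr rfl fun l _ => ?_
  rw [avg_bool]
  cases f l <;> simp <;> ring

/-- the polynomial inequality behind the contraction factor `11 / 12` -/
lemma poly_step {u : ℝ} (hu : 0 ≤ u) :
    (1 + u) ^ 3 * ((3 + (1 + u)⁻¹) / 4) ≤ (1 + 11 / 12 * u) ^ 3 := by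
  have h1 : (1 + u) ≠ 0 := by linarith
  have e : (1 + u) ^ 3 * ((3 + (1 + u)⁻¹) / 4) = (1 + u) ^ 2 * (1 + 3 / 4 * u) := by
    field_simp
    ring
  rw [e]
  have h2 : 0 ≤ u ^ 2 := by positivity
  have h3 : 0 ≤ u ^ 3 := by positivity
  nlinarith

lemma pow_step {P P' ρ : ℝ} (hP : 0 ≤ P) (hP' : 0 ≤ P') (hρ0 : 0 ≤ ρ) (hρ1 : ρ ≤ 1)
    (h : P ^ 3 * ρ ≤ P' ^ 3) {n m : ℕ} (hnm : n ≤ 3 * m) : P ^ n * ρ ^ m ≤ P' ^ n := by
  have h1 : (P ^ n * ρ ^ m) ^ 3 ≤ (P' ^ n) ^ 3 := by
    calc (P ^ n * ρ ^ m) ^ 3 = (P ^ 3) ^ n * ρ ^ (3 * m) := by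
          rw [mul_pow, ← pow_mul, ← pow_mul, mul_comm n 3, mul_comm m 3, pow_mul]
      _ ≤ (P ^ 3) ^ n * ρ ^ n :=
          mul_le_mul_of_nonneg_left (pow_le_pow_of_le_one hρ0 hρ1 hnm) (by positivity)
      _ = (P ^ 3 * ρ) ^ n := by rw [mul_pow]
      _ ≤ (P' ^ 3) ^ n := pow_le_pow_left₀ (by positivity) h n
      _ = (P' ^ n) ^ 3 := by rw [← pow_mul, ← pow_mul, mul_comm]
  exact (pow_le_pow_iff_left₀ (by positivity) (by positivity) (by norm_num)).mp h1

/-! ### the moment of the cycle weight -/

variable {ι : Type*} [Fintype ι] [DecidableEq ι]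

/-- the excess of the moment per arc -/
noncomputable def uD (e : ℝ) (D : ℕ) : ℝ := ((2 : ℝ) ^ e - 1) * (11 / 12) ^ D

lemma uD_nonneg {e : ℝ} (he : 0 ≤ e) (D : ℕ) : 0 ≤ uD e D := by
  unfold uD
  have : (1 : ℝ) ≤ 2 ^ e := Real.one_le_rpow (by norm_num) he
  exact mul_nonneg (by linarith) (by positivity)

lemma cW_rpow_nonneg (G : Finset (ι × ι)) (e : ℝ) : 0 ≤ cW G ^ e :=
  Real.rpow_nonneg (cW_nonneg G) e

/-- one level of the recursion -/
theorem cyc_step (e : ℝ) (he : 0 ≤ e) (D : ℕ)
    (ih : ∀ (S Y : Finset ι) (x y : ι → Pos D), InjF x S → InjF y Y →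
      BenE D (fun σ => cW (mE S Y (fun i => σ (x i)) y) ^ e) ≤ (1 + uD e D) ^ (S ∩ Y).card)
    (A : Finset ι) (x y : ι → Pos (D + 1)) (hx : InjF x A) (hy : InjF y A) :
    BenE (D + 1) (fun σ => cW (mE A A (fun i => σ (x i)) y) ^ e) ≤ (1 + uD e (D + 1)) ^ A.card := by
  set u := uD e D with hu
  have hu0 : 0 ≤ u := uD_nonneg he D
  set P := 1 + u with hP
  have hP1 : 1 ≤ P := by linarith
  have hP0 : 0 < P := by linarith
  set w := P⁻¹ with hw
  have hw0 : 0 ≤ w := by positivity
  have hw1 : w ≤ 1 := inv_le_one_of_one_le₀ hP1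
  -- the independent set
  obtain ⟨A', hA', hcA, hi1, hi2⟩ := exists_indep (tl x) (tl y) A
    (fun k _ => fibre_tl_le hx k) (fun k _ => fibre_tl_le hy k)
  have hstep := BenE_succ D (fun f => cW (mE A A (fun i => f (x i)) y) ^ e)
  rw [hstep]
  -- the bound for fixed coins
  have hcoin : ∀ c c' : Pos D → Bool,
      (BenE D fun σ₀ => BenE D fun σ₁ => cW (mE A A (fun i => nextT σ₀ σ₁ c c' (x i)) y) ^ e) ≤
        P ^ A.card * ∏ l ∈ A', (if xor (hd y l) (c' (tl y l)) = false ∧ xor (hd x l) (c (tl x l)) = true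
          then w else 1) := by
    intro c c'
    set s : ι → Bool := fun k => xor (hd x k) (c (tl x k)) with hs
    set d : ι → Bool := fun l => xor (hd y l) (c' (tl y l)) with hd'
    set B : Bool → Finset ι := fun v => A.filter fun k => s k = v with hB
    set H : Bool → Finset ι := fun v => A.filter fun l => d l = v with hH
    have hIB : ∀ v, InjF (tl x) (B v) := by
      intro v i hi j hj hij
      have h1 := mem_filter.mp hi
      have h2 := mem_filter.mp hj
      apply hx i h1.1 j h2.1
      apply hd_tl_inj hij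
      have h3 : xor (hd x i) (c (tl x i)) = xor (hd x j) (c (tl x j)) := h1.2.trans h2.2.symm
      rw [hij] at h3
      have key : ∀ p q r : Bool, xor p r = xor q r → p = q := by decide
      exact key _ _ _ h3
    have hIH : ∀ v, InjF (tl y) (H v) := by
      intro v i hi j hj hij
      have h1 := mem_filter.mp hi
      have h2 := mem_filter.mp hj
      apply hy i h1.1 j h2.1
      apply hd_tl_inj hij
      have h3 : xor (hd y i) (c' (tl y i)) = xor (hd y j) (c' (tl y j)) := h1.2.trans h2.2.symm
      rw [hij] at h3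
      have key : ∀ p q r : Bool, xor p r = xor q r → p = q := by decide
      exact key _ _ _ h3
    have hIσ : ∀ (σ : Perm (Pos D)) v, InjF (fun i => σ (tl x i)) (B v) := by
      intro σ v i hi j hj hij
      exact hIB v i hi j hj (σ.injective hij)
    -- the decomposition of the edges
    have hedges : ∀ σ₀ σ₁ : Perm (Pos D), mE A A (fun i => nextT σ₀ σ₁ c c' (x i)) y =
        mE (B false) (H false) (fun i => σ₀ (tl x i)) (tl y) ∪
          mE (B true) (H true) (fun i => σ₁ (tl x i)) (tl y) := by
      intro σ₀ σ₁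
      ext ⟨k, l⟩
      simp only [mem_union, mem_mE, hB, hH, mem_filter]
      unfold nextT
      rw [cons_eq_iff]
      show (k ∈ A ∧ l ∈ A ∧ (xor (s k) (c' (if s k = true then σ₁ (tl x k) else σ₀ (tl x k))) = hd y l ∧
        (if s k = true then σ₁ (tl x k) else σ₀ (tl x k)) = tl y l)) ↔ _
      have key : ∀ p q r : Bool, xor p r = q ↔ xor q r = p := by decide
      cases hsk : s k
      · simp only [hsk, Bool.false_eq_true, if_false]
        constructor
        · rintro ⟨h1, h2, h3, h4⟩
          left
          refine ⟨⟨h1, trivial⟩, ⟨h2, ?_⟩, h4⟩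
          rw [h4] at h3
          exact (key _ _ _).mp h3
        · rintro (⟨⟨h1, -⟩, ⟨h2, h3⟩, h4⟩ | ⟨⟨h1, h5⟩, -⟩)
          · refine ⟨h1, h2, ?_, h4⟩
            rw [h4]
            exact (key _ _ _).mpr h3
          · exact absurd h5 (by simp)
      · simp only [hsk, if_true]
        constructor
        · rintro ⟨h1, h2, h3, h4⟩
          right
          refine ⟨⟨h1, trivial⟩, ⟨h2, ?_⟩, h4⟩
          rw [h4] at h3
          exact (key _ _ _).mp h3
        · rintro (⟨⟨h1, h5⟩, -⟩ | ⟨⟨h1, -⟩, ⟨h2, h3⟩, h4⟩)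
          · exact absurd h5 (by simp)
          · refine ⟨h1, h2, ?_, h4⟩
            rw [h4]
            exact (key _ _ _).mpr h3
    -- the inner expectation: contract the edges of the block `false`
    have hinner : ∀ σ₀ : Perm (Pos D),
        (BenE D fun σ₁ => cW (mE A A (fun i => nextT σ₀ σ₁ c c' (x i)) y) ^ e) ≤
          cW (mE (B false) (H false) (fun i => σ₀ (tl x i)) (tl y)) ^ e * P ^ (H true).card := by
      intro σ₀
      set E := mE (B false) (H false) (fun i => σ₀ (tl x i)) (tl y) with hE
      have hPE : PInj E := PInj_mE (hIσ σ₀ false) (hIH false)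
      have hS : ∀ p ∈ E, p.1 ∉ B true := by
        intro p hp hm
        have h1 := (mem_filter.mp (mem_mE.mp hp).1).2
        have h2 := (mem_filter.mp hm).2
        rw [h1] at h2
        exact absurd h2 (by simp)
      have hY : ∀ p ∈ E, p.2 ∉ H true := by
        intro p hp hm
        have h1 := (mem_filter.mp (mem_mE.mp hp).2.1).2
        have h2 := (mem_filter.mp hm).2
        rw [h1] at h2
        exact absurd h2 (by simp)
      obtain ⟨Y', y', hcard, hinj, hW⟩ := contract _ E rfl hPE (B true) (H true) (tl y) hS hY (hIH true)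
      have h1 : ∀ σ₁ : Perm (Pos D), cW (mE A A (fun i => nextT σ₀ σ₁ c c' (x i)) y) ^ e =
          cW E ^ e * cW (mE (B true) Y' (fun i => σ₁ (tl x i)) y') ^ e := by
        intro σ₁
        rw [hedges, ← hE, hW _ (hIσ σ₁ true), Real.mul_rpow (cW_nonneg _) (cW_nonneg _)]
      simp only [h1]
      rw [BenE_mul_left]
      apply mul_le_mul_of_nonneg_left _ (cW_rpow_nonneg _ _)
      refine (ih (B true) Y' (tl x) y' (hIB true) hinj).trans ?_
      apply pow_le_pow_right₀ hP1
      exact (card_le_card inter_subset_right).trans hcard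
    -- the outer expectation
    have houter := BenE_mono D hinner
    rw [BenE_mul_right] at houter
    have h2 := ih (B false) (H false) (tl x) (tl y) (hIB false) (hIH false)
    have h3 : (BenE D fun σ₀ => BenE D fun σ₁ => cW (mE A A (fun i => nextT σ₀ σ₁ c c' (x i)) y) ^ e) ≤
        P ^ ((B false ∩ H false).card + (H true).card) := by
      refine houter.trans ?_
      rw [pow_add]
      exact mul_le_mul_of_nonneg_right h2 (by positivity)
    refine h3.trans ?_
    -- the counting
    set N := (A'.filter fun l => d l = false ∧ s l = true).card with hN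
    have hprod : ∏ l ∈ A', (if d l = false ∧ s l = true then w else 1) = w ^ N := by
      rw [prod_ite]
      simp only [prod_const_one, mul_one, prod_const]
      rfl
    have hprod' : ∏ l ∈ A', (if xor (hd y l) (c' (tl y l)) = false ∧ xor (hd x l) (c (tl x l)) = true
          then w else 1) = w ^ N := hprod
    rw [hprod']
    have hcount : (B false ∩ H false).card + (H true).card + N ≤ A.card := by
      have hsub : A'.filter (fun l => d l = false ∧ s l = true) ⊆ A.filter (fun l => d l = false ∧ s l = true) :=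
        filter_subset_filter _ hA'
      have h4 := card_le_card hsub
      have h5 : (B false ∩ H false) ∪ H true ∪ (A.filter fun l => d l = false ∧ s l = true) ⊆ A := by
        intro l hl
        simp only [mem_union, mem_inter, hB, hH, mem_filter] at hl
        tauto
      have h6 := card_le_card h5
      have hd1 : Disjoint (B false ∩ H false) (H true) := by
        rw [disjoint_left]
        intro l h7 h8
        have h9 := (mem_filter.mp (mem_inter.mp h7).2).2
        have h10 := (mem_filter.mp h8).2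
        rw [h9] at h10
        exact absurd h10 (by simp)
      have hd2 : Disjoint ((B false ∩ H false) ∪ H true) (A.filter fun l => d l = false ∧ s l = true) := by
        rw [disjoint_left]
        intro l h7 h8
        have h9 := (mem_filter.mp h8).2
        rcases mem_union.mp h7 with h7 | h7
        · have h10 := (mem_filter.mp (mem_inter.mp h7).1).2
          rw [h9.2] at h10
          exact absurd h10 (by simp)
        · have h10 := (mem_filter.mp h7).2
          rw [h9.1] at h10
          exact absurd h10 (by simp)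
      rw [card_union_of_disjoint hd2, card_union_of_disjoint hd1] at h6
      omega
    set a := (B false ∩ H false).card + (H true).card with ha
    have h7 : P ^ a = P ^ A.card * w ^ (A.card - a) := by
      have h8 : A.card - a + a = A.card := by omega
      have h9 : P ^ A.card = P ^ (A.card - a) * P ^ a := by rw [← pow_add, h8]
      rw [h9, mul_comm (P ^ (A.card - a)), mul_assoc, ← mul_pow, mul_comm P w, hw,
        inv_mul_cancel₀ hP0.ne', one_pow, mul_one]
    rw [h7]
    apply mul_le_mul_of_nonneg_left _ (by positivity)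
    exact pow_le_pow_of_le_one hw0 hw1 (by omega)
  -- average over the coins
  refine (avg_mono fun c => avg_mono fun c' => hcoin c c').trans ?_
  simp only [avg_mul_left]
  have hτ : InjF (tl x) A' := hi1
  have hτ' : InjF (tl y) A' := hi2
  rw [coin_average (tl x) (tl y) A' hτ hτ' (hd x) (hd y) w]
  have hfin : P ^ A.card * ((3 + w) / 4) ^ A'.card ≤ (1 + 11 / 12 * u) ^ A.card := by
    apply pow_step hP0.le (by positivity) (by positivity) (by linarith) _ hcA
    exact poly_step hu0
  refine hfin.trans (le_of_eq ?_)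
  congr 2
  rw [hu]
  unfold uD
  rw [pow_succ]
  ring

/-- the moment of the cycle weight under the two sided kernel -/
theorem cyc_moment (e : ℝ) (he : 0 ≤ e) (D : ℕ) :
    ∀ (S Y : Finset ι) (x y : ι → Pos D), InjF x S → InjF y Y →
      BenE D (fun σ => cW (mE S Y (fun i => σ (x i)) y) ^ e) ≤ (1 + uD e D) ^ (S ∩ Y).card := by
  have hred : ∀ (D : ℕ) (S Y : Finset ι) (x y : ι → Pos D), InjF x S → InjF y Y →
      BenE D (fun σ => cW (mE S Y (fun i => σ (x i)) y) ^ e) =
        BenE D (fun σ => cW (mE (S ∩ Y) (S ∩ Y) (fun i => σ (x i)) y) ^ e) := by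
    intro D S Y x y hx hy
    refine BenE_congr D fun σ => ?_
    rw [cW_inter (fun i hi j hj h => hx i hi j hj (σ.injective h)) hy]
  induction D with
  | zero =>
    intro S Y x y hx hy
    rw [hred 0 S Y x y hx hy]
    set A := S ∩ Y with hA
    have hyA : InjF y A := hy.mono inter_subset_right
    have h1 : ∀ σ : Perm (Pos 0), cW (mE A A (fun i => σ (x i)) y) ^ e ≤ (1 + uD e 0) ^ A.card := by
      intro σ
      have h2 : cW (mE A A (fun i => σ (x i)) y) ≤ 2 ^ A.card := by
        refine (cW_le _).trans ?_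
        exact pow_le_pow_right₀ (by norm_num) (card_mE_le hyA)
      have h3 := Real.rpow_le_rpow (cW_nonneg _) h2 he
      refine h3.trans (le_of_eq ?_)
      have e1 : 1 + uD e 0 = (2 : ℝ) ^ e := by
        unfold uD
        simp
      rw [e1, ← Real.rpow_natCast, ← Real.rpow_natCast, ← Real.rpow_mul (by norm_num),
        ← Real.rpow_mul (by norm_num), mul_comm]
    have h2 := BenE_mono 0 h1
    rwa [BenE_const] at h2
  | succ D ih =>
    intro S Y x y hx hy
    rw [hred (D + 1) S Y x y hx hy]
    exact cyc_step e he D ih (S ∩ Y) x y (hx.mono inter_subset_left) (hy.mono inter_subset_right)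

end Vale.Agent.Lib.P162
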