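import Vale.Agent.Lib.P162.N2
import Vale.Agent.Lib.P162.LowLevel2

/-!
# From the two sided density to the expectation over the two sided kernel, and the cycle weight
-/

namespace Vale.Agent.Lib.P162

open Equiv Finset

set_option linter.unusedSectionVars false
set_option linter.unusedSimpArgs false
set_option linter.unusedVariables false

variable {ι : Type*} [Fintype ι] [DecidableEq ι]

/-- the density of a pass, integrated against a function of the marks in `S` -/
lemma avg_tau_right (D : ℕ) (S : Finset ι) (x : ι → Pos D) (G : (ι → Pos D) → ℝ)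
    (hG : ∀ w w' : ι → Pos D, (∀ i ∈ S, w i = w' i) → G w = G w') :
    avg (fun w => tauD D S x w * G w) = Exp D (fun g => G (fun i => g (x i))) := by
  have h1 : ∀ w, tauD D S x w * G w = ((2 : ℝ) ^ D) ^ S.card *
      Exp D (fun g => (if ∀ i ∈ S, g (x i) = w i then (1 : ℝ) else 0) * G w) := by
    intro w
    unfold tauD hitP
    rw [Exp_mul_right, mul_assoc]
  simp only [h1]
  rw [avg_mul_left, Exp_avg, ← Exp_mul_left]
  refine Exp_congr D fun g => ?_
  have h2 := avg_pin S (fun i => g (x i)) G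
  rw [card_pos'] at h2
  rw [h2]
  have h3 : ∀ y : ι → Pos D, G (merge S y (fun i => g (x i))) = G (fun i => g (x i)) :=
    fun y => hG _ _ fun i hi => merge_mem hi
  simp only [h3, avg_const]

lemma avg_tau_left (D : ℕ) (S : Finset ι) (w : ι → Pos D) (F : (ι → Pos D) → ℝ)
    (hF : ∀ z z' : ι → Pos D, (∀ i ∈ S, z i = z' i) → F z = F z') :
    avg (fun z => tauD D S z w * F z) = Exp D (fun g => F (fun i => g⁻¹ (w i))) := by
  have h1 : ∀ z, tauD D S z w * F z = ((2 : ℝ) ^ D) ^ S.card *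
      Exp D (fun g => (if ∀ i ∈ S, g⁻¹ (w i) = z i then (1 : ℝ) else 0) * F z) := by
    intro z
    unfold tauD hitP
    rw [Exp_mul_right, mul_assoc]
    congr 2
    refine Exp_congr D fun g => ?_
    congr 1
    apply propext
    refine forall₂_congr fun i _ => ?_
    rw [Perm.inv_eq_iff_eq, eq_comm]
  simp only [h1]
  rw [avg_mul_left, Exp_avg, ← Exp_mul_left]
  refine Exp_congr D fun g => ?_
  have h2 := avg_pin S (fun i => g⁻¹ (w i)) F
  rw [card_pos'] at h2
  rw [h2]
  have h3 : ∀ y : ι → Pos D, F (merge S y (fun i => g⁻¹ (w i))) = F (fun i => g⁻¹ (w i)) :=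
    fun y => hF _ _ fun i hi => merge_mem hi
  simp only [h3, avg_const]

/-- integrating against the density of the two sided kernel -/
theorem avg_beta_mul (D : ℕ) (S : Finset ι) (x : ι → Pos D) (F : (ι → Pos D) → ℝ)
    (hF : ∀ z z' : ι → Pos D, (∀ i ∈ S, z i = z' i) → F z = F z') :
    avg (fun z => betaD D S x z * F z) = BenE D (fun σ => F (fun i => σ (x i))) := by
  unfold betaD
  simp only [← avg_mul_right]
  rw [avg_comm]
  have h1 : ∀ w : ι → Pos D, (avg fun z => tauD D S x w * tauD D S z w * F z) =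
      tauD D S x w * Exp D (fun g' => F (fun i => g'⁻¹ (w i))) := by
    intro w
    rw [← avg_tau_left D S w F hF, ← avg_mul_left]
    refine avg_congr fun z => ?_
    ring
  simp only [h1]
  rw [avg_tau_right D S x (fun w => Exp D (fun g' => F (fun i => g'⁻¹ (w i))))]
  · rfl
  · intro w w' h
    refine Exp_congr D fun g' => ?_
    apply hF
    intro i hi
    show g'⁻¹ (w i) = g'⁻¹ (w' i)
    rw [h i hi]

/-- shifting colourings by a fixed colouring -/
def xorE (b : ι → Bool) : (ι → Bool) ≃ (ι → Bool) where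
  toFun κ := fun i => xor (b i) (κ i)
  invFun κ := fun i => xor (b i) (κ i)
  left_inv κ := by funext i; simp
  right_inv κ := by funext i; simp

/-- the weight as a product over the pairs of marks with equal tails -/
lemma wt_xor_prod (D : ℕ) (S₀ : Finset ι) (τ : ι → Pos D)
    (b κ : ι → Bool) (h0 : InjF τ S₀) : ∀ T : Finset ι, (∀ i ∈ T, i ∉ S₀) → InjF τ T →
    wtD D (S₀ ∪ T) b τ (fun i => xor (b i) (κ i)) = ∏ p ∈ mE S₀ T τ τ, eF κ p := by
  intro T
  induction T using Finset.induction_on with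
  | empty =>
    intro _ _
    have : mE S₀ (∅ : Finset ι) τ τ = ∅ := by
      ext p
      simp [mem_mE]
    rw [this, union_empty, prod_empty]
    exact wtD_of_inj D b _ τ S₀ h0
  | insert u T hu ih =>
    intro hT hinj
    have huS : u ∉ S₀ := hT u (mem_insert_self _ _)
    have hT' : InjF τ T := hinj.mono (subset_insert _ _)
    have ih' := ih (fun i hi => hT i (mem_insert_of_mem hi)) hT'
    have hu' : u ∉ S₀ ∪ T := by
      intro h
      rcases mem_union.mp h with h | h
      · exact huS h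
      · exact hu h
    rw [union_insert]
    by_cases hv : ∃ v ∈ S₀, τ v = τ u
    · obtain ⟨v, hvS, hvu⟩ := hv
      rw [wtD_insert_match D hu' (mem_union_left _ hvS) b τ _ hvu, ih']
      have e : mE S₀ (insert u T) τ τ = insert (v, u) (mE S₀ T τ τ) := by
        ext ⟨a, c⟩
        simp only [mem_mE, mem_insert, Prod.mk.injEq]
        constructor
        · rintro ⟨ha, hc | hc, hac⟩
          · subst hc
            left
            exact ⟨h0 _ ha _ hvS (hac.trans hvu.symm), rfl⟩
          · exact Or.inr ⟨ha, hc, hac⟩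
        · rintro (⟨rfl, rfl⟩ | ⟨ha, hc, hac⟩)
          · exact ⟨hvS, Or.inl rfl, hvu⟩
          · exact ⟨ha, Or.inr hc, hac⟩
      have hn : (v, u) ∉ mE S₀ T τ τ := fun h => hu (mem_mE.mp h).2.1
      rw [e, prod_insert hn, mul_comm]
      congr 1
      unfold eF
      have key : ∀ p q : Bool, xor (xor p q) p = q := by decide
      rw [key, key]
      simp only [eq_comm]
    · push Not at hv
      have e : mE S₀ (insert u T) τ τ = mE S₀ T τ τ := by
        ext ⟨a, c⟩
        simp only [mem_mE, mem_insert]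
        constructor
        · rintro ⟨ha, hc | hc, hac⟩
          · subst hc
            exact absurd hac (hv a ha)
          · exact ⟨ha, hc, hac⟩
        · rintro ⟨ha, hc, hac⟩
          exact ⟨ha, Or.inr hc, hac⟩
      have hfresh : ∀ v ∈ S₀ ∪ T, τ v ≠ τ u := by
        intro v hv'
        rcases mem_union.mp hv' with h | h
        · exact hv v h
        · intro h2
          have := hinj v (mem_insert_of_mem h) u (mem_insert_self _ _) h2
          exact hu (this ▸ h)
      rw [wtD_insert_fresh D hu' b τ _ hfresh, ih', e]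

/-- the cycle weight of two pairings -/
theorem rr_eq (D : ℕ) (S : Finset ι) (f : ι → Bool) (t₁ : ι → Pos D) (b : ι → Bool) (β₁ : Bool)
    (hx : ∀ i ∈ S, ∀ j ∈ S, t₁ i = t₁ j → f i = f j → i = j) (hb : wtD D S f t₁ b ≠ 0)
    (y z : ι → Pos D) (hy : InjF y (blk S b (!β₁))) (hz : InjF z (blk S b β₁)) :
    rrD D S f t₁ b (merge (blk S b β₁) y z) =
      cW (mE (blk S b (!β₁)) (blk S b β₁) t₁ t₁ ∪ mE (blk S b β₁) (blk S b (!β₁)) z y) := by
  set S₁ := blk S b β₁ with hS₁
  set S₀ := blk S b (!β₁) with hS₀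
  have hdisj : ∀ i, i ∈ S₁ → i ∉ S₀ := by
    intro i hi hi'
    have h1 := (mem_blk.mp hi).2
    have h2 := (mem_blk.mp hi').2
    rw [h2] at h1
    cases β₁ <;> simp at h1
  have hS : S = S₀ ∪ S₁ := by
    ext i
    simp only [hS₀, hS₁, mem_union, mem_blk]
    constructor
    · intro hi
      cases h : b i <;> cases β₁ <;> simp_all
    · rintro (h | h) <;> exact h.1
  have hinjb : ∀ β, InjF t₁ (blk S b β) := by
    intro β i hi j hj hij
    obtain ⟨hi1, hi2⟩ := mem_blk.mp hi
    obtain ⟨hj1, hj2⟩ := mem_blk.mp hj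
    exact hx i hi1 j hj1 hij (wtD_sep hb hi1 hj1 hij (hi2.trans hj2.symm))
  set t := merge S₁ y z with ht
  have ht0 : InjF t S₀ := by
    intro i hi j hj hij
    rw [ht, merge_not_mem (fun h => hdisj i h hi), merge_not_mem (fun h => hdisj j h hj)] at hij
    exact hy i hi j hj hij
  have ht1 : InjF t S₁ := by
    intro i hi j hj hij
    rw [ht, merge_mem hi, merge_mem hj] at hij
    exact hz i hi j hj hij
  unfold rrD cW
  rw [← avg_equiv (xorE b)]
  refine avg_congr fun κ => ?_
  show wtD D S f t₁ (fun i => xor (b i) (κ i)) * wtD D S b t (fun i => xor (b i) (κ i)) = _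
  rw [wtD_shift hb]
  have e1 : wtD D S b t₁ (fun i => xor (b i) (κ i)) = ∏ p ∈ mE S₀ S₁ t₁ t₁, eF κ p := by
    have := wt_xor_prod D S₀ t₁ b κ (hinjb _) S₁ hdisj (hinjb _)
    rwa [← hS] at this
  have e2 : wtD D S b t (fun i => xor (b i) (κ i)) = ∏ p ∈ mE S₀ S₁ t t, eF κ p := by
    have := wt_xor_prod D S₀ t b κ ht0 S₁ hdisj ht1
    rwa [← hS] at this
  have e3 : ∏ p ∈ mE S₀ S₁ t t, eF κ p = ∏ p ∈ mE S₁ S₀ z y, eF κ p := by
    refine prod_nbij' Prod.swap Prod.swap ?_ ?_ ?_ ?_ ?_
    · intro p hp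
      obtain ⟨h1, h2, h3⟩ := mem_mE.mp hp
      rw [ht, merge_not_mem (fun h => hdisj _ h h1), merge_mem h2] at h3
      exact mem_mE.mpr ⟨h2, h1, h3.symm⟩
    · intro p hp
      obtain ⟨h1, h2, h3⟩ := mem_mE.mp hp
      refine mem_mE.mpr ⟨h2, h1, ?_⟩
      show t p.2 = t p.1
      rw [ht, merge_not_mem (fun h => hdisj _ h h2), merge_mem h1, h3]
    · intro p _
      exact Prod.swap_swap p
    · intro p _
      exact Prod.swap_swap p
    · intro p _
      exact (eF_swap κ p).symm
  have hd : Disjoint (mE S₀ S₁ t₁ t₁) (mE S₁ S₀ z y) := by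
    rw [disjoint_left]
    intro p h1 h2
    exact hdisj _ (mem_mE.mp h2).1 (mem_mE.mp h1).1
  rw [e1, e2, e3, prod_union hd]

/-- the edges of the first pairing carry no cycle -/
lemma cW_cross {X : Type*} [DecidableEq X] {S₀ S₁ : Finset ι} (h : ∀ i, i ∈ S₁ → i ∉ S₀) {τ : ι → X}
    (h0 : InjF τ S₀) (h1 : InjF τ S₁) : cW (mE S₀ S₁ τ τ) = 1 := by
  rw [cW_inter h0 h1]
  have e : S₀ ∩ S₁ = ∅ := by
    ext i
    simp only [mem_inter, notMem_empty, iff_false, not_and]
    exact fun h2 h3 => h i h3 h2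
  rw [e]
  have : mE (∅ : Finset ι) ∅ τ τ = ∅ := by
    ext p
    simp [mem_mE]
  rw [this, cW_empty]

/-- the moment of the cycle weight of the pairings -/
theorem rr_moment (D : ℕ) (S : Finset ι) (f : ι → Bool) (t₁ : ι → Pos D) (b : ι → Bool) (β₁ : Bool)
    (hx : ∀ i ∈ S, ∀ j ∈ S, t₁ i = t₁ j → f i = f j → i = j) (hb : wtD D S f t₁ b ≠ 0)
    (y : ι → Pos D) (hy : InjF y (blk S b (!β₁))) {e : ℝ} (he : 0 ≤ e) :
    avg (fun z => betaD D (blk S b β₁) t₁ z * rrD D S f t₁ b (merge (blk S b β₁) y z) ^ e) ≤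
      (1 + uD e D) ^ (blk S b β₁).card := by
  set S₁ := blk S b β₁ with hS₁
  set S₀ := blk S b (!β₁) with hS₀
  have hdisj : ∀ i, i ∈ S₁ → i ∉ S₀ := by
    intro i hi hi'
    have h1 := (mem_blk.mp hi).2
    have h2 := (mem_blk.mp hi').2
    rw [h2] at h1
    cases β₁ <;> simp at h1
  have hinjb : ∀ β, InjF t₁ (blk S b β) := by
    intro β i hi j hj hij
    obtain ⟨hi1, hi2⟩ := mem_blk.mp hi
    obtain ⟨hj1, hj2⟩ := mem_blk.mp hj
    exact hx i hi1 j hj1 hij (wtD_sep hb hi1 hj1 hij (hi2.trans hj2.symm))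
  rw [avg_beta_mul D S₁ t₁ (fun z => rrD D S f t₁ b (merge S₁ y z) ^ e)]
  · set E := mE S₀ S₁ t₁ t₁ with hE
    have hPE : PInj E := PInj_mE (hinjb _) (hinjb _)
    have hS : ∀ p ∈ E, p.1 ∉ S₁ := fun p hp h => hdisj _ h (mem_mE.mp hp).1
    have hY : ∀ p ∈ E, p.2 ∉ S₀ := fun p hp h => hdisj _ (mem_mE.mp hp).2.1 h
    obtain ⟨Y', y', hcard, hinj, hW⟩ := contract _ E rfl hPE S₁ S₀ y hS hY hy
    have hE1 : cW E = 1 := cW_cross hdisj (hinjb _) (hinjb _)
    have h1 : ∀ σ : Perm (Pos D), rrD D S f t₁ b (merge S₁ y (fun i => σ (t₁ i))) ^ e =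
        cW (mE S₁ Y' (fun i => σ (t₁ i)) y') ^ e := by
      intro σ
      have hz : InjF (fun i => σ (t₁ i)) S₁ := fun i hi j hj h => hinjb _ i hi j hj (σ.injective h)
      rw [rr_eq D S f t₁ b β₁ hx hb y _ hy hz, ← hS₀, ← hS₁, ← hE, hW _ hz, hE1, one_mul]
    simp only [h1]
    refine (cyc_moment e he D S₁ Y' t₁ y' (hinjb _) hinj).trans ?_
    have h3 : (1 : ℝ) ≤ 1 + uD e D := by
      have := uD_nonneg he D
      linarith
    exact pow_le_pow_right₀ h3 (card_le_card inter_subset_left)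
  · intro z z' h
    have : merge S₁ y z = merge S₁ y z' := by
      funext i
      by_cases hi : i ∈ S₁
      · rw [merge_mem hi, merge_mem hi, h i hi]
      · rw [merge_not_mem hi, merge_not_mem hi]
    simp only [this]

end Vale.Agent.Lib.P162
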