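import Vale.Agent.Lib.P162.N3

/-!
# The moments of the two sided kernel: a linear profile with a logarithmic range
-/

namespace Vale.Agent.Lib.P162

open Equiv Finset

set_option linter.unusedSectionVars false
set_option linter.unusedSimpArgs false
set_option linter.unusedVariables false

variable {ι : Type*} [Fintype ι] [DecidableEq ι]

/-- the Hölder step with respect to the law of the smaller block -/
theorem split_bound2 (D : ℕ) (e : ℝ) (S : Finset ι) (f : ι → Bool) (t₁ : ι → Pos D) (b : ι → Bool)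
    (β₁ : Bool) (hx : ∀ i ∈ S, ∀ j ∈ S, t₁ i = t₁ j → f i = f j → i = j)
    (hb : wtD D S f t₁ b ≠ 0) {q : ℝ} (hq : 0 < q) (hqe : q < e) :
    avg (fun t : ι → Pos D => rrD D S f t₁ b t ^ q *
        (betaD D (blk S b (!β₁)) t₁ t * betaD D (blk S b β₁) t₁ t) ^ (1 + q)) ≤
      normP D (blk S b (!β₁)) t₁ (1 + q) *
        ((normP D (blk S b β₁) t₁ (1 + q * (e / (e - q)))) ^ (1 - q / e) *
        ((1 + uD e D) ^ (blk S b β₁).card) ^ (q / e)) := by
  set S₁ := blk S b β₁ with hS₁
  set S₀ := blk S b (!β₁) with hS₀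
  set p := 1 + q with hp
  have hp1 : 0 < p := by linarith
  have he0 : 0 < e := by linarith
  have hs0 : 0 < e - q := by linarith
  set s : ℝ := e / (e - q) with hs
  set s' : ℝ := e / q with hs'
  have hss : s.HolderConjugate s' := by
    rw [Real.holderConjugate_iff]
    constructor
    · rw [hs, lt_div_iff₀ hs0]
      linarith
    · rw [hs, hs']
      field_simp
      ring
  have hsinv : 1 / s = 1 - q / e := by
    rw [hs]
    field_simp
  have hs'inv : 1 / s' = q / e := by
    rw [hs']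
    field_simp
  have hs'0 : 0 < s' := by positivity
  have hs0' : 0 < s := by positivity
  have hqs' : q * s' = e := by
    rw [hs']
    field_simp
  have hinjb : ∀ β, InjF t₁ (blk S b β) := by
    intro β i hi j hj hij
    obtain ⟨hi1, hi2⟩ := mem_blk.mp hi
    obtain ⟨hj1, hj2⟩ := mem_blk.mp hj
    exact hx i hi1 j hj1 hij (wtD_sep hb hi1 hj1 hij (hi2.trans hj2.symm))
  have hdisj : ∀ i, i ∈ S₀ → i ∉ S₁ := by
    intro i hi hi'
    have h1 := (mem_blk.mp hi).2
    have h2 := (mem_blk.mp hi').2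
    rw [h2] at h1
    cases β₁ <;> simp at h1
  set Y : ℝ := (normP D S₁ t₁ (1 + q * s)) ^ (1 - q / e) *
    ((1 + uD e D) ^ S₁.card) ^ (q / e) with hY
  have hκ : (0:ℝ) ≤ 1 + uD e D := by
    have := uD_nonneg he0.le D
    linarith
  have hY0 : 0 ≤ Y := by
    apply mul_nonneg (Real.rpow_nonneg (normP_nonneg _ _ _ _) _)
    exact Real.rpow_nonneg (pow_nonneg hκ _) _
  rw [← avg_merge S₁]
  -- evaluate on merged points
  have hmerge0 : ∀ y z : ι → Pos D, betaD D S₀ t₁ (merge S₁ y z) = betaD D S₀ t₁ y :=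
    fun y z => betaD_congr_right D S₀ t₁ fun i hi => merge_not_mem (hdisj i hi)
  have hmerge1 : ∀ y z : ι → Pos D, betaD D S₁ t₁ (merge S₁ y z) = betaD D S₁ t₁ z :=
    fun y z => betaD_congr_right D S₁ t₁ fun i hi => merge_mem hi
  have hexp : ∀ y z : ι → Pos D, rrD D S f t₁ b (merge S₁ y z) ^ q *
      (betaD D S₀ t₁ (merge S₁ y z) * betaD D S₁ t₁ (merge S₁ y z)) ^ p =
      betaD D S₀ t₁ y ^ p * (rrD D S f t₁ b (merge S₁ y z) ^ q * betaD D S₁ t₁ z ^ p) := by
    intro y z
    rw [hmerge0, hmerge1, Real.mul_rpow (betaD_nonneg _ _ _ _) (betaD_nonneg _ _ _ _)]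
    ring
  simp only [hexp, avg_mul_left]
  -- the bound for the inner average
  have hinner : ∀ y : ι → Pos D, betaD D S₀ t₁ y ^ p *
      avg (fun z => rrD D S f t₁ b (merge S₁ y z) ^ q * betaD D S₁ t₁ z ^ p) ≤
      betaD D S₀ t₁ y ^ p * Y := by
    intro y
    by_cases hy0 : betaD D S₀ t₁ y = 0
    · rw [hy0, Real.zero_rpow hp1.ne']
      simp
    · apply mul_le_mul_of_nonneg_left _ (Real.rpow_nonneg (betaD_nonneg _ _ _ _) _)
      have hyinj : InjF y S₀ := by
        intro i hi j hj hij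
        by_contra hne
        exact hy0 (betaD_eq_zero D S₀ (hinjb _).injOn hi hj hne hij)
      -- Hölder with respect to the law of the block
      set β' : (ι → Pos D) → ℝ := fun z => betaD D S₁ t₁ z with hβ'
      have hβ0 : ∀ z, 0 ≤ β' z := fun z => betaD_nonneg _ _ _ _
      set ρ : (ι → Pos D) → ℝ := fun z => rrD D S f t₁ b (merge S₁ y z) with hρ
      have hρ0 : ∀ z, 0 ≤ ρ z := fun z => rrD_nonneg _ _ _ _ _ _
      have hA0 : 0 < 1 / s + q := by positivity
      have hB0 : 0 < 1 / s' := by positivity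
      have hsum : (1 / s + q) + 1 / s' = p := by
        rw [hp, hsinv, hs'inv]
        ring
      have hpt : ∀ z, ρ z ^ q * β' z ^ p = β' z ^ (1 / s + q) * (β' z ^ (1 / s') * ρ z ^ q) := by
        intro z
        by_cases hz : β' z = 0
        · rw [hz, Real.zero_rpow hp1.ne', Real.zero_rpow hA0.ne']
          simp
        · have hzp : 0 < β' z := lt_of_le_of_ne (hβ0 z) (Ne.symm hz)
          rw [← hsum, Real.rpow_add hzp]
          ring
      refine (le_of_eq (avg_congr hpt)).trans ?_
      have hH := avg_holder hss (f := fun z => β' z ^ (1 / s + q))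
        (g := fun z => β' z ^ (1 / s') * ρ z ^ q) (fun z => Real.rpow_nonneg (hβ0 z) _)
        (fun z => mul_nonneg (Real.rpow_nonneg (hβ0 z) _) (Real.rpow_nonneg (hρ0 z) _))
      refine hH.trans ?_
      have e1 : (avg fun z => (β' z ^ (1 / s + q)) ^ s) = normP D S₁ t₁ (1 + q * s) := by
        unfold normP
        refine avg_congr fun z => ?_
        rw [← Real.rpow_mul (hβ0 z)]
        congr 1
        field_simp
      have e2 : ∀ z, (β' z ^ (1 / s') * ρ z ^ q) ^ s' = β' z * ρ z ^ e := by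
        intro z
        rw [Real.mul_rpow (Real.rpow_nonneg (hβ0 z) _) (Real.rpow_nonneg (hρ0 z) _),
          ← Real.rpow_mul (hβ0 z), ← Real.rpow_mul (hρ0 z), hqs',
          show 1 / s' * s' = 1 by field_simp, Real.rpow_one]
      simp only [e2]
      rw [e1, hsinv, hs'inv, hY]
      apply mul_le_mul_of_nonneg_left _ (Real.rpow_nonneg (normP_nonneg _ _ _ _) _)
      apply Real.rpow_le_rpow (avg_nonneg fun z => mul_nonneg (hβ0 z) (Real.rpow_nonneg (hρ0 z) _)) _
        (by positivity)
      exact rr_moment D S f t₁ b β₁ hx hb y hyinj he0.le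
  refine (avg_mono hinner).trans ?_
  rw [avg_mul_right]
  exact le_refl _

/-- one step of the recursion -/
theorem rec_bound2 (D : ℕ) (e G : ℝ) {q : ℝ} (hq : 0 < q) (hqe : q < e)
    (h0 : ∀ (S : Finset ι) (x : ι → Pos D), InjF x S → normP D S x (1 + q) ≤ Real.exp (S.card * (q * G)))
    (h1 : ∀ (S : Finset ι) (x : ι → Pos D), InjF x S →
      normP D S x (1 + q * (e / (e - q))) ≤ Real.exp (S.card * (q * (e / (e - q)) * G)))
    (S : Finset ι) (x : ι → Pos (D + 1)) (hx : InjF x S) :
    normP (D + 1) S x (1 + q) ≤ Real.exp (S.card * (q * G + (q / e) * (Real.log (1 + uD e D) / 2))) := by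
  refine (jensen_step D S x hq).trans ?_
  have he0 : 0 < e := by linarith
  have hs0 : 0 < e - q := by linarith
  set κ : ℝ := Real.log (1 + uD e D) with hκdef
  have hu0 := uD_nonneg he0.le D
  have hP1 : (1 : ℝ) ≤ 1 + uD e D := by linarith
  have hκ0 : 0 ≤ κ := Real.log_nonneg hP1
  have hqe' : 0 < 1 - q / e := by
    rw [sub_pos, div_lt_one he0]
    exact hqe
  have hxx : ∀ i ∈ S, ∀ j ∈ S, tl x i = tl x j → hd x i = hd x j → i = j := by
    intro i hi j hj h1 h2
    apply hx i hi j hj
    exact hd_tl_inj h1 h2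
  refine avg_weight_le (fun b => wtD_nonneg _ _ _ _ _) (avg_wtD _ _ _ _) fun b hb => ?_
  have hinjb : ∀ β, InjF (tl x) (blk S b β) := by
    intro β i hi j hj hij
    obtain ⟨hi1, hi2⟩ := mem_blk.mp hi
    obtain ⟨hj1, hj2⟩ := mem_blk.mp hj
    exact hxx i hi1 j hj1 hij (wtD_sep hb hi1 hj1 hij (hi2.trans hj2.symm))
  obtain ⟨β₁, hβ₁⟩ : ∃ β₁, 2 * (blk S b β₁).card ≤ S.card := by
    have hc := card_blk S b
    by_cases h : 2 * (blk S b false).card ≤ S.card
    · exact ⟨false, h⟩
    · exact ⟨true, by omega⟩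
  have hsplit := split_bound2 D e S (hd x) (tl x) b β₁ hxx hb hq hqe
  have hcomm : ∀ t : ι → Pos D, uuD D S (tl x) b t =
      betaD D (blk S b (!β₁)) (tl x) t * betaD D (blk S b β₁) (tl x) t := by
    intro t
    unfold uuD
    cases β₁
    · simp [mul_comm]
    · simp
  simp only [hcomm]
  refine hsplit.trans ?_
  have hcc' : (blk S b (!β₁)).card + (blk S b β₁).card = S.card := by
    have hc := card_blk S b
    cases β₁
    · simp only [Bool.not_false]
      omega
    · simp only [Bool.not_true]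
      omega
  set c₀ := (blk S b (!β₁)).card with hc₀
  set c₁ := (blk S b β₁).card with hc₁
  have hcc : (c₀ : ℝ) + c₁ = S.card := by
    exact_mod_cast hcc'
  have h2 := h0 _ _ (hinjb (!β₁))
  have h3 := h1 _ _ (hinjb β₁)
  rw [← hc₀] at h2
  rw [← hc₁] at h3
  have h4 : normP D (blk S b β₁) (tl x) (1 + q * (e / (e - q))) ^ (1 - q / e) ≤
      Real.exp (c₁ * (q * (e / (e - q)) * G)) ^ (1 - q / e) :=
    Real.rpow_le_rpow (normP_nonneg _ _ _ _) h3 hqe'.le
  have h5 : ((1 + uD e D) ^ c₁) ^ (q / e) = Real.exp (c₁ * κ) ^ (q / e) := by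
    congr 1
    rw [hκdef, Real.exp_nat_mul, Real.exp_log (by linarith)]
  rw [← Real.exp_mul] at h4
  rw [← Real.exp_mul] at h5
  have e4 : (c₁ : ℝ) * (q * (e / (e - q)) * G) * (1 - q / e) = c₁ * (q * G) := by
    field_simp
  rw [e4] at h4
  have hn0 := normP_nonneg D (blk S b (!β₁)) (tl x) (1 + q)
  have hn1 : 0 ≤ normP D (blk S b β₁) (tl x) (1 + q * (e / (e - q))) ^ (1 - q / e) :=
    Real.rpow_nonneg (normP_nonneg _ _ _ _) _
  have hn2 : 0 ≤ ((1 + uD e D) ^ c₁) ^ (q / e) :=
    Real.rpow_nonneg (pow_nonneg (by linarith) _) _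
  calc normP D (blk S b (!β₁)) (tl x) (1 + q) *
        (normP D (blk S b β₁) (tl x) (1 + q * (e / (e - q))) ^ (1 - q / e) *
          ((1 + uD e D) ^ c₁) ^ (q / e))
      ≤ Real.exp (c₀ * (q * G)) * (Real.exp (c₁ * (q * G)) * Real.exp (c₁ * κ * (q / e))) := by
        rw [h5]
        apply mul_le_mul h2 (mul_le_mul_of_nonneg_right h4 (Real.exp_pos _).le)
          (mul_nonneg hn1 (Real.exp_pos _).le) (Real.exp_pos _).le
    _ = Real.exp ((c₀ + c₁ : ℝ) * (q * G) + c₁ * κ * (q / e)) := by
        rw [← Real.exp_add, ← Real.exp_add]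
        congr 1
        ring
    _ ≤ Real.exp ((S.card : ℝ) * (q * G + (q / e) * (κ / 2))) := by
        apply Real.exp_le_exp.mpr
        rw [hcc]
        have hc1 : (c₁ : ℝ) * 2 ≤ S.card := by
          have : c₁ * 2 ≤ S.card := by omega
          exact_mod_cast this
        have h6 : 0 ≤ (q / e) * κ := by positivity
        nlinarith

/-! ### the two sequences -/

/-- the reciprocal of the range of admissible exponents -/
noncomputable def rSeq (D : ℕ) : ℝ := 1 + 16 * (harmonic D : ℝ)

/-- the rates -/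
noncomputable def gBar (D : ℕ) : ℝ := 210 * (1 - (24 / 25) ^ D)

lemma harmonic_nonneg' (D : ℕ) : (0 : ℝ) ≤ (harmonic D : ℝ) := by
  have h := log_add_one_le_harmonic D
  have h2 : 0 ≤ Real.log ((D + 1 : ℕ) : ℝ) := Real.log_natCast_nonneg _
  linarith

lemma rSeq_ge (D : ℕ) : 1 ≤ rSeq D := by
  unfold rSeq
  have := harmonic_nonneg' D
  linarith

lemma rSeq_succ (D : ℕ) : rSeq (D + 1) = rSeq D + 16 / ((D : ℝ) + 1) := by
  unfold rSeq
  rw [harmonic_succ]
  push_cast
  ring

lemma gBar_nonneg (D : ℕ) : 0 ≤ gBar D := by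
  unfold gBar
  have : ((24 : ℝ) / 25) ^ D ≤ 1 := pow_le_one₀ (by norm_num) (by norm_num)
  linarith

lemma gBar_le (D : ℕ) : gBar D ≤ 210 := by
  unfold gBar
  have : (0 : ℝ) ≤ ((24 : ℝ) / 25) ^ D := by positivity
  linarith

lemma two_rpow_le (D : ℕ) : (2 : ℝ) ^ (((D : ℝ) + 1) / 16) ≤ (1.045 : ℝ) ^ (D + 1) := by
  have h1 : (2 : ℝ) ≤ (1.045 : ℝ) ^ 16 := by norm_num
  have h2 : (2 : ℝ) ^ (((D : ℝ) + 1) / 16) ≤ ((1.045 : ℝ) ^ 16) ^ (((D : ℝ) + 1) / 16) :=
    Real.rpow_le_rpow (by norm_num) h1 (by positivity)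
  refine h2.trans (le_of_eq ?_)
  rw [← Real.rpow_natCast, ← Real.rpow_mul (by norm_num), ← Real.rpow_natCast]
  congr 1
  push_cast
  ring

/-- the increment of the rates pays for the cycle moment -/
lemma gBar_step (D : ℕ) :
    (16 / ((D : ℝ) + 1)) * (Real.log (1 + uD (((D : ℝ) + 1) / 16) D) / 2) ≤ gBar (D + 1) - gBar D := by
  set e : ℝ := ((D : ℝ) + 1) / 16 with he
  have he0 : 0 < e := by positivity
  have hu0 := uD_nonneg he0.le D
  have h1 : Real.log (1 + uD e D) ≤ uD e D := by
    have := Real.log_le_sub_one_of_pos (by linarith : 0 < 1 + uD e D)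
    linarith
  have h2 : uD e D ≤ (1.045 : ℝ) ^ (D + 1) * (11 / 12) ^ D := by
    unfold uD
    apply mul_le_mul_of_nonneg_right _ (by positivity)
    have := two_rpow_le D
    have h3 : (0:ℝ) < 2 ^ e := by positivity
    linarith
  have h3 : (1.045 : ℝ) ^ (D + 1) * (11 / 12) ^ D ≤ 1.045 * (24 / 25) ^ D := by
    rw [pow_succ, mul_comm ((1.045 : ℝ) ^ D), mul_assoc, ← mul_pow]
    apply mul_le_mul_of_nonneg_left _ (by norm_num)
    exact pow_le_pow_left₀ (by norm_num) (by norm_num) D
  have h4 : (16 / ((D : ℝ) + 1)) ≤ 16 := by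
    apply div_le_self (by norm_num)
    have : (0 : ℝ) ≤ D := Nat.cast_nonneg _
    linarith
  have h5 : 0 ≤ Real.log (1 + uD e D) := Real.log_nonneg (by linarith)
  have h6 : gBar (D + 1) - gBar D = 8.4 * (24 / 25) ^ D := by
    unfold gBar
    rw [pow_succ]
    ring
  rw [h6]
  have h7 : (0 : ℝ) ≤ (24 / 25) ^ D := by positivity
  calc (16 / ((D : ℝ) + 1)) * (Real.log (1 + uD e D) / 2)
      ≤ 16 * (Real.log (1 + uD e D) / 2) :=
        mul_le_mul_of_nonneg_right h4 (by positivity)
    _ ≤ 16 * ((1.045 * (24 / 25) ^ D) / 2) := by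
        apply mul_le_mul_of_nonneg_left _ (by norm_num)
        linarith
    _ ≤ _ := by nlinarith

/-- the bound for the moments of the two sided kernel -/
theorem moment_bound2 (D : ℕ) : ∀ (S : Finset ι) (x : ι → Pos D), InjF x S → ∀ q : ℝ, 0 < q →
    q * rSeq D ≤ 1 → normP D S x (1 + q) ≤ Real.exp (S.card * (q * gBar D)) := by
  induction D with
  | zero =>
    intro S x hx q hq _
    refine (normP_trivial 0 S x hq.le).trans ?_
    have h1 : gBar 0 = 0 := by
      unfold gBar
      simp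
    rw [h1]
    simp
  | succ D ih =>
    intro S x hx q hq hqr
    rw [rSeq_succ] at hqr
    set e : ℝ := ((D : ℝ) + 1) / 16 with he
    have he0 : 0 < e := by positivity
    have hinv : 16 / ((D : ℝ) + 1) = 1 / e := by
      rw [he]
      field_simp
    rw [hinv] at hqr
    have hr1 := rSeq_ge D
    have hqe1 : q / e + q * rSeq D ≤ 1 := by
      have : q * (rSeq D + 1 / e) = q / e + q * rSeq D := by
        field_simp
        ring
      linarith
    have hqr0 : 0 < q * rSeq D := by positivity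
    have hqe : q < e := by
      have h1 : q / e < 1 := by linarith
      rwa [div_lt_one he0] at h1
    have hs0 : 0 < e - q := by linarith
    set G := gBar D with hG
    have hG0 : 0 ≤ G := gBar_nonneg D
    -- the two induction hypotheses
    have hq1 : q * rSeq D ≤ 1 := by
      have : 0 < q / e := by positivity
      linarith
    have h0 : ∀ (S : Finset ι) (x : ι → Pos D), InjF x S →
        normP D S x (1 + q) ≤ Real.exp (S.card * (q * G)) := fun S x hx => ih S x hx q hq hq1
    have hq'0 : 0 < q * (e / (e - q)) := by positivity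
    have hq'r : q * (e / (e - q)) * rSeq D ≤ 1 := by
      have e1 : q * (e / (e - q)) * rSeq D = (q * rSeq D) * e / (e - q) := by ring
      rw [e1, div_le_one hs0]
      have h2 : q * rSeq D * e + q ≤ e := by
        have h3 := mul_le_mul_of_nonneg_right hqe1 he0.le
        have e2 : (q / e + q * rSeq D) * e = q + q * rSeq D * e := by
          field_simp
        rw [e2] at h3
        linarith
      linarith
    have h1 : ∀ (S : Finset ι) (x : ι → Pos D), InjF x S →
        normP D S x (1 + q * (e / (e - q))) ≤ Real.exp (S.card * (q * (e / (e - q)) * G)) :=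
      fun S x hx => ih S x hx _ hq'0 hq'r
    refine (rec_bound2 D e G hq hqe h0 h1 S x hx).trans ?_
    apply Real.exp_le_exp.mpr
    apply mul_le_mul_of_nonneg_left _ (Nat.cast_nonneg _)
    have hstep := gBar_step D
    rw [← he, hinv] at hstep
    have h2 : q / e * (Real.log (1 + uD e D) / 2) = q * (1 / e * (Real.log (1 + uD e D) / 2)) := by
      ring
    rw [h2, ← mul_add]
    apply mul_le_mul_of_nonneg_left _ hq.le
    linarith

end Vale.Agent.Lib.P162
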