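import Mathlib

/-!
# Operator toolkit for the Thorp shuffle L2 bound

Symmetric operators on a finite dimensional real inner product space and
the operator exponential.
-/

namespace Vale.Agent.Lib.P162

open scoped InnerProductSpace

set_option linter.unusedSectionVars false
set_option linter.style.haveILetI false
set_option linter.unusedSimpArgs false

variable {V : Type*} [NormedAddCommGroup V] [InnerProductSpace ℝ V]

lemma mul_ap (A B : V →L[ℝ] V) (v : V) : (A * B) v = A (B v) := rfl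

/-- symmetric operators -/
def IsSym (A : V →L[ℝ] V) : Prop := ∀ u v, ⟪A u, v⟫_ℝ = ⟪u, A v⟫_ℝ

/-- positive semidefinite operators -/
def IsPsd (A : V →L[ℝ] V) : Prop := ∀ u, 0 ≤ ⟪u, A u⟫_ℝ

lemma IsSym.add {A B : V →L[ℝ] V} (hA : IsSym A) (hB : IsSym B) : IsSym (A + B) := by
  intro u v
  simp [inner_add_left, inner_add_right, hA u v, hB u v]

lemma IsSym.sub {A B : V →L[ℝ] V} (hA : IsSym A) (hB : IsSym B) : IsSym (A - B) := by
  intro u v
  simp [inner_sub_left, inner_sub_right, hA u v, hB u v]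

lemma IsSym.smul {A : V →L[ℝ] V} (c : ℝ) (hA : IsSym A) : IsSym (c • A) := by
  intro u v
  simp [inner_smul_left, inner_smul_right, hA u v]

lemma IsSym.one : IsSym (1 : V →L[ℝ] V) := fun _ _ => rfl

lemma IsSym.sum {ι : Type*} (s : Finset ι) (f : ι → V →L[ℝ] V) (h : ∀ i ∈ s, IsSym (f i)) :
    IsSym (∑ i ∈ s, f i) := by
  intro u v
  simp only [sum_apply, sum_inner, inner_sum]
  exact Finset.sum_congr rfl fun i hi => h i hi u v

lemma IsSym.pow {A : V →L[ℝ] V} (hA : IsSym A) (j : ℕ) : IsSym (A ^ j) := by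
  induction j with
  | zero => simpa using IsSym.one
  | succ j ih =>
    intro u v
    calc ⟪(A ^ (j + 1)) u, v⟫_ℝ = ⟪(A ^ j) (A u), v⟫_ℝ := by rw [pow_succ, mul_ap]
      _ = ⟪A u, (A ^ j) v⟫_ℝ := ih _ _
      _ = ⟪u, A ((A ^ j) v)⟫_ℝ := hA _ _
      _ = ⟪u, (A ^ (j + 1)) v⟫_ℝ := by rw [pow_succ', mul_ap]

lemma IsSym.mul_of_commute {A B : V →L[ℝ] V} (hA : IsSym A) (hB : IsSym B) (h : Commute A B) :
    IsSym (A * B) := by
  intro u v
  simp only [mul_ap]
  rw [hA, hB]
  have := congrArg (fun T : V →L[ℝ] V => T v) h.eq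
  simp only [mul_ap] at this
  rw [this]

/-- the exponential `exp (t A)` -/
noncomputable def expo (t : ℝ) (A : V →L[ℝ] V) : V →L[ℝ] V := NormedSpace.exp (t • A)

section complete

variable [CompleteSpace V]

lemma hasSum_expo_op (t : ℝ) (A : V →L[ℝ] V) :
    HasSum (fun j : ℕ => (t ^ j / (j.factorial : ℝ)) • (A ^ j)) (expo t A) := by
  have h := NormedSpace.exp_series_hasSum_exp' (𝕂 := ℝ) (t • A)
  have e : (fun n : ℕ => ((n.factorial : ℝ)⁻¹) • (t • A) ^ n) =
      (fun j : ℕ => (t ^ j / (j.factorial : ℝ)) • (A ^ j)) := by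
    funext n
    rw [smul_pow, smul_smul]
    congr 1
    rw [div_eq_inv_mul]
  rw [e] at h
  exact h

lemma hasSum_expo_apply (t : ℝ) (A : V →L[ℝ] V) (v : V) :
    HasSum (fun j : ℕ => (t ^ j / (j.factorial : ℝ)) • ((A ^ j) v)) (expo t A v) := by
  have h := (hasSum_expo_op t A).mapL (ContinuousLinearMap.apply ℝ V v)
  simpa using h

lemma hasSum_inner_expo (t : ℝ) (A : V →L[ℝ] V) (u v : V) :
    HasSum (fun j : ℕ => (t ^ j / (j.factorial : ℝ)) * ⟪u, (A ^ j) v⟫_ℝ) ⟪u, expo t A v⟫_ℝ := by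
  have h := (hasSum_expo_apply t A v).mapL (innerSL ℝ u)
  simpa [inner_smul_right] using h

lemma expo_zero (A : V →L[ℝ] V) : expo 0 A = 1 := by
  simp [expo]

lemma expo_zero_op (t : ℝ) : expo t (0 : V →L[ℝ] V) = 1 := by
  simp [expo]

lemma expo_add_of_commute (t : ℝ) {A B : V →L[ℝ] V} (h : Commute A B) :
    expo t (A + B) = expo t A * expo t B := by
  letI : NormedAlgebra ℚ (V →L[ℝ] V) := NormedAlgebra.restrictScalars ℚ ℝ (V →L[ℝ] V)
  unfold expo
  rw [smul_add]
  exact NormedSpace.exp_add_of_commute ((h.smul_left t).smul_right t)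

lemma expo_add_time (s t : ℝ) (A : V →L[ℝ] V) :
    expo (s + t) A = expo s A * expo t A := by
  letI : NormedAlgebra ℚ (V →L[ℝ] V) := NormedAlgebra.restrictScalars ℚ ℝ (V →L[ℝ] V)
  unfold expo
  rw [add_smul]
  exact NormedSpace.exp_add_of_commute (((Commute.refl A).smul_left s).smul_right t)

lemma expo_smul (s t : ℝ) (A : V →L[ℝ] V) : expo s (t • A) = expo (s * t) A := by
  unfold expo
  rw [smul_smul]

lemma expo_neg (t : ℝ) (A : V →L[ℝ] V) : expo t (-A) = expo (-t) A := by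
  unfold expo
  simp

lemma Commute.expo_right {A B : V →L[ℝ] V} (h : Commute A B) (t : ℝ) :
    Commute A (expo t B) := by
  exact (h.smul_right t).exp_right

lemma Commute.expo_left {A B : V →L[ℝ] V} (h : Commute A B) (t : ℝ) :
    Commute (expo t A) B := (Commute.expo_right h.symm t).symm

lemma Commute.expo_both {A B : V →L[ℝ] V} (h : Commute A B) (s t : ℝ) :
    Commute (expo s A) (expo t B) :=
  Commute.expo_right (Commute.expo_left h s) t

lemma commute_expo_same (s t : ℝ) (A : V →L[ℝ] V) : Commute (expo s A) (expo t A) :=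
  Commute.expo_both (Commute.refl A) s t

lemma IsSym.expo {A : V →L[ℝ] V} (hA : IsSym A) (t : ℝ) : IsSym (expo t A) := by
  intro u v
  have h1 := hasSum_inner_expo t A u v
  have h2 := hasSum_inner_expo t A v u
  have e : ⟪u, Vale.Agent.Lib.P162.expo t A v⟫_ℝ = ⟪v, Vale.Agent.Lib.P162.expo t A u⟫_ℝ := by
    refine h1.unique ?_
    convert h2 using 2 with j
    rw [real_inner_comm, (hA.pow j) v u]
  rw [real_inner_comm, e]

/-- eigenvectors -/
lemma expo_apply_of_eigen (t : ℝ) {A : V →L[ℝ] V} {z : V} {μ : ℝ} (hz : A z = μ • z) :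
    expo t A z = Real.exp (t * μ) • z := by
  have h1 := hasSum_expo_apply t A z
  have hp : ∀ j : ℕ, (A ^ j) z = μ ^ j • z := by
    intro j
    induction j with
    | zero => simp
    | succ j ih =>
      rw [pow_succ, mul_ap, hz, map_smul, ih, smul_smul, pow_succ, mul_comm]
  simp only [hp] at h1
  have h2 : HasSum (fun j : ℕ => (t * μ) ^ j / (j.factorial : ℝ)) (Real.exp (t * μ)) := by
    rw [Real.exp_eq_exp_ℝ]
    simpa [div_eq_inv_mul] using NormedSpace.exp_series_hasSum_exp' (𝕂 := ℝ) (t * μ)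
  have h3 := h2.smul_const z
  refine h1.unique ?_
  convert h3 using 2 with j
  rw [smul_smul, mul_pow]
  congr 1
  ring

/-- the square form of the quadratic form of the exponential -/
lemma inner_expo_eq_norm_sq {A : V →L[ℝ] V} (hA : IsSym A) (t : ℝ) (f : V) :
    ⟪f, expo t A f⟫_ℝ = ‖expo (t / 2) A f‖ ^ 2 := by
  have e : expo t A = expo (t / 2) A * expo (t / 2) A := by
    rw [← expo_add_time]; congr 1; ring
  rw [e, mul_ap, ← (hA.expo (t / 2)) f, real_inner_self_eq_norm_sq]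

lemma inner_expo_nonneg {A : V →L[ℝ] V} (hA : IsSym A) (t : ℝ) (f : V) :
    0 ≤ ⟪f, expo t A f⟫_ℝ := by
  rw [inner_expo_eq_norm_sq hA]; positivity

end complete

/-- powers of a psd symmetric operator have nonnegative quadratic form -/
lemma inner_pow_nonneg {A : V →L[ℝ] V} (hA : IsSym A) (hP : IsPsd A) (u : V) (j : ℕ) :
    0 ≤ ⟪u, (A ^ j) u⟫_ℝ := by
  obtain ⟨i, rfl | rfl⟩ := Nat.even_or_odd' j
  · rw [two_mul, pow_add, mul_ap, ← (hA.pow i) u]
    exact real_inner_self_nonneg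
  · rw [two_mul, pow_succ, pow_add, mul_assoc, mul_ap, ← (hA.pow i) u, mul_ap,
      ← mul_ap (A ^ i) A, (pow_mul_comm' A i), mul_ap]
    exact hP ((A ^ i) u)

lemma one_add_le_inner_expo [CompleteSpace V] {A : V →L[ℝ] V} (hA : IsSym A) (hP : IsPsd A)
    {ε : ℝ} (hε : 0 ≤ ε) (u : V) :
    ‖u‖ ^ 2 + ε * ⟪u, A u⟫_ℝ ≤ ⟪u, expo ε A u⟫_ℝ := by
  have h := hasSum_inner_expo ε A u u
  have hnn : ∀ j : ℕ, 0 ≤ (ε ^ j / (j.factorial : ℝ)) * ⟪u, (A ^ j) u⟫_ℝ := fun j =>
    mul_nonneg (by positivity) (inner_pow_nonneg hA hP u j)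
  have h2 := sum_le_hasSum (Finset.range 2) (fun j _ => hnn j) h
  simp only [Finset.sum_range_succ, Finset.sum_range_zero] at h2
  simp only [pow_zero, Nat.factorial_zero, Nat.cast_one, div_one, one_mul, zero_add, pow_one,
    Nat.factorial_one] at h2
  have e : ⟪u, (1 : V →L[ℝ] V) u⟫_ℝ = ‖u‖ ^ 2 := by
    simp [real_inner_self_eq_norm_sq]
  rw [e] at h2
  exact h2

end Vale.Agent.Lib.P162
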