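import Vale.Agent.Lib.P162.Analytic
import Vale.Agent.Lib.P162.Level

/-!
# The action of a pass on tuples of marks
-/

namespace Vale.Agent.Lib.P162

open Equiv Finset
open scoped InnerProductSpace

set_option linter.unusedSectionVars false
set_option linter.unusedSimpArgs false
set_option linter.unusedVariables false

variable {ι X : Type*} [Fintype ι] [DecidableEq ι] [Fintype X] [DecidableEq X]

/-- functions of tuples -/
abbrev TupSp (ι X : Type*) [Fintype ι] [Fintype X] := EuclideanSpace ℝ (ι → X)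

/-- the operator induced by a relabelling of tuples -/
noncomputable def tupOp (e : (ι → X) ≃ (ι → X)) : TupSp ι X →L[ℝ] TupSp ι X :=
  ((LinearIsometryEquiv.piLpCongrLeft 2 ℝ ℝ e :
    TupSp ι X ≃ₗᵢ[ℝ] TupSp ι X).toContinuousLinearEquiv : TupSp ι X →L[ℝ] TupSp ι X)

lemma tupOp_apply (e : (ι → X) ≃ (ι → X)) (f : TupSp ι X) (x : ι → X) :
    tupOp e f x = f (e.symm x) := rfl

lemma tupOp_inner (e : (ι → X) ≃ (ι → X)) (u v : TupSp ι X) :
    ⟪tupOp e u, tupOp e v⟫_ℝ = ⟪u, v⟫_ℝ :=
  (LinearIsometryEquiv.piLpCongrLeft 2 ℝ ℝ e).inner_map_map u v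

/-- relabelling the values of a tuple -/
def tupMap (g : Perm X) : (ι → X) ≃ (ι → X) := Equiv.arrowCongr (Equiv.refl ι) g

lemma tupMap_apply (g : Perm X) (x : ι → X) (i : ι) : tupMap g x i = g (x i) := rfl

lemma tupMap_symm_apply (g : Perm X) (x : ι → X) (i : ι) : (tupMap g).symm x i = g.symm (x i) := rfl

/-- the action on functions of tuples -/
noncomputable def tupRep : Perm X →* (TupSp ι X →L[ℝ] TupSp ι X) where
  toFun g := tupOp (tupMap g)
  map_one' := by
    ext f x
    rfl
  map_mul' g h := by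
    ext f x
    rfl

lemma tupRep_apply (g : Perm X) (f : TupSp ι X) (x : ι → X) :
    tupRep g f x = f (fun i => g⁻¹ (x i)) := rfl

lemma tupRep_isOrth : IsOrth (tupRep (ι := ι) (X := X)) := fun g u v => tupOp_inner _ u v

/-- the evaluation at a tuple as a continuous functional -/
noncomputable def evalT (x : ι → X) : TupSp ι X →L[ℝ] ℝ := EuclideanSpace.proj x

lemma evalT_apply (x : ι → X) (f : TupSp ι X) : evalT x f = f x := rfl

variable {D : ℕ}

/-- a pass on functions of tuples -/
noncomputable abbrev QT (ι : Type*) [Fintype ι] [DecidableEq ι] (D : ℕ) :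
    TupSp ι (Pos D) →L[ℝ] TupSp ι (Pos D) :=
  Qrec D tupRep

lemma QT_apply (f : TupSp ι (Pos D)) (x : ι → Pos D) :
    QT ι D f x = Exp D (fun g => f (fun i => g⁻¹ (x i))) := by
  have h := Exp_Qrec D (tupRep (ι := ι) (X := Pos D)) (evalT x) f
  simpa [evalT_apply, tupRep_apply] using h

/-- the adjoint of a pass -/
noncomputable abbrev QTa (ι : Type*) [Fintype ι] [DecidableEq ι] (D : ℕ) :
    TupSp ι (Pos D) →L[ℝ] TupSp ι (Pos D) :=
  ContinuousLinearMap.adjoint (QT ι D)

lemma QTa_inner (u f : TupSp ι (Pos D)) : ⟪u, QTa ι D f⟫_ℝ = ⟪QT ι D u, f⟫_ℝ := by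
  rw [ContinuousLinearMap.adjoint_inner_right]

/-- expectation formula for the pairing with an orthogonal representation -/
lemma inner_Qrec_left {V : Type*} [NormedAddCommGroup V] [InnerProductSpace ℝ V]
    (ρ : Perm (Pos D) →* (V →L[ℝ] V)) (u f : V) :
    ⟪f, Qrec D ρ u⟫_ℝ = Exp D (fun g => ⟪f, ρ g u⟫_ℝ) :=
  Exp_Qrec D ρ (innerSL ℝ f) u

lemma single_eval (x y : ι → X) :
    (EuclideanSpace.single x (1 : ℝ) : TupSp ι X) y = if y = x then 1 else 0 := by
  simp [EuclideanSpace.single, PiLp.single_apply]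

lemma tupRep_single (g : Perm X) (x : ι → X) :
    tupRep g (EuclideanSpace.single x (1 : ℝ) : TupSp ι X) =
      EuclideanSpace.single (fun i => g (x i)) (1 : ℝ) := by
  ext y
  rw [tupRep_apply, single_eval, single_eval]
  have : (fun i => g⁻¹ (y i)) = x ↔ y = fun i => g (x i) := by
    constructor
    · intro h
      funext i
      rw [← congrFun h i]
      simp
    · intro h
      funext i
      rw [h]
      simp
  by_cases h : y = fun i => g (x i)
  · rw [if_pos h, if_pos (this.mpr h)]
  · rw [if_neg h, if_neg (fun h' => h (this.mp h'))]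

lemma QTa_apply (f : TupSp ι (Pos D)) (x : ι → Pos D) :
    QTa ι D f x = Exp D (fun g => f (fun i => g (x i))) := by
  have h1 : QTa ι D f x = ⟪(EuclideanSpace.single x (1 : ℝ) : TupSp ι (Pos D)), QTa ι D f⟫_ℝ := by
    rw [EuclideanSpace.inner_single_left]
    simp
  rw [h1, QTa_inner, real_inner_comm, inner_Qrec_left]
  refine Exp_congr D fun g => ?_
  rw [tupRep_single, EuclideanSpace.inner_single_right]
  simp

lemma avg_indicator {Y : Type*} [Fintype Y] [DecidableEq Y] (z0 : Y) (φ : Y → ℝ) :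
    avg (fun z => (if z = z0 then (1:ℝ) else 0) * φ z) = (Fintype.card Y : ℝ)⁻¹ * φ z0 := by
  unfold avg
  congr 1
  simp

lemma card_tuples (ι : Type*) [Fintype ι] [DecidableEq ι] (D : ℕ) :
    (Fintype.card (ι → Pos D) : ℝ) = ((2 : ℝ) ^ D) ^ Fintype.card ι := by
  rw [Fintype.card_fun]
  push_cast
  rw [card_pos']

lemma forall_univ_iff {P : ι → Prop} : (∀ i ∈ (Finset.univ : Finset ι), P i) ↔ ∀ i, P i := by
  simp

/-- a pass as an integral operator -/
lemma QT_eq_avg (f : TupSp ι (Pos D)) (w : ι → Pos D) :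
    QT ι D f w = avg (fun z => tauD D Finset.univ z w * f z) := by
  rw [QT_apply]
  unfold tauD hitP
  simp only [mul_assoc, avg_mul_left, ← Exp_mul_right]
  rw [Exp_avg, ← Exp_mul_left]
  refine Exp_congr D fun g => ?_
  have h : ∀ z : ι → Pos D, (if ∀ i ∈ (Finset.univ : Finset ι), g (z i) = w i then (1:ℝ) else 0) * f z =
      (if z = fun i => g⁻¹ (w i) then 1 else 0) * f z := by
    intro z
    congr 1
    have : (∀ i ∈ (Finset.univ : Finset ι), g (z i) = w i) ↔ z = fun i => g⁻¹ (w i) := by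
      constructor
      · intro h
        funext i
        rw [← h i (mem_univ _)]
        simp
      · intro h i _
        rw [h]
        simp
    by_cases h1 : z = fun i => g⁻¹ (w i)
    · rw [if_pos h1, if_pos (this.mpr h1)]
    · rw [if_neg h1, if_neg (fun h' => h1 (this.mp h'))]
  simp only [h, avg_indicator, card_tuples]
  rw [card_univ]
  have : ((2:ℝ) ^ D) ^ Fintype.card ι ≠ 0 := by positivity
  field_simp

/-- the adjoint of a pass as an integral operator -/
lemma QTa_eq_avg (f : TupSp ι (Pos D)) (x : ι → Pos D) :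
    QTa ι D f x = avg (fun w => tauD D Finset.univ x w * f w) := by
  rw [QTa_apply]
  unfold tauD hitP
  simp only [mul_assoc, avg_mul_left, ← Exp_mul_right]
  rw [Exp_avg, ← Exp_mul_left]
  refine Exp_congr D fun g => ?_
  have h : ∀ w : ι → Pos D, (if ∀ i ∈ (Finset.univ : Finset ι), g (x i) = w i then (1:ℝ) else 0) * f w =
      (if w = fun i => g (x i) then 1 else 0) * f w := by
    intro w
    congr 1
    have : (∀ i ∈ (Finset.univ : Finset ι), g (x i) = w i) ↔ w = fun i => g (x i) := by
      constructor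
      · intro h
        funext i
        rw [h i (mem_univ _)]
      · intro h i _
        rw [h]
    by_cases h1 : w = fun i => g (x i)
    · rw [if_pos h1, if_pos (this.mpr h1)]
    · rw [if_neg h1, if_neg (fun h' => h1 (this.mp h'))]
  simp only [h, avg_indicator, card_tuples]
  rw [card_univ]
  have : ((2:ℝ) ^ D) ^ Fintype.card ι ≠ 0 := by positivity
  field_simp

/-! ### the subspaces with vanishing marginals -/

/-- the functions on injective tuples with all one-dimensional marginals zero -/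
def WW (ι X : Type*) [Fintype ι] [DecidableEq ι] [Fintype X] [DecidableEq X] :
    Submodule ℝ (TupSp ι X) where
  carrier := {φ | (∀ x : ι → X, ¬ Function.Injective x → φ x = 0) ∧
    ∀ (x : ι → X) (i : ι), ∑ v, φ (Function.update x i v) = 0}
  add_mem' := by
    rintro u v ⟨hu1, hu2⟩ ⟨hv1, hv2⟩
    refine ⟨fun x hx => ?_, fun x i => ?_⟩
    · simp [hu1 x hx, hv1 x hx]
    · simp only [PiLp.add_apply]
      rw [sum_add_distrib, hu2, hv2, add_zero]
  zero_mem' := by
    refine ⟨fun x _ => rfl, fun x i => ?_⟩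
    simp
  smul_mem' := by
    rintro c u ⟨hu1, hu2⟩
    refine ⟨fun x hx => ?_, fun x i => ?_⟩
    · simp [hu1 x hx]
    · simp only [PiLp.smul_apply, smul_eq_mul]
      rw [← mul_sum, hu2, mul_zero]

lemma mem_WW {φ : TupSp ι X} : φ ∈ WW ι X ↔ (∀ x : ι → X, ¬ Function.Injective x → φ x = 0) ∧
    ∀ (x : ι → X) (i : ι), ∑ v, φ (Function.update x i v) = 0 := Iff.rfl

lemma update_comp_perm (g : X → X) (x : ι → X) (i : ι) (v : X) :
    (fun j => g (Function.update x i v j)) = Function.update (fun j => g (x j)) i (g v) := by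
  funext j
  by_cases h : j = i
  · subst h; simp
  · simp [h]

/-- functions in `WW` composed with a permutation remain in `WW` -/
lemma WW_comp {φ : TupSp ι X} (hφ : φ ∈ WW ι X) (g : Perm X) (x : ι → X) (i : ι) :
    ∑ v, φ (fun j => g (Function.update x i v j)) = 0 := by
  simp only [update_comp_perm]
  have := hφ.2 (fun j => g (x j)) i
  rw [← this]
  exact Fintype.sum_equiv g _ _ fun v => rfl

lemma WW_comp_noninj {φ : TupSp ι X} (hφ : φ ∈ WW ι X) (g : Perm X) {x : ι → X}
    (hx : ¬ Function.Injective x) : φ (fun j => g (x j)) = 0 := by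
  apply hφ.1
  intro h
  apply hx
  intro i j hij
  exact h (by simp only [hij])

lemma QT_mem_WW {φ : TupSp ι (Pos D)} (hφ : φ ∈ WW ι (Pos D)) : QT ι D φ ∈ WW ι (Pos D) := by
  refine ⟨fun x hx => ?_, fun x i => ?_⟩
  · rw [QT_apply]
    have : ∀ g : Perm (Pos D), φ (fun i => g⁻¹ (x i)) = 0 := fun g => WW_comp_noninj hφ g⁻¹ hx
    simp only [this, Exp_const]
  · simp only [QT_apply]
    rw [← Exp_sum]
    have : ∀ g : Perm (Pos D), ∑ v, φ (fun j => g⁻¹ (Function.update x i v j)) = 0 :=
      fun g => WW_comp hφ g⁻¹ x i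
    simp only [this, Exp_const]

lemma QTa_mem_WW {φ : TupSp ι (Pos D)} (hφ : φ ∈ WW ι (Pos D)) : QTa ι D φ ∈ WW ι (Pos D) := by
  refine ⟨fun x hx => ?_, fun x i => ?_⟩
  · rw [QTa_apply]
    have : ∀ g : Perm (Pos D), φ (fun i => g (x i)) = 0 := fun g => WW_comp_noninj hφ g hx
    simp only [this, Exp_const]
  · simp only [QTa_apply]
    rw [← Exp_sum]
    have : ∀ g : Perm (Pos D), ∑ v, φ (fun j => g (Function.update x i v j)) = 0 :=
      fun g => WW_comp hφ g x i
    simp only [this, Exp_const]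

end Vale.Agent.Lib.P162
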