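import Vale.Agent.Lib.P162.Seq5

/-!
# Collisions of a routed tuple and the moment bound with a density gain
-/

namespace Vale.Agent.Lib.P162

open Equiv Finset

set_option linter.unusedSectionVars false
set_option linter.unusedSimpArgs false
set_option linter.unusedVariables false

variable {ι : Type*} [Fintype ι] [DecidableEq ι]

/-- the average against the coin weight is the average over the coins -/
lemma avg_wt_eq (D : ℕ) (S : Finset ι) (f : ι → Bool) (t : ι → Pos D) (G : (ι → Bool) → ℝ)
    (hG : ∀ b b' : ι → Bool, (∀ i ∈ S, b i = b' i) → G b = G b') :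
    avg (fun b => wtD D S f t b * G b) = avg (fun c : Pos D → Bool => G fun i => xor (f i) (c (t i))) := by
  unfold wtD coinP
  have e : ∀ b : ι → Bool, (2:ℝ) ^ S.card * (avg fun c : Pos D → Bool =>
      if ∀ i ∈ S, xor (f i) (c (t i)) = b i then (1:ℝ) else 0) * G b =
      avg fun c : Pos D → Bool => (2:ℝ) ^ S.card * (if ∀ i ∈ S, xor (f i) (c (t i)) = b i then (1:ℝ) else 0) *
        G fun i => xor (f i) (c (t i)) := by
    intro b
    rw [mul_assoc, ← avg_mul_right, ← avg_mul_left]
    refine avg_congr fun c => ?_
    by_cases h : ∀ i ∈ S, xor (f i) (c (t i)) = b i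
    · rw [if_pos h, hG b _ fun i hi => (h i hi).symm]
      ring
    · rw [if_neg h]
      ring
  simp only [e]
  rw [avg_comm]
  refine avg_congr fun c => ?_
  rw [avg_mul_right, avg_mul_left]
  have h := avg_hit (Y := Bool) S (fun i => xor (f i) (c (t i)))
  simp only [Fintype.card_bool] at h
  push_cast at h
  have h2 : avg (fun b : ι → Bool => if ∀ i ∈ S, xor (f i) (c (t i)) = b i then (1:ℝ) else 0) =
      ((2:ℝ) ^ S.card)⁻¹ := by
    rw [← h]
    refine avg_congr fun y => ?_
    simp only [eq_comm]
  rw [h2]
  have : (2:ℝ) ^ S.card ≠ 0 := by positivity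
  field_simp

/-- the collision bound -/
noncomputable def Bd (Y : ℝ) (r k : ℕ) : ℝ := ∏ i ∈ range k, (1 + (Y - 1) * (i : ℝ) / (2:ℝ) ^ r)

lemma Bd_zero (Y : ℝ) (r : ℕ) : Bd Y r 0 = 1 := by simp [Bd]

lemma Bd_succ (Y : ℝ) (r k : ℕ) : Bd Y r (k + 1) = Bd Y r k * (1 + (Y - 1) * (k : ℝ) / (2:ℝ) ^ r) := by
  simp [Bd, prod_range_succ]

lemma fac_pos {Y : ℝ} (hY : 1 ≤ Y) (r i : ℕ) : 1 ≤ 1 + (Y - 1) * (i : ℝ) / (2:ℝ) ^ r := by
  have h : 0 ≤ (Y - 1) * (i : ℝ) / (2:ℝ) ^ r := by
    have : 0 ≤ Y - 1 := by linarith
    positivity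
  linarith

lemma one_le_Bd {Y : ℝ} (hY : 1 ≤ Y) (r k : ℕ) : 1 ≤ Bd Y r k := by
  unfold Bd
  induction k with
  | zero => simp
  | succ k ih =>
    rw [prod_range_succ]
    have := fac_pos hY r k
    nlinarith

lemma pow_le_Bd_zero {Y : ℝ} (hY : 1 ≤ Y) (k : ℕ) : Y ^ (k - 1) ≤ Bd Y 0 k := by
  induction k with
  | zero => simp [Bd_zero]
  | succ k ih =>
    rw [Bd_succ]
    cases k with
    | zero => simp [Bd_zero]
    | succ k =>
      simp only [Nat.add_sub_cancel] at ih ⊢
      rw [pow_succ]
      have h1 : Y ≤ 1 + (Y - 1) * ((k + 1 : ℕ) : ℝ) / (2:ℝ) ^ 0 := by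
        push_cast
        simp only [pow_zero, div_one]
        have hk : (0:ℝ) ≤ k := Nat.cast_nonneg _
        nlinarith
      exact mul_le_mul ih h1 (by linarith) (by linarith [one_le_Bd hY 0 (k + 1)])

lemma card_blk_insert {S : Finset ι} {u : ι} (hu : u ∉ S) (b : ι → Bool) (γ : Bool) :
    (blk (insert u S) b γ).card = (blk S b γ).card + (if b u = γ then 1 else 0) := by
  by_cases h : b u = γ
  · rw [blk_insert_same h, card_insert_of_notMem (fun h' => hu (mem_blk.mp h').1), if_pos h]
  · rw [blk_insert_other h, if_neg h, add_zero]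

lemma blk_congr_card {S : Finset ι} {b b' : ι → Bool} (h : ∀ i ∈ S, b i = b' i) (γ : Bool) :
    (blk S b γ).card = (blk S b' γ).card := by
  rw [blk_congr h]

lemma bool_pair : ∀ fu fv β γ : Bool, fu ≠ fv →
    ((if xor fv β = γ then 1 else 0) + (if xor fu β = γ then 1 else 0) : ℕ) = 1 := by decide

lemma avg_bool_split (F : ℕ → ℕ → ℝ) (fu : Bool) :
    avg (fun β : Bool => F (if xor fu β = false then 1 else 0) (if xor fu β = true then 1 else 0)) =
      (1 / 2) * F 1 0 + (1 / 2) * F 0 1 := by
  unfold avg
  simp only [Fintype.card_bool, Fintype.sum_bool]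
  cases fu <;> simp <;> ring

lemma bool_three : ∀ a b c : Bool, a ≠ b → a ≠ c → b ≠ c → False := by decide

/-- the splitting step for the collision bound -/
theorem split_bd {Y : ℝ} (hY : 1 ≤ Y) (r D : ℕ) (f : ι → Bool) (t : ι → Pos D) (n : ℕ) :
    ∀ (S : Finset ι), S.card = n → (∀ i ∈ S, ∀ k ∈ S, t i = t k → f i = f k → i = k) → ∀ a a' : ℕ,
    avg (fun c : Pos D → Bool =>
      Bd Y r (a + (blk S (fun i => xor (f i) (c (t i))) false).card) *
        Bd Y r (a' + (blk S (fun i => xor (f i) (c (t i))) true).card)) ≤
      Bd Y r a * Bd Y r a' * ∏ i ∈ range n, (1 + (Y - 1) * ((a : ℝ) + a' + i) / (2:ℝ) ^ (r + 1)) := by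
  induction n using Nat.strong_induction_on with
  | _ n ih =>
    intro S hS hinj a a'
    have hu0 : 0 ≤ Y - 1 := by linarith
    have hBd0 : ∀ k, 0 ≤ Bd Y r k := fun k => by linarith [one_le_Bd hY r k]
    rcases S.eq_empty_or_nonempty with rfl | ⟨u, huS⟩
    · simp only [card_empty] at hS
      subst hS
      simp [blk_empty]
      rw [avg_const]
    · -- remove the marks with the tail of `u`
      set S₁ := S.erase u with hS₁
      have huS₁ : u ∉ S₁ := notMem_erase _ _
      have hSins : S = insert u S₁ := (insert_erase huS).symm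
      have hcard₁ : S₁.card + 1 = n := by
        rw [hS₁, card_erase_of_mem huS, ← hS]
        have := card_pos.mpr ⟨u, huS⟩
        omega
      set p := t u with hp
      have hblk : ∀ (T : Finset ι), (∀ i ∈ T, t i ≠ p) → ∀ (c : Pos D → Bool) (β γ : Bool),
          (blk T (fun i => xor (f i) (Function.update c p β (t i))) γ).card =
            (blk T (fun i => xor (f i) (c (t i))) γ).card := by
        intro T hT c β γ
        apply blk_congr_card
        intro i hi
        show xor (f i) (Function.update c p β (t i)) = xor (f i) (c (t i))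
        rw [Function.update_of_ne (hT i hi)]
      -- changing the coin at `p`
      rw [← avg_update p]
      have hcp : (0:ℝ) < (2:ℝ) ^ (r + 1) := by positivity
      have hcr : (2:ℝ) ^ r = (2:ℝ) ^ (r + 1) / 2 := by
        rw [pow_succ]
        ring
      by_cases hv : ∃ v ∈ S₁, t v = p
      · -- a pair
        obtain ⟨v, hvS, hvt⟩ := hv
        have hvu : v ≠ u := fun h => huS₁ (h ▸ hvS)
        have hvS0 : v ∈ S := (mem_erase.mp hvS).2
        set S₂ := S₁.erase v with hS₂
        have hvS₂ : v ∉ S₂ := notMem_erase _ _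
        have hS₁ins : S₁ = insert v S₂ := (insert_erase hvS).symm
        have hcard₂ : S₂.card + 1 + 1 = n := by
          rw [hS₂, card_erase_of_mem hvS, ← hcard₁]
          have := card_pos.mpr ⟨v, hvS⟩
          omega
        have huS₂ : u ∉ S₂ := fun h => huS₁ (mem_of_mem_erase h)
        have hfne : f u ≠ f v := fun h => hvu (hinj v hvS0 u huS hvt h.symm)
        have hS₂S : ∀ i ∈ S₂, i ∈ S := fun i hi => (mem_erase.mp (mem_of_mem_erase hi)).2
        have hS₂p : ∀ i ∈ S₂, t i ≠ p := by
          intro i hi hip
          have h1 : f i ≠ f u := fun h => by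
            have := hinj i (hS₂S i hi) u huS hip h
            exact huS₂ (this ▸ hi)
          have h2 : f i ≠ f v := fun h => by
            have := hinj i (hS₂S i hi) v hvS0 (hip.trans hvt.symm) h
            exact hvS₂ (this ▸ hi)
          exact bool_three _ _ _ h1 h2 hfne
        have hN : ∀ (c : Pos D → Bool) (β γ : Bool),
            (blk S (fun i => xor (f i) (Function.update c p β (t i))) γ).card =
              (blk S₂ (fun i => xor (f i) (c (t i))) γ).card + 1 := by
          intro c β γ
          conv_lhs => rw [hSins, hS₁ins]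
          rw [card_blk_insert (fun h => huS₁ (hS₁ins ▸ h)), card_blk_insert hvS₂, hblk S₂ hS₂p]
          show _ + (if xor (f v) (Function.update c p β (t v)) = γ then 1 else 0) +
            (if xor (f u) (Function.update c p β (t u)) = γ then 1 else 0) = _
          rw [hvt, ← hp, Function.update_self, add_assoc, bool_pair _ _ _ _ hfne]
        have e1 : ∀ (c : Pos D → Bool), avg (fun β : Bool =>
            Bd Y r (a + (blk S (fun i => xor (f i) (Function.update c p β (t i))) false).card) *
              Bd Y r (a' + (blk S (fun i => xor (f i) (Function.update c p β (t i))) true).card)) =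
            Bd Y r ((a + 1) + (blk S₂ (fun i => xor (f i) (c (t i))) false).card) *
              Bd Y r ((a' + 1) + (blk S₂ (fun i => xor (f i) (c (t i))) true).card) := by
          intro c
          simp only [hN]
          rw [avg_const]
          congr 2 <;> omega
        simp only [e1]
        have h2 := ih S₂.card (by omega) S₂ rfl
          (fun i hi k hk => hinj i (hS₂S i hi) k (hS₂S k hk)) (a + 1) (a' + 1)
        refine h2.trans ?_
        -- the arithmetic
        have hn : n = S₂.card + 1 + 1 := hcard₂.symm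
        rw [hn, prod_range_succ', prod_range_succ', Bd_succ, Bd_succ]
        set P := ∏ i ∈ range S₂.card, (1 + (Y - 1) * (((a + 1 : ℕ) : ℝ) + ((a' + 1 : ℕ) : ℝ) + i) / (2:ℝ) ^ (r + 1))
          with hP
        have hP' : ∏ i ∈ range S₂.card, (1 + (Y - 1) * ((a : ℝ) + a' + ((i + 1 + 1 : ℕ) : ℝ)) / (2:ℝ) ^ (r + 1)) = P := by
          rw [hP]
          refine prod_congr rfl fun i _ => ?_
          push_cast
          ring_nf
        rw [hP']
        have hP0 : 0 ≤ P := prod_nonneg fun i _ => by
          have h0 : 0 ≤ (Y - 1) * (((a + 1 : ℕ) : ℝ) + ((a' + 1 : ℕ) : ℝ) + i) / (2:ℝ) ^ (r + 1) := by positivity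
          linarith
        set g := (Y - 1) / (2:ℝ) ^ (r + 1) with hg
        have hg0 : 0 ≤ g := by positivity
        have ha0 : (0:ℝ) ≤ a := Nat.cast_nonneg _
        have ha'0 : (0:ℝ) ≤ a' := Nat.cast_nonneg _
        have e3 : ∀ x : ℝ, (Y - 1) * x / (2:ℝ) ^ r = 2 * (g * x) := by
          intro x
          rw [hcr, hg]
          field_simp
        have e4 : ∀ x : ℝ, (Y - 1) * x / (2:ℝ) ^ (r + 1) = g * x := by
          intro x
          rw [hg]
          ring
        simp only [e3, e4]
        push_cast
        simp only [add_zero, CharP.cast_eq_zero, zero_add]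
        have hkey : (1 + 2 * (g * a)) * (1 + 2 * (g * a')) ≤
            (1 + g * ((a : ℝ) + a' + 1)) * (1 + g * ((a : ℝ) + a')) := by
          nlinarith [sq_nonneg (g * a - g * a'), mul_nonneg hg0 ha0, mul_nonneg hg0 ha'0, hg0]
        have hA := mul_nonneg (hBd0 a) (hBd0 a')
        calc Bd Y r a * (1 + 2 * (g * a)) * (Bd Y r a' * (1 + 2 * (g * a'))) * P
            = (Bd Y r a * Bd Y r a') * ((1 + 2 * (g * a)) * (1 + 2 * (g * a')) * P) := by ring
          _ ≤ (Bd Y r a * Bd Y r a') * ((1 + g * ((a : ℝ) + a' + 1)) * (1 + g * ((a : ℝ) + a')) * P) :=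
              mul_le_mul_of_nonneg_left (mul_le_mul_of_nonneg_right hkey hP0) hA
          _ = _ := by ring
      · -- a single mark
        push Not at hv
        have hS₁S : ∀ i ∈ S₁, i ∈ S := fun i hi => (mem_erase.mp hi).2
        have hN : ∀ (c : Pos D → Bool) (β γ : Bool),
            (blk S (fun i => xor (f i) (Function.update c p β (t i))) γ).card =
              (blk S₁ (fun i => xor (f i) (c (t i))) γ).card + (if xor (f u) β = γ then 1 else 0) := by
          intro c β γ
          conv_lhs => rw [hSins]
          rw [card_blk_insert huS₁, hblk S₁ hv]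
          show _ + (if xor (f u) (Function.update c p β (t u)) = γ then 1 else 0) = _
          rw [← hp, Function.update_self]
        have e1 : ∀ (c : Pos D → Bool), avg (fun β : Bool =>
            Bd Y r (a + (blk S (fun i => xor (f i) (Function.update c p β (t i))) false).card) *
              Bd Y r (a' + (blk S (fun i => xor (f i) (Function.update c p β (t i))) true).card)) =
            (1 / 2) * (Bd Y r ((a + 1) + (blk S₁ (fun i => xor (f i) (c (t i))) false).card) *
              Bd Y r (a' + (blk S₁ (fun i => xor (f i) (c (t i))) true).card)) +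
            (1 / 2) * (Bd Y r (a + (blk S₁ (fun i => xor (f i) (c (t i))) false).card) *
              Bd Y r ((a' + 1) + (blk S₁ (fun i => xor (f i) (c (t i))) true).card)) := by
          intro c
          simp only [hN]
          rw [avg_bool_split (fun m m' => Bd Y r (a + ((blk S₁ (fun i => xor (f i) (c (t i))) false).card + m)) *
            Bd Y r (a' + ((blk S₁ (fun i => xor (f i) (c (t i))) true).card + m')))]
          simp only [add_zero]
          rw [show a + ((blk S₁ (fun i => xor (f i) (c (t i))) false).card + 1) =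
              a + 1 + (blk S₁ (fun i => xor (f i) (c (t i))) false).card by omega,
            show a' + ((blk S₁ (fun i => xor (f i) (c (t i))) true).card + 1) =
              a' + 1 + (blk S₁ (fun i => xor (f i) (c (t i))) true).card by omega]
        simp only [e1]
        rw [avg_add, avg_mul_left, avg_mul_left]
        have h2 := ih S₁.card (by omega) S₁ rfl
          (fun i hi k hk => hinj i (hS₁S i hi) k (hS₁S k hk)) (a + 1) a'
        have h3 := ih S₁.card (by omega) S₁ rfl
          (fun i hi k hk => hinj i (hS₁S i hi) k (hS₁S k hk)) a (a' + 1)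
        have hn : n = S₁.card + 1 := hcard₁.symm
        rw [hn, prod_range_succ']
        set P := ∏ i ∈ range S₁.card, (1 + (Y - 1) * ((a : ℝ) + a' + ((i + 1 : ℕ) : ℝ)) / (2:ℝ) ^ (r + 1))
          with hP
        have hP1 : ∏ i ∈ range S₁.card, (1 + (Y - 1) * (((a + 1 : ℕ) : ℝ) + (a' : ℝ) + i) / (2:ℝ) ^ (r + 1)) = P := by
          rw [hP]
          refine prod_congr rfl fun i _ => ?_
          push_cast
          ring_nf
        have hP2 : ∏ i ∈ range S₁.card, (1 + (Y - 1) * ((a : ℝ) + ((a' + 1 : ℕ) : ℝ) + i) / (2:ℝ) ^ (r + 1)) = P := by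
          rw [hP]
          refine prod_congr rfl fun i _ => ?_
          push_cast
          ring_nf
        rw [hP1] at h2
        rw [hP2] at h3
        rw [Bd_succ] at h2 h3
        set g := (Y - 1) / (2:ℝ) ^ (r + 1) with hg
        have e3 : ∀ x : ℝ, (Y - 1) * x / (2:ℝ) ^ r = 2 * (g * x) := by
          intro x
          rw [hcr, hg]
          field_simp
        have e4 : ∀ x : ℝ, (Y - 1) * x / (2:ℝ) ^ (r + 1) = g * x := by
          intro x
          rw [hg]
          ring
        simp only [e3] at h2 h3
        simp only [e4]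
        push_cast
        simp only [add_zero, CharP.cast_eq_zero, zero_add]
        have h4 := add_le_add (mul_le_mul_of_nonneg_left h2 (by norm_num : (0:ℝ) ≤ 1 / 2))
          (mul_le_mul_of_nonneg_left h3 (by norm_num : (0:ℝ) ≤ 1 / 2))
        refine h4.trans (le_of_eq ?_)
        ring

/-- the moment of the collision count -/
theorem col_moment {Y : ℝ} (hY : 1 ≤ Y) (D : ℕ) : ∀ (r : ℕ) (S : Finset ι) (x : ι → Pos D),
    InjF x S → avg (fun w => tauD D S x w * Y ^ colC D r S w) ≤ Bd Y r S.card := by
  induction D with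
  | zero =>
    intro r S x hx
    have hS : S.card ≤ 1 := card_le_one.mpr fun i hi k hk => hx i hi k hk (Subsingleton.elim _ _)
    have h1 : ∀ w, tauD 0 S x w * Y ^ colC 0 r S w = 1 := by
      intro w
      rw [tauD_zero]
      show 1 * Y ^ (S.card - 1) = 1
      have : S.card - 1 = 0 := by omega
      rw [this]
      simp
    simp only [h1, avg_const]
    exact one_le_Bd hY r _
  | succ D ih =>
    intro r S x hx
    cases r with
    | zero =>
      simp only [colC_zero_right]
      rw [avg_mul_right, avg_tauD_right, one_mul]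
      exact pow_le_Bd_zero hY _
    | succ r =>
      rw [avg_tup]
      have hBd0 : ∀ k, 0 ≤ Bd Y r k := fun k => by linarith [one_le_Bd hY r k]
      have e : ∀ b : ι → Bool, (avg fun t : ι → Pos D => tauD (D + 1) S x (joinT b t) *
          Y ^ colC (D + 1) (r + 1) S (joinT b t)) =
          wtD D S (hd x) (tl x) b *
            (avg (fun t => tauD D (blk S b false) (tl x) t * Y ^ colC D r (blk S b false) t) *
              avg (fun t => tauD D (blk S b true) (tl x) t * Y ^ colC D r (blk S b true) t)) := by
        intro b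
        have e1 : ∀ t : ι → Pos D, tauD (D + 1) S x (joinT b t) * Y ^ colC (D + 1) (r + 1) S (joinT b t) =
            wtD D S (hd x) (tl x) b *
              ((tauD D (blk S b false) (tl x) t * Y ^ colC D r (blk S b false) t) *
                (tauD D (blk S b true) (tl x) t * Y ^ colC D r (blk S b true) t)) := by
          intro t
          rw [tauD_succ, colC_succ]
          simp only [hd_joinT, tl_joinT]
          rw [pow_add]
          ring
        simp only [e1]
        rw [avg_mul_left]
        congr 1
        refine avg_indep (blk S b false) ?_ ?_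
        · intro t t' h
          rw [tauD_congr_right D _ _ h, colC_congr D r _ h]
        · intro t t' h
          have h' : ∀ i ∈ blk S b true, t i = t' i := by
            intro i hi
            apply h
            intro hf
            have h1 := (mem_blk.mp hi).2
            have h2 := (mem_blk.mp hf).2
            rw [h1] at h2
            exact absurd h2 (by simp)
          rw [tauD_congr_right D _ _ h', colC_congr D r _ h']
      simp only [e]
      have hle : ∀ b : ι → Bool, wtD D S (hd x) (tl x) b *
            (avg (fun t => tauD D (blk S b false) (tl x) t * Y ^ colC D r (blk S b false) t) *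
              avg (fun t => tauD D (blk S b true) (tl x) t * Y ^ colC D r (blk S b true) t)) ≤
          wtD D S (hd x) (tl x) b * (Bd Y r (blk S b false).card * Bd Y r (blk S b true).card) := by
        intro b
        by_cases hb : wtD D S (hd x) (tl x) b = 0
        · rw [hb]; simp
        · apply mul_le_mul_of_nonneg_left _ (wtD_nonneg _ _ _ _ _)
          have hinj : ∀ γ, InjF (tl x) (blk S b γ) := by
            intro γ i hi k hk hik
            obtain ⟨hi1, hi2⟩ := mem_blk.mp hi
            obtain ⟨hk1, hk2⟩ := mem_blk.mp hk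
            have h3 := wtD_sep hb hi1 hk1 hik (hi2.trans hk2.symm)
            refine hx i hi1 k hk1 ?_
            rw [← Fin.cons_self_tail (x i), ← Fin.cons_self_tail (x k)]
            exact congrArg₂ Fin.cons h3 hik
          exact mul_le_mul (ih r _ _ (hinj false)) (ih r _ _ (hinj true))
            (avg_nonneg fun t => mul_nonneg (tauD_nonneg _ _ _ _) (by positivity)) (hBd0 _)
      refine (avg_mono hle).trans ?_
      rw [avg_wt_eq D S (hd x) (tl x)
        (fun b => Bd Y r (blk S b false).card * Bd Y r (blk S b true).card)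
        (fun b b' h => by rw [blk_congr h, blk_congr h])]
      have hx' : ∀ i ∈ S, ∀ k ∈ S, tl x i = tl x k → hd x i = hd x k → i = k := by
        intro i hi k hk h1 h2
        refine hx i hi k hk ?_
        rw [← Fin.cons_self_tail (x i), ← Fin.cons_self_tail (x k)]
        exact congrArg₂ Fin.cons h2 h1
      have h5 := split_bd hY r D (hd x) (tl x) S.card S rfl hx' 0 0
      simp only [zero_add, Bd_zero, mul_one, CharP.cast_eq_zero, add_zero] at h5
      refine h5.trans (le_of_eq ?_)
      rw [one_mul]
      rfl

lemma Bd_le_exp {Y : ℝ} (hY : 1 ≤ Y) (r k : ℕ) :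
    Bd Y r k ≤ Real.exp ((Y - 1) * (k : ℝ) ^ 2 / (2:ℝ) ^ (r + 1)) := by
  induction k with
  | zero => simp [Bd_zero]
  | succ k ih =>
    rw [Bd_succ]
    have h0 : 0 ≤ (Y - 1) * (k : ℝ) / (2:ℝ) ^ r := by
      have : 0 ≤ Y - 1 := by linarith
      positivity
    have h1 : 1 + (Y - 1) * (k : ℝ) / (2:ℝ) ^ r ≤ Real.exp ((Y - 1) * (k : ℝ) / (2:ℝ) ^ r) := by
      have := Real.add_one_le_exp ((Y - 1) * (k : ℝ) / (2:ℝ) ^ r)
      linarith
    refine (mul_le_mul ih h1 (by linarith) (Real.exp_pos _).le).trans ?_
    rw [← Real.exp_add]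
    apply Real.exp_le_exp.mpr
    have h2 : (Y - 1) * (k : ℝ) / (2:ℝ) ^ r = (Y - 1) * (2 * (k : ℝ)) / (2:ℝ) ^ (r + 1) := by
      rw [pow_succ]
      field_simp
    rw [h2, ← add_div, ← mul_add]
    apply div_le_div_of_nonneg_right _ (by positivity)
    apply mul_le_mul_of_nonneg_left _ (by linarith)
    push_cast
    nlinarith

/-- the moment bound with a gain at low density -/
theorem moment_new {q : ℝ} (hq : 0 < q) (D r : ℕ) (S : Finset ι) (x : ι → Pos D) (hinj : InjF x S) :
    normP D S x (1 + q) ≤ Real.exp (S.card * epsF ((2:ℝ) ^ q) D r +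
      (((2:ℝ) ^ (D - r)) ^ q - 1) * (S.card : ℝ) ^ 2 / (2:ℝ) ^ (r + 1)) := by
  set Y : ℝ := ((2:ℝ) ^ (D - r)) ^ q with hYdef
  have hY : 1 ≤ Y := Real.one_le_rpow (one_le_pow₀ (by norm_num)) hq.le
  unfold normP
  have h1 : ∀ y, betaD D S x y ^ (1 + q) ≤ avg (fun w => tauD D S x w * tauD D S y w *
      tiltD q D r S S x y w * Y ^ colC D r S w) := fun y => tilt_jensen hq D r S x y hY le_rfl
  refine (avg_mono h1).trans ?_
  rw [avg_comm]
  set E := Real.exp (S.card * epsF ((2:ℝ) ^ q) D r) with hE
  have h2 : ∀ w : ι → Pos D, avg (fun y => tauD D S x w * tauD D S y w * tiltD q D r S S x y w *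
      Y ^ colC D r S w) ≤ (tauD D S x w * Y ^ colC D r S w) * E := by
    intro w
    by_cases hτ : tauD D S x w = 0
    · simp [hτ, avg_const]
    · have hw : InjF w S := by
        intro i hi k hk hik
        obtain ⟨g, hg⟩ := exists_of_tauD_ne hτ
        apply hinj i hi k hk
        apply g.injective
        rw [hg i hi, hg k hk, hik]
      have e : ∀ y, tauD D S x w * tauD D S y w * tiltD q D r S S x y w * Y ^ colC D r S w =
          (tauD D S x w * Y ^ colC D r S w) * (tauD D S y w * tiltD q D r S S x y w) := fun y => by ring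
      simp only [e]
      rw [avg_mul_left]
      apply mul_le_mul_of_nonneg_left (reveal_bound hq D r S x w hτ hw)
      exact mul_nonneg (tauD_nonneg _ _ _ _) (by positivity)
  refine (avg_mono h2).trans ?_
  rw [avg_mul_right, Real.exp_add, mul_comm]
  apply mul_le_mul_of_nonneg_left _ (Real.exp_pos _).le
  exact (col_moment hY D r S x hinj).trans (Bd_le_exp hY r _)

end Vale.Agent.Lib.P162
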