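import Vale.Agent.Lib.P162.Key3

/-!
# The recursive structure of a pass and the L2 bound
-/

namespace Vale.Agent.Lib.P162

open scoped InnerProductSpace
open Equiv

set_option linter.unusedSectionVars false
set_option linter.unusedSimpArgs false
set_option linter.unusedVariables false

variable {V : Type*} [NormedAddCommGroup V] [InnerProductSpace ℝ V]

/-- positions: bit strings of length `D` -/
abbrev Pos (D : ℕ) := Fin D → Bool

/-- splitting off the first bit -/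
def consE (D : ℕ) : Pos D × Bool ≃ Pos (D + 1) where
  toFun p := Fin.cons p.2 p.1
  invFun x := (Fin.tail x, x 0)
  left_inv p := by simp
  right_inv x := by simp

/-- transport of permutations along `consE` -/
def liftHom (D : ℕ) : Perm (Pos D × Bool) →* Perm (Pos (D + 1)) :=
  (consE D).permCongrHom.toMonoidHom

/-- the slices as homomorphisms -/
def iota (D : ℕ) (b : Bool) : Perm (Pos D) →* Perm (Pos (D + 1)) :=
  (liftHom D).comp (sliceHom b)

/-- the flip of the first bit with a coin depending on the tail -/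
def flipTop (D : ℕ) (c : Pos D → Bool) : Perm (Pos (D + 1)) := liftHom D (flipPerm c)

/-- averaging over flips of the first bit -/
noncomputable def Eop {D : ℕ} (ρ : Perm (Pos (D + 1)) →* (V →L[ℝ] V)) : V →L[ℝ] V :=
  (1 / (Fintype.card (Pos D → Bool) : ℝ)) • ∑ c : Pos D → Bool, ρ (flipTop D c)

/-- the operator of a pass, defined recursively on the first bit -/
noncomputable def Qrec : (D : ℕ) → (Perm (Pos D) →* (V →L[ℝ] V)) → (V →L[ℝ] V)
  | 0, _ => 1
  | D + 1, ρ => Qrec D (ρ.comp (iota D false)) * Qrec D (ρ.comp (iota D true)) * Eop ρ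

lemma Qrec_succ (D : ℕ) (ρ : Perm (Pos (D + 1)) →* (V →L[ℝ] V)) :
    Qrec (D + 1) ρ = Qrec D (ρ.comp (iota D false)) * Qrec D (ρ.comp (iota D true)) * Eop ρ := rfl

lemma iota_commute (D : ℕ) (g h : Perm (Pos D)) :
    iota D false g * iota D true h = iota D true h * iota D false g := by
  simp only [iota, MonoidHom.comp_apply, ← map_mul, sliceHom_apply, slicePerm_commute]

lemma rho_iota_commute (D : ℕ) (ρ : Perm (Pos (D + 1)) →* (V →L[ℝ] V)) (g h : Perm (Pos D)) :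
    Commute ((ρ.comp (iota D false)) g) ((ρ.comp (iota D true)) h) := by
  show ρ _ * ρ _ = ρ _ * ρ _
  rw [← map_mul, ← map_mul, iota_commute]

lemma Eop_commute {D : ℕ} {ρ : Perm (Pos (D + 1)) →* (V →L[ℝ] V)} {A : V →L[ℝ] V}
    (h : ∀ g, Commute A (ρ g)) : Commute A (Eop ρ) := by
  unfold Eop
  apply Commute.smul_right
  apply Commute.sum_right
  intro c _
  exact h _

lemma Qrec_commute (D : ℕ) : ∀ (ρ : Perm (Pos D) →* (V →L[ℝ] V)) (A : V →L[ℝ] V),
    (∀ g, Commute A (ρ g)) → Commute A (Qrec D ρ) := by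
  induction D with
  | zero => intro ρ A _; exact Commute.one_right A
  | succ D ih =>
    intro ρ A h
    rw [Qrec_succ]
    refine ((ih _ A fun g => h _).mul_right (ih _ A fun g => h _)).mul_right (Eop_commute h)

lemma flipTop_mul (D : ℕ) (c d : Pos D → Bool) :
    flipTop D c * flipTop D d = flipTop D (coinXor c d) := by
  unfold flipTop
  rw [← map_mul, flipPerm_mul]

lemma Eop_flipInv {D : ℕ} (ρ : Perm (Pos (D + 1)) →* (V →L[ℝ] V)) (f : V) (d : Pos D → Bool) :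
    ρ (flipTop D d) (Eop ρ f) = Eop ρ f := by
  have h : ρ (flipTop D d) * Eop ρ = Eop ρ := by
    unfold Eop
    rw [mul_smul_comm, Finset.mul_sum]
    congr 1
    refine Fintype.sum_equiv (coinXorEquiv d) _ _ fun c => ?_
    rw [← map_mul, flipTop_mul]
    congr 2
    funext y
    simp [coinXorEquiv, coinXor, Bool.xor_comm]
  exact congrArg (fun T : V →L[ℝ] V => T f) h

lemma Eop_norm_le {D : ℕ} {ρ : Perm (Pos (D + 1)) →* (V →L[ℝ] V)} (hρ : IsOrth ρ) (f : V) :
    ‖Eop ρ f‖ ≤ ‖f‖ := by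
  unfold Eop
  rw [smul_apply, sum_apply, norm_smul]
  have h1 : ‖∑ c : Pos D → Bool, ρ (flipTop D c) f‖ ≤
      ∑ _c : Pos D → Bool, ‖f‖ := by
    refine (norm_sum_le _ _).trans (le_of_eq ?_)
    exact Finset.sum_congr rfl fun c _ => hρ.norm _ _
  rw [Finset.sum_const, Finset.card_univ, nsmul_eq_mul] at h1
  have hpos : (0 : ℝ) < Fintype.card (Pos D → Bool) := by
    exact_mod_cast Fintype.card_pos
  rw [Real.norm_eq_abs, abs_of_pos (by positivity)]
  calc 1 / (Fintype.card (Pos D → Bool) : ℝ) * ‖∑ c : Pos D → Bool, ρ (flipTop D c) f‖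
      ≤ 1 / (Fintype.card (Pos D → Bool) : ℝ) * ((Fintype.card (Pos D → Bool) : ℝ) * ‖f‖) :=
        mul_le_mul_of_nonneg_left h1 (by positivity)
    _ = ‖f‖ := by field_simp

/-- the sequence of rates -/
noncomputable def tauSeq (D : ℕ) : ℝ := (1 / 600) * (1 + (3 / 4) ^ D)

lemma tau_numbers (D : ℕ) :
    0 ≤ tauSeq D ∧ tauSeq D ≤ 1 / 12 ∧ 0 ≤ tauSeq D - tauSeq (D + 1) ∧
      48 * tauSeq D ^ 2 * ((3 / 4) ^ (D + 1)) ≤ tauSeq D - tauSeq (D + 1) := by
  have hx0 : (0 : ℝ) < (3 / 4) ^ D := by positivity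
  have hx1 : ((3 : ℝ) / 4) ^ D ≤ 1 := pow_le_one₀ (by norm_num) (by norm_num)
  unfold tauSeq
  rw [pow_succ]
  generalize ((3 : ℝ) / 4) ^ D = x at *
  refine ⟨by positivity, by linarith, by linarith, ?_⟩
  have h1 : (1 / 600 * (1 + x)) ^ 2 ≤ 1 / 90000 := by
    have : (1 / 600 * (1 + x)) ≤ 1 / 300 := by linarith
    have h0 : 0 ≤ 1 / 600 * (1 + x) := by positivity
    calc (1 / 600 * (1 + x)) ^ 2 ≤ (1 / 300) ^ 2 := pow_le_pow_left₀ h0 this 2
      _ = 1 / 90000 := by norm_num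
  have h2 : 48 * (1 / 600 * (1 + x)) ^ 2 * (x * (3 / 4)) ≤ 48 * (1 / 90000) * (x * (3 / 4)) := by
    gcongr
  refine h2.trans ?_
  linarith

lemma card_pos_bound (D : ℕ) :
    1 / (2 * (Fintype.card (Pos D) : ℝ)) ≤ (((3 : ℝ) / 4) ^ (D + 1)) ^ 2 := by
  have hc : (Fintype.card (Pos D) : ℝ) = 2 ^ D := by simp
  rw [hc, ← pow_mul, mul_comm (D + 1) 2, pow_mul]
  have h1 : 1 / (2 * (2 : ℝ) ^ D) = (1 / 2) ^ (D + 1) := by
    rw [one_div_pow, pow_succ, mul_comm]
  rw [h1]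
  apply pow_le_pow_left₀ (by norm_num)
  norm_num

lemma Lap_unique (ρ : Perm (Pos 0) →* (V →L[ℝ] V)) : Lap ρ = 0 := by
  unfold Lap
  have : ∀ x y : Pos 0, (1 : V →L[ℝ] V) - ρ (swap x y) = 0 := by
    intro x y
    have : x = y := Subsingleton.elim x y
    subst this
    rw [swap_self]
    have : ρ (Equiv.refl (Pos 0)) = 1 := map_one ρ
    rw [this, sub_self]
  simp [this]

/-- The main L2 bound for a pass. -/
theorem Qrec_bound [FiniteDimensional ℝ V] (D : ℕ) :
    ∀ (ρ : Perm (Pos D) →* (V →L[ℝ] V)), IsOrth ρ → ∀ f : V,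
      ‖Qrec D ρ f‖ ^ 2 ≤ ⟪f, expo (-(tauSeq D)) (Lap ρ) f⟫_ℝ := by
  have : CompleteSpace V := FiniteDimensional.complete ℝ V
  induction D with
  | zero =>
    intro ρ hρ f
    rw [Lap_unique, expo_zero_op]
    simp [Qrec, real_inner_self_eq_norm_sq]
  | succ D ih =>
    intro ρ hρ f
    set ρ0 := ρ.comp (iota D false) with hρ0
    set ρ1 := ρ.comp (iota D true) with hρ1
    have hO0 : IsOrth ρ0 := hρ.comp _
    have hO1 : IsOrth ρ1 := hρ.comp _
    set τ := tauSeq D with hτ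
    set τ' := tauSeq (D + 1) with hτ'
    set v := Eop ρ f with hv
    obtain ⟨h01, h02, h03, h04⟩ := tau_numbers D
    rw [← hτ, ← hτ'] at h03 h04
    rw [← hτ] at h01 h02
    set L0 := Lap ρ0 with hL0
    set L1 := Lap ρ1 with hL1
    set E0 := expo (-τ / 2) L0 with hE0
    have hS0 : IsSym L0 := Lap_isSym hO0
    have hS1 : IsSym L1 := Lap_isSym hO1
    have hE0sym : IsSym E0 := hS0.expo _
    have hcomm01 : ∀ g h, Commute (ρ0 g) (ρ1 h) := rho_iota_commute D ρ
    have hL0ρ1 : ∀ h, Commute L0 (ρ1 h) := by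
      intro h
      exact (commute_Lap (fun g => (hcomm01 g h).symm)).symm
    have hL0L1 : Commute L0 L1 := commute_Lap hL0ρ1
    have hE0ρ1 : ∀ h, Commute E0 (ρ1 h) := fun h => Commute.expo_left (hL0ρ1 h) _
    have hE0Q : Commute E0 (Qrec D ρ1) := Qrec_commute D ρ1 E0 hE0ρ1
    have h1 := ih ρ0 hO0 (Qrec D ρ1 v)
    rw [inner_expo_eq_norm_sq hS0] at h1
    have h3 : expo (-τ / 2) L0 (Qrec D ρ1 v) = Qrec D ρ1 (E0 v) := by
      have := congrArg (fun T : V →L[ℝ] V => T v) hE0Q.eq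
      exact this
    rw [h3] at h1
    have h4 := ih ρ1 hO1 (E0 v)
    have h5 : ⟪E0 v, expo (-τ) L1 (E0 v)⟫_ℝ = ⟪v, expo (-τ) (L0 + L1) v⟫_ℝ := by
      rw [expo_add_of_commute _ hL0L1, hE0sym v, ← mul_ap, ← mul_ap]
      have h6 : expo (-τ) L0 = E0 * E0 := by
        rw [hE0, ← expo_add_time]
        congr 1
        ring
      have h7 : Commute E0 (expo (-τ) L1) := Commute.expo_both hL0L1 _ _
      rw [h6, mul_assoc E0 (expo (-τ) L1), ← h7.eq, mul_assoc]
    -- the transported representation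
    set ρ' : Perm (Pos D × Bool) →* (V →L[ℝ] V) := ρ.comp (liftHom D) with hρ'
    have hO' : IsOrth ρ' := hρ.comp _
    have hLap' : Lap ρ' = Lap ρ := Lap_comp_congr ρ (consE D)
    have hs0 : sliceLap ρ' false = L0 := rfl
    have hs1 : sliceLap ρ' true = L1 := rfl
    have hfi : FlipInv ρ' v := fun c => Eop_flipInv ρ f c
    have hcardY : 0 < Fintype.card (Pos D) := Fintype.card_pos
    have h8 := key_step hO' hcardY hfi h01 h02 (by positivity : (0 : ℝ) ≤ (3 / 4) ^ (D + 1))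
      (card_pos_bound D) h04 h03
    rw [hs0, hs1, hLap', sub_sub_cancel] at h8
    -- the contraction step
    have hb : IsSym (Lap ρ) := Lap_isSym hρ
    have h9 : ⟪v, expo (-τ') (Lap ρ) v⟫_ℝ ≤ ⟪f, expo (-τ') (Lap ρ) f⟫_ℝ := by
      rw [inner_expo_eq_norm_sq hb, inner_expo_eq_norm_sq hb]
      have hc : Commute (expo (-τ' / 2) (Lap ρ)) (Eop ρ) :=
        Eop_commute fun g => Commute.expo_left (Lap_commute g).symm _
      have h10 : expo (-τ' / 2) (Lap ρ) v = Eop ρ (expo (-τ' / 2) (Lap ρ) f) :=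
        congrArg (fun T : V →L[ℝ] V => T f) hc.eq
      rw [h10]
      exact pow_le_pow_left₀ (norm_nonneg _) (Eop_norm_le hρ _) 2
    rw [Qrec_succ]
    show ‖Qrec D ρ0 (Qrec D ρ1 v)‖ ^ 2 ≤ _
    have e : (-τ : ℝ) / 2 = -τ / 2 := rfl
    linarith

/-- iteration of the bound -/
theorem Qrec_pow_bound [FiniteDimensional ℝ V] (D : ℕ) (ρ : Perm (Pos D) →* (V →L[ℝ] V))
    (hρ : IsOrth ρ) (r : ℕ) : ∀ f : V,
    ‖((Qrec D ρ) ^ r) f‖ ^ 2 ≤ ⟪f, expo (-((r : ℝ) * tauSeq D)) (Lap ρ) f⟫_ℝ := by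
  have : CompleteSpace V := FiniteDimensional.complete ℝ V
  have hb : IsSym (Lap ρ) := Lap_isSym hρ
  induction r with
  | zero =>
    intro f
    simp [expo_zero, real_inner_self_eq_norm_sq]
  | succ r ih =>
    intro f
    set Qo := Qrec D ρ with hQ
    set τ := tauSeq D with hτ
    have hc : Commute (expo (-((r : ℝ) * τ) / 2) (Lap ρ)) Qo :=
      Qrec_commute D ρ _ fun g => Commute.expo_left (Lap_commute g).symm _
    rw [pow_succ Qo r, mul_ap]
    have h1 := ih (Qo f)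
    rw [inner_expo_eq_norm_sq hb] at h1
    have h2 : expo (-((r : ℝ) * τ) / 2) (Lap ρ) (Qo f) = Qo (expo (-((r : ℝ) * τ) / 2) (Lap ρ) f) :=
      congrArg (fun T : V →L[ℝ] V => T f) hc.eq
    rw [h2] at h1
    have h3 := Qrec_bound D ρ hρ (expo (-((r : ℝ) * τ) / 2) (Lap ρ) f)
    have h4 : ⟪expo (-((r : ℝ) * τ) / 2) (Lap ρ) f, expo (-τ) (Lap ρ)
        (expo (-((r : ℝ) * τ) / 2) (Lap ρ) f)⟫_ℝ = ⟪f, expo (-(((r + 1 : ℕ) : ℝ) * τ)) (Lap ρ) f⟫_ℝ := by
      rw [(hb.expo _) f, ← mul_ap, ← mul_ap, ← expo_add_time, ← expo_add_time]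
      congr 3
      push_cast
      ring
    linarith

end Vale.Agent.Lib.P162
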