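import Vale.Agent.Lib.P162.Ops

/-!
# Orthogonal representations of a finite symmetric group and the transposition Laplacian
-/

namespace Vale.Agent.Lib.P162

open scoped InnerProductSpace
open Equiv

set_option linter.unusedSectionVars false
set_option linter.unusedSimpArgs false

variable {V : Type*} [NormedAddCommGroup V] [InnerProductSpace ℝ V]
variable {X : Type*} [DecidableEq X]

/-- `ρ` acts by isometries -/
def IsOrth (ρ : Perm X →* (V →L[ℝ] V)) : Prop :=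
  ∀ g u v, ⟪ρ g u, ρ g v⟫_ℝ = ⟪u, v⟫_ℝ

section basics

variable {ρ : Perm X →* (V →L[ℝ] V)}

lemma IsOrth.norm_sq (hρ : IsOrth ρ) (g : Perm X) (u : V) : ‖ρ g u‖ ^ 2 = ‖u‖ ^ 2 := by
  rw [← real_inner_self_eq_norm_sq, hρ, real_inner_self_eq_norm_sq]

lemma IsOrth.norm (hρ : IsOrth ρ) (g : Perm X) (u : V) : ‖ρ g u‖ = ‖u‖ := by
  have := hρ.norm_sq g u
  exact (sq_eq_sq₀ (norm_nonneg _) (norm_nonneg _)).mp this

lemma rho_mul_apply (ρ : Perm X →* (V →L[ℝ] V)) (g h : Perm X) (u : V) :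
    ρ (g * h) u = ρ g (ρ h u) := by
  rw [map_mul]; rfl

lemma rho_one_apply (ρ : Perm X →* (V →L[ℝ] V)) (u : V) : ρ 1 u = u := by
  rw [map_one]; rfl

lemma rho_inv_apply_apply (ρ : Perm X →* (V →L[ℝ] V)) (g : Perm X) (u : V) :
    ρ g⁻¹ (ρ g u) = u := by
  rw [← rho_mul_apply, inv_mul_cancel, rho_one_apply]

lemma rho_apply_inv_apply (ρ : Perm X →* (V →L[ℝ] V)) (g : Perm X) (u : V) :
    ρ g (ρ g⁻¹ u) = u := by
  rw [← rho_mul_apply, mul_inv_cancel, rho_one_apply]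

lemma IsOrth.adj (hρ : IsOrth ρ) (g : Perm X) (u v : V) : ⟪ρ g u, v⟫_ℝ = ⟪u, ρ g⁻¹ v⟫_ℝ := by
  conv_lhs => rw [← rho_apply_inv_apply ρ g v]
  exact hρ g u _

lemma IsOrth.isSym_swap (hρ : IsOrth ρ) (x y : X) : IsSym (ρ (swap x y)) := by
  intro u v
  rw [hρ.adj, swap_inv]

lemma swap_sq_apply (ρ : Perm X →* (V →L[ℝ] V)) (x y : X) (u : V) :
    ρ (swap x y) (ρ (swap x y) u) = u := by
  rw [← rho_mul_apply, swap_mul_self, rho_one_apply]

lemma IsOrth.inner_le (hρ : IsOrth ρ) (g : Perm X) (u : V) : ⟪u, ρ g u⟫_ℝ ≤ ‖u‖ ^ 2 := by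
  have := real_inner_le_norm u (ρ g u)
  rw [hρ.norm] at this
  nlinarith

lemma IsOrth.abs_inner_le (hρ : IsOrth ρ) (g : Perm X) (u v : V) :
    |⟪u, ρ g v⟫_ℝ| ≤ ‖u‖ * ‖v‖ := by
  have := abs_real_inner_le_norm u (ρ g v)
  rwa [hρ.norm] at this

lemma IsOrth.comp {Y : Type*} [DecidableEq Y] (hρ : IsOrth ρ) (φ : Perm Y →* Perm X) :
    IsOrth (ρ.comp φ) := fun g u v => hρ (φ g) u v

/-- conjugation of a swap -/
lemma rho_conj_swap (ρ : Perm X →* (V →L[ℝ] V)) (g : Perm X) (x y : X) :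
    ρ (swap (g x) (g y)) * ρ g = ρ g * ρ (swap x y) := by
  rw [← map_mul, ← map_mul, swap_apply_apply]
  congr 1
  group

end basics

section lap

variable [Fintype X] (ρ : Perm X →* (V →L[ℝ] V))

/-- The transposition Laplacian `(1/(2|X|)) ∑_{x,y} (1 - ρ (swap x y))`. -/
noncomputable def Lap : V →L[ℝ] V :=
  (1 / (2 * (Fintype.card X : ℝ))) • ∑ x : X, ∑ y : X, (1 - ρ (swap x y))

variable {ρ}

lemma Lap_isSym (hρ : IsOrth ρ) : IsSym (Lap ρ) := by
  apply IsSym.smul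
  apply IsSym.sum
  intro x _
  apply IsSym.sum
  intro y _
  exact IsSym.one.sub (hρ.isSym_swap x y)

lemma inner_Lap (u : V) : ⟪u, Lap ρ u⟫_ℝ =
    (1 / (2 * (Fintype.card X : ℝ))) * ∑ x : X, ∑ y : X, (‖u‖ ^ 2 - ⟪u, ρ (swap x y) u⟫_ℝ) := by
  unfold Lap
  rw [smul_apply, inner_smul_right]
  congr 1
  simp only [sum_apply, inner_sum, sub_apply, inner_sub_right,
    one_apply_eq_self, real_inner_self_eq_norm_sq]

lemma Lap_isPsd (hρ : IsOrth ρ) : IsPsd (Lap ρ) := by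
  intro u
  rw [inner_Lap]
  apply mul_nonneg (by positivity)
  apply Finset.sum_nonneg
  intro x _
  apply Finset.sum_nonneg
  intro y _
  linarith [hρ.inner_le (swap x y) u]

lemma sum_swap_reindex (ρ : Perm X →* (V →L[ℝ] V)) (g : Perm X) :
    ∑ x : X, ∑ y : X, (1 - ρ (swap x y)) = ∑ x : X, ∑ y : X, (1 - ρ (swap (g x) (g y))) := by
  refine (Fintype.sum_equiv g _ _ fun x => ?_).symm
  exact (Fintype.sum_equiv g _ _ fun y => rfl)

lemma Lap_commute (g : Perm X) : Commute (ρ g) (Lap ρ) := by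
  unfold Lap
  apply Commute.smul_right
  show ρ g * _ = _ * ρ g
  rw [sum_swap_reindex ρ g, Finset.sum_mul, ← sum_swap_reindex ρ g, Finset.mul_sum]
  refine Finset.sum_congr rfl fun x _ => ?_
  rw [Finset.mul_sum, Finset.sum_mul]
  refine Finset.sum_congr rfl fun y _ => ?_
  rw [sub_mul, mul_sub, one_mul, mul_one, rho_conj_swap]

/-- anything commuting with all the `ρ g` commutes with `Lap ρ` -/
lemma commute_Lap {A : V →L[ℝ] V} (h : ∀ g, Commute A (ρ g)) : Commute A (Lap ρ) := by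
  unfold Lap
  apply Commute.smul_right
  apply Commute.sum_right
  intro x _
  apply Commute.sum_right
  intro y _
  exact (Commute.one_right A).sub_right (h _)

end lap

section reindex

variable {Z : Type*} [DecidableEq Z] [Fintype X] [Fintype Z]

lemma permCongr_swap_eq (e : Z ≃ X) (x y : Z) :
    e.permCongrHom (swap x y) = swap (e x) (e y) := by
  ext w
  simp only [Equiv.permCongrHom, Equiv.permCongr_apply]
  simp [Equiv.swap_apply_def, Equiv.symm_apply_eq, EmbeddingLike.apply_eq_iff_eq]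
  split_ifs <;> simp_all [Equiv.symm_apply_eq]

/-- the Laplacian is insensitive to relabelling of the points -/
lemma Lap_comp_congr (ρ : Perm X →* (V →L[ℝ] V)) (e : Z ≃ X) :
    Lap (ρ.comp e.permCongrHom.toMonoidHom) = Lap ρ := by
  unfold Lap
  rw [Fintype.card_congr e]
  congr 1
  refine Fintype.sum_equiv e _ _ fun x => ?_
  refine Fintype.sum_equiv e _ _ fun y => ?_
  show 1 - ρ (e.permCongrHom (swap x y)) = 1 - ρ (swap (e x) (e y))
  rw [permCongr_swap_eq]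

end reindex

lemma exists_eigenbasis [FiniteDimensional ℝ V] {T : V →ₗ[ℝ] V} (hT : T.IsSymmetric) :
    ∃ (b : OrthonormalBasis (Fin (Module.finrank ℝ V)) ℝ V) (μ : Fin (Module.finrank ℝ V) → ℝ),
      ∀ i, T (b i) = μ i • b i := by
  refine ⟨hT.eigenvectorBasis rfl, hT.eigenvalues rfl, fun i => ?_⟩
  have := hT.apply_eigenvectorBasis rfl i
  simpa only [RCLike.ofReal_real_eq_id, id] using this

/-- Rayleigh quotient bound from a bound on eigenvalues -/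
lemma rayleigh_le_of_eigen [FiniteDimensional ℝ V] {T : V →ₗ[ℝ] V} (hT : T.IsSymmetric) (c : ℝ)
    (h : ∀ (μ : ℝ) (z : V), z ≠ 0 → T z = μ • z → μ ≤ c) (u : V) :
    ⟪u, T u⟫_ℝ ≤ c * ‖u‖ ^ 2 := by
  obtain ⟨b, μ, hb⟩ := exists_eigenbasis hT
  have h1 : ⟪u, T u⟫_ℝ = ∑ i, ⟪u, b i⟫_ℝ * ⟪b i, T u⟫_ℝ :=
    (b.sum_inner_mul_inner u (T u)).symm
  have h2 : ‖u‖ ^ 2 = ∑ i, ⟪u, b i⟫_ℝ * ⟪b i, u⟫_ℝ := by
    rw [← real_inner_self_eq_norm_sq]
    exact (b.sum_inner_mul_inner u u).symm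
  rw [h1, h2, Finset.mul_sum]
  refine Finset.sum_le_sum fun i _ => ?_
  have e : ⟪b i, T u⟫_ℝ = μ i * ⟪b i, u⟫_ℝ := by
    rw [← hT (b i) u, hb i, inner_smul_left]
    simp
  have hne : b i ≠ 0 := b.orthonormal.ne_zero i
  have hle := h (μ i) (b i) hne (hb i)
  rw [e, real_inner_comm (b i) u]
  nlinarith [mul_self_nonneg ⟪u, b i⟫_ℝ]

end Vale.Agent.Lib.P162
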