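import Vale.Agent.Lib.P162.LpRec

/-!
# The cycle weight with partial information: at most one position of a new mark closes a cycle
-/

namespace Vale.Agent.Lib.P162

open Equiv Finset

set_option linter.unusedSectionVars false
set_option linter.unusedSimpArgs false
set_option linter.unusedVariables false

variable {ι : Type*} [Fintype ι] [DecidableEq ι]

/-- the weight of the edges of a first tuple on `A` and of a second tuple on `S` -/
noncomputable def rrA (D : ℕ) (A S : Finset ι) (f₁ : ι → Bool) (t₁ : ι → Pos D) (b : ι → Bool)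
    (t : ι → Pos D) : ℝ :=
  avg fun a : ι → Bool => wtD D A f₁ t₁ a * wtD D S b t a

lemma rrA_nonneg (D : ℕ) (A S : Finset ι) (f₁ : ι → Bool) (t₁ : ι → Pos D) (b : ι → Bool)
    (t : ι → Pos D) : 0 ≤ rrA D A S f₁ t₁ b t :=
  avg_nonneg fun a => mul_nonneg (wtD_nonneg _ _ _ _ _) (wtD_nonneg _ _ _ _ _)

lemma wtD_congr {D : ℕ} {S : Finset ι} {f f' : ι → Bool} {t t' : ι → Pos D} {a a' : ι → Bool}
    (hf : ∀ i ∈ S, f i = f' i) (ht : ∀ i ∈ S, t i = t' i) (ha : ∀ i ∈ S, a i = a' i) :
    wtD D S f t a = wtD D S f' t' a' := by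
  unfold wtD coinP
  congr 1
  refine avg_congr fun c => ?_
  congr 1
  apply propext
  refine forall₂_congr fun i hi => ?_
  rw [hf i hi, ht i hi, ha i hi]

lemma wtD_empty (D : ℕ) (f : ι → Bool) (t : ι → Pos D) (a : ι → Bool) :
    wtD D (∅ : Finset ι) f t a = 1 :=
  wtD_of_inj D f a t ∅ (by simp)

lemma rrA_congr {D : ℕ} {A S : Finset ι} {f₁ : ι → Bool} {t₁ : ι → Pos D} {b : ι → Bool}
    {t t' : ι → Pos D} (ht : ∀ i ∈ S, t i = t' i) :
    rrA D A S f₁ t₁ b t = rrA D A S f₁ t₁ b t' := by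
  unfold rrA
  refine avg_congr fun a => ?_
  rw [wtD_congr (fun _ _ => rfl) ht (fun _ _ => rfl)]

lemma rrA_empty (D : ℕ) (A : Finset ι) (f₁ : ι → Bool) (t₁ : ι → Pos D) (b : ι → Bool)
    (t : ι → Pos D) : rrA D A ∅ f₁ t₁ b t = 1 := by
  unfold rrA
  simp only [wtD_empty, mul_one]
  exact avg_wtD D A f₁ t₁

/-- the free marks: those with no edge of the second tuple yet -/
def freeG {D : ℕ} (A S : Finset ι) (t : ι → Pos D) : Finset ι :=
  (A \ S) ∪ (S.filter fun v => ∀ s ∈ S, s ≠ v → t s ≠ t v)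

lemma chiD_of_ne {u v : ι} {b : ι → Bool} (hb : b u ≠ b v) (a : ι → Bool) :
    (if xor (a u) (b u) = xor (a v) (b v) then (2:ℝ) else 0) = chiD u v a := by
  unfold chiD
  have key : ∀ p q r s : Bool, r ≠ s → ((xor p r = xor q s) ↔ p ≠ q) := by decide
  by_cases h : a u ≠ a v
  · rw [if_pos h, if_pos ((key _ _ _ _ hb).mpr h)]
  · rw [if_neg h, if_neg (fun h' => h ((key _ _ _ _ hb).mp h'))]

/-- the partner invariant holds for every revealed set -/
theorem rrA_inv (D : ℕ) (A S : Finset ι) (f₁ : ι → Bool) (t₁ : ι → Pos D) (b : ι → Bool)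
    (t : ι → Pos D) (hS : S ⊆ A) (hx : ∀ i ∈ A, ∀ j ∈ A, t₁ i = t₁ j → f₁ i = f₁ j → i = j)
    (hy : ∀ i ∈ S, ∀ j ∈ S, t i = t j → b i = b j → i = j) :
    PartnerInv (fun a => wtD D A f₁ t₁ a * wtD D S b t a) (freeG A S t) := by
  induction S using Finset.induction_on with
  | empty =>
    refine ⟨fun u => A.filter fun i => t₁ i = t₁ u, fun u hu => ?_⟩
    have huA : u ∈ A := by simpa [freeG] using hu
    refine ⟨mem_filter.mpr ⟨huA, rfl⟩, fun a => ?_, fun v hv hvT => ?_, ?_⟩
    · show wtD D A f₁ t₁ (flipSet _ a) * wtD D ∅ b t (flipSet _ a) = wtD D A f₁ t₁ a * wtD D ∅ b t a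
      rw [wtD_empty, wtD_empty, wtD_flip_class]
    · have : t₁ v = t₁ u := (mem_filter.mp hvT).2
      simp only [this]
    · have hle : ((A.filter fun i => t₁ i = t₁ u) ∩ freeG A ∅ t).card ≤
          (Finset.univ : Finset Bool).card := by
        apply card_le_card_of_injOn f₁ (fun _ _ => mem_univ _)
        intro i hi j hj hij
        have hi' := (mem_filter.mp (mem_inter.mp hi).1)
        have hj' := (mem_filter.mp (mem_inter.mp hj).1)
        exact hx i hi'.1 j hj'.1 (hi'.2.trans hj'.2.symm) hij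
      simpa using hle
  | insert u S hu ih =>
    have hSS : S ⊆ A := fun i hi => hS (mem_insert_of_mem hi)
    have huA : u ∈ A := hS (mem_insert_self _ _)
    have hy' : ∀ i ∈ S, ∀ j ∈ S, t i = t j → b i = b j → i = j := fun i hi j hj =>
      hy i (mem_insert_of_mem hi) j (mem_insert_of_mem hj)
    have ih' := ih hSS hy'
    have huF : u ∈ freeG A S t := mem_union_left _ (mem_sdiff.mpr ⟨huA, hu⟩)
    by_cases hv : ∃ v ∈ S, t v = t u
    · obtain ⟨v, hvS, hvt⟩ := hv
      have huv : u ≠ v := fun h => hu (h ▸ hvS)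
      have hbne : b u ≠ b v := fun h =>
        huv (hy u (mem_insert_self _ _) v (mem_insert_of_mem hvS) hvt.symm h)
      have hvF : v ∈ freeG A S t := by
        refine mem_union_right _ (mem_filter.mpr ⟨hvS, fun s hs hsv hst => ?_⟩)
        have h1 : s ≠ u := fun h => hu (h ▸ hs)
        have h2 : b s ≠ b v := fun h => hsv (hy' s hs v hvS hst h)
        have h3 : b s ≠ b u := fun h =>
          h1 (hy s (mem_insert_of_mem hs) u (mem_insert_self _ _) (hst.trans hvt) h)
        revert h2 h3 hbne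
        cases b s <;> cases b v <;> cases b u <;> simp
      have h1 := ih'.edge huF hvF huv
      have e : (fun a => wtD D A f₁ t₁ a * wtD D (insert u S) b t a) =
          fun a => wtD D A f₁ t₁ a * wtD D S b t a * chiD u v a := by
        funext a
        rw [wtD_insert_match D hu hvS b t a hvt, chiD_of_ne hbne, mul_assoc]
      rw [e]
      refine h1.mono fun z hz => ?_
      rcases mem_union.mp hz with hz | hz
      · obtain ⟨hz1, hz2⟩ := mem_sdiff.mp hz
        rw [mem_insert, not_or] at hz2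
        have hzv : z ≠ v := fun h => hz2.2 (h ▸ hvS)
        exact mem_erase.mpr ⟨hzv, mem_erase.mpr ⟨hz2.1, mem_union_left _ (mem_sdiff.mpr ⟨hz1, hz2.2⟩)⟩⟩
      · obtain ⟨hz1, hz2⟩ := mem_filter.mp hz
        have hzu : z ≠ u := by
          rintro rfl
          exact hz2 v (mem_insert_of_mem hvS) (Ne.symm huv) hvt
        have hzS : z ∈ S := (mem_insert.mp hz1).resolve_left hzu
        have hzv : z ≠ v := by
          rintro rfl
          exact hz2 u (mem_insert_self _ _) huv hvt.symm
        refine mem_erase.mpr ⟨hzv, mem_erase.mpr ⟨hzu, mem_union_right _ (mem_filter.mpr ⟨hzS, ?_⟩)⟩⟩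
        intro s hs
        exact hz2 s (mem_insert_of_mem hs)
    · push Not at hv
      have e : (fun a => wtD D A f₁ t₁ a * wtD D (insert u S) b t a) =
          fun a => wtD D A f₁ t₁ a * wtD D S b t a := by
        funext a
        rw [wtD_insert_fresh D hu b t a hv]
      rw [e]
      refine ih'.mono fun z hz => ?_
      rcases mem_union.mp hz with hz | hz
      · obtain ⟨hz1, hz2⟩ := mem_sdiff.mp hz
        rw [mem_insert, not_or] at hz2
        exact mem_union_left _ (mem_sdiff.mpr ⟨hz1, hz2.2⟩)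
      · obtain ⟨hz1, hz2⟩ := mem_filter.mp hz
        rcases mem_insert.mp hz1 with rfl | hzS
        · exact huF
        · exact mem_union_right _ (mem_filter.mpr ⟨hzS, fun s hs => hz2 s (mem_insert_of_mem hs)⟩)

/-- adding a mark at most doubles the weight -/
lemma wtD_insert_le (D : ℕ) {B : Finset ι} {u : ι} (hu : u ∉ B) (f : ι → Bool) (t : ι → Pos D)
    (a : ι → Bool) : wtD D (insert u B) f t a ≤ 2 * wtD D B f t a := by
  by_cases hv : ∃ v ∈ B, t v = t u
  · obtain ⟨v, hvS, hvt⟩ := hv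
    rw [wtD_insert_match D hu hvS f t a hvt, mul_comm]
    apply mul_le_mul_of_nonneg_right _ (wtD_nonneg _ _ _ _ _)
    split_ifs <;> norm_num
  · push Not at hv
    rw [wtD_insert_fresh D hu f t a hv]
    have := wtD_nonneg D B f t a
    linarith

lemma rrA_insert_le (D : ℕ) (A : Finset ι) {S : Finset ι} {j : ι} (hj : j ∉ S) (f₁ : ι → Bool)
    (t₁ : ι → Pos D) (b : ι → Bool) (t : ι → Pos D) :
    rrA D A (insert j S) f₁ t₁ b t ≤ 2 * rrA D A S f₁ t₁ b t := by
  unfold rrA
  rw [← avg_mul_left]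
  refine avg_mono fun a => ?_
  have h1 := wtD_insert_le D hj b t a
  have h2 := wtD_nonneg D A f₁ t₁ a
  nlinarith

/-- at most one position of a new mark changes the weight -/
theorem rrA_target (D : ℕ) (A S : Finset ι) (f₁ : ι → Bool) (t₁ : ι → Pos D) (b : ι → Bool)
    (t : ι → Pos D) {j : ι} (hS : S ⊆ A) (hjA : j ∈ A) (hjS : j ∉ S)
    (hx : ∀ i ∈ A, ∀ k ∈ A, t₁ i = t₁ k → f₁ i = f₁ k → i = k)
    (hy : ∀ i ∈ S, ∀ k ∈ S, t i = t k → b i = b k → i = k) :
    ∃ p₀ : Pos D, ∀ p : Pos D, p ≠ p₀ →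
      (∀ i ∈ insert j S, ∀ k ∈ insert j S, Function.update t j p i = Function.update t j p k →
        b i = b k → i = k) →
      rrA D A (insert j S) f₁ t₁ b (Function.update t j p) = rrA D A S f₁ t₁ b t := by
  have hinv := rrA_inv D A S f₁ t₁ b t hS hx hy
  have huF : j ∈ freeG A S t := mem_union_left _ (mem_sdiff.mpr ⟨hjA, hjS⟩)
  obtain ⟨Bad, hBad, hpart⟩ := hinv.partner huF
  obtain ⟨p₀, hp₀⟩ : ∃ p₀ : Pos D, ∀ v ∈ Bad, t v = p₀ := by
    rcases Bad.eq_empty_or_nonempty with h | ⟨v, hv⟩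
    · exact ⟨fun _ => false, by simp [h]⟩
    · refine ⟨t v, fun v' hv' => ?_⟩
      rw [Finset.card_le_one.mp hBad v' hv' v hv]
  refine ⟨p₀, fun p hp hinj => ?_⟩
  have hupd : ∀ i ∈ S, Function.update t j p i = t i := fun i hi =>
    Function.update_of_ne (fun h : i = j => hjS (h ▸ hi)) _ _
  have hcongr : ∀ a, wtD D S b (Function.update t j p) a = wtD D S b t a := fun a =>
    wtD_congr (fun _ _ => rfl) hupd (fun _ _ => rfl)
  by_cases hv : ∃ v ∈ S, t v = p
  · obtain ⟨v, hvS, hvt⟩ := hv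
    have hvj : v ≠ j := fun h => hjS (h ▸ hvS)
    have hvtu : Function.update t j p v = Function.update t j p j := by
      rw [hupd v hvS, Function.update_self, hvt]
    have hbne : b j ≠ b v := fun h =>
      hvj (hinj j (mem_insert_self _ _) v (mem_insert_of_mem hvS) hvtu.symm h).symm
    have hvF : v ∈ freeG A S t := by
      refine mem_union_right _ (mem_filter.mpr ⟨hvS, fun s hs hsv hst => ?_⟩)
      have h1 : s ≠ j := fun h => hjS (h ▸ hs)
      have h2 : b s ≠ b v := fun h => hsv (hy s hs v hvS hst h)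
      have h3 : b s ≠ b j := fun h => h1 (hinj s (mem_insert_of_mem hs) j (mem_insert_self _ _)
        (by rw [hupd s hs, Function.update_self, hst, hvt]) h)
      revert h2 h3 hbne
      cases b s <;> cases b v <;> cases b j <;> simp
    have hvB : v ∉ Bad := fun h => hp (by rw [← hp₀ v h, hvt])
    have h5 := hpart v hvF hvj hvB
    unfold rrA
    rw [← h5]
    refine avg_congr fun a => ?_
    rw [wtD_insert_match D hjS hvS b (Function.update t j p) a hvtu, chiD_of_ne hbne, hcongr,
      mul_assoc]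
  · push Not at hv
    unfold rrA
    refine avg_congr fun a => ?_
    rw [wtD_insert_fresh D hjS b (Function.update t j p) a, hcongr]
    intro v hvS
    rw [hupd v hvS, Function.update_self]
    exact hv v hvS

end Vale.Agent.Lib.P162
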