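import Vale.Agent.Lib.P162.Seq1

/-!
# The tilted kernel with partial information and one step of the reveal
-/

namespace Vale.Agent.Lib.P162

open Equiv Finset

set_option linter.unusedSectionVars false
set_option linter.unusedSimpArgs false
set_option linter.unusedVariables false

variable {ι : Type*} [Fintype ι] [DecidableEq ι]

/-! ### elementary facts -/

lemma hd_update {D : ℕ} (y : ι → Pos (D + 1)) (j : ι) (p : Pos (D + 1)) :
    hd (Function.update y j p) = Function.update (hd y) j (p 0) := by
  funext i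
  by_cases h : i = j
  · subst h; simp [hd]
  · simp [hd, h]

lemma tl_update {D : ℕ} (y : ι → Pos (D + 1)) (j : ι) (p : Pos (D + 1)) :
    tl (Function.update y j p) = Function.update (tl y) j (Fin.tail p) := by
  funext i
  by_cases h : i = j
  · subst h; simp [tl]
  · simp [tl, h]

lemma blk_insert_same {S : Finset ι} {b : ι → Bool} {j : ι} {β : Bool} (h : b j = β) :
    blk (insert j S) b β = insert j (blk S b β) := by
  ext i
  simp only [mem_blk, mem_insert]
  constructor
  · rintro ⟨h1 | h1, h2⟩
    · exact Or.inl h1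
    · exact Or.inr ⟨h1, h2⟩
  · rintro (h1 | ⟨h1, h2⟩)
    · subst h1; exact ⟨Or.inl rfl, h⟩
    · exact ⟨Or.inr h1, h2⟩

lemma blk_insert_other {S : Finset ι} {b : ι → Bool} {j : ι} {β : Bool} (h : b j ≠ β) :
    blk (insert j S) b β = blk S b β := by
  ext i
  simp only [mem_blk, mem_insert]
  constructor
  · rintro ⟨h1 | h1, h2⟩
    · subst h1; exact absurd h2 h
    · exact ⟨h1, h2⟩
  · rintro ⟨h1, h2⟩
    exact ⟨Or.inr h1, h2⟩

lemma blk_subset (S : Finset ι) (b : ι → Bool) (β : Bool) : blk S b β ⊆ S := fun i hi =>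
  (mem_blk.mp hi).1

lemma blk_mono {S S' : Finset ι} (h : S ⊆ S') (b : ι → Bool) (β : Bool) : blk S b β ⊆ blk S' b β :=
  fun i hi => mem_blk.mpr ⟨h (mem_blk.mp hi).1, (mem_blk.mp hi).2⟩

lemma blk_empty (b : ι → Bool) (β : Bool) : blk (∅ : Finset ι) b β = ∅ := by
  simp [blk]

lemma prod_bool (F : Bool → ℝ) (β : Bool) : F false * F true = F β * F (!β) := by
  cases β
  · simp
  · simp [mul_comm]

lemma avg_pos_succ {D : ℕ} (F : Pos (D + 1) → ℝ) :
    avg F = avg fun t : Pos D => avg fun b : Bool => F (Fin.cons b t) := by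
  rw [← avg_equiv (consE D) F, avg_prod]
  rfl

lemma avg_wt_top (D : ℕ) {S : Finset ι} {j : ι} (hj : j ∉ S) (f : ι → Bool) (t : ι → Pos D)
    (t' : Pos D) (a : ι → Bool) :
    avg (fun b' : Bool => wtD D (insert j S) (Function.update f j b') (Function.update t j t') a) =
      wtD D S f t a := by
  have hup : ∀ (i : ι), i ∈ S → i ≠ j := fun i hi h => hj (h ▸ hi)
  have hS : ∀ b' : Bool, wtD D S (Function.update f j b') (Function.update t j t') a = wtD D S f t a :=
    fun b' => wtD_congr (fun i hi => Function.update_of_ne (hup i hi) _ _)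
      (fun i hi => Function.update_of_ne (hup i hi) _ _) (fun _ _ => rfl)
  by_cases hv : ∃ v ∈ S, t v = t'
  · obtain ⟨v, hvS, hvt⟩ := hv
    have hvj := hup v hvS
    have h1 : ∀ b' : Bool, wtD D (insert j S) (Function.update f j b') (Function.update t j t') a =
        wtD D S f t a * (if xor (a j) b' = xor (a v) (f v) then 2 else 0) := by
      intro b'
      rw [wtD_insert_match D hj hvS _ _ a (by rw [Function.update_of_ne hvj, Function.update_self, hvt]),
        hS]
      simp [Function.update_of_ne hvj]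
    simp only [h1]
    rw [avg_mul_left]
    have h2 : avg (fun b' : Bool => if xor (a j) b' = xor (a v) (f v) then (2:ℝ) else 0) = 1 := by
      unfold avg
      simp only [Fintype.card_bool, Fintype.sum_bool]
      cases a j <;> cases a v <;> cases f v <;> norm_num
    rw [h2, mul_one]
  · push Not at hv
    have h1 : ∀ b' : Bool, wtD D (insert j S) (Function.update f j b') (Function.update t j t') a =
        wtD D S f t a := by
      intro b'
      rw [wtD_insert_fresh D hj _ _ a, hS]
      intro v hvS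
      rw [Function.update_of_ne (hup v hvS), Function.update_self]
      exact hv v hvS
    simp only [h1, avg_const]

/-! ### the densities of a pass -/

lemma tauD_empty (D : ℕ) (y w : ι → Pos D) : tauD D (∅ : Finset ι) y w = 1 := by
  unfold tauD hitP
  simp [Exp_const]

lemma tauD_zero (S : Finset ι) (y w : ι → Pos 0) : tauD 0 S y w = 1 := by
  unfold tauD hitP
  simp only [pow_zero, one_pow, one_mul]
  show (if ∀ i ∈ S, (1 : Perm (Pos 0)) (y i) = w i then (1:ℝ) else 0) = 1
  rw [if_pos]
  intro i _
  exact Subsingleton.elim _ _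

lemma exists_of_tauD_ne {D : ℕ} {S : Finset ι} {z w : ι → Pos D} (h : tauD D S z w ≠ 0) :
    ∃ g : Perm (Pos D), ∀ i ∈ S, g (z i) = w i :=
  exists_of_hitP_ne D S z w (right_ne_zero_of_mul h)

lemma tauD_collision {D : ℕ} {S : Finset ι} {z w : ι → Pos D} {i k : ι} (hi : i ∈ S) (hk : k ∈ S)
    (hz : z i = z k) (hw : w i ≠ w k) : tauD D S z w = 0 := by
  by_contra h
  obtain ⟨g, hg⟩ := exists_of_tauD_ne h
  exact hw (by rw [← hg i hi, ← hg k hk, hz])

/-- the marginal of a new mark -/
lemma tau_insert_avg (D : ℕ) {S : Finset ι} {j : ι} (hj : j ∉ S) (y w : ι → Pos D) :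
    avg (fun p => tauD D (insert j S) (Function.update y j p) w) = tauD D S y w := by
  have hup : ∀ (i : ι), i ∈ S → i ≠ j := fun i hi h => hj (h ▸ hi)
  unfold tauD hitP
  rw [avg_mul_left, Exp_avg, card_insert_of_notMem hj, pow_succ]
  have h1 : ∀ (g : Perm (Pos D)), avg (fun p : Pos D =>
      if ∀ i ∈ insert j S, g (Function.update y j p i) = w i then (1:ℝ) else 0) =
      (if ∀ i ∈ S, g (y i) = w i then (1:ℝ) else 0) * ((2:ℝ) ^ D)⁻¹ := by
    intro g
    have h2 : ∀ p : Pos D, (if ∀ i ∈ insert j S, g (Function.update y j p i) = w i then (1:ℝ) else 0) =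
        (if ∀ i ∈ S, g (y i) = w i then (1:ℝ) else 0) * (if p = g.symm (w j) then 1 else 0) := by
      intro p
      have key : (∀ i ∈ insert j S, g (Function.update y j p i) = w i) ↔
          (∀ i ∈ S, g (y i) = w i) ∧ p = g.symm (w j) := by
        constructor
        · intro h
          refine ⟨fun i hi => ?_, ?_⟩
          · have := h i (mem_insert_of_mem hi)
            rwa [Function.update_of_ne (hup i hi)] at this
          · have := h j (mem_insert_self _ _)
            rw [Function.update_self] at this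
            rw [← this]
            simp
        · rintro ⟨h1, h2⟩ i hi
          rcases mem_insert.mp hi with rfl | hi
          · rw [Function.update_self, h2]
            simp
          · rw [Function.update_of_ne (hup i hi)]
            exact h1 i hi
      by_cases hh : (∀ i ∈ S, g (y i) = w i) ∧ p = g.symm (w j)
      · rw [if_pos (key.mpr hh), if_pos hh.1, if_pos hh.2]
        norm_num
      · rw [if_neg (fun h' => hh (key.mp h'))]
        by_cases h3 : ∀ i ∈ S, g (y i) = w i
        · have h4 : ¬ p = g.symm (w j) := fun h' => hh ⟨h3, h'⟩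
          rw [if_neg h4, mul_zero]
        · rw [if_neg h3, zero_mul]
    simp only [h2]
    rw [avg_mul_left]
    congr 1
    unfold avg
    rw [card_pos']
    simp
  simp only [h1, Exp_mul_right]
  have h2 : (2:ℝ) ^ D ≠ 0 := by positivity
  field_simp

/-- the number of forced bits of a new mark -/
def cD : (D : ℕ) → Finset ι → ι → (ι → Pos D) → ℕ
  | 0, _, _, _ => 0
  | D + 1, S, j, w => (if ∃ i ∈ S, hd w i ≠ hd w j then 1 else 0) +
      cD D (blk S (hd w) (hd w j)) j (tl w)

lemma InjF_tl {D : ℕ} {w : ι → Pos (D + 1)} {A : Finset ι} (hw : InjF w A) (β : Bool) :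
    InjF (tl w) (blk A (hd w) β) := by
  intro i hi k hk hik
  obtain ⟨hi1, hi2⟩ := mem_blk.mp hi
  obtain ⟨hk1, hk2⟩ := mem_blk.mp hk
  refine hw i hi1 k hk1 ?_
  have h1 : hd w i = hd w k := hi2.trans hk2.symm
  rw [← Fin.cons_self_tail (w i), ← Fin.cons_self_tail (w k)]
  exact congrArg₂ Fin.cons h1 hik

/-- the density of the new mark is at most two to the number of forced bits -/
theorem tau_insert_le (D : ℕ) : ∀ {S : Finset ι} {j : ι} (hj : j ∉ S) (y w : ι → Pos D),
    InjF w (insert j S) → tauD D (insert j S) y w ≤ (2:ℝ) ^ (cD D S j w) * tauD D S y w := by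
  induction D with
  | zero =>
    intro S j hj y w hw
    rw [tauD_zero, tauD_zero]
    simp [cD]
  | succ D ih =>
    intro S j hj y w hw
    rw [tauD_succ, tauD_succ]
    set β := hd w j with hβ
    rw [prod_bool (fun γ => tauD D (blk (insert j S) (hd w) γ) (tl y) (tl w)) β,
      prod_bool (fun γ => tauD D (blk S (hd w) γ) (tl y) (tl w)) β]
    rw [blk_insert_same hβ.symm, blk_insert_other (by rw [← hβ]; cases β <;> simp)]
    have hjU : j ∉ blk S (hd w) β := fun h => hj (mem_blk.mp h).1
    have hin : InjF (tl w) (insert j (blk S (hd w) β)) := by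
      rw [← blk_insert_same hβ.symm]
      exact InjF_tl hw β
    have h1 := ih hjU (tl y) (tl w) hin
    have hτ0 := tauD_nonneg D (blk S (hd w) (!β)) (tl y) (tl w)
    have hτ1 := tauD_nonneg D (blk S (hd w) β) (tl y) (tl w)
    have hτ2 := tauD_nonneg D (insert j (blk S (hd w) β)) (tl y) (tl w)
    have hw0 := wtD_nonneg D S (hd y) (tl y) (hd w)
    have hw1 := wtD_nonneg D (insert j S) (hd y) (tl y) (hd w)
    have hc : cD (D + 1) S j w = (if ∃ i ∈ S, hd w i ≠ hd w j then 1 else 0) +
        cD D (blk S (hd w) β) j (tl w) := rfl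
    rw [hc, pow_add]
    have h3 : 0 ≤ (2:ℝ) ^ cD D (blk S (hd w) β) j (tl w) := by positivity
    by_cases hex : ∃ i ∈ S, hd w i ≠ hd w j
    · rw [if_pos hex, pow_one]
      have h2 := wtD_insert_le D hj (hd y) (tl y) (hd w)
      calc wtD D (insert j S) (hd y) (tl y) (hd w) * (tauD D (insert j (blk S (hd w) β)) (tl y) (tl w) *
            tauD D (blk S (hd w) (!β)) (tl y) (tl w))
          ≤ (2 * wtD D S (hd y) (tl y) (hd w)) * (((2:ℝ) ^ cD D (blk S (hd w) β) j (tl w) *
              tauD D (blk S (hd w) β) (tl y) (tl w)) * tauD D (blk S (hd w) (!β)) (tl y) (tl w)) := by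
            apply mul_le_mul h2 _ (by positivity) (by positivity)
            exact mul_le_mul_of_nonneg_right h1 hτ0
        _ = _ := by ring
    · rw [if_neg hex, pow_zero, one_mul]
      push Not at hex
      by_cases hv : ∃ v ∈ S, tl y v = tl y j
      · obtain ⟨v, hvS, hvt⟩ := hv
        have hvj : v ≠ j := fun h => hj (h ▸ hvS)
        have hvb : hd w v = β := hex v hvS
        have hvU : v ∈ blk S (hd w) β := mem_blk.mpr ⟨hvS, hvb⟩
        have hne : tl w v ≠ tl w j := fun h =>
          hvj (hin v (mem_insert_of_mem hvU) j (mem_insert_self _ _) h)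
        have hz := tauD_collision (mem_insert_of_mem hvU) (mem_insert_self j _) hvt hne
        rw [hz, zero_mul, mul_zero]
        positivity
      · push Not at hv
        rw [wtD_insert_fresh D hj _ _ _ hv]
        calc wtD D S (hd y) (tl y) (hd w) * (tauD D (insert j (blk S (hd w) β)) (tl y) (tl w) *
              tauD D (blk S (hd w) (!β)) (tl y) (tl w))
            ≤ wtD D S (hd y) (tl y) (hd w) * (((2:ℝ) ^ cD D (blk S (hd w) β) j (tl w) *
                tauD D (blk S (hd w) β) (tl y) (tl w)) *
                tauD D (blk S (hd w) (!β)) (tl y) (tl w)) :=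
              mul_le_mul_of_nonneg_left (mul_le_mul_of_nonneg_right h1 hτ0) hw0
          _ = _ := by ring

/-! ### the tilted kernel -/

/-- the product of the cycle weights over the first `r` levels of the tree of `w` -/
noncomputable def tiltD (q : ℝ) : (D r : ℕ) → Finset ι → Finset ι → (ι → Pos D) → (ι → Pos D) →
    (ι → Pos D) → ℝ
  | 0, _, _, _, _, _, _ => 1
  | _ + 1, 0, _, _, _, _, _ => 1
  | D + 1, r + 1, A, S, x, y, w =>
      rrA D A S (hd x) (tl x) (hd w) (tl y) ^ q *
        (tiltD q D r (blk A (hd w) false) (blk S (hd w) false) (tl x) (tl y) (tl w) *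
          tiltD q D r (blk A (hd w) true) (blk S (hd w) true) (tl x) (tl y) (tl w))

lemma tiltD_zero_left (q : ℝ) (r : ℕ) (A S : Finset ι) (x y w : ι → Pos 0) :
    tiltD q 0 r A S x y w = 1 := rfl

lemma tiltD_zero_right (q : ℝ) (D : ℕ) (A S : Finset ι) (x y w : ι → Pos D) :
    tiltD q D 0 A S x y w = 1 := by
  cases D <;> rfl

lemma tiltD_succ (q : ℝ) (D r : ℕ) (A S : Finset ι) (x y w : ι → Pos (D + 1)) :
    tiltD q (D + 1) (r + 1) A S x y w = rrA D A S (hd x) (tl x) (hd w) (tl y) ^ q *
        (tiltD q D r (blk A (hd w) false) (blk S (hd w) false) (tl x) (tl y) (tl w) *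
          tiltD q D r (blk A (hd w) true) (blk S (hd w) true) (tl x) (tl y) (tl w)) := rfl

lemma tiltD_nonneg (q : ℝ) (D : ℕ) : ∀ (r : ℕ) (A S : Finset ι) (x y w : ι → Pos D),
    0 ≤ tiltD q D r A S x y w := by
  induction D with
  | zero => intro r A S x y w; rw [tiltD_zero_left]; norm_num
  | succ D ih =>
    intro r A S x y w
    cases r with
    | zero => rw [tiltD_zero_right]; norm_num
    | succ r =>
      rw [tiltD_succ]
      exact mul_nonneg (Real.rpow_nonneg (rrA_nonneg _ _ _ _ _ _ _) _) (mul_nonneg (ih _ _ _ _ _ _) (ih _ _ _ _ _ _))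

lemma tiltD_congr (q : ℝ) (D : ℕ) : ∀ (r : ℕ) (A S : Finset ι) (x : ι → Pos D) {y y' : ι → Pos D}
    (w : ι → Pos D), (∀ i ∈ S, y i = y' i) → tiltD q D r A S x y w = tiltD q D r A S x y' w := by
  induction D with
  | zero => intro r A S x y y' w _; rfl
  | succ D ih =>
    intro r A S x y y' w h
    cases r with
    | zero => rw [tiltD_zero_right, tiltD_zero_right]
    | succ r =>
      have ht : ∀ i ∈ S, tl y i = tl y' i := fun i hi => by
        show Fin.tail (y i) = Fin.tail (y' i)
        rw [h i hi]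
      rw [tiltD_succ, tiltD_succ, rrA_congr ht,
        ih r _ _ _ _ (fun i hi => ht i (blk_subset _ _ _ hi)),
        ih r _ _ _ _ (fun i hi => ht i (blk_subset _ _ _ hi))]

lemma tiltD_empty (q : ℝ) (D : ℕ) : ∀ (r : ℕ) (A : Finset ι) (x y w : ι → Pos D),
    tiltD q D r A ∅ x y w = 1 := by
  induction D with
  | zero => intro r A x y w; rfl
  | succ D ih =>
    intro r A x y w
    cases r with
    | zero => rw [tiltD_zero_right]
    | succ r =>
      rw [tiltD_succ, rrA_empty, blk_empty, blk_empty, ih, ih]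
      simp

lemma tiltD_insert_le {q : ℝ} (hq : 0 < q) (D : ℕ) : ∀ (r : ℕ) (A : Finset ι) {S : Finset ι} {j : ι}
    (hj : j ∉ S) (x y w : ι → Pos D),
    tiltD q D r A (insert j S) x y w ≤ ((2:ℝ) ^ q) ^ r * tiltD q D r A S x y w := by
  induction D with
  | zero =>
    intro r A S j hj x y w
    rw [tiltD_zero_left, tiltD_zero_left, mul_one]
    exact one_le_pow₀ (Real.one_le_rpow (by norm_num) hq.le)
  | succ D ih =>
    intro r A S j hj x y w
    cases r with
    | zero => rw [tiltD_zero_right, tiltD_zero_right]; simp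
    | succ r =>
      rw [tiltD_succ, tiltD_succ]
      set β := hd w j with hβ
      rw [prod_bool (fun γ => tiltD q D r (blk A (hd w) γ) (blk (insert j S) (hd w) γ) (tl x) (tl y) (tl w)) β,
        prod_bool (fun γ => tiltD q D r (blk A (hd w) γ) (blk S (hd w) γ) (tl x) (tl y) (tl w)) β]
      rw [blk_insert_same hβ.symm, blk_insert_other (by rw [← hβ]; cases β <;> simp)]
      have hjU : j ∉ blk S (hd w) β := fun h => hj (mem_blk.mp h).1
      have h1 := ih r (blk A (hd w) β) hjU (tl x) (tl y) (tl w)
      have h2 : rrA D A (insert j S) (hd x) (tl x) (hd w) (tl y) ^ q ≤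
          (2:ℝ) ^ q * rrA D A S (hd x) (tl x) (hd w) (tl y) ^ q := by
        rw [← Real.mul_rpow (by norm_num) (rrA_nonneg _ _ _ _ _ _ _)]
        exact Real.rpow_le_rpow (rrA_nonneg _ _ _ _ _ _ _) (rrA_insert_le D A hj _ _ _ _) hq.le
      have h3 := tiltD_nonneg q D r (blk A (hd w) (!β)) (blk S (hd w) (!β)) (tl x) (tl y) (tl w)
      have h4 := tiltD_nonneg q D r (blk A (hd w) β) (blk S (hd w) β) (tl x) (tl y) (tl w)
      have h5 := tiltD_nonneg q D r (blk A (hd w) β) (insert j (blk S (hd w) β)) (tl x) (tl y) (tl w)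
      have h6 := Real.rpow_nonneg (rrA_nonneg D A (insert j S) (hd x) (tl x) (hd w) (tl y)) q
      have h7 := Real.rpow_nonneg (rrA_nonneg D A S (hd x) (tl x) (hd w) (tl y)) q
      have h8 : (0:ℝ) ≤ 2 ^ q := by positivity
      have h9 : (0:ℝ) ≤ ((2:ℝ) ^ q) ^ r := by positivity
      calc rrA D A (insert j S) (hd x) (tl x) (hd w) (tl y) ^ q *
            (tiltD q D r (blk A (hd w) β) (insert j (blk S (hd w) β)) (tl x) (tl y) (tl w) *
              tiltD q D r (blk A (hd w) (!β)) (blk S (hd w) (!β)) (tl x) (tl y) (tl w))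
          ≤ ((2:ℝ) ^ q * rrA D A S (hd x) (tl x) (hd w) (tl y) ^ q) *
            ((((2:ℝ) ^ q) ^ r * tiltD q D r (blk A (hd w) β) (blk S (hd w) β) (tl x) (tl y) (tl w)) *
              tiltD q D r (blk A (hd w) (!β)) (blk S (hd w) (!β)) (tl x) (tl y) (tl w)) := by
            apply mul_le_mul h2 _ (by positivity) (by positivity)
            exact mul_le_mul_of_nonneg_right h1 h3
        _ = _ := by rw [pow_succ]; ring

end Vale.Agent.Lib.P162
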