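import Vale.Agent.Lib.P162.Seq2

/-!
# One step of the reveal of a tuple
-/

namespace Vale.Agent.Lib.P162

open Equiv Finset

set_option linter.unusedSectionVars false
set_option linter.unusedSimpArgs false
set_option linter.unusedVariables false

variable {ι : Type*} [Fintype ι] [DecidableEq ι]

/-- the cost of revealing the mark `j` after the marks `S` -/
noncomputable def eSL (z : ℝ) : (D r : ℕ) → Finset ι → ι → (ι → Pos D) → ℝ
  | 0, _, _, _, _ => 0
  | _ + 1, 0, _, _, _ => 0
  | D + 1, r + 1, S, j, w =>
      eSL z D r (blk S (hd w) (hd w j)) j (tl w) +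
        (z - 1) * z ^ r * ((2:ℝ) ^ cD D (blk S (hd w) (hd w j)) j (tl w) / (2:ℝ) ^ D)

lemma eSL_zero_right (z : ℝ) (D : ℕ) (S : Finset ι) (j : ι) (w : ι → Pos D) :
    eSL z D 0 S j w = 0 := by
  cases D <;> rfl

lemma eSL_succ (z : ℝ) (D r : ℕ) (S : Finset ι) (j : ι) (w : ι → Pos (D + 1)) :
    eSL z (D + 1) (r + 1) S j w = eSL z D r (blk S (hd w) (hd w j)) j (tl w) +
        (z - 1) * z ^ r * ((2:ℝ) ^ cD D (blk S (hd w) (hd w j)) j (tl w) / (2:ℝ) ^ D) := rfl

lemma bool_eq_not : ∀ γ β : Bool, γ ≠ β → γ = !β := by decide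

lemma avg_ind {Y : Type*} [Fintype Y] [DecidableEq Y] (z0 : Y) (φ : Y → ℝ) :
    avg (fun z => φ z * (if z = z0 then (1:ℝ) else 0)) = (Fintype.card Y : ℝ)⁻¹ * φ z0 := by
  unfold avg
  congr 1
  simp

lemma inj_of_ne {D : ℕ} (w : ι → Pos (D + 1)) (t : ι → Pos D) {S A : Finset ι} (hSA : S ⊆ A)
    (hw : InjF w A) (h : ∀ γ, tauD D (blk S (hd w) γ) t (tl w) ≠ 0) :
    ∀ i ∈ S, ∀ k ∈ S, t i = t k → hd w i = hd w k → i = k := by
  intro i hi k hk hik hb
  obtain ⟨g, hg⟩ := exists_of_tauD_ne (h (hd w i))
  have h1 := hg i (mem_blk.mpr ⟨hi, rfl⟩)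
  have h2 := hg k (mem_blk.mpr ⟨hk, hb.symm⟩)
  rw [hik, h2] at h1
  have h3 : tl w k = tl w i := h1
  refine hw i (hSA hi) k (hSA hk) ?_
  rw [← Fin.cons_self_tail (w i), ← Fin.cons_self_tail (w k)]
  exact congrArg₂ Fin.cons hb h3.symm

lemma inj_x_of_ne {D : ℕ} {x w : ι → Pos D} {A : Finset ι} (hτ : tauD D A x w ≠ 0)
    (hw : InjF w A) : InjF x A := by
  intro i hi k hk hik
  obtain ⟨g, hg⟩ := exists_of_tauD_ne hτ
  refine hw i hi k hk ?_
  rw [← hg i hi, ← hg k hk, hik]

lemma block_ne_of_ne {D : ℕ} {x w : ι → Pos (D + 1)} {A : Finset ι} (hτ : tauD (D + 1) A x w ≠ 0)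
    (γ : Bool) : tauD D (blk A (hd w) γ) (tl x) (tl w) ≠ 0 := by
  rw [tauD_succ] at hτ
  have h := right_ne_zero_of_mul hτ
  cases γ
  · exact left_ne_zero_of_mul h
  · exact right_ne_zero_of_mul h

/-- one step of the reveal -/
theorem step_SL {q : ℝ} (hq : 0 < q) (D : ℕ) : ∀ (r : ℕ) (A S : Finset ι) (x y w : ι → Pos D) (j : ι),
    j ∉ S → j ∈ A → S ⊆ A → tauD D A x w ≠ 0 → InjF w A →
    avg (fun p : Pos D => tauD D (insert j S) (Function.update y j p) w *
        tiltD q D r A (insert j S) x (Function.update y j p) w) ≤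
      (1 + eSL ((2:ℝ) ^ q) D r S j w) * (tauD D S y w * tiltD q D r A S x y w) := by
  induction D with
  | zero =>
    intro r A S x y w j hjS hjA hSA hτ hw
    simp only [tauD_zero, tiltD_zero_left, mul_one, avg_const]
    show (1:ℝ) ≤ 1 + 0
    norm_num
  | succ D ih =>
    intro r A S x y w j hjS hjA hSA hτ hw
    cases r with
    | zero =>
      simp only [tiltD_zero_right, mul_one, eSL_zero_right, add_zero, one_mul]
      exact le_of_eq (tau_insert_avg _ hjS _ _)
    | succ r =>
      set z : ℝ := (2:ℝ) ^ q with hz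
      have hz1 : 1 ≤ z := Real.one_le_rpow (by norm_num) hq.le
      set β := hd w j with hβ
      have hβ' : hd w j ≠ !β := by rw [← hβ]; cases β <;> simp
      set U := blk S (hd w) β with hU
      set V := blk S (hd w) (!β) with hV
      set Aβ := blk A (hd w) β with hAβ
      set Aν := blk A (hd w) (!β) with hAν
      have hjU : j ∉ U := fun h => hjS (mem_blk.mp h).1
      have hjV : j ∉ V := fun h => hjS (mem_blk.mp h).1
      have hupV : ∀ t' : Pos D, ∀ i ∈ V, Function.update (tl y) j t' i = tl y i := fun t' i hi =>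
        Function.update_of_ne (fun h : i = j => hjV (h ▸ hi)) _ _
      have hupU : ∀ t' : Pos D, ∀ i ∈ U, Function.update (tl y) j t' i = tl y i := fun t' i hi =>
        Function.update_of_ne (fun h : i = j => hjU (h ▸ hi)) _ _
      set τV := tauD D V (tl y) (tl w) with hτV
      set τU := tauD D U (tl y) (tl w) with hτU
      set tiV := tiltD q D r Aν V (tl x) (tl y) (tl w) with htiV
      set tiU := tiltD q D r Aβ U (tl x) (tl y) (tl w) with htiU
      set rr := rrA D A S (hd x) (tl x) (hd w) (tl y) with hrr
      set W := wtD D S (hd y) (tl y) (hd w) with hW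
      have hτV0 : 0 ≤ τV := tauD_nonneg _ _ _ _
      have hτU0 : 0 ≤ τU := tauD_nonneg _ _ _ _
      have htiV0 : 0 ≤ tiV := tiltD_nonneg _ _ _ _ _ _ _ _
      have htiU0 : 0 ≤ tiU := tiltD_nonneg _ _ _ _ _ _ _ _
      have hrr0 : 0 ≤ rr := rrA_nonneg _ _ _ _ _ _ _
      have hrrq : 0 ≤ rr ^ q := Real.rpow_nonneg hrr0 _
      have hW0 : 0 ≤ W := wtD_nonneg _ _ _ _ _
      -- the density of the new mark inside the block
      set G : Pos D → ℝ := fun t' => tauD D (insert j U) (Function.update (tl y) j t') (tl w) *
        tiltD q D r Aβ (insert j U) (tl x) (Function.update (tl y) j t') (tl w) with hG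
      have hG0 : ∀ t', 0 ≤ G t' := fun t' => mul_nonneg (tauD_nonneg _ _ _ _) (tiltD_nonneg _ _ _ _ _ _ _ _)
      set R : Pos D → ℝ := fun t' => rrA D A (insert j S) (hd x) (tl x) (hd w) (Function.update (tl y) j t')
        with hR
      have hR0 : ∀ t', 0 ≤ R t' := fun t' => rrA_nonneg _ _ _ _ _ _ _
      -- the formula for the integrand
      have hform : ∀ (b' : Bool) (t' : Pos D),
          tauD (D + 1) (insert j S) (Function.update y j (Fin.cons b' t')) w *
            tiltD q (D + 1) (r + 1) A (insert j S) x (Function.update y j (Fin.cons b' t')) w =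
          wtD D (insert j S) (Function.update (hd y) j b') (Function.update (tl y) j t') (hd w) *
            (G t' * (τV * (R t' ^ q * tiV))) := by
        intro b' t'
        rw [tauD_succ, tiltD_succ, hd_update, tl_update]
        simp only [Fin.cons_zero, Fin.tail_cons]
        rw [prod_bool (fun γ => tauD D (blk (insert j S) (hd w) γ) (Function.update (tl y) j t') (tl w)) β,
          prod_bool (fun γ => tiltD q D r (blk A (hd w) γ) (blk (insert j S) (hd w) γ) (tl x)
            (Function.update (tl y) j t') (tl w)) β,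
          blk_insert_same hβ.symm, blk_insert_other hβ', ← hU, ← hV, ← hAβ, ← hAν,
          tauD_congr_left D V (tl w) (hupV t'), tiltD_congr q D r Aν V (tl x) (tl w) (hupV t')]
        simp only [hG, hR]
        ring
      -- summing out the first bit
      have hsum : avg (fun p : Pos (D + 1) => tauD (D + 1) (insert j S) (Function.update y j p) w *
          tiltD q (D + 1) (r + 1) A (insert j S) x (Function.update y j p) w) =
          W * avg (fun t' => G t' * (τV * (R t' ^ q * tiV))) := by
        rw [avg_pos_succ, ← avg_mul_left]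
        refine avg_congr fun t' => ?_
        simp only [hform]
        rw [avg_mul_right, avg_wt_top D hjS]
      rw [hsum]
      -- the right hand side
      have hrhs : tauD (D + 1) S y w * tiltD q (D + 1) (r + 1) A S x y w =
          W * (τU * τV * (rr ^ q * (tiU * tiV))) := by
        rw [tauD_succ, tiltD_succ,
          prod_bool (fun γ => tauD D (blk S (hd w) γ) (tl y) (tl w)) β,
          prod_bool (fun γ => tiltD q D r (blk A (hd w) γ) (blk S (hd w) γ) (tl x) (tl y) (tl w)) β]
        ring
      rw [hrhs, eSL_succ, ← hβ, ← hU]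
      set c := cD D U j (tl w) with hc
      set e' := eSL z D r U j (tl w) with he'
      have hcpos : (0:ℝ) < (2:ℝ) ^ c := by positivity
      have hkey : avg (fun t' => G t' * (τV * (R t' ^ q * tiV))) ≤
          (1 + (e' + (z - 1) * z ^ r * ((2:ℝ) ^ c / (2:ℝ) ^ D))) * (τU * τV * (rr ^ q * (tiU * tiV))) := by
        -- the case of a vanishing block
        by_cases hV0 : τV = 0
        · simp only [hV0, zero_mul, mul_zero, avg_const]
          exact le_refl _
        have hinjt : ∀ t' : Pos D, tauD D (insert j U) (Function.update (tl y) j t') (tl w) ≠ 0 →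
            ∀ i ∈ insert j S, ∀ k ∈ insert j S, Function.update (tl y) j t' i = Function.update (tl y) j t' k →
              hd w i = hd w k → i = k := by
          intro t' h0
          refine inj_of_ne w _ (S := insert j S) (A := A) (insert_subset hjA hSA) hw fun γ => ?_
          by_cases hγ : γ = β
          · subst hγ
            rw [blk_insert_same hβ.symm]
            exact h0
          · have hγ' : γ = !β := bool_eq_not _ _ hγ
            subst hγ'
            rw [blk_insert_other hβ', tauD_congr_left D _ (tl w) (hupV t')]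
            exact hV0
        have hinU : InjF (tl w) (insert j U) := by
          rw [hU, ← blk_insert_same hβ.symm]
          exact InjF_tl (InjF.mono hw (insert_subset hjA hSA)) β
        by_cases hU0 : τU = 0
        · have hz0 : ∀ t', G t' = 0 := by
            intro t'
            have h1 := tau_insert_le D hjU (Function.update (tl y) j t') (tl w) hinU
            rw [tauD_congr_left D U (tl w) (hupU t'), ← hτU, hU0, mul_zero] at h1
            have h2 : tauD D (insert j U) (Function.update (tl y) j t') (tl w) = 0 :=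
              le_antisymm h1 (tauD_nonneg _ _ _ _)
            simp only [hG, h2, zero_mul]
          simp only [hz0, hU0, zero_mul, mul_zero, avg_const]
          exact le_refl _
        -- the nondegenerate case
        have hy' : ∀ i ∈ S, ∀ k ∈ S, tl y i = tl y k → hd w i = hd w k → i = k := by
          refine inj_of_ne w _ hSA hw fun γ => ?_
          by_cases hγ : γ = β
          · subst hγ
            exact hU0
          · have hγ' : γ = !β := bool_eq_not _ _ hγ
            subst hγ'
            exact hV0
        have hxinj := inj_x_of_ne hτ hw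
        have hx' : ∀ i ∈ A, ∀ k ∈ A, tl x i = tl x k → hd x i = hd x k → i = k := by
          intro i hi k hk h1 h2
          refine hxinj i hi k hk ?_
          rw [← Fin.cons_self_tail (x i), ← Fin.cons_self_tail (x k)]
          exact congrArg₂ Fin.cons h2 h1
        obtain ⟨p₀, hp₀⟩ := rrA_target D A S (hd x) (tl x) (hd w) (tl y) hSA hjA hjS hx' hy'
        -- the pointwise bound
        have hpt : ∀ t', G t' * (τV * (R t' ^ q * tiV)) ≤
            (τV * (rr ^ q * tiV)) * (G t' + (z - 1) * (G t' * (if t' = p₀ then 1 else 0))) := by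
          intro t'
          by_cases h0 : tauD D (insert j U) (Function.update (tl y) j t') (tl w) = 0
          · have : G t' = 0 := by simp only [hG, h0, zero_mul]
            simp [this]
          by_cases ht : t' = p₀
          · have h3 : R t' ^ q ≤ z * rr ^ q := by
              rw [hz, hrr, ← Real.mul_rpow (by norm_num) (rrA_nonneg _ _ _ _ _ _ _)]
              apply Real.rpow_le_rpow (hR0 t') _ hq.le
              have h4 := rrA_insert_le D A hjS (hd x) (tl x) (hd w) (Function.update (tl y) j t')
              rwa [rrA_congr (A := A) (S := S) (t := Function.update (tl y) j t') (t' := tl y)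
                (f₁ := hd x) (t₁ := tl x) (b := hd w) (fun i hi =>
                  Function.update_of_ne (fun h : i = j => hjS (h ▸ hi)) _ _)] at h4
            rw [if_pos ht]
            have h5 := hG0 t'
            have h6 : G t' + (z - 1) * (G t' * 1) = z * G t' := by ring
            rw [h6]
            calc G t' * (τV * (R t' ^ q * tiV)) ≤ G t' * (τV * ((z * rr ^ q) * tiV)) := by
                  apply mul_le_mul_of_nonneg_left _ h5
                  apply mul_le_mul_of_nonneg_left _ hτV0
                  exact mul_le_mul_of_nonneg_right h3 htiV0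
              _ = _ := by ring
          · have h3 : R t' = rr := hp₀ t' ht (hinjt t' h0)
            rw [if_neg ht, h3]
            have : G t' + (z - 1) * (G t' * 0) = G t' := by ring
            rw [this]
            exact le_of_eq (by ring)
        refine (avg_mono hpt).trans ?_
        rw [avg_mul_left, avg_add, avg_mul_left, avg_ind, card_pos']
        -- the two bounds
        have hIH : avg G ≤ (1 + e') * (τU * tiU) := by
          have h1 := ih r Aβ U (tl x) (tl y) (tl w) j hjU (mem_blk.mpr ⟨hjA, hβ.symm⟩)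
            (blk_mono hSA _ _) (block_ne_of_ne hτ β) (InjF_tl hw β)
          exact h1
        have hGp : G p₀ ≤ (2:ℝ) ^ c * τU * (z ^ r * tiU) := by
          have h1 := tau_insert_le D hjU (Function.update (tl y) j p₀) (tl w) hinU
          rw [tauD_congr_left D U (tl w) (hupU p₀), ← hτU, ← hc] at h1
          have h2 := tiltD_insert_le hq D r Aβ hjU (tl x) (Function.update (tl y) j p₀) (tl w)
          rw [tiltD_congr q D r Aβ U (tl x) (tl w) (hupU p₀), ← htiU, ← hz] at h2
          exact mul_le_mul h1 h2 (tiltD_nonneg _ _ _ _ _ _ _ _) (by positivity)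
        have hPos : (0:ℝ) < (2:ℝ) ^ D := by positivity
        have hGp' : ((2:ℝ) ^ D)⁻¹ * G p₀ ≤ ((2:ℝ) ^ c / (2:ℝ) ^ D) * (τU * (z ^ r * tiU)) := by
          rw [div_eq_mul_inv]
          have h1 : ((2:ℝ) ^ D)⁻¹ * G p₀ ≤ ((2:ℝ) ^ D)⁻¹ * ((2:ℝ) ^ c * τU * (z ^ r * tiU)) :=
            mul_le_mul_of_nonneg_left hGp (by positivity)
          refine h1.trans (le_of_eq ?_)
          ring
        have hz0 : 0 ≤ z - 1 := by linarith
        have hzr : 0 ≤ z ^ r := by positivity
        have hfin : avg G + (z - 1) * (((2:ℝ) ^ D)⁻¹ * G p₀) ≤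
            (1 + (e' + (z - 1) * z ^ r * ((2:ℝ) ^ c / (2:ℝ) ^ D))) * (τU * tiU) := by
          have h2 : (z - 1) * (((2:ℝ) ^ D)⁻¹ * G p₀) ≤
              (z - 1) * (((2:ℝ) ^ c / (2:ℝ) ^ D) * (τU * (z ^ r * tiU))) :=
            mul_le_mul_of_nonneg_left hGp' hz0
          have e1 : (1 + (e' + (z - 1) * z ^ r * ((2:ℝ) ^ c / (2:ℝ) ^ D))) * (τU * tiU) =
              (1 + e') * (τU * tiU) + (z - 1) * (((2:ℝ) ^ c / (2:ℝ) ^ D) * (τU * (z ^ r * tiU))) := by ring
          rw [e1]
          linarith
        have hfac : 0 ≤ τV * (rr ^ q * tiV) := by positivity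
        calc τV * (rr ^ q * tiV) * (avg G + (z - 1) * (((2:ℝ) ^ D)⁻¹ * G p₀))
            ≤ τV * (rr ^ q * tiV) * ((1 + (e' + (z - 1) * z ^ r * ((2:ℝ) ^ c / (2:ℝ) ^ D))) * (τU * tiU)) :=
              mul_le_mul_of_nonneg_left hfin hfac
          _ = _ := by ring
      calc W * avg (fun t' => G t' * (τV * (R t' ^ q * tiV)))
          ≤ W * ((1 + (e' + (z - 1) * z ^ r * ((2:ℝ) ^ c / (2:ℝ) ^ D))) * (τU * τV * (rr ^ q * (tiU * tiV)))) :=
            mul_le_mul_of_nonneg_left hkey hW0
        _ = _ := by ring

end Vale.Agent.Lib.P162
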