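import Vale.Agent.Lib.P162.Seq3

/-!
# The reveal of a whole tuple in the heavy child first order
-/

namespace Vale.Agent.Lib.P162

open Equiv Finset

set_option linter.unusedSectionVars false
set_option linter.unusedSimpArgs false
set_option linter.unusedVariables false

variable {ι : Type*} [Fintype ι] [DecidableEq ι]

/-- the sum of a cost along a list, with the set of earlier marks -/
def sumF (F : Finset ι → ι → ℝ) : Finset ι → List ι → ℝ
  | _, [] => 0
  | S, j :: L => F S j + sumF F (insert j S) L

lemma sumF_append (F : Finset ι → ι → ℝ) (S : Finset ι) (L L' : List ι) :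
    sumF F S (L ++ L') = sumF F S L + sumF F (S ∪ L.toFinset) L' := by
  induction L generalizing S with
  | nil => simp [sumF]
  | cons j L ih =>
    simp only [List.cons_append, sumF, ih, List.toFinset_cons]
    rw [add_assoc]
    congr 3
    ext i
    simp only [mem_union, mem_insert]
    tauto

lemma sumF_add (F G : Finset ι → ι → ℝ) (c : ℝ) (S : Finset ι) (L : List ι) :
    sumF (fun S j => F S j + c * G S j) S L = sumF F S L + c * sumF G S L := by
  induction L generalizing S with
  | nil => simp [sumF]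
  | cons j L ih =>
    simp only [sumF, ih]
    ring

lemma sumF_const_one (S : Finset ι) (L : List ι) :
    sumF (fun _ _ => (1:ℝ)) S L = L.length := by
  induction L generalizing S with
  | nil => simp [sumF]
  | cons j L ih =>
    simp only [sumF, ih, List.length_cons]
    push_cast
    ring

lemma sumF_zero (F : Finset ι → ι → ℝ) (h : ∀ S j, F S j = 0) (S : Finset ι) (L : List ι) :
    sumF F S L = 0 := by
  induction L generalizing S with
  | nil => simp [sumF]
  | cons j L ih => simp only [sumF, ih, h, add_zero]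

/-- transfer of a cost to a block -/
lemma sumF_le_block (F G : Finset ι → ι → ℝ) {c : ℝ} (hc : 0 ≤ c) (b : ι → Bool) (β : Bool) (L : List ι)
    (S0 : Finset ι) (hL : ∀ j ∈ L, b j = β)
    (hFG : ∀ S, S ⊆ S0 ∪ L.toFinset → ∀ j ∈ L, F S j ≤ c * G (blk S b β) j) :
    sumF F S0 L ≤ c * sumF G (blk S0 b β) L := by
  induction L generalizing S0 with
  | nil => simp [sumF]
  | cons j L ih =>
    simp only [sumF]
    have h1 := hFG S0 subset_union_left j List.mem_cons_self
    have h2 := ih (insert j S0) (fun k hk => hL k (List.mem_cons_of_mem _ hk)) (fun S hS k hk =>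
      hFG S (hS.trans (by
        intro i hi
        simp only [mem_union, mem_insert, List.mem_toFinset, List.mem_cons] at hi ⊢
        tauto)) k (List.mem_cons_of_mem _ hk))
    rw [blk_insert_same (hL j List.mem_cons_self)] at h2
    rw [mul_add]
    exact add_le_add h1 h2

/-- the one step bound along a list -/
theorem reveal_chain {q : ℝ} (hq : 0 < q) (D r : ℕ) (A : Finset ι) (x w : ι → Pos D)
    (hτ : tauD D A x w ≠ 0) (hw : InjF w A) (L : List ι) : ∀ (S0 : Finset ι), L.Nodup →
    (∀ j ∈ L, j ∉ S0) → (∀ j ∈ L, j ∈ A) → S0 ⊆ A →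
    avg (fun y => tauD D (S0 ∪ L.toFinset) y w * tiltD q D r A (S0 ∪ L.toFinset) x y w) ≤
      Real.exp (sumF (fun S j => eSL ((2:ℝ) ^ q) D r S j w) S0 L) *
        avg (fun y => tauD D S0 y w * tiltD q D r A S0 x y w) := by
  induction L with
  | nil =>
    intro S0 _ _ _ _
    simp [sumF]
  | cons j L ih =>
    intro S0 hnd hdisj hLA hS0
    obtain ⟨hj, hnd'⟩ := List.nodup_cons.mp hnd
    have hjS : j ∉ S0 := hdisj j List.mem_cons_self
    have hjA : j ∈ A := hLA j List.mem_cons_self
    have e : S0 ∪ (j :: L).toFinset = insert j S0 ∪ L.toFinset := by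
      ext i
      simp only [mem_union, mem_insert, List.mem_toFinset, List.mem_cons]
      tauto
    rw [e]
    have h1 := ih (insert j S0) hnd' (fun k hk h => by
      rcases mem_insert.mp h with h | h
      · exact hj (h ▸ hk)
      · exact hdisj k (List.mem_cons_of_mem _ hk) h)
      (fun k hk => hLA k (List.mem_cons_of_mem _ hk)) (insert_subset hjA hS0)
    refine h1.trans ?_
    simp only [sumF]
    rw [add_comm, Real.exp_add, mul_assoc]
    apply mul_le_mul_of_nonneg_left _ (Real.exp_pos _).le
    rw [← avg_update j (fun y => tauD D (insert j S0) y w * tiltD q D r A (insert j S0) x y w)]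
    have h2 : ∀ y, avg (fun p : Pos D => tauD D (insert j S0) (Function.update y j p) w *
        tiltD q D r A (insert j S0) x (Function.update y j p) w) ≤
        Real.exp (eSL ((2:ℝ) ^ q) D r S0 j w) * (tauD D S0 y w * tiltD q D r A S0 x y w) := by
      intro y
      refine (step_SL hq D r A S0 x y w j hjS hjA hS0 hτ hw).trans ?_
      apply mul_le_mul_of_nonneg_right _
        (mul_nonneg (tauD_nonneg _ _ _ _) (tiltD_nonneg _ _ _ _ _ _ _ _))
      have := Real.add_one_le_exp (eSL ((2:ℝ) ^ q) D r S0 j w)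
      linarith
    refine (avg_mono h2).trans ?_
    rw [avg_mul_left]

/-! ### the order -/

/-- the bit of the heavier block -/
def hvy (A : Finset ι) (b : ι → Bool) : Bool := decide ((blk A b false).card < (blk A b true).card)

lemma hvy_card (A : Finset ι) (b : ι → Bool) :
    (blk A b (!hvy A b)).card ≤ (blk A b (hvy A b)).card := by
  unfold hvy
  by_cases h : (blk A b false).card < (blk A b true).card
  · simp [h, le_of_lt]
  · simp [h]
    omega

/-- the heavy child first order -/
noncomputable def ordL : (D : ℕ) → Finset ι → (ι → Pos D) → List ι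
  | 0, A, _ => A.toList
  | D + 1, A, w => ordL D (blk A (hd w) (hvy A (hd w))) (tl w) ++
      ordL D (blk A (hd w) (!hvy A (hd w))) (tl w)

lemma card_blk' (S : Finset ι) (b : ι → Bool) (γ : Bool) :
    (blk S b γ).card + (blk S b (!γ)).card = S.card := by
  have := card_blk S b
  cases γ
  · simpa using this
  · simp only [Bool.not_true]
    omega

lemma blk_union (S : Finset ι) (b : ι → Bool) (γ : Bool) :
    blk S b γ ∪ blk S b (!γ) = S := by
  ext i
  simp only [mem_union, mem_blk]
  cases h : b i <;> cases γ <;> simp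

lemma ordL_toFinset (D : ℕ) : ∀ (A : Finset ι) (w : ι → Pos D), (ordL D A w).toFinset = A := by
  induction D with
  | zero => intro A w; simp [ordL]
  | succ D ih =>
    intro A w
    simp only [ordL, List.toFinset_append, ih]
    exact blk_union _ _ _

lemma ordL_nodup (D : ℕ) : ∀ (A : Finset ι) (w : ι → Pos D), (ordL D A w).Nodup := by
  induction D with
  | zero => intro A w; simpa [ordL] using A.nodup_toList
  | succ D ih =>
    intro A w
    simp only [ordL]
    refine List.Nodup.append (ih _ _) (ih _ _) ?_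
    intro i hi hi'
    have h1 : i ∈ (ordL D (blk A (hd w) (hvy A (hd w))) (tl w)).toFinset := List.mem_toFinset.mpr hi
    have h2 : i ∈ (ordL D (blk A (hd w) (!hvy A (hd w))) (tl w)).toFinset := List.mem_toFinset.mpr hi'
    rw [ordL_toFinset] at h1 h2
    have h3 := (mem_blk.mp h1).2
    have h4 := (mem_blk.mp h2).2
    rw [h3] at h4
    cases hh : hvy A (hd w) <;> simp [hh] at h4

lemma mem_ordL {D : ℕ} {A : Finset ι} {w : ι → Pos D} {j : ι} (h : j ∈ ordL D A w) : j ∈ A := by
  have := List.mem_toFinset.mpr h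
  rwa [ordL_toFinset] at this

/-- the sum of the powers of two of the number of forced bits -/
theorem sumT_le (D : ℕ) : ∀ (A : Finset ι) (w : ι → Pos D),
    sumF (fun S j => (2:ℝ) ^ cD D S j w) ∅ (ordL D A w) ≤ A.card * (3 / 2 : ℝ) ^ D := by
  induction D with
  | zero =>
    intro A w
    have e : (fun (S : Finset ι) (j : ι) => (2:ℝ) ^ cD 0 S j w) = fun _ _ => 1 := by
      funext S j
      simp [cD]
    simp only [e, sumF_const_one, ordL, Finset.length_toList, pow_zero, mul_one]
    exact le_refl _
  | succ D ih =>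
    intro A w
    set γ := hvy A (hd w) with hγ
    set A0 := blk A (hd w) γ with hA0
    set A1 := blk A (hd w) (!γ) with hA1
    have hcard : A1.card ≤ A0.card := hvy_card A (hd w)
    have hsum : A0.card + A1.card = A.card := card_blk' A (hd w) γ
    set G : Finset ι → ι → ℝ := fun S j => (2:ℝ) ^ cD D S j (tl w) with hG
    have e0 : ordL (D + 1) A w = ordL D A0 (tl w) ++ ordL D A1 (tl w) := rfl
    rw [e0, sumF_append, ordL_toFinset, empty_union]
    have h0 : sumF (fun S j => (2:ℝ) ^ cD (D + 1) S j w) ∅ (ordL D A0 (tl w)) ≤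
        1 * sumF G (blk ∅ (hd w) γ) (ordL D A0 (tl w)) := by
      refine sumF_le_block _ _ (by norm_num) (hd w) γ _ ∅ (fun j hj => (mem_blk.mp (mem_ordL hj)).2) ?_
      intro S hS j hj
      rw [ordL_toFinset, empty_union] at hS
      have hjb := (mem_blk.mp (mem_ordL hj)).2
      have hc : cD (D + 1) S j w = 0 + cD D (blk S (hd w) γ) j (tl w) := by
        show (if ∃ i ∈ S, hd w i ≠ hd w j then 1 else 0) + cD D (blk S (hd w) (hd w j)) j (tl w) = _
        rw [if_neg, hjb]
        rintro ⟨i, hi, hne⟩
        exact hne (by rw [hjb]; exact (mem_blk.mp (hS hi)).2)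
      rw [hc]
      simp [hG]
    have h1 : sumF (fun S j => (2:ℝ) ^ cD (D + 1) S j w) A0 (ordL D A1 (tl w)) ≤
        2 * sumF G (blk A0 (hd w) (!γ)) (ordL D A1 (tl w)) := by
      refine sumF_le_block _ _ (by norm_num) (hd w) (!γ) _ A0 (fun j hj => (mem_blk.mp (mem_ordL hj)).2) ?_
      intro S hS j hj
      have hjb := (mem_blk.mp (mem_ordL hj)).2
      show (2:ℝ) ^ ((if ∃ i ∈ S, hd w i ≠ hd w j then 1 else 0) + cD D (blk S (hd w) (hd w j)) j (tl w)) ≤ _
      rw [hjb, pow_add]
      apply mul_le_mul_of_nonneg_right _ (by positivity)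
      split_ifs <;> norm_num
    have hemp : blk A0 (hd w) (!γ) = ∅ := by
      ext i
      simp only [mem_blk, notMem_empty, iff_false, not_and]
      intro hi
      have := (mem_blk.mp hi).2
      rw [this]
      cases γ <;> simp
    rw [hemp] at h1
    rw [blk_empty, one_mul] at h0
    have h2 := ih A0 (tl w)
    have h3 := ih A1 (tl w)
    have hp : (0:ℝ) < (3 / 2 : ℝ) ^ D := by positivity
    have hc1 : (A1.card : ℝ) ≤ A0.card := by exact_mod_cast hcard
    have hc2 : (A.card : ℝ) = A0.card + A1.card := by exact_mod_cast hsum.symm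
    rw [hc2, pow_succ]
    have h4 : sumF (fun S j => (2:ℝ) ^ cD (D + 1) S j w) ∅ (ordL D A0 (tl w)) +
        sumF (fun S j => (2:ℝ) ^ cD (D + 1) S j w) A0 (ordL D A1 (tl w)) ≤
        (A0.card + 2 * A1.card) * (3 / 2 : ℝ) ^ D := by
      have h5 : sumF G ∅ (ordL D A1 (tl w)) ≤ A1.card * (3 / 2 : ℝ) ^ D := h3
      have h6 : sumF G ∅ (ordL D A0 (tl w)) ≤ A0.card * (3 / 2 : ℝ) ^ D := h2
      nlinarith
    refine h4.trans ?_
    nlinarith

/-- the total cost per mark -/
noncomputable def epsF (z : ℝ) : ℕ → ℕ → ℝ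
  | 0, _ => 0
  | _ + 1, 0 => 0
  | D + 1, r + 1 => epsF z D r + (z - 1) * z ^ r * (3 / 4 : ℝ) ^ D

lemma epsF_zero_right (z : ℝ) (D : ℕ) : epsF z D 0 = 0 := by
  cases D <;> rfl

theorem sumE_le {z : ℝ} (hz : 1 ≤ z) (D : ℕ) : ∀ (r : ℕ) (A : Finset ι) (w : ι → Pos D),
    sumF (fun S j => eSL z D r S j w) ∅ (ordL D A w) ≤ A.card * epsF z D r := by
  induction D with
  | zero =>
    intro r A w
    rw [sumF_zero (fun S j => eSL z 0 r S j w) (fun S j => rfl)]
    simp [epsF]
  | succ D ih =>
    intro r A w
    cases r with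
    | zero =>
      rw [sumF_zero (fun S j => eSL z (D + 1) 0 S j w) (fun S j => eSL_zero_right z (D + 1) S j w), epsF_zero_right]
      simp
    | succ r =>
      set γ := hvy A (hd w) with hγ
      set A0 := blk A (hd w) γ with hA0
      set A1 := blk A (hd w) (!γ) with hA1
      have hsum : A0.card + A1.card = A.card := card_blk' A (hd w) γ
      set κ : ℝ := (z - 1) * z ^ r / (2:ℝ) ^ D with hκ
      have hκ0 : 0 ≤ κ := by
        have : 0 ≤ z - 1 := by linarith
        positivity
      set G : Finset ι → ι → ℝ := fun U j => eSL z D r U j (tl w) + κ * ((2:ℝ) ^ cD D U j (tl w)) with hG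
      have hF : ∀ (β : Bool) (S : Finset ι) (j : ι), hd w j = β → eSL z (D + 1) (r + 1) S j w ≤
          1 * G (blk S (hd w) β) j := by
        intro β S j hj
        rw [eSL_succ, hj, one_mul, hG, hκ]
        apply le_of_eq
        simp only
        rw [div_eq_mul_inv, div_eq_mul_inv]
        ring
      have e0 : ordL (D + 1) A w = ordL D A0 (tl w) ++ ordL D A1 (tl w) := rfl
      rw [e0, sumF_append, ordL_toFinset, empty_union]
      have h0 : sumF (fun S j => eSL z (D + 1) (r + 1) S j w) ∅ (ordL D A0 (tl w)) ≤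
          1 * sumF G (blk ∅ (hd w) γ) (ordL D A0 (tl w)) :=
        sumF_le_block _ _ (by norm_num) (hd w) γ _ ∅ (fun j hj => (mem_blk.mp (mem_ordL hj)).2)
          fun S _ j hj => hF γ S j (mem_blk.mp (mem_ordL hj)).2
      have h1 : sumF (fun S j => eSL z (D + 1) (r + 1) S j w) A0 (ordL D A1 (tl w)) ≤
          1 * sumF G (blk A0 (hd w) (!γ)) (ordL D A1 (tl w)) :=
        sumF_le_block _ _ (by norm_num) (hd w) (!γ) _ A0 (fun j hj => (mem_blk.mp (mem_ordL hj)).2)
          fun S _ j hj => hF (!γ) S j (mem_blk.mp (mem_ordL hj)).2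
      have hemp : blk A0 (hd w) (!γ) = ∅ := by
        ext i
        simp only [mem_blk, notMem_empty, iff_false, not_and]
        intro hi
        have := (mem_blk.mp hi).2
        rw [this]
        cases γ <;> simp
      rw [hemp] at h1
      rw [blk_empty] at h0
      have e1 : ∀ (B : Finset ι), sumF G ∅ (ordL D B (tl w)) ≤
          B.card * (epsF z D r + κ * (3 / 2 : ℝ) ^ D) := by
        intro B
        rw [hG, sumF_add]
        have h2 := ih r B (tl w)
        have h3 := sumT_le D B (tl w)
        have h4 := mul_le_mul_of_nonneg_left h3 hκ0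
        calc _ ≤ (B.card : ℝ) * epsF z D r + κ * ((B.card : ℝ) * (3 / 2 : ℝ) ^ D) := add_le_add h2 h4
          _ = _ := by ring
      have e2 : κ * (3 / 2 : ℝ) ^ D = (z - 1) * z ^ r * (3 / 4 : ℝ) ^ D := by
        rw [hκ, show (3 / 4 : ℝ) = (3 / 2) / 2 by norm_num, div_pow (3 / 2 : ℝ) 2 D]
        have : (2:ℝ) ^ D ≠ 0 := by positivity
        field_simp
      have hc2 : (A.card : ℝ) = A0.card + A1.card := by exact_mod_cast hsum.symm
      have e3 : epsF z (D + 1) (r + 1) = epsF z D r + κ * (3 / 2 : ℝ) ^ D := by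
        rw [e2]
        rfl
      rw [e3, hc2, add_mul]
      have h5 := e1 A0
      have h6 := e1 A1
      linarith

/-- the reveal bound -/
theorem reveal_bound {q : ℝ} (hq : 0 < q) (D r : ℕ) (A : Finset ι) (x w : ι → Pos D)
    (hτ : tauD D A x w ≠ 0) (hw : InjF w A) :
    avg (fun y => tauD D A y w * tiltD q D r A A x y w) ≤
      Real.exp (A.card * epsF ((2:ℝ) ^ q) D r) := by
  have h := reveal_chain hq D r A x w hτ hw (ordL D A w) ∅ (ordL_nodup D A w) (by simp)
    (fun j hj => mem_ordL hj) (empty_subset _)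
  rw [empty_union, ordL_toFinset] at h
  refine h.trans ?_
  have e : avg (fun y => tauD D (∅ : Finset ι) y w * tiltD q D r A ∅ x y w) = 1 := by
    simp only [tauD_empty, tiltD_empty, mul_one, avg_const]
  rw [e, mul_one]
  apply Real.exp_le_exp.mpr
  exact sumE_le (Real.one_le_rpow (by norm_num) hq.le) D r A w

/-- the closed form of the cost per mark -/
lemma epsF_le {z : ℝ} (hz : 1 ≤ z) (hz2 : 3 * z / 4 < 1) (D : ℕ) : ∀ r : ℕ, r ≤ D →
    epsF z D r * (1 - 3 * z / 4) ≤ (z - 1) * (3 / 4 : ℝ) ^ (D - r) * (1 - (3 * z / 4) ^ r) := by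
  induction D with
  | zero =>
    intro r hr
    have : r = 0 := by omega
    subst this
    simp [epsF]
  | succ D ih =>
    intro r hr
    cases r with
    | zero => simp [epsF_zero_right]
    | succ r =>
      have h1 := ih r (by omega)
      have e : D + 1 - (r + 1) = D - r := by omega
      rw [e]
      have e2 : epsF z (D + 1) (r + 1) = epsF z D r + (z - 1) * z ^ r * (3 / 4 : ℝ) ^ D := rfl
      rw [e2, add_mul]
      have e3 : (3 / 4 : ℝ) ^ D = (3 / 4 : ℝ) ^ (D - r) * (3 / 4 : ℝ) ^ r := by
        rw [← pow_add]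
        congr 1
        omega
      have e4 : (3 * z / 4) ^ r = z ^ r * (3 / 4 : ℝ) ^ r := by
        rw [← mul_pow]
        congr 1
        ring
      rw [e3]
      have e5 : (3 * z / 4) ^ (r + 1) = (3 * z / 4) * (z ^ r * (3 / 4 : ℝ) ^ r) := by
        rw [pow_succ, e4]
        ring
      rw [e5]
      rw [e4] at h1
      refine le_trans (add_le_add_left h1 _) (le_of_eq ?_)
      ring

end Vale.Agent.Lib.P162
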