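import Vale.Agent.Lib.P162.Seq4

/-!
# The moments of the two sided kernel with a gain at low density
-/

namespace Vale.Agent.Lib.P162

open Equiv Finset

set_option linter.unusedSectionVars false
set_option linter.unusedSimpArgs false
set_option linter.unusedVariables false

variable {ι : Type*} [Fintype ι] [DecidableEq ι]

/-! ### crude bounds -/

lemma cD_empty (D : ℕ) : ∀ (j : ι) (w : ι → Pos D), cD D ∅ j w = 0 := by
  induction D with
  | zero => intro j w; rfl
  | succ D ih =>
    intro j w
    show (if ∃ i ∈ (∅ : Finset ι), hd w i ≠ hd w j then 1 else 0) + cD D (blk ∅ (hd w) (hd w j)) j (tl w) = 0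
    rw [blk_empty, ih]
    simp

lemma tauD_singleton_le (D : ℕ) (j : ι) (y w : ι → Pos D) : tauD D {j} y w ≤ 1 := by
  have h := tau_insert_le D (S := ∅) (j := j) (by simp) y w (by
    intro i hi k hk _
    simp only [insert_empty_eq, mem_singleton] at hi hk
    rw [hi, hk])
  rw [tauD_empty, cD_empty, pow_zero, mul_one] at h
  simpa using h

lemma tauD_le_pred (D : ℕ) (S : Finset ι) (y w : ι → Pos D) :
    tauD D S y w ≤ ((2:ℝ) ^ D) ^ (S.card - 1) := by
  rcases S.eq_empty_or_nonempty with rfl | ⟨j, hj⟩
  · rw [tauD_empty]; simp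
  · have h1 : hitP D S y w ≤ hitP D {j} y w := by
      unfold hitP
      refine Exp_mono D fun g => ?_
      by_cases h : ∀ i ∈ S, g (y i) = w i
      · rw [if_pos h, if_pos]
        intro i hi
        rw [mem_singleton.mp hi]
        exact h j hj
      · rw [if_neg h]
        split_ifs <;> norm_num
    have hc : 1 ≤ S.card := card_pos.mpr ⟨j, hj⟩
    have h2 := tauD_singleton_le D j y w
    have e : ((2:ℝ) ^ D) ^ S.card = ((2:ℝ) ^ D) ^ (S.card - 1) * (2:ℝ) ^ D := by
      rw [← pow_succ]
      congr 1
      omega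
    unfold tauD at h2 ⊢
    rw [card_singleton, pow_one] at h2
    rw [e]
    calc ((2:ℝ) ^ D) ^ (S.card - 1) * (2:ℝ) ^ D * hitP D S y w
        ≤ ((2:ℝ) ^ D) ^ (S.card - 1) * (2:ℝ) ^ D * hitP D {j} y w :=
          mul_le_mul_of_nonneg_left h1 (by positivity)
      _ = ((2:ℝ) ^ D) ^ (S.card - 1) * ((2:ℝ) ^ D * hitP D {j} y w) := by ring
      _ ≤ ((2:ℝ) ^ D) ^ (S.card - 1) * 1 := mul_le_mul_of_nonneg_left h2 (by positivity)
      _ = _ := mul_one _

lemma betaD_le_pred (D : ℕ) (S : Finset ι) (x y : ι → Pos D) :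
    betaD D S x y ≤ ((2:ℝ) ^ D) ^ (S.card - 1) := by
  unfold betaD
  have h : ∀ w, tauD D S x w * tauD D S y w ≤ tauD D S x w * ((2:ℝ) ^ D) ^ (S.card - 1) := fun w =>
    mul_le_mul_of_nonneg_left (tauD_le_pred _ _ _ _) (tauD_nonneg _ _ _ _)
  refine (avg_mono h).trans ?_
  rw [avg_mul_right, avg_tauD_right, one_mul]

/-! ### the number of collisions -/

/-- the number of marks sharing a block after `r` levels, beyond the first of each block -/
def colC : (D r : ℕ) → Finset ι → (ι → Pos D) → ℕ
  | 0, _, S, _ => S.card - 1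
  | _ + 1, 0, S, _ => S.card - 1
  | D + 1, r + 1, S, w => colC D r (blk S (hd w) false) (tl w) + colC D r (blk S (hd w) true) (tl w)

lemma colC_zero_right (D : ℕ) (S : Finset ι) (w : ι → Pos D) : colC D 0 S w = S.card - 1 := by
  cases D <;> rfl

lemma colC_succ (D r : ℕ) (S : Finset ι) (w : ι → Pos (D + 1)) :
    colC (D + 1) (r + 1) S w =
      colC D r (blk S (hd w) false) (tl w) + colC D r (blk S (hd w) true) (tl w) := rfl

lemma blk_congr {S : Finset ι} {b b' : ι → Bool} (h : ∀ i ∈ S, b i = b' i) (γ : Bool) :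
    blk S b γ = blk S b' γ := by
  unfold blk
  exact filter_congr fun i hi => by rw [h i hi]

lemma hd_congr {D : ℕ} {S : Finset ι} {w w' : ι → Pos (D + 1)} (h : ∀ i ∈ S, w i = w' i) :
    ∀ i ∈ S, hd w i = hd w' i := fun i hi => by
  show w i 0 = w' i 0
  rw [h i hi]

lemma tl_congr {D : ℕ} {S : Finset ι} {w w' : ι → Pos (D + 1)} (h : ∀ i ∈ S, w i = w' i) :
    ∀ i ∈ S, tl w i = tl w' i := fun i hi => by
  show Fin.tail (w i) = Fin.tail (w' i)
  rw [h i hi]

lemma colC_congr (D : ℕ) : ∀ (r : ℕ) (S : Finset ι) {w w' : ι → Pos D}, (∀ i ∈ S, w i = w' i) →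
    colC D r S w = colC D r S w' := by
  induction D with
  | zero => intro r S w w' _; rfl
  | succ D ih =>
    intro r S w w' h
    cases r with
    | zero => rfl
    | succ r =>
      rw [colC_succ, colC_succ, blk_congr (hd_congr h), blk_congr (hd_congr h)]
      have ht := tl_congr h
      rw [ih r _ (fun i hi => ht i (blk_subset _ _ _ hi)), ih r _ (fun i hi => ht i (blk_subset _ _ _ hi))]

lemma tiltD_congr_w (q : ℝ) (D : ℕ) : ∀ (r : ℕ) (A S : Finset ι) (x y : ι → Pos D) {w w' : ι → Pos D},
    S ⊆ A → (∀ i ∈ A, w i = w' i) → tiltD q D r A S x y w = tiltD q D r A S x y w' := by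
  induction D with
  | zero => intro r A S x y w w' _ _; rfl
  | succ D ih =>
    intro r A S x y w w' hS h
    cases r with
    | zero => rw [tiltD_zero_right, tiltD_zero_right]
    | succ r =>
      have hh := hd_congr h
      have ht := tl_congr h
      rw [tiltD_succ, tiltD_succ, blk_congr hh, blk_congr hh,
        blk_congr (S := S) (fun i hi => hh i (hS hi)), blk_congr (S := S) (fun i hi => hh i (hS hi))]
      have e : rrA D A S (hd x) (tl x) (hd w) (tl y) = rrA D A S (hd x) (tl x) (hd w') (tl y) := by
        unfold rrA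
        refine avg_congr fun a => ?_
        rw [wtD_congr (S := S) (f := hd w) (f' := hd w') (t := tl y) (t' := tl y) (a := a) (a' := a)
          (fun i hi => hh i (hS hi)) (fun _ _ => rfl) (fun _ _ => rfl)]
      rw [e, ih r _ _ _ _ (blk_mono hS _ _) (fun i hi => ht i (blk_subset _ _ _ hi)),
        ih r _ _ _ _ (blk_mono hS _ _) (fun i hi => ht i (blk_subset _ _ _ hi))]

/-! ### the Jensen inequality for the tilted kernel -/

theorem tilt_jensen {q : ℝ} (hq : 0 < q) (D : ℕ) : ∀ (r : ℕ) (S : Finset ι) (x y : ι → Pos D) {Y : ℝ},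
    1 ≤ Y → ((2:ℝ) ^ (D - r)) ^ q ≤ Y →
    betaD D S x y ^ (1 + q) ≤ avg (fun w => tauD D S x w * tauD D S y w * tiltD q D r S S x y w *
      Y ^ colC D r S w) := by
  induction D with
  | zero =>
    intro r S x y Y hY1 hY
    have hb : betaD 0 S x y = 1 := by
      unfold betaD
      simp only [tauD_zero, mul_one, avg_const]
    rw [hb, Real.one_rpow]
    simp only [tauD_zero, tiltD_zero_left, mul_one, one_mul]
    calc (1:ℝ) = avg (fun _ : ι → Pos 0 => (1:ℝ)) := (avg_const 1).symm
      _ ≤ _ := avg_mono fun w => one_le_pow₀ hY1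
  | succ D ih =>
    intro r S x y Y hY1 hY
    cases r with
    | zero =>
      simp only [tiltD_zero_right, mul_one, colC_zero_right]
      rw [avg_mul_right]
      show betaD (D + 1) S x y ^ (1 + q) ≤ betaD (D + 1) S x y * _
      have hb0 := betaD_nonneg (D + 1) S x y
      rcases hb0.eq_or_lt with hz | hp
      · rw [← hz, Real.zero_rpow (by linarith)]
        simp
      · rw [Real.rpow_add hp, Real.rpow_one]
        apply mul_le_mul_of_nonneg_left _ hb0
        have h1 := betaD_le_pred (D + 1) S x y
        have h2 := Real.rpow_le_rpow hb0 h1 hq.le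
        refine h2.trans ?_
        rw [← Real.rpow_natCast, ← Real.rpow_mul (by positivity), mul_comm, Real.rpow_mul (by positivity),
          Real.rpow_natCast]
        exact pow_le_pow_left₀ (by positivity) (by simpa using hY) _
    | succ r =>
      have hY' : ((2:ℝ) ^ (D - r)) ^ q ≤ Y := by
        have e : D + 1 - (r + 1) = D - r := by omega
        rwa [e] at hY
      set ρ := rrA D S S (hd x) (tl x) (hd y) (tl y) with hρ
      set W1 : (ι → Bool) → ℝ := fun b => wtD D S (hd x) (tl x) b with hW1
      set W2 : (ι → Bool) → ℝ := fun b => wtD D S (hd y) (tl y) b with hW2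
      have hW10 : ∀ b, 0 ≤ W1 b := fun b => wtD_nonneg _ _ _ _ _
      have hW20 : ∀ b, 0 ≤ W2 b := fun b => wtD_nonneg _ _ _ _ _
      set F : Bool → (ι → Bool) → (ι → Pos D) → ℝ := fun γ b t =>
        tauD D (blk S b γ) (tl x) t * tauD D (blk S b γ) (tl y) t *
          tiltD q D r (blk S b γ) (blk S b γ) (tl x) (tl y) t * Y ^ colC D r (blk S b γ) t with hF
      have hF0 : ∀ γ b t, 0 ≤ F γ b t := fun γ b t =>
        mul_nonneg (mul_nonneg (mul_nonneg (tauD_nonneg _ _ _ _) (tauD_nonneg _ _ _ _))
          (tiltD_nonneg _ _ _ _ _ _ _ _)) (by positivity)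
      -- the right hand side
      have hRHS : avg (fun w => tauD (D + 1) S x w * tauD (D + 1) S y w * tiltD q (D + 1) (r + 1) S S x y w *
          Y ^ colC (D + 1) (r + 1) S w) = avg fun b => W1 b * W2 b *
            rrA D S S (hd x) (tl x) b (tl y) ^ q * (avg (F false b) * avg (F true b)) := by
        rw [avg_tup]
        refine avg_congr fun b => ?_
        have e : ∀ t : ι → Pos D, tauD (D + 1) S x (joinT b t) * tauD (D + 1) S y (joinT b t) *
            tiltD q (D + 1) (r + 1) S S x y (joinT b t) * Y ^ colC (D + 1) (r + 1) S (joinT b t) =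
            W1 b * W2 b * rrA D S S (hd x) (tl x) b (tl y) ^ q * (F false b t * F true b t) := by
          intro t
          rw [tauD_succ, tauD_succ, tiltD_succ, colC_succ]
          simp only [hd_joinT, tl_joinT, hF, hW1, hW2]
          rw [pow_add]
          ring
        simp only [e]
        rw [avg_mul_left]
        congr 1
        refine avg_indep (blk S b false) ?_ ?_
        · intro t t' h
          simp only [hF]
          rw [tauD_congr_right D _ _ h, tauD_congr_right D _ _ h,
            tiltD_congr_w q D r _ _ _ _ (Subset.refl _) h, colC_congr D r _ h]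
        · intro t t' h
          have h' : ∀ i ∈ blk S b true, t i = t' i := by
            intro i hi
            apply h
            intro hf
            have h1 := (mem_blk.mp hi).2
            have h2 := (mem_blk.mp hf).2
            rw [h1] at h2
            exact absurd h2 (by simp)
          simp only [hF]
          rw [tauD_congr_right D _ _ h', tauD_congr_right D _ _ h',
            tiltD_congr_w q D r _ _ _ _ (Subset.refl _) h', colC_congr D r _ h']
      rw [hRHS, betaD_succ]
      -- Jensen
      have hj := avg_jensen (p := 1 + q) (by linarith) (w := fun b => W1 b * W2 b)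
        (u := fun b => betaD D (blk S b false) (tl x) (tl y) * betaD D (blk S b true) (tl x) (tl y))
        (fun b => mul_nonneg (hW10 b) (hW20 b))
        (fun b => mul_nonneg (betaD_nonneg _ _ _ _) (betaD_nonneg _ _ _ _))
      have e2 : (1 + q - 1) = q := by ring
      rw [e2] at hj
      refine hj.trans ?_
      have hρ0 : 0 ≤ ρ := rrA_nonneg _ _ _ _ _ _ _
      have hρq : 0 ≤ ρ ^ q := Real.rpow_nonneg hρ0 _
      have hav : avg (fun b => W1 b * W2 b) = ρ := rfl
      rw [hav, ← avg_mul_left]
      refine avg_mono fun b => ?_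
      have e3 : W1 b * W2 b * rrA D S S (hd x) (tl x) b (tl y) ^ q = W1 b * W2 b * ρ ^ q := by
        by_cases h : W2 b = 0
        · rw [h]; simp
        · have : rrA D S S (hd x) (tl x) b (tl y) = ρ := by
            rw [hρ]
            unfold rrA
            refine avg_congr fun a => ?_
            rw [wtD_shift (f := hd y) h a]
          rw [this]
      rw [e3]
      have h1 : betaD D (blk S b false) (tl x) (tl y) ^ (1 + q) ≤ avg (F false b) :=
        ih r _ _ _ hY1 hY'
      have h2 : betaD D (blk S b true) (tl x) (tl y) ^ (1 + q) ≤ avg (F true b) :=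
        ih r _ _ _ hY1 hY'
      rw [Real.mul_rpow (betaD_nonneg _ _ _ _) (betaD_nonneg _ _ _ _)]
      have h3 : betaD D (blk S b false) (tl x) (tl y) ^ (1 + q) * betaD D (blk S b true) (tl x) (tl y) ^ (1 + q)
          ≤ avg (F false b) * avg (F true b) :=
        mul_le_mul h1 h2 (Real.rpow_nonneg (betaD_nonneg _ _ _ _) _) (avg_nonneg (hF0 _ _))
      have h4 := mul_nonneg (hW10 b) (hW20 b)
      calc ρ ^ q * (W1 b * W2 b * (betaD D (blk S b false) (tl x) (tl y) ^ (1 + q) *
            betaD D (blk S b true) (tl x) (tl y) ^ (1 + q)))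
          ≤ ρ ^ q * (W1 b * W2 b * (avg (F false b) * avg (F true b))) :=
            mul_le_mul_of_nonneg_left (mul_le_mul_of_nonneg_left h3 h4) hρq
        _ = _ := by ring

end Vale.Agent.Lib.P162
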