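import Vale.Agent.Lib.P162.Seq6
import Vale.Agent.Lib.P162.Final2

/-!
# Comparison of the levels through the tuples of more marks
-/

namespace Vale.Agent.Lib.P162

open Equiv Finset Matrix
open scoped InnerProductSpace

set_option linter.unusedSectionVars false
set_option linter.unusedSimpArgs false
set_option linter.unusedVariables false

variable {ι κ : Type*} [Fintype ι] [DecidableEq ι] [Fintype κ] [DecidableEq κ] {D : ℕ}

/-! ### the Frobenius norm from a moment bound -/

lemma KK_sum_rpow (x : MT ι D) {q : ℝ} (hq : 0 < q) :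
    ∑ y : MT ι D, KK ι D x y ^ (1 + q) ≤
      (((2 : ℝ) ^ D) ^ Fintype.card ι) ^ (-q) * normP D Finset.univ x.1 (1 + q) := by
  set m : ℝ := ((2 : ℝ) ^ D) ^ Fintype.card ι with hm
  have hm0 : 0 < m := by positivity
  have hinj : InjF x.1 Finset.univ := fun i _ j _ h => x.2 h
  have h2 : ∀ y : MT ι D, KK ι D x y ^ (1 + q) = m ^ (-(1 + q)) * betaD D Finset.univ x.1 y.1 ^ (1 + q) := by
    intro y
    rw [KK_eq_beta, ← hm, Real.mul_rpow hm0.le (KK_nonneg _ _), ← mul_assoc, ← Real.rpow_add hm0]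
    simp
  simp only [h2]
  rw [← mul_sum]
  have h3 : ∑ y : MT ι D, betaD D Finset.univ x.1 y.1 ^ (1 + q) ≤ m * normP D Finset.univ x.1 (1 + q) := by
    unfold normP avg
    rw [card_tuples, ← hm, ← mul_assoc, mul_inv_cancel₀ hm0.ne', one_mul, sum_MT (F := fun y => betaD D Finset.univ x.1 y ^ (1 + q))]
    intro y hy
    have h4 : betaD D Finset.univ x.1 y = 0 := by
      unfold Function.Injective at hy
      push Not at hy
      obtain ⟨i, j, hij, hne⟩ := hy
      exact betaD_eq_zero D Finset.univ hinj.injOn (mem_coe.mp (mem_univ i)) (mem_coe.mp (mem_univ j)) hne hij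
    rw [h4, Real.zero_rpow (by linarith)]
  have h5 : m ^ (-(1 + q)) * m = m ^ (-q) := by
    nth_rewrite 2 [← Real.rpow_one m]
    rw [← Real.rpow_add hm0]
    congr 1
    ring
  calc m ^ (-(1 + q)) * ∑ y : MT ι D, betaD D Finset.univ x.1 y.1 ^ (1 + q)
      ≤ m ^ (-(1 + q)) * (m * normP D Finset.univ x.1 (1 + q)) :=
        mul_le_mul_of_nonneg_left h3 (by positivity)
    _ = m ^ (-q) * normP D Finset.univ x.1 (1 + q) := by rw [← mul_assoc, h5]

/-- the Frobenius norm of a power of the transition matrix from a moment bound -/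
theorem frob_new (a : ℕ) {Γ : ℝ}
    (hΓ : ∀ x : MT ι D, normP D Finset.univ x.1 (1 + 1 / ((2:ℝ) ^ (a + 1) - 1)) ≤ Real.exp Γ) :
    trace ((AA ι D) ^ (2 ^ (a + 1)) * (((AA ι D) ^ (2 ^ (a + 1)))ᵀ)) ≤
      (Fintype.card (MT ι D) : ℝ) *
        ((((2:ℝ) ^ D) ^ Fintype.card ι)⁻¹ * Real.exp (((2:ℝ) ^ (a + 1) - 1) * Γ)) := by
  classical
  refine (power_bound (AA ι D) (a + 1)).trans ?_
  set G : ℝ := (2 : ℝ) ^ (a + 1) - 1 with hG
  have hG0 : 0 < G := by
    have : (1:ℝ) < 2 ^ (a + 1) := one_lt_pow₀ (by norm_num) (by omega)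
    rw [hG]
    linarith
  set q : ℝ := 1 / G with hq
  have hq0 : 0 < q := by positivity
  have hqG : q * G = 1 := by
    rw [hq]; field_simp
  set m : ℝ := ((2 : ℝ) ^ D) ^ Fintype.card ι with hm
  have hm0 : 0 < m := by positivity
  set L : ℝ := m ^ (-q) * Real.exp Γ with hL
  have hL0 : 0 ≤ L := by positivity
  have hKL : ∀ x : MT ι D, ∑ y, KK ι D x y ^ pexp (a + 1) 0 ≤ L := by
    intro x
    rw [pexp_eq, ← hG, ← hq]
    refine (KK_sum_rpow x hq0).trans ?_
    exact mul_le_mul_of_nonneg_left (hΓ x) (by positivity)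
  have hY : ∀ x : MT ι D, ∑ y, ((KK ι D) ^ (2 ^ a)) x y ^ 2 ≤ L ^ G :=
    fun x => young_final (KK ι D) KK_nonneg KK_symm a L hL0 hKL x
  have hLG : L ^ G = m⁻¹ * Real.exp (G * Γ) := by
    rw [hL, Real.mul_rpow (by positivity) (by positivity), ← Real.rpow_mul hm0.le, ← Real.exp_mul]
    have e1 : -q * G = -1 := by rw [neg_mul, hqG]
    rw [e1, Real.rpow_neg_one, mul_comm Γ G]
  set P := (KK ι D) ^ (2 ^ a) with hP
  have hPsym : Pᵀ = P := by
    rw [hP, transpose_pow]
    congr 1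
    ext x y
    exact KK_symm y x
  have e1 : (AA ι D * (AA ι D)ᵀ) ^ (2 ^ (a + 1)) = P * Pᵀ := by
    rw [hPsym, hP, ← pow_add, pow_succ]
    congr 1
    ring
  rw [e1, tr_mul_transpose]
  calc ∑ x, ∑ y, P x y ^ 2 ≤ ∑ _x : MT ι D, (m⁻¹ * Real.exp (G * Γ)) :=
        sum_le_sum fun x _ => (hY x).trans (le_of_eq hLG)
    _ = (Fintype.card (MT ι D) : ℝ) * (m⁻¹ * Real.exp (G * Γ)) := by
        rw [sum_const, card_univ, nsmul_eq_mul]

/-! ### lifting functions of tuples -/

/-- the function of the tuple of more marks through an embedding of the marks -/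
noncomputable def liftT (e : ι → κ) (f : TupSp ι (Pos D)) : TupSp κ (Pos D) :=
  WithLp.toLp 2 (fun x => f (fun i => x (e i)))

lemma liftT_apply (e : ι → κ) (f : TupSp ι (Pos D)) (x : κ → Pos D) :
    liftT e f x = f (fun i => x (e i)) := rfl

lemma QT_liftT (e : ι → κ) (f : TupSp ι (Pos D)) : QT κ D (liftT e f) = liftT e (QT ι D f) := by
  ext x
  rw [QT_apply, liftT_apply, QT_apply]
  rfl

lemma QT_pow_liftT (e : ι → κ) (N : ℕ) : ∀ f : TupSp ι (Pos D),
    ((QT κ D) ^ N) (liftT e f) = liftT e (((QT ι D) ^ N) f) := by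
  induction N with
  | zero => intro f; simp
  | succ N ih =>
    intro f
    rw [pow_succ, mul_ap, QT_liftT, ih, pow_succ, mul_ap]

/-- restriction to a subset of the marks preserves the uniform law -/
lemma avg_comp_inj {X : Type*} [Fintype X] [Nonempty X] (e : ι → κ) (he : Function.Injective e)
    (G : (ι → X) → ℝ) : avg (fun x : κ → X => G (fun i => x (e i))) = avg G := by
  classical
  let E : (κ → X) × (ι → X) ≃ (κ → X) × (ι → X) :=
    { toFun := fun p => (Function.extend e p.2 p.1, fun i => p.1 (e i))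
      invFun := fun p => (Function.extend e p.2 p.1, fun i => p.1 (e i))
      left_inv := by
        rintro ⟨x, u⟩
        ext k
        · by_cases hk : ∃ i, e i = k
          · obtain ⟨i, rfl⟩ := hk
            simp [he.extend_apply]
          · simp [Function.extend_apply' _ _ _ hk]
        · simp [he.extend_apply]
      right_inv := by
        rintro ⟨x, u⟩
        ext k
        · by_cases hk : ∃ i, e i = k
          · obtain ⟨i, rfl⟩ := hk
            simp [he.extend_apply]
          · simp [Function.extend_apply' _ _ _ hk]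
        · simp [he.extend_apply] }
  have h1 := avg_equiv E (fun p => G p.2)
  have h2 := avg_prod (fun p : (κ → X) × (ι → X) => G p.2)
  have h3 := avg_prod (fun p : (κ → X) × (ι → X) => G (E p).2)
  simp only [avg_const] at h2
  rw [← h2, ← h1, h3]
  refine avg_congr fun x => ?_
  exact (avg_const _).symm

lemma inner_eq_sum {X : Type*} [Fintype X] (u v : EuclideanSpace ℝ X) :
    ⟪u, v⟫_ℝ = ∑ x, u x * v x := by
  simp only [PiLp.inner_apply, RCLike.inner_apply, conj_trivial]
  exact sum_congr rfl fun x _ => mul_comm _ _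

/-- the ratio of the sizes of the tuple spaces -/
noncomputable def ratC (ι κ : Type*) [Fintype ι] [Fintype κ] (D : ℕ) : ℝ :=
  ((2:ℝ) ^ D) ^ Fintype.card κ / ((2:ℝ) ^ D) ^ Fintype.card ι

lemma ratC_pos : 0 < ratC ι κ D := by
  unfold ratC
  positivity

lemma sum_comp_inj (e : ι → κ) (he : Function.Injective e) (G : (ι → Pos D) → ℝ) :
    ∑ x : κ → Pos D, G (fun i => x (e i)) = ratC ι κ D * ∑ u, G u := by
  have h := avg_comp_inj (X := Pos D) e he G
  unfold avg at h
  rw [card_tuples, card_tuples] at h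
  unfold ratC
  have h1 : ((2:ℝ) ^ D) ^ Fintype.card κ ≠ 0 := by positivity
  have h2 : ((2:ℝ) ^ D) ^ Fintype.card ι ≠ 0 := by positivity
  field_simp at h ⊢
  linarith

lemma inner_liftT_same (e : ι → κ) (he : Function.Injective e) (f f' : TupSp ι (Pos D)) :
    ⟪liftT e f, liftT e f'⟫_ℝ = ratC ι κ D * ⟪f, f'⟫_ℝ := by
  rw [inner_eq_sum, inner_eq_sum]
  exact sum_comp_inj e he (fun u => f u * f' u)

lemma inner_liftT_diff {e e' : ι → κ} (i : ι) (hne : ∀ i', e' i' ≠ e i) (he : Function.Injective e)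
    {f : TupSp ι (Pos D)} (hf : f ∈ WW ι (Pos D)) (f' : TupSp ι (Pos D)) :
    ⟪liftT e f, liftT e' f'⟫_ℝ = 0 := by
  rw [inner_eq_sum]
  refine sum_eq_zero_of_marginal (e i) _ fun x => ?_
  have h1 : ∀ v : Pos D, (fun i' => Function.update x (e i) v (e' i')) = fun i' => x (e' i') := by
    intro v
    funext i'
    rw [Function.update_of_ne (hne i')]
  have h2 : ∀ v : Pos D, (fun l => Function.update x (e i) v (e l)) =
      Function.update (fun l => x (e l)) i v := by
    intro v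
    funext l
    by_cases hl : l = i
    · subst hl
      simp
    · rw [Function.update_of_ne (fun h => hl (he h)), Function.update_of_ne hl]
  simp only [liftT_apply, h1, h2]
  rw [← sum_mul, hf.2, zero_mul]

/-- the Bessel inequality for a family of equal norms -/
lemma bessel_scaled {V κ' : Type*} [NormedAddCommGroup V] [InnerProductSpace ℝ V] [Fintype κ'] [DecidableEq κ']
    (v : κ' → V) {C : ℝ} (hC : 0 < C) (h : ∀ i k, ⟪v i, v k⟫_ℝ = if i = k then C else 0) (u : V) :
    ∑ i, ⟪v i, u⟫_ℝ ^ 2 ≤ C * ‖u‖ ^ 2 := by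
  set s := Real.sqrt C with hs
  have hs0 : 0 < s := Real.sqrt_pos.mpr hC
  have hss : s * s = C := Real.mul_self_sqrt hC.le
  have hO : Orthonormal ℝ (fun i => (s⁻¹) • v i) := by
    rw [orthonormal_iff_ite]
    intro i k
    rw [real_inner_smul_left, real_inner_smul_right, h]
    by_cases hik : i = k
    · rw [if_pos hik, if_pos hik, ← hss]
      field_simp
    · rw [if_neg hik, if_neg hik]
      simp
  have hB := hO.sum_inner_products_le (s := Finset.univ) (x := u)
  have e : ∀ i, ‖⟪(s⁻¹) • v i, u⟫_ℝ‖ ^ 2 = C⁻¹ * ⟪v i, u⟫_ℝ ^ 2 := by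
    intro i
    rw [real_inner_smul_left, Real.norm_eq_abs, sq_abs, mul_pow, ← hss]
    field_simp
  simp only [e] at hB
  rw [← mul_sum] at hB
  have h3 : C * (C⁻¹ * ∑ i, ⟪v i, u⟫_ℝ ^ 2) ≤ C * ‖u‖ ^ 2 := mul_le_mul_of_nonneg_left hB hC.le
  rwa [← mul_assoc, mul_inv_cancel₀ hC.ne', one_mul] at h3

/-! ### fibres of the restriction -/

lemma exists_perm_of_inj {X : Type*} [Fintype X] [DecidableEq X] (u u' : ι → X)
    (hu : Function.Injective u) (hu' : Function.Injective u') : ∃ g : Perm X, ∀ i, g (u i) = u' i := by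
  classical
  let e : {x // x ∈ Set.range u} ≃ {x // x ∈ Set.range u'} :=
    (Equiv.ofInjective u hu).symm.trans (Equiv.ofInjective u' hu')
  refine ⟨e.extendSubtype, fun i => ?_⟩
  have hm : u i ∈ Set.range u := ⟨i, rfl⟩
  rw [Equiv.extendSubtype_apply_of_mem e (u i) hm]
  have h1 : (Equiv.ofInjective u hu).symm ⟨u i, hm⟩ = i := by
    rw [Equiv.symm_apply_eq]
    rfl
  show (Equiv.ofInjective u' hu' ((Equiv.ofInjective u hu).symm ⟨u i, hm⟩)).1 = u' i
  rw [h1]
  rfl

/-- the restriction of an injective tuple -/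
def resMT (e : ι → κ) (he : Function.Injective e) (w : MT κ D) : MT ι D :=
  ⟨fun i => w.1 (e i), fun i k h => he (w.2 h)⟩

lemma fiber_card (e : ι → κ) (he : Function.Injective e) (u u' : MT ι D) :
    (Finset.univ.filter fun w : MT κ D => resMT e he w = u).card =
      (Finset.univ.filter fun w : MT κ D => resMT e he w = u').card := by
  obtain ⟨g, hg⟩ := exists_perm_of_inj u.1 u'.1 u.2 u'.2
  refine Finset.card_bij' (fun w _ => ⟨fun k => g (w.1 k), fun a b h => w.2 (g.injective h)⟩)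
    (fun w _ => ⟨fun k => g⁻¹ (w.1 k), fun a b h => w.2 (g⁻¹.injective h)⟩) ?_ ?_ ?_ ?_
  · intro w hw
    have hw' := (mem_filter.mp hw).2
    refine mem_filter.mpr ⟨mem_univ _, ?_⟩
    apply Subtype.ext
    funext i
    show g (w.1 (e i)) = u'.1 i
    rw [← hg i, ← hw']
    rfl
  · intro w hw
    have hw' := (mem_filter.mp hw).2
    refine mem_filter.mpr ⟨mem_univ _, ?_⟩
    apply Subtype.ext
    funext i
    show g⁻¹ (w.1 (e i)) = u.1 i
    rw [Perm.inv_eq_iff_eq, hg i, ← hw']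
    rfl
  · intro w _
    apply Subtype.ext
    funext k
    simp
  · intro w _
    apply Subtype.ext
    funext k
    simp

lemma sum_resMT (e : ι → κ) (he : Function.Injective e) (hne : Nonempty (MT ι D)) (h : MT ι D → ℝ) :
    ∑ w : MT κ D, h (resMT e he w) =
      ((Fintype.card (MT κ D) : ℝ) / (Fintype.card (MT ι D) : ℝ)) * ∑ u, h u := by
  classical
  obtain ⟨u₀⟩ := hne
  set c : ℕ := (Finset.univ.filter fun w : MT κ D => resMT e he w = u₀).card with hc
  have hfib : ∀ (h : MT ι D → ℝ), ∑ w : MT κ D, h (resMT e he w) = (c : ℝ) * ∑ u, h u := by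
    intro h
    rw [← Finset.sum_fiberwise (s := Finset.univ) (g := fun w : MT κ D => resMT e he w)
      (f := fun w => h (resMT e he w)), mul_sum]
    refine sum_congr rfl fun u _ => ?_
    have e1 : ∀ w ∈ Finset.univ.filter (fun w : MT κ D => resMT e he w = u), h (resMT e he w) = h u := by
      intro w hw
      rw [(mem_filter.mp hw).2]
    rw [sum_congr rfl e1, sum_const, nsmul_eq_mul, hc, fiber_card e he u u₀]
  have h1 := hfib (fun _ => 1)
  simp only [sum_const, card_univ, nsmul_eq_mul, mul_one] at h1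
  have hpos : (0:ℝ) < Fintype.card (MT ι D) := by
    exact_mod_cast Fintype.card_pos_iff.mpr ⟨u₀⟩
  rw [hfib h, h1]
  field_simp

/-! ### the pass on injective tuples as a matrix, for all functions -/

lemma hitP_eq_zero_of_not_inj' {x w : κ → Pos D} (hx : ¬ Function.Injective x)
    (hw : Function.Injective w) : hitP D Finset.univ x w = 0 := by
  by_contra hne
  obtain ⟨g, hg⟩ := exists_of_hitP_ne D Finset.univ x w hne
  apply hx
  intro i j hij
  apply hw
  rw [← hg i (mem_univ _), ← hg j (mem_univ _), hij]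

lemma QT_formula' (f : TupSp κ (Pos D)) (w : MT κ D) :
    QT κ D f w.1 = ∑ z : MT κ D, hitP D Finset.univ z.1 w.1 * f z.1 := by
  rw [QT_eq_avg]
  unfold avg tauD
  rw [card_tuples, mul_sum, sum_MT]
  · refine sum_congr rfl fun z _ => ?_
    rw [card_univ]
    have : ((2:ℝ) ^ D) ^ Fintype.card κ ≠ 0 := by positivity
    field_simp
  · intro x hx
    rw [hitP_eq_zero_of_not_inj' hx w.2]
    simp

lemma QT_pow_formula' (N : ℕ) : ∀ (f : TupSp κ (Pos D)) (w : MT κ D),
    ((QT κ D) ^ N) f w.1 = ∑ z : MT κ D, ((AA κ D) ^ N) z w * f z.1 := by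
  induction N with
  | zero =>
    intro f w
    simp only [pow_zero, one_apply_eq_self]
    rw [sum_eq_single w]
    · simp
    · intro z _ hz
      rw [Matrix.one_apply_ne hz, zero_mul]
    · simp
  | succ N ih =>
    intro f w
    rw [pow_succ, mul_ap, ih (QT κ D f) w]
    simp only [QT_formula', mul_sum]
    rw [sum_comm]
    refine sum_congr rfl fun y _ => ?_
    rw [pow_succ', Matrix.mul_apply, sum_mul]
    refine sum_congr rfl fun z _ => ?_
    show ((AA κ D) ^ N) z w * (hitP D Finset.univ y.1 z.1 * f y.1) = AA κ D y z * ((AA κ D) ^ N) z w * f y.1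
    unfold AA
    ring

/-! ### the comparison -/

/-- the comparison of a level with the tuples of more marks -/
theorem level_compare (hle : Fintype.card ι ≤ Fintype.card κ) (hl : Fintype.card κ ≤ 2 ^ D) (N : ℕ)
    {Bd0 : ℝ} (hB0 : 0 ≤ Bd0)
    (hF : trace ((AA κ D) ^ N * (((AA κ D) ^ N)ᵀ)) ≤
      (Fintype.card (MT κ D) : ℝ) * ((((2:ℝ) ^ D) ^ Fintype.card κ)⁻¹ * Bd0)) {d : ℕ}
    (b : OrthonormalBasis (Fin d) ℝ (WW ι (Pos D))) :
    ((Fintype.card κ).choose (Fintype.card ι) : ℝ) *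
      ∑ α, ‖((QT ι D) ^ N) (b α : TupSp ι (Pos D))‖ ^ 2 ≤ Bd0 := by
  classical
  have hcardX : Fintype.card (Pos D) = 2 ^ D := by simp
  -- nonemptiness of the tuple spaces
  have hneκ : Nonempty (MT κ D) := by
    obtain ⟨f⟩ := Function.Embedding.nonempty_of_card_le (α := κ) (β := Pos D) (by rw [hcardX]; exact hl)
    exact ⟨⟨f, f.injective⟩⟩
  have hneι : Nonempty (MT ι D) := by
    obtain ⟨f⟩ := Function.Embedding.nonempty_of_card_le (α := ι) (β := Pos D)
      (by rw [hcardX]; exact hle.trans hl)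
    exact ⟨⟨f, f.injective⟩⟩
  -- the embeddings
  let 𝒥 := {J : Finset κ // J.card = Fintype.card ι}
  have hemb : ∀ J : 𝒥, ∃ e : ι → κ, Function.Injective e ∧ ∀ k, k ∈ J.1 ↔ ∃ i, e i = k := by
    intro J
    have hc : Fintype.card ι = Fintype.card J.1 := by
      rw [Fintype.card_coe]
      exact J.2.symm
    let f : ι ≃ J.1 := Fintype.equivOfCardEq hc
    refine ⟨fun i => (f i).1, fun i k h => f.injective (Subtype.ext h), fun k => ⟨fun hk => ?_, ?_⟩⟩
    · exact ⟨f.symm ⟨k, hk⟩, by simp⟩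
    · rintro ⟨i, rfl⟩
      exact (f i).2
  choose E hEinj hErange using hemb
  set C := ratC ι κ D with hC
  have hCpos : 0 < C := ratC_pos
  -- the family
  let v : 𝒥 × Fin d → TupSp κ (Pos D) := fun p => liftT (E p.1) (b p.2 : TupSp ι (Pos D))
  have hv : ∀ p p', ⟪v p, v p'⟫_ℝ = if p = p' then C else 0 := by
    rintro ⟨J, α⟩ ⟨J', α'⟩
    show ⟪liftT (E J) (b α : TupSp ι (Pos D)), liftT (E J') (b α' : TupSp ι (Pos D))⟫_ℝ = _
    by_cases hJ : J = J'
    · subst hJ
      rw [inner_liftT_same _ (hEinj J)]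
      have h1 : ⟪(b α : TupSp ι (Pos D)), (b α' : TupSp ι (Pos D))⟫_ℝ = if α = α' then 1 else 0 := by
        have := orthonormal_iff_ite.mp b.orthonormal α α'
        rwa [Submodule.coe_inner] at this
      rw [h1]
      by_cases hα : α = α'
      · subst hα
        rw [if_pos rfl, if_pos rfl, mul_one]
      · have : (J, α) ≠ (J, α') := fun h => hα (Prod.ext_iff.mp h).2
        rw [if_neg hα, if_neg this, mul_zero]
    · have hne : ¬ J.1 ⊆ J'.1 := fun hs => hJ (Subtype.ext (eq_of_subset_of_card_le hs (by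
        rw [J.2, J'.2])))
      obtain ⟨k, hk, hk'⟩ := Finset.not_subset.mp hne
      obtain ⟨i, hi⟩ := (hErange J k).mp hk
      have : (J, α) ≠ (J', α') := fun h => hJ (Prod.ext_iff.mp h).1
      rw [if_neg this]
      refine inner_liftT_diff i (fun i' hi' => hk' ((hErange J' k).mpr ⟨i', by rw [hi', hi]⟩))
        (hEinj J) (b α).2 _
  -- the column vectors
  let col : MT κ D → TupSp κ (Pos D) := fun w => WithLp.toLp 2 (fun x =>
    if h : Function.Injective x then ((AA κ D) ^ N) ⟨x, h⟩ w else 0)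
  have hcol : ∀ w, ‖col w‖ ^ 2 = ∑ z : MT κ D, ((AA κ D) ^ N) z w ^ 2 := by
    intro w
    rw [EuclideanSpace.real_norm_sq_eq, sum_MT]
    · refine sum_congr rfl fun z _ => ?_
      simp [col, z.2]
    · intro x hx
      simp [col, hx]
  have hin : ∀ (f : TupSp κ (Pos D)) (w : MT κ D), ((QT κ D) ^ N) f w.1 = ⟪f, col w⟫_ℝ := by
    intro f w
    rw [QT_pow_formula', inner_eq_sum, sum_MT]
    · refine sum_congr rfl fun z _ => ?_
      simp [col, z.2, mul_comm]
    · intro x hx
      simp [col, hx]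
  -- the left hand side
  set t := ∑ α, ‖((QT ι D) ^ N) (b α : TupSp ι (Pos D))‖ ^ 2 with ht
  set Er : ℝ := (Fintype.card (MT κ D) : ℝ) / (Fintype.card (MT ι D) : ℝ) with hEr
  have hcardι : (0:ℝ) < Fintype.card (MT ι D) := by exact_mod_cast Fintype.card_pos_iff.mpr hneι
  have hcardκ : (0:ℝ) < Fintype.card (MT κ D) := by exact_mod_cast Fintype.card_pos_iff.mpr hneκ
  have hErpos : 0 < Er := div_pos hcardκ hcardι
  have hleft : ∀ (J : 𝒥) (α : Fin d), ∑ w : MT κ D, (⟪v (J, α), col w⟫_ℝ) ^ 2 =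
      Er * ‖((QT ι D) ^ N) (b α : TupSp ι (Pos D))‖ ^ 2 := by
    intro J α
    have h0 : ((QT ι D) ^ N) (b α : TupSp ι (Pos D)) ∈ WW ι (Pos D) := pow_mem_WW N _ (b α).2
    have h1 : ‖((QT ι D) ^ N) (b α : TupSp ι (Pos D))‖ ^ 2 =
        ∑ u : MT ι D, (((QT ι D) ^ N) (b α : TupSp ι (Pos D)) u.1) ^ 2 := by
      rw [EuclideanSpace.real_norm_sq_eq, sum_MT]
      intro x hx
      rw [h0.1 x hx]
      simp
    rw [h1, ← sum_resMT (E J) (hEinj J) hneι (fun u => (((QT ι D) ^ N) (b α : TupSp ι (Pos D)) u.1) ^ 2)]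
    refine sum_congr rfl fun w _ => ?_
    rw [← hin, QT_pow_liftT, liftT_apply]
    rfl
  -- the double sum
  have hdouble : (𝒥 → ℕ) → True := fun _ => trivial
  have hcard𝒥 : (Fintype.card 𝒥 : ℝ) = ((Fintype.card κ).choose (Fintype.card ι) : ℝ) := by
    have := Fintype.card_finset_len (α := κ) (k := Fintype.card ι)
    exact_mod_cast this
  have hsum1 : ∑ w : MT κ D, ∑ p : 𝒥 × Fin d, (⟪v p, col w⟫_ℝ) ^ 2 =
      ((Fintype.card κ).choose (Fintype.card ι) : ℝ) * (Er * t) := by
    rw [sum_comm, Fintype.sum_prod_type]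
    simp only [hleft]
    rw [ht, mul_sum, sum_const, card_univ, nsmul_eq_mul, hcard𝒥, mul_sum]
  have hsum2 : ∑ w : MT κ D, ∑ p : 𝒥 × Fin d, (⟪v p, col w⟫_ℝ) ^ 2 ≤
      C * trace ((AA κ D) ^ N * (((AA κ D) ^ N)ᵀ)) := by
    rw [tr_mul_transpose, sum_comm (f := fun i j => ((AA κ D) ^ N) i j ^ 2), mul_sum]
    refine sum_le_sum fun w _ => ?_
    rw [← hcol]
    exact bessel_scaled v hCpos hv (col w)
  -- conclusion
  have hm0 : (0:ℝ) < ((2:ℝ) ^ D) ^ Fintype.card κ := by positivity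
  have hm1 : (0:ℝ) < ((2:ℝ) ^ D) ^ Fintype.card ι := by positivity
  have hMTle : (Fintype.card (MT ι D) : ℝ) ≤ ((2:ℝ) ^ D) ^ Fintype.card ι := card_MT_le
  have hend : C * trace ((AA κ D) ^ N * (((AA κ D) ^ N)ᵀ)) ≤ Er * Bd0 := by
    have h1 := mul_le_mul_of_nonneg_left hF hCpos.le
    refine h1.trans ?_
    rw [hC]
    unfold ratC
    have e1 : ((2:ℝ) ^ D) ^ Fintype.card κ / ((2:ℝ) ^ D) ^ Fintype.card ι *
        ((Fintype.card (MT κ D) : ℝ) * (((((2:ℝ) ^ D) ^ Fintype.card κ))⁻¹ * Bd0)) =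
        (Fintype.card (MT κ D) : ℝ) * Bd0 / ((2:ℝ) ^ D) ^ Fintype.card ι := by
      field_simp
    rw [e1, hEr]
    have e2 : (Fintype.card (MT κ D) : ℝ) / (Fintype.card (MT ι D) : ℝ) * Bd0 =
        (Fintype.card (MT κ D) : ℝ) * Bd0 / (Fintype.card (MT ι D) : ℝ) := by ring
    rw [e2]
    exact div_le_div_of_nonneg_left (mul_nonneg hcardκ.le hB0) hcardι hMTle
  have hfinal : ((Fintype.card κ).choose (Fintype.card ι) : ℝ) * (Er * t) ≤ Er * Bd0 := by
    rw [← hsum1]
    exact hsum2.trans hend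
  have e3 : ((Fintype.card κ).choose (Fintype.card ι) : ℝ) * (Er * t) =
      Er * (((Fintype.card κ).choose (Fintype.card ι) : ℝ) * t) := by ring
  rw [e3] at hfinal
  exact le_of_mul_le_mul_left hfinal hErpos

end Vale.Agent.Lib.P162
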