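import Vale.Agent.Lib.P162.Seq7

/-!
# The level bounds and the linear mixing time
-/

namespace Vale.Agent.Lib.P162

open Equiv Finset Matrix
open scoped InnerProductSpace

set_option linter.unusedSectionVars false
set_option linter.unusedSimpArgs false
set_option linter.unusedVariables false

variable {ι : Type*} [Fintype ι] [DecidableEq ι] {D : ℕ}

/-! ### the numerical constants -/

/-- the cube root of two -/
noncomputable def zT : ℝ := (2:ℝ) ^ ((1:ℝ) / 3)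

lemma zT_ge : 1 ≤ zT := Real.one_le_rpow (by norm_num) (by norm_num)

lemma zT_le : zT ≤ 1.26 := by
  have h1 : zT ^ 3 = 2 := by
    unfold zT
    rw [← Real.rpow_natCast, ← Real.rpow_mul (by norm_num)]
    norm_num
  by_contra h
  push Not at h
  have h2 : (1.26:ℝ) ^ 3 < zT ^ 3 := pow_lt_pow_left₀ h (by norm_num) (by norm_num)
  rw [h1] at h2
  norm_num at h2

lemma epsF_zT_le (D r : ℕ) (hr : r ≤ D) : epsF zT D r ≤ 5 * (3 / 4 : ℝ) ^ (D - r) := by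
  have h1 := zT_ge
  have h2 := zT_le
  have h3 : 3 * zT / 4 < 1 := by linarith
  have h4 := epsF_le h1 h3 D r hr
  have h5 : 0 < 1 - 3 * zT / 4 := by linarith
  have hp : (0:ℝ) ≤ (3 / 4 : ℝ) ^ (D - r) := by positivity
  have h6 : 0 ≤ (3 * zT / 4) ^ r := by positivity
  have h7 : (zT - 1) * (3 / 4 : ℝ) ^ (D - r) * (1 - (3 * zT / 4) ^ r) ≤
      5 * (3 / 4 : ℝ) ^ (D - r) * (1 - 3 * zT / 4) := by
    have h8 : zT - 1 ≤ 5 * (1 - 3 * zT / 4) := by linarith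
    have h9 : (zT - 1) * (3 / 4 : ℝ) ^ (D - r) ≤ 5 * (1 - 3 * zT / 4) * (3 / 4 : ℝ) ^ (D - r) :=
      mul_le_mul_of_nonneg_right h8 hp
    have h10 : 0 ≤ (zT - 1) * (3 / 4 : ℝ) ^ (D - r) := mul_nonneg (by linarith) hp
    nlinarith
  exact le_of_mul_le_mul_right (h4.trans h7) h5

/-- the moment bound for the exponent four thirds -/
theorem moment_four_thirds (g : ℕ) {l : ℕ} {κ : Type*} [Fintype κ] [DecidableEq κ]
    (hκ : Fintype.card κ = 2 ^ g * l) (h3 : 3 * g ≤ D) (h64 : 64 ^ g * l ≤ 2 ^ D)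
    (x : MT κ D) :
    normP D Finset.univ x.1 (1 + 1 / ((2:ℝ) ^ (1 + 1) - 1)) ≤ Real.exp ((17 / 3) * (l : ℝ)) := by
  have hq : (1:ℝ) / ((2:ℝ) ^ (1 + 1) - 1) = 1 / 3 := by norm_num
  rw [hq]
  have hinj : InjF x.1 Finset.univ := fun i _ j _ h => x.2 h
  set r := D - 3 * g with hr
  have hrle : r ≤ D := by omega
  have hDr : D - r = 3 * g := by omega
  have h1 := moment_new (q := 1 / 3) (by norm_num) D r Finset.univ x.1 hinj
  refine h1.trans (Real.exp_le_exp.mpr ?_)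
  rw [card_univ, hκ, hDr]
  have hz : ((2:ℝ) ^ (3 * g)) ^ ((1:ℝ) / 3) = (2:ℝ) ^ g := by
    rw [← Real.rpow_natCast, ← Real.rpow_mul (by norm_num)]
    have : ((3 * g : ℕ) : ℝ) * (1 / 3) = (g : ℝ) := by
      push_cast
      ring
    rw [this, Real.rpow_natCast]
  rw [hz]
  have he := epsF_zT_le D r hrle
  rw [hDr] at he
  have he' : epsF ((2:ℝ) ^ ((1:ℝ) / 3)) D r ≤ 5 * (3 / 4 : ℝ) ^ (3 * g) := he
  set L : ℝ := (l : ℝ) with hL
  have hL0 : 0 ≤ L := Nat.cast_nonneg _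
  have h64' : (64:ℝ) ^ g * L ≤ (2:ℝ) ^ D := by
    have : ((64 ^ g * l : ℕ) : ℝ) ≤ ((2 ^ D : ℕ) : ℝ) := by exact_mod_cast h64
    simpa using this
  -- the first term
  have e1 : ((2 ^ g * l : ℕ) : ℝ) = (2:ℝ) ^ g * L := by
    push_cast
    rfl
  rw [e1]
  have h2 : (2:ℝ) ^ g * L * epsF ((2:ℝ) ^ ((1:ℝ) / 3)) D r ≤ 5 * L := by
    have h3 : (2:ℝ) ^ g * L * epsF ((2:ℝ) ^ ((1:ℝ) / 3)) D r ≤ (2:ℝ) ^ g * L * (5 * (3 / 4 : ℝ) ^ (3 * g)) :=
      mul_le_mul_of_nonneg_left he' (by positivity)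
    refine h3.trans ?_
    have h4 : (2:ℝ) ^ g * (3 / 4 : ℝ) ^ (3 * g) ≤ 1 := by
      rw [pow_mul, ← mul_pow]
      apply pow_le_one₀ <;> norm_num
    nlinarith
  -- the second term
  have h5 : ((2:ℝ) ^ g - 1) * ((2:ℝ) ^ g * L) ^ 2 / (2:ℝ) ^ (r + 1) ≤ L / 2 := by
    have hD : (2:ℝ) ^ D = (2:ℝ) ^ r * (2:ℝ) ^ (3 * g) := by
      rw [← pow_add]
      congr 1
      omega
    have hpos : (0:ℝ) < (2:ℝ) ^ (r + 1) := by positivity
    rw [div_le_iff₀ hpos]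
    have h6 : (2:ℝ) ^ (r + 1) = 2 * (2:ℝ) ^ r := by rw [pow_succ]; ring
    rw [h6]
    have h7 : (64:ℝ) ^ g = (2:ℝ) ^ g * ((2:ℝ) ^ g) ^ 2 * (2:ℝ) ^ (3 * g) := by
      rw [show (64:ℝ) = 2 ^ 6 by norm_num, ← pow_mul, ← pow_mul, ← pow_add, ← pow_add]
      congr 1
      ring
    have h8 : (2:ℝ) ^ g * ((2:ℝ) ^ g) ^ 2 * L ≤ (2:ℝ) ^ r := by
      have h9 : (2:ℝ) ^ g * ((2:ℝ) ^ g) ^ 2 * L * (2:ℝ) ^ (3 * g) ≤ (2:ℝ) ^ r * (2:ℝ) ^ (3 * g) := by
        rw [← hD]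
        refine le_trans (le_of_eq ?_) h64'
        rw [h7]
        ring
      exact le_of_mul_le_mul_right h9 (by positivity)
    have h10 : ((2:ℝ) ^ g - 1) * ((2:ℝ) ^ g * L) ^ 2 ≤ (2:ℝ) ^ g * ((2:ℝ) ^ g * L) ^ 2 :=
      mul_le_mul_of_nonneg_right (by linarith) (by positivity)
    refine h10.trans ?_
    have h11 : (2:ℝ) ^ g * ((2:ℝ) ^ g * L) ^ 2 = ((2:ℝ) ^ g * ((2:ℝ) ^ g) ^ 2 * L) * L := by ring
    rw [h11]
    have h12 := mul_le_mul_of_nonneg_right h8 hL0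
    refine h12.trans (le_of_eq ?_)
    ring
  have h13 : (17 / 3 : ℝ) * L = 5 * L + L / 2 + L / 6 := by ring
  rw [h13]
  linarith

/-- the transfer of the moment bound to a level -/
theorem t_bound (g : ℕ) (hj1 : 1 ≤ Fintype.card ι) (hj2 : 64 ^ g * Fintype.card ι ≤ 2 ^ D) {d : ℕ}
    (b : OrthonormalBasis (Fin d) ℝ (WW ι (Pos D))) :
    ((2 ^ g * Fintype.card ι).choose (Fintype.card ι) : ℝ) *
      ∑ α, ‖((QT ι D) ^ 4) (b α : TupSp ι (Pos D))‖ ^ 2 ≤ Real.exp (17 * (Fintype.card ι : ℝ)) := by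
  classical
  set j := Fintype.card ι with hj
  set κ := Fin (2 ^ g * j) with hκ
  have hcκ : Fintype.card κ = 2 ^ g * j := Fintype.card_fin _
  have hgj : 2 ^ g * j ≤ 64 ^ g * j := Nat.mul_le_mul_right _ (Nat.pow_le_pow_left (by norm_num) _)
  have h8 : 8 ^ g ≤ 2 ^ D := by
    have h1 : 8 ^ g ≤ 64 ^ g := Nat.pow_le_pow_left (by norm_num) _
    have h2 : 64 ^ g ≤ 64 ^ g * j := Nat.le_mul_of_pos_right _ hj1
    omega
  have h3 : 3 * g ≤ D := by
    have h4 : 2 ^ (3 * g) ≤ 2 ^ D := by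
      rw [pow_mul]
      exact h8
    exact (Nat.pow_le_pow_iff_right (by norm_num)).mp h4
  have hle : Fintype.card ι ≤ Fintype.card κ := by
    rw [hcκ]
    exact Nat.le_mul_of_pos_left _ (by positivity)
  have hl : Fintype.card κ ≤ 2 ^ D := by
    rw [hcκ]
    omega
  have hF := frob_new (ι := κ) (D := D) 1 (Γ := (17 / 3) * (j : ℝ))
    (fun x => moment_four_thirds g hcκ h3 hj2 x)
  have e : ((2:ℝ) ^ (1 + 1) - 1) * ((17 / 3) * (j : ℝ)) = 17 * (j : ℝ) := by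
    norm_num
    ring
  rw [e] at hF
  have h := level_compare (ι := ι) (κ := κ) hle hl (2 ^ (1 + 1)) (Real.exp_pos _).le hF b
  rw [hcκ] at h
  exact h

/-! ### from the sum over a basis to a bound on the operator -/

lemma op_of_hs (T : TupSp ι (Pos D) →L[ℝ] TupSp ι (Pos D)) {d : ℕ}
    (b : OrthonormalBasis (Fin d) ℝ (WW ι (Pos D))) {u : TupSp ι (Pos D)} (hu : u ∈ WW ι (Pos D)) :
    ‖T u‖ ^ 2 ≤ (∑ α, ‖T (b α : TupSp ι (Pos D))‖ ^ 2) * ‖u‖ ^ 2 := by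
  set u' : WW ι (Pos D) := ⟨u, hu⟩ with hu'
  have h1 : u = ∑ α, ⟪b α, u'⟫_ℝ • (b α : TupSp ι (Pos D)) := by
    have h2 := b.sum_repr' u'
    have h3 := congrArg (Subtype.val) h2
    simp only [Submodule.coe_sum, Submodule.coe_smul] at h3
    exact h3.symm
  have h4 : T u = ∑ α, ⟪b α, u'⟫_ℝ • T (b α : TupSp ι (Pos D)) := by
    conv_lhs => rw [h1]
    rw [map_sum]
    simp only [map_smul]
  have h5 : ‖T u‖ ≤ ∑ α, |⟪b α, u'⟫_ℝ| * ‖T (b α : TupSp ι (Pos D))‖ := by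
    rw [h4]
    refine (norm_sum_le _ _).trans (le_of_eq ?_)
    refine sum_congr rfl fun α _ => ?_
    rw [norm_smul, Real.norm_eq_abs]
  have h6 := Finset.sum_mul_sq_le_sq_mul_sq (Finset.univ : Finset (Fin d))
    (fun α => |⟪b α, u'⟫_ℝ|) (fun α => ‖T (b α : TupSp ι (Pos D))‖)
  have h7 : ∑ α, |⟪b α, u'⟫_ℝ| ^ 2 = ‖u‖ ^ 2 := by
    have h8 := b.sum_sq_norm_inner_right u'
    simp only [Real.norm_eq_abs] at h8
    rw [h8]
    rfl
  rw [h7] at h6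
  have h9 : 0 ≤ ∑ α, |⟪b α, u'⟫_ℝ| * ‖T (b α : TupSp ι (Pos D))‖ :=
    sum_nonneg fun α _ => mul_nonneg (abs_nonneg _) (norm_nonneg _)
  calc ‖T u‖ ^ 2 ≤ (∑ α, |⟪b α, u'⟫_ℝ| * ‖T (b α : TupSp ι (Pos D))‖) ^ 2 :=
        pow_le_pow_left₀ (norm_nonneg _) h5 2
    _ ≤ ‖u‖ ^ 2 * ∑ α, ‖T (b α : TupSp ι (Pos D))‖ ^ 2 := h6
    _ = _ := mul_comm _ _

lemma hs_pow4 {d : ℕ} (b : OrthonormalBasis (Fin d) ℝ (WW ι (Pos D))) {t : ℝ} (ht0 : 0 ≤ t)
    (ht : ∑ α, ‖((QT ι D) ^ 4) (b α : TupSp ι (Pos D))‖ ^ 2 ≤ t) (m : ℕ) :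
    ∑ α, ‖((QT ι D) ^ (4 * (m + 1))) (b α : TupSp ι (Pos D))‖ ^ 2 ≤ t ^ (m + 1) := by
  have hop : ∀ u ∈ WW ι (Pos D), ‖((QT ι D) ^ 4) u‖ ^ 2 ≤ t * ‖u‖ ^ 2 := fun u hu =>
    (op_of_hs _ b hu).trans (mul_le_mul_of_nonneg_right ht (by positivity))
  have hit : ∀ (m : ℕ) (v : TupSp ι (Pos D)), v ∈ WW ι (Pos D) →
      ‖(((QT ι D) ^ 4) ^ m) v‖ ^ 2 ≤ t ^ m * ‖v‖ ^ 2 ∧ (((QT ι D) ^ 4) ^ m) v ∈ WW ι (Pos D) := by
    intro m v hv
    induction m with
    | zero => simpa using hv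
    | succ m ih =>
      have e0 : (((QT ι D) ^ 4) ^ (m + 1)) v = ((QT ι D) ^ 4) ((((QT ι D) ^ 4) ^ m) v) := by
        rw [pow_succ', mul_ap]
      rw [e0]
      refine ⟨(hop _ ih.2).trans ?_, pow_mem_WW 4 _ ih.2⟩
      have e1 : t ^ (m + 1) = t * t ^ m := pow_succ' t m
      rw [e1, mul_assoc]
      exact mul_le_mul_of_nonneg_left ih.1 ht0
  have e : ∀ α, ‖((QT ι D) ^ (4 * (m + 1))) (b α : TupSp ι (Pos D))‖ ^ 2 ≤
      t ^ m * ‖((QT ι D) ^ 4) (b α : TupSp ι (Pos D))‖ ^ 2 := by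
    intro α
    have e0 : ((QT ι D) ^ (4 * (m + 1))) (b α : TupSp ι (Pos D)) =
        (((QT ι D) ^ 4) ^ m) (((QT ι D) ^ 4) (b α : TupSp ι (Pos D))) := by
      rw [pow_mul, pow_succ, mul_ap]
    rw [e0]
    exact (hit m _ (pow_mem_WW 4 _ (b α).2)).1
  refine (sum_le_sum fun α _ => e α).trans ?_
  rw [← mul_sum, pow_succ]
  exact mul_le_mul_of_nonneg_left ht (by positivity)

/-! ### binomial coefficients -/

lemma choose_mul_ge (E j : ℕ) (hE : 1 ≤ E) (hj : 1 ≤ j) :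
    (((E - 1 : ℕ) : ℝ)) ^ j ≤ ((E * j).choose j : ℝ) := by
  have h1 := Nat.pow_le_choose (α := ℝ) j (E * j)
  refine le_trans ?_ h1
  have h2 : (E - 1) * j ≤ E * j + 1 - j := by
    have : E * j = (E - 1) * j + j := by
      obtain ⟨e, rfl⟩ : ∃ e, E = e + 1 := ⟨E - 1, by omega⟩
      simp [add_mul]
    omega
  have hfac : (0:ℝ) < (j.factorial : ℝ) := by positivity
  rw [le_div_iff₀ hfac]
  have h3 : (j.factorial : ℝ) ≤ (j : ℝ) ^ j := by
    exact_mod_cast Nat.factorial_le_pow j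
  have h4 : ((E * j + 1 - j : ℕ) : ℝ) ^ j ≥ ((((E - 1) * j : ℕ) : ℝ)) ^ j :=
    pow_le_pow_left₀ (by positivity) (by exact_mod_cast h2) j
  refine le_trans ?_ h4
  push_cast
  rw [mul_pow]
  exact mul_le_mul_of_nonneg_left h3 (by positivity)

lemma exp_eq_pow (k c : ℕ) : Real.exp ((c : ℝ) * ((k : ℝ) * Real.log 2)) = ((2:ℝ) ^ k) ^ c := by
  rw [Real.exp_nat_mul, Real.exp_nat_mul, Real.exp_log (by norm_num)]

/-- the scale of the density -/
lemma exists_scale {n j g0 : ℕ} (hj : 1 ≤ j) (h0 : 64 ^ g0 * j ≤ n) :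
    ∃ g, g0 ≤ g ∧ 64 ^ g * j ≤ n ∧ n < 64 ^ (g + 1) * j := by
  classical
  have hP : ∃ g, n < 64 ^ (g + 1) * j := by
    refine ⟨n, ?_⟩
    have h1 : n + 1 < 64 ^ (n + 1) := Nat.lt_pow_self (by norm_num)
    have h2 : 64 ^ (n + 1) ≤ 64 ^ (n + 1) * j := Nat.le_mul_of_pos_right _ hj
    omega
  refine ⟨Nat.find hP, ?_, ?_, Nat.find_spec hP⟩
  · by_contra h
    push Not at h
    have h1 := Nat.find_spec hP
    have h2 : 64 ^ (Nat.find hP + 1) * j ≤ 64 ^ g0 * j :=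
      Nat.mul_le_mul_right _ (Nat.pow_le_pow_right (by norm_num) h)
    omega
  · rcases hg : Nat.find hP with _ | g
    · have : 64 ^ 0 * j ≤ 64 ^ g0 * j := Nat.mul_le_mul_right _ (Nat.pow_le_pow_right (by norm_num) (by omega))
      omega
    · have h1 : ¬ n < 64 ^ (g + 1) * j := Nat.find_min hP (by omega)
      omega

/-! ### the level bound -/

lemma hs_gap_lin {d : ℕ} (b : OrthonormalBasis (Fin d) ℝ (WW ι (Pos D)))
    (hk1 : 1 ≤ Fintype.card ι) (hk2 : Fintype.card ι ≤ 2 ^ D) (r m : ℕ) (hr : r = m + 4) :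
    ∑ α, ‖((QT ι D) ^ r) (b α : TupSp ι (Pos D))‖ ^ 2 ≤
      Real.exp (-((1 / 600) * ((Fintype.card ι : ℝ) / 2))) ^ m *
        ∑ α, ‖((QT ι D) ^ 4) (b α : TupSp ι (Pos D))‖ ^ 2 := by
  subst hr
  rw [mul_sum]
  refine sum_le_sum fun α _ => ?_
  rw [pow_add, mul_ap]
  exact pow_norm_le (Real.exp_pos _).le (fun u hu => QT_gap hk1 hk2 hu) m (pow_mem_WW _ _ (b α).2)

/-- the contribution of a nontrivial level after a constant number of passes -/
theorem level_term_lin (hk1 : 1 ≤ Fintype.card ι) (hk2 : Fintype.card ι ≤ 2 ^ D) {d : ℕ}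
    (b : OrthonormalBasis (Fin d) ℝ (WW ι (Pos D))) :
    ∑ α, ‖((QT ι D) ^ 160000) (b α : TupSp ι (Pos D))‖ ^ 2 ≤
      (((2 ^ D).choose (Fintype.card ι) : ℝ))⁻¹ * Real.exp (-3 * (Fintype.card ι : ℝ)) := by
  set j : ℝ := (Fintype.card ι : ℝ) with hj
  have hj1 : 1 ≤ j := by rw [hj]; exact_mod_cast hk1
  set Lg : ℝ := Real.log ((2 ^ D : ℕ) : ℝ) - Real.log j with hLg
  have hchoose : (((2 ^ D).choose (Fintype.card ι) : ℕ) : ℝ) ≤ Real.exp (j * (1 + Lg)) := by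
    have h1 := choose_le_exp (2 ^ D) (Fintype.card ι) (Nat.one_le_two_pow) hk1
    refine h1.trans (Real.exp_le_exp.mpr (le_of_eq ?_))
    rw [hLg]
    ring
  have hcpos : (0 : ℝ) < ((2 ^ D).choose (Fintype.card ι) : ℝ) := by
    exact_mod_cast Nat.choose_pos hk2
  have hinv : Real.exp (-(j * (1 + Lg))) ≤ (((2 ^ D).choose (Fintype.card ι) : ℝ))⁻¹ := by
    rw [Real.exp_neg]
    exact inv_anti₀ hcpos hchoose
  suffices hS : ∑ α, ‖((QT ι D) ^ 160000) (b α : TupSp ι (Pos D))‖ ^ 2 ≤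
      Real.exp (-(j * (1 + Lg)) + -3 * j) by
    refine hS.trans ?_
    rw [Real.exp_add]
    exact mul_le_mul_of_nonneg_right hinv (Real.exp_pos _).le
  set t := ∑ α, ‖((QT ι D) ^ 4) (b α : TupSp ι (Pos D))‖ ^ 2 with ht
  have ht0 : 0 ≤ t := sum_nonneg fun α _ => by positivity
  have hlog2a : (0.6931 : ℝ) < Real.log 2 := by
    have := Real.log_two_gt_d9
    linarith
  have hlog2b : Real.log 2 < 0.6932 := by
    have := Real.log_two_lt_d9
    linarith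
  -- the logarithm of the density
  have hLgbound : ∀ g : ℕ, 2 ^ D < 64 ^ (g + 1) * Fintype.card ι → Lg ≤ ((g : ℝ) + 1) * (6 * Real.log 2) := by
    intro g hg
    have h1 : ((2 ^ D : ℕ) : ℝ) ≤ (64:ℝ) ^ (g + 1) * j := by
      have : ((2 ^ D : ℕ) : ℝ) ≤ ((64 ^ (g + 1) * Fintype.card ι : ℕ) : ℝ) := by exact_mod_cast hg.le
      simpa using this
    have h2 : (0:ℝ) < ((2 ^ D : ℕ) : ℝ) := by positivity
    have h3 := Real.log_le_log h2 h1
    rw [Real.log_mul (by positivity) (by linarith), Real.log_pow,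
      show (64:ℝ) = 2 ^ 6 by norm_num, Real.log_pow] at h3
    push_cast at h3 ⊢
    rw [hLg]
    push_cast
    linarith
  have hk4 : 64 ^ 0 * Fintype.card ι ≤ 2 ^ D := by simpa using hk2
  by_cases hA : 64 ^ 26 * Fintype.card ι ≤ 2 ^ D
  · -- low density: the decay comes from the binomial coefficient
    obtain ⟨g, hg26, hg1, hg2⟩ := exists_scale hk1 hA
    have hLB := hLgbound g hg2
    have h1 := t_bound g hk1 hg1 b
    rw [← ht] at h1
    have hg26' : (26:ℝ) ≤ g := by exact_mod_cast hg26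
    -- the binomial coefficient
    have h2 := choose_mul_ge (2 ^ g) (Fintype.card ι) Nat.one_le_two_pow hk1
    have h3 : Real.exp (j * (((g : ℝ) - 1) * Real.log 2)) ≤
        ((2 ^ g * Fintype.card ι).choose (Fintype.card ι) : ℝ) := by
      refine le_trans (le_of_eq ?_) (le_trans (pow_le_pow_left₀ (by positivity) (?_ : (((2:ℝ) ^ (g - 1))) ≤
        ((2 ^ g - 1 : ℕ) : ℝ)) _) h2)
      · have : ((g - 1 : ℕ) : ℝ) = (g : ℝ) - 1 := by
          rw [Nat.cast_sub (by omega)]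
          simp
        rw [← this]
        exact exp_eq_pow _ _
      · obtain ⟨e, rfl⟩ : ∃ e, g = e + 1 := ⟨g - 1, by omega⟩
        simp only [Nat.add_sub_cancel]
        have h5 : (2 ^ e : ℕ) ≤ 2 ^ (e + 1) - 1 := by
          have : 2 ^ (e + 1) = 2 * 2 ^ e := by ring
          have h6 : 1 ≤ 2 ^ e := Nat.one_le_two_pow
          omega
        calc (2:ℝ) ^ e = ((2 ^ e : ℕ) : ℝ) := by push_cast; rfl
          _ ≤ _ := by exact_mod_cast h5
    have hexppos := Real.exp_pos (j * (((g : ℝ) - 1) * Real.log 2))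
    have h4 : t ≤ Real.exp (17 * j - j * (((g : ℝ) - 1) * Real.log 2)) := by
      rw [Real.exp_sub, le_div_iff₀ hexppos]
      refine le_trans ?_ h1
      rw [mul_comm]
      exact mul_le_mul_of_nonneg_right h3 ht0
    have h5 := hs_pow4 b (Real.exp_pos _).le (h4.trans (le_refl _)) 39999
    have e160 : 4 * (39999 + 1) = 160000 := by norm_num
    rw [e160, ← Real.exp_nat_mul] at h5
    refine h5.trans (Real.exp_le_exp.mpr ?_)
    -- the arithmetic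
    have hg0 : 0 ≤ (g : ℝ) - 26 := by linarith
    have hl0 : 0 ≤ Real.log 2 - 0.6931 := by linarith
    have hprod := mul_nonneg hg0 hl0
    have hk : ((39999 + 1 : ℕ) : ℝ) = 40000 := by norm_num
    rw [hk]
    have hkey : 40000 * (17 - (((g : ℝ) - 1) * Real.log 2)) + (1 + ((g : ℝ) + 1) * (6 * Real.log 2)) + 3 ≤ 0 := by
      nlinarith
    have e5 : 40000 * (17 * j - j * (((g : ℝ) - 1) * Real.log 2)) =
        j * (40000 * (17 - (((g : ℝ) - 1) * Real.log 2))) := by ring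
    rw [e5]
    have h6 : -(j * (1 + Lg)) + -3 * j = j * (-(1 + Lg) - 3) := by ring
    rw [h6]
    apply mul_le_mul_of_nonneg_left _ (by linarith)
    linarith
  · -- high density: the spectral gap
    push Not at hA
    have hLB : Lg ≤ ((25 : ℝ) + 1) * (6 * Real.log 2) := by
      have := hLgbound 25 hA
      simpa using this
    have h1 := t_bound 0 hk1 hk4 b
    rw [← ht] at h1
    have h2 : t ≤ Real.exp (17 * j) := by
      simpa using h1
    set c := Real.exp (-((1 / 600) * (j / 2))) with hc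
    have hc0 : 0 ≤ c := (Real.exp_pos _).le
    have h3 := hs_gap_lin b hk1 hk2 160000 159996 (by norm_num)
    rw [← ht, ← hc] at h3
    refine h3.trans ?_
    refine (mul_le_mul_of_nonneg_left h2 (by positivity)).trans ?_
    rw [hc, ← Real.exp_nat_mul, ← Real.exp_add]
    apply Real.exp_le_exp.mpr
    push_cast
    have h6 : -(j * (1 + Lg)) + -3 * j = j * (-(1 + Lg) - 3) := by ring
    rw [h6]
    have h7 : 159996 * (-(1 / 600 * (j / 2))) + 17 * j = j * (159996 * (-(1 / 1200)) + 17) := by ring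
    rw [h7]
    apply mul_le_mul_of_nonneg_left _ (by linarith)
    norm_num at hLB ⊢
    linarith

end Vale.Agent.Lib.P162
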