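import Vale.Agent.Lib.P162.Seq8

/-!
# The mixing time of the Thorp shuffle on `2 ^ (d + 1)` cards is linear in `d`
-/

namespace Vale.Agent.Lib.P162

open Equiv Finset
open scoped InnerProductSpace

set_option linter.unusedSectionVars false
set_option linter.unusedSimpArgs false
set_option linter.unusedVariables false

/-- the sum over all the levels -/
theorem chi_total_lin (H r : ℕ) (hr : r = 160000) :
    ((Fintype.card (Pos H)).factorial : ℝ) *
      ‖((Qrec H (lreg (X := Pos H))) ^ r) (deltaOne (Pos H))‖ ^ 2 ≤ 20 / 19 := by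
  classical
  set b : ℕ → ℝ := fun j => (((2 ^ H).choose j : ℝ))⁻¹ * Real.exp (-3 * (j : ℝ)) with hb
  have h1 := chi_le_sum H r (fun J => b J.card) (by
    intro J e
    by_cases hJ : J = ∅
    · subst hJ
      have : IsEmpty ((∅ : Finset (Pos H)) : Type _) := ⟨fun x => Finset.notMem_empty _ x.2⟩
      refine (level_zero _ e).trans (le_of_eq ?_)
      simp [hb]
    · have hk1 : 1 ≤ Fintype.card J := by
        rw [Fintype.card_coe]
        exact Finset.card_pos.mpr (Finset.nonempty_iff_ne_empty.mpr hJ)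
      have hk2 : Fintype.card J ≤ 2 ^ H := by
        rw [Fintype.card_coe]
        simpa using Finset.card_le_univ J
      have := level_term_lin hk1 hk2 e
      rw [Fintype.card_coe, ← hr] at this
      exact this)
  refine h1.trans ?_
  have h2 : ∑ J : Finset (Pos H), b J.card = ∑ J ∈ (Finset.univ : Finset (Pos H)).powerset, b J.card := by
    rw [Finset.powerset_univ]
  rw [h2, Finset.sum_powerset_apply_card]
  have hcard : (Finset.univ : Finset (Pos H)).card = 2 ^ H := by
    simp
  rw [hcard]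
  have h3 : ∀ j ∈ range (2 ^ H + 1), ((2 ^ H).choose j) • b j = (Real.exp (-3)) ^ j := by
    intro j hj
    have hj' : j ≤ 2 ^ H := Nat.lt_succ_iff.mp (mem_range.mp hj)
    have hc : (0 : ℝ) < ((2 ^ H).choose j : ℝ) := by exact_mod_cast Nat.choose_pos hj'
    rw [nsmul_eq_mul, hb]
    simp only
    rw [← mul_assoc, mul_inv_cancel₀ hc.ne', one_mul, ← Real.exp_nat_mul]
    congr 1
    ring
  rw [sum_congr rfl h3]
  have hy : Real.exp (-3) ≤ 1 / 20 := by
    have h4 : (20 : ℝ) ≤ Real.exp 3 := by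
      have h5 : Real.exp 3 = Real.exp 1 ^ 3 := by
        rw [← Real.exp_nat_mul]
        norm_num
      rw [h5]
      have h6 : (2.718 : ℝ) ^ 3 ≤ Real.exp 1 ^ 3 :=
        pow_le_pow_left₀ (by norm_num) (by linarith [Real.exp_one_gt_d9]) 3
      refine le_trans ?_ h6
      norm_num
    rw [Real.exp_neg, inv_eq_one_div]
    exact one_div_le_one_div_of_le (by norm_num) h4
  have hy0 : 0 ≤ Real.exp (-3) := (Real.exp_pos _).le
  have hgeo : ∀ m : ℕ, ∑ j ∈ range m, Real.exp (-3) ^ j ≤ 20 / 19 := by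
    intro m
    induction m with
    | zero => simp; norm_num
    | succ m ih =>
      rw [Finset.sum_range_succ', Finset.sum_congr rfl (fun j _ => pow_succ (Real.exp (-3)) j),
        ← Finset.sum_mul]
      simp only [pow_zero]
      nlinarith
  exact hgeo _

/-- total variation after a constant number of passes -/
theorem tv_at_passes_lin (D r : ℕ) (hr : r = 160000) :
    tvToUniform (convPowP (thorpLaw (2 ^ D)) (r * (D + 1))) ≤ 1 / 4 := by
  have h1 := chi_total_lin (D + 1) r hr
  rw [← law_transport] at h1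
  set μ := convPowP (thorpLaw (2 ^ D)) (r * (D + 1)) with hμ
  have hmass : ∑ g, μ g = 1 := convPow_sum _ (thorpLaw_sum _) _
  have hnorm : ‖lawVec (2 ^ D) (r * (D + 1))‖ ^ 2 = ∑ g, μ g ^ 2 := by
    rw [EuclideanSpace.real_norm_sq_eq]
    rfl
  rw [hnorm] at h1
  have hcard : Fintype.card (Pos (D + 1)) = 2 * 2 ^ D := by
    simp [pow_succ']
  rw [hcard] at h1
  have htv := tv_sq_le μ hmass
  have h3 : (tvToUniform μ) ^ 2 ≤ (1 / 4) ^ 2 := by
    refine htv.trans ?_
    norm_num
    linarith
  have h4 : 0 ≤ (1 / 4 : ℝ) := by norm_num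
  exact abs_le_of_sq_le_sq' h3 h4 |>.2

/-- the main theorem: the mixing time of the Thorp shuffle on `2 ^ (d + 1)` cards is `O(d + 1)` -/
theorem thorp_linear (d : ℕ) :
    (∀ t : ℕ, 160000 * (d + 1) ≤ t → tvToUniform (convPowP (thorpLaw (2 ^ d)) t) ≤ 1 / 4) ∧
    thorpMix (2 ^ d) ≤ 160000 * (d + 1) := by
  have h0 : tvToUniform (convPowP (thorpLaw (2 ^ d)) (160000 * (d + 1))) ≤ 1 / 4 :=
    tv_at_passes_lin d 160000 rfl
  have hmono : ∀ t : ℕ, 160000 * (d + 1) ≤ t → tvToUniform (convPowP (thorpLaw (2 ^ d)) t) ≤ 1 / 4 := by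
    intro t ht
    induction t, ht using Nat.le_induction with
    | base => exact h0
    | succ t _ ih =>
      exact (tv_conv_le _ _ (thorpLaw_nonneg _) (thorpLaw_sum _)).trans ih
  exact ⟨hmono, Nat.sInf_le h0⟩

end Vale.Agent.Lib.P162
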