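import Vale.Agent.Lib.P162.Rep

/-!
# Jucys-Murphy elements and the star bound

For an orthogonal representation of a symmetric group with no nonzero vector fixed by
all transpositions of an `(m+1)`-set, the star sum `∑_{b ≠ a} ρ (swap a b)` has quadratic
form at most `(m - 1) ‖u‖²`.
-/

namespace Vale.Agent.Lib.P162

open scoped InnerProductSpace
open Equiv

set_option linter.unusedSectionVars false
set_option linter.unusedSimpArgs false
set_option linter.unusedVariables false

variable {V : Type*} [NormedAddCommGroup V] [InnerProductSpace ℝ V]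
variable {X : Type*} [DecidableEq X]
variable (ρ : Perm X →* (V →L[ℝ] V)) (c : ℕ → X)

/-- Jucys-Murphy element -/
noncomputable def JM (j : ℕ) : V →L[ℝ] V := ∑ i ∈ Finset.range j, ρ (swap (c i) (c j))

/-- adjacent transposition -/
noncomputable def sg (i : ℕ) : V →L[ℝ] V := ρ (swap (c i) (c (i + 1)))

variable {ρ c} {n : ℕ}

/-- `c` is injective on `{i | i < n}` -/
def ChainInj (c : ℕ → X) (n : ℕ) : Prop := ∀ i j, i < n → j < n → c i = c j → i = j

lemma swap_chain (hc : ChainInj c n) {a b i : ℕ} (ha : a < n) (hb : b < n) (hi : i < n) :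
    swap (c a) (c b) (c i) = c (swap a b i) := by
  by_cases h1 : i = a
  · subst h1; simp
  by_cases h2 : i = b
  · subst h2; simp
  have h3 : c i ≠ c a := fun h => h1 (hc _ _ hi ha h)
  have h4 : c i ≠ c b := fun h => h2 (hc _ _ hi hb h)
  rw [swap_apply_of_ne_of_ne h3 h4, swap_apply_of_ne_of_ne h1 h2]

lemma swap_lt_iff {a b j i : ℕ} (h : a < j ↔ b < j) : i < j ↔ swap a b i < j := by
  by_cases h1 : i = a
  · subst h1; simp [h]
  by_cases h2 : i = b
  · subst h2; simp [h]
  rw [swap_apply_of_ne_of_ne h1 h2]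

lemma commute_swap_JM (hc : ChainInj c n) {a b j : ℕ} (ha : a < n) (hb : b < n) (hj : j < n)
    (hja : j ≠ a) (hjb : j ≠ b) (hab : a < j ↔ b < j) :
    Commute (ρ (swap (c a) (c b))) (JM ρ c j) := by
  show _ * _ = _ * _
  unfold JM
  rw [Finset.mul_sum, Finset.sum_mul]
  have hfix : swap (c a) (c b) (c j) = c j := by
    apply swap_apply_of_ne_of_ne
    · exact fun h => hja (hc _ _ hj ha h)
    · exact fun h => hjb (hc _ _ hj hb h)
  have hn : ∀ i ∈ Finset.range j, i < n := fun i hi => lt_trans (Finset.mem_range.mp hi) hj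
  have key : ∀ i ∈ Finset.range j, ρ (swap (c a) (c b)) * ρ (swap (c i) (c j)) =
      ρ (swap (c (swap a b i)) (c j)) * ρ (swap (c a) (c b)) := by
    intro i hi
    rw [← rho_conj_swap, swap_chain hc ha hb (hn i hi), hfix]
  rw [Finset.sum_congr rfl key]
  refine Finset.sum_equiv (swap a b) ?_ ?_
  · intro i
    simp only [Finset.mem_range]
    exact swap_lt_iff hab
  · intro i _
    rfl

lemma commute_JM_JM (hc : ChainInj c n) {l j : ℕ} (hl : l < j) (hj : j < n) :
    Commute (JM ρ c l) (JM ρ c j) := by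
  unfold JM
  refine Commute.sum_left _ _ _ fun k hk => ?_
  have hk' := Finset.mem_range.mp hk
  refine commute_swap_JM hc (by omega) (by omega) hj (by omega) (by omega) (by omega) 

lemma commute_sg_JM (hc : ChainInj c n) {i l : ℕ} (hi : i + 1 < n) (hl : l < n)
    (h1 : l ≠ i) (h2 : l ≠ i + 1) : Commute (sg ρ c i) (JM ρ c l) := by
  unfold sg
  exact commute_swap_JM hc (by omega) hi hl h1 h2 (by omega)

lemma sg_sq (i : ℕ) : sg ρ c i * sg ρ c i = 1 := by
  unfold sg
  rw [← map_mul, swap_mul_self, map_one]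

lemma sg_JM_rel (hc : ChainInj c n) {i : ℕ} (hi : i + 1 < n) :
    sg ρ c i * JM ρ c i = (JM ρ c (i + 1) - sg ρ c i) * sg ρ c i := by
  have e : JM ρ c (i + 1) - sg ρ c i =
      ∑ k ∈ Finset.range i, ρ (swap (c k) (c (i + 1))) := by
    unfold JM sg
    rw [Finset.sum_range_succ, add_sub_cancel_right]
  rw [e]
  unfold JM sg
  rw [Finset.mul_sum, Finset.sum_mul]
  refine Finset.sum_congr rfl fun k hk => ?_
  have hk' := Finset.mem_range.mp hk
  have h1 : swap (c i) (c (i + 1)) (c k) = c k := by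
    apply swap_apply_of_ne_of_ne
    · exact fun h => by have := hc _ _ (by omega) (by omega) h; omega
    · exact fun h => by have := hc _ _ (by omega) (by omega) h; omega
  have h2 : swap (c i) (c (i + 1)) (c i) = c (i + 1) := swap_apply_left _ _
  rw [← rho_conj_swap, h1, h2]

lemma JM_succ_sg (hc : ChainInj c n) {i : ℕ} (hi : i + 1 < n) :
    JM ρ c (i + 1) * sg ρ c i = sg ρ c i * JM ρ c i + 1 := by
  rw [sg_JM_rel hc hi, sub_mul, sg_sq]
  abel

lemma JM_sg (hc : ChainInj c n) {i : ℕ} (hi : i + 1 < n) :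
    JM ρ c i * sg ρ c i = sg ρ c i * JM ρ c (i + 1) - 1 := by
  have h := JM_succ_sg (ρ := ρ) hc hi
  have h2 : sg ρ c i * (JM ρ c (i + 1) * sg ρ c i) * sg ρ c i =
      sg ρ c i * (sg ρ c i * JM ρ c i + 1) * sg ρ c i := by rw [h]
  have h3 : sg ρ c i * (JM ρ c (i + 1) * sg ρ c i) * sg ρ c i = sg ρ c i * JM ρ c (i + 1) := by
    rw [mul_assoc, mul_assoc, sg_sq, mul_one]
  have h4 : sg ρ c i * (sg ρ c i * JM ρ c i + 1) * sg ρ c i = JM ρ c i * sg ρ c i + 1 := by
    rw [mul_add, ← mul_assoc, sg_sq, one_mul, mul_one, add_mul, sg_sq]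
  rw [h3, h4] at h2
  rw [h2]; abel

lemma braid (hc : ChainInj c n) {i : ℕ} (hi : i + 2 < n) :
    sg ρ c i * sg ρ c (i + 1) * sg ρ c i = sg ρ c (i + 1) * sg ρ c i * sg ρ c (i + 1) := by
  unfold sg
  simp only [← map_mul]
  congr 1
  have h1 : c i ≠ c (i + 1) := fun h => by have := hc _ _ (by omega) (by omega) h; omega
  have h2 : c i ≠ c (i + 1 + 1) := fun h => by have := hc _ _ (by omega) (by omega) h; omega
  have h3 : c (i + 1) ≠ c (i + 1 + 1) := fun h => by have := hc _ _ (by omega) (by omega) h; omega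
  generalize c i = a at *
  generalize c (i + 1) = b at *
  generalize c (i + 1 + 1) = d at *
  ext w
  simp only [Perm.mul_apply, swap_apply_def]
  split_ifs <;> simp_all


/-! ### joint eigenvectors -/

lemma JM_isSym (hρ : IsOrth ρ) (j : ℕ) : IsSym (JM ρ c j) :=
  IsSym.sum _ _ fun i _ => hρ.isSym_swap _ _

lemma sg_isSym (hρ : IsOrth ρ) (i : ℕ) : IsSym (sg ρ c i) := hρ.isSym_swap _ _

lemma sg_sq_apply (i : ℕ) (u : V) : sg ρ c i (sg ρ c i u) = u := swap_sq_apply ρ _ _ u

lemma JM_succ_sg_apply (hc : ChainInj c n) {i : ℕ} (hi : i + 1 < n) (u : V) :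
    JM ρ c (i + 1) (sg ρ c i u) = sg ρ c i (JM ρ c i u) + u := by
  have := congrArg (fun T : V →L[ℝ] V => T u) (JM_succ_sg (ρ := ρ) hc hi)
  simpa [mul_ap] using this

lemma JM_sg_apply (hc : ChainInj c n) {i : ℕ} (hi : i + 1 < n) (u : V) :
    JM ρ c i (sg ρ c i u) = sg ρ c i (JM ρ c (i + 1) u) - u := by
  have := congrArg (fun T : V →L[ℝ] V => T u) (JM_sg (ρ := ρ) hc hi)
  simpa [mul_ap] using this

lemma sg_JM_comm_apply (hc : ChainInj c n) {i l : ℕ} (hi : i + 1 < n) (hl : l < n)
    (h1 : l ≠ i) (h2 : l ≠ i + 1) (u : V) :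
    JM ρ c l (sg ρ c i u) = sg ρ c i (JM ρ c l u) := by
  have := congrArg (fun T : V →L[ℝ] V => T u) (commute_sg_JM (ρ := ρ) hc hi hl h1 h2).eq
  simpa [mul_ap] using this.symm

/-- joint eigenvectors of `JM 0, …, JM (n-1)` -/
structure JE (ρ : Perm X →* (V →L[ℝ] V)) (c : ℕ → X) (n : ℕ) (u : V) (γ : ℕ → ℝ) : Prop where
  ne : u ≠ 0
  eig : ∀ j, j < n → JM ρ c j u = γ j • u

lemma JE_ne (hρ : IsOrth ρ) (hc : ChainInj c n) {i : ℕ} (hi : i + 1 < n) {u : V} {γ : ℕ → ℝ}
    (hu : JE ρ c n u γ) : γ i ≠ γ (i + 1) := by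
  intro h
  have h1 := JM_succ_sg_apply (ρ := ρ) hc hi u
  rw [hu.eig i (by omega), map_smul] at h1
  have h2 := JM_isSym (c := c) hρ (i + 1) (sg ρ c i u) u
  rw [h1, hu.eig (i + 1) hi, inner_add_left, inner_smul_left, inner_smul_right, ← h] at h2
  simp only [conj_trivial] at h2
  have h3 : ⟪u, u⟫_ℝ = 0 := by linarith
  exact hu.ne (inner_self_eq_zero.mp h3)

lemma JE_swap_eig (hc : ChainInj c n) {i : ℕ} (hi : i + 1 < n) {u : V} {γ : ℕ → ℝ}
    (hu : JE ρ c n u γ) (hne : γ i ≠ γ (i + 1)) {j : ℕ} (hj : j < n) :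
    JM ρ c j (sg ρ c i u - (γ (i + 1) - γ i)⁻¹ • u) =
      (if j = i then γ (i + 1) else if j = i + 1 then γ i else γ j) •
        (sg ρ c i u - (γ (i + 1) - γ i)⁻¹ • u) := by
  have hd : γ (i + 1) - γ i ≠ 0 := sub_ne_zero.mpr hne.symm
  set κ := (γ (i + 1) - γ i)⁻¹ with hκ
  have hκ1 : κ * (γ (i + 1) - γ i) = 1 := inv_mul_cancel₀ hd
  generalize hA : sg ρ c i u = A
  have hscal : (1 : ℝ) = γ (i + 1) * κ - κ * γ i := by linear_combination -hκ1
  by_cases h1 : j = i
  · subst h1
    simp only [if_true]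
    rw [map_sub, map_smul, ← hA, JM_sg_apply hc hi, hu.eig _ hj, hu.eig _ hi, map_smul, hA]
    calc γ (j + 1) • A - u - κ • γ j • u
        = γ (j + 1) • A - (1 : ℝ) • u - κ • γ j • u := by rw [one_smul]
      _ = γ (j + 1) • A - (γ (j + 1) * κ - κ * γ j) • u - κ • γ j • u := by rw [← hscal]
      _ = γ (j + 1) • (A - κ • u) := by module
  by_cases h2 : j = i + 1
  · subst h2
    simp only [if_neg h1, if_true]
    rw [map_sub, map_smul, ← hA, JM_succ_sg_apply hc hi, hu.eig _ hj, hu.eig _ (by omega : i < n),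
      map_smul, hA]
    calc γ i • A + u - κ • γ (i + 1) • u
        = γ i • A + (1 : ℝ) • u - κ • γ (i + 1) • u := by rw [one_smul]
      _ = γ i • A + (γ (i + 1) * κ - κ * γ i) • u - κ • γ (i + 1) • u := by rw [← hscal]
      _ = γ i • (A - κ • u) := by module
  · simp only [if_neg h1, if_neg h2]
    rw [map_sub, map_smul, ← hA, sg_JM_comm_apply hc hi hj h1 h2, hu.eig _ hj, map_smul, hA]
    module

lemma JE_swap (hc : ChainInj c n) {i : ℕ} (hi : i + 1 < n) {u : V} {γ : ℕ → ℝ}
    (hu : JE ρ c n u γ) (hne : γ i ≠ γ (i + 1))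
    (hv : sg ρ c i u - (γ (i + 1) - γ i)⁻¹ • u ≠ 0) :
    JE ρ c n (sg ρ c i u - (γ (i + 1) - γ i)⁻¹ • u)
      (fun j => if j = i then γ (i + 1) else if j = i + 1 then γ i else γ j) :=
  ⟨hv, fun _ hj => JE_swap_eig hc hi hu hne hj⟩

/-- if the swapped vector vanishes then `u` is an eigenvector of the transposition -/
lemma JE_zero_cases {i : ℕ} {u : V} {γ : ℕ → ℝ}
    (hu : JE ρ c n u γ) (hv : sg ρ c i u - (γ (i + 1) - γ i)⁻¹ • u = 0) :
    (γ i = γ (i + 1) - 1 ∧ sg ρ c i u = u) ∨ (γ i = γ (i + 1) + 1 ∧ sg ρ c i u = -u) := by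
  set κ := (γ (i + 1) - γ i)⁻¹ with hκ
  have hs : sg ρ c i u = κ • u := sub_eq_zero.mp hv
  have h2 := sg_sq_apply (ρ := ρ) (c := c) i u
  rw [hs, map_smul, hs, smul_smul] at h2
  have h3 : (κ * κ - 1) • u = 0 := by
    rw [sub_smul, one_smul, h2, sub_self]
  have h4 : κ * κ - 1 = 0 := (smul_eq_zero.mp h3).resolve_right hu.ne
  have h5 : κ = 1 ∨ κ = -1 := by
    have : (κ - 1) * (κ + 1) = 0 := by linarith
    rcases mul_eq_zero.mp this with h | h
    · left; linarith
    · right; linarith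
  rcases h5 with h | h
  · left
    have hd : γ (i + 1) - γ i = 1 := by
      rw [hκ] at h
      exact inv_eq_one.mp h
    refine ⟨by linarith, ?_⟩
    rw [hs, h, one_smul]
  · right
    have hd : γ (i + 1) - γ i = -1 := by
      rw [hκ] at h
      have := congrArg (fun x : ℝ => x⁻¹) h
      simpa using this
    refine ⟨by linarith, ?_⟩
    rw [hs, h, neg_smul, one_smul]

/-- adjacent invariance gives invariance under all swaps of the initial segment -/
lemma swap_inv_of_adj (hc : ChainInj c n) {j : ℕ} (hj : j < n) {u : V}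
    (h : ∀ l, l < j → sg ρ c l u = u) (a b : ℕ) (hab : a ≤ b) (hb : b ≤ j) :
    ρ (swap (c a) (c b)) u = u := by
  induction b, hab using Nat.le_induction with
  | base =>
    rw [swap_self]
    exact rho_one_apply ρ u
  | succ b hab ih =>
    have hb' : b < j := by omega
    by_cases hEq : a = b
    · subst hEq
      exact h a hb'
    · have ih' := ih (by omega)
      have h1 : swap (c b) (c (b + 1)) (c a) = c a := by
        apply swap_apply_of_ne_of_ne
        · exact fun e => hEq (hc _ _ (by omega) (by omega) e)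
        · exact fun e => by have := hc _ _ (by omega) (by omega) e; omega
      have h2 : swap (c b) (c (b + 1)) (c b) = c (b + 1) := swap_apply_left _ _
      have h3 := rho_conj_swap ρ (swap (c b) (c (b + 1))) (c a) (c b)
      rw [h1, h2] at h3
      have h4 := congrArg (fun T : V →L[ℝ] V => T u) h3
      simp only [mul_ap] at h4
      have h5 : ρ (swap (c b) (c (b + 1))) u = u := h b hb'
      rw [h5, ih', h5] at h4
      exact h4

/-- the hypothesis: no nonzero vector is fixed by the transpositions of an `(m+1)`-set -/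
def NoInv [Fintype X] (ρ : Perm X →* (V →L[ℝ] V)) (m : ℕ) : Prop :=
  ∀ S : Finset X, m + 1 ≤ S.card → ∀ v : V, (∀ a ∈ S, ∀ b ∈ S, ρ (swap a b) v = v) → v = 0

theorem JE_le [Fintype X] {m : ℕ} (hρ : IsOrth ρ) (hc : ChainInj c n) (hV : NoInv ρ m) :
    ∀ j, j < n → ∀ (u : V) (γ : ℕ → ℝ), JE ρ c n u γ → γ j ≤ (m : ℝ) - 1 := by
  intro j
  induction j using Nat.strong_induction_on with
  | _ j ih =>
    intro hj u γ hu
    by_contra hcon
    rw [not_le] at hcon
    set c0 := γ j with hc0
    have claim : ∀ (k p : ℕ), p + k = j → ∀ (u' : V) (γ' : ℕ → ℝ), JE ρ c n u' γ' → γ' j = c0 →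
        γ' p = c0 - ((j : ℝ) - (p : ℝ)) ∧ ∀ l, p ≤ l → l < j → sg ρ c l u' = u' := by
      intro k
      induction k with
      | zero =>
        intro p hp u' γ' _ h'
        have : p = j := by omega
        subst this
        refine ⟨by simp [h'], fun l h1 h2 => by omega⟩
      | succ k ihk =>
        intro p hp u' γ' hu' h'
        obtain ⟨h1, h2⟩ := ihk (p + 1) (by omega) u' γ' hu' h'
        have hi : p + 1 < n := by omega
        have hne := JE_ne hρ hc hi hu'
        by_cases hv : sg ρ c p u' - (γ' (p + 1) - γ' p)⁻¹ • u' = 0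
        · rcases JE_zero_cases hu' hv with ⟨ha, hs⟩ | ⟨ha, hs⟩
          · refine ⟨?_, fun l hl1 hl2 => ?_⟩
            · rw [ha, h1]; push_cast; ring
            · by_cases hlp : l = p
              · subst hlp; exact hs
              · exact h2 l (by omega) hl2
          · exfalso
            by_cases hpj : p + 1 = j
            · have := ih p (by omega) (by omega) u' γ' hu'
              rw [ha, hpj, h'] at this
              linarith
            · have hs2 : sg ρ c (p + 1) u' = u' := h2 (p + 1) le_rfl (by omega)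
              have hb := congrArg (fun T : V →L[ℝ] V => T u')
                (braid (ρ := ρ) hc (i := p) (by omega))
              simp only [mul_ap] at hb
              rw [hs, map_neg, hs2, map_neg, hs, neg_neg] at hb
              rw [map_neg, hs2] at hb
              have : (2 : ℝ) • u' = 0 := by
                rw [two_smul]
                nth_rewrite 1 [hb]
                simp
              exact hu'.ne ((smul_eq_zero.mp this).resolve_left (by norm_num))
        · exfalso
          have hv' := JE_swap hc hi hu' hne hv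
          by_cases hpj : p + 1 = j
          · have := ih p (by omega) (by omega) _ _ hv'
            simp only [if_true] at this
            rw [hpj, h'] at this
            linarith
          · have hjne1 : j ≠ p := by omega
            have hjne2 : j ≠ p + 1 := by omega
            have h3 := ihk (p + 1) (by omega) _ _ hv'
              (by simp only [if_neg hjne1, if_neg hjne2]; exact h')
            obtain ⟨h3, -⟩ := h3
            simp only [if_neg (by omega : p + 1 ≠ p), if_true] at h3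
            exact hne (by rw [h3, h1])
    obtain ⟨h0, hadj⟩ := claim j 0 (by omega) u γ hu rfl
    have hn0 : 0 < n := by omega
    have h00 : γ 0 = 0 := by
      have := hu.eig 0 hn0
      simp only [JM, Finset.range_zero, Finset.sum_empty] at this
      have h2 : γ 0 • u = 0 := by
        rw [← this]; rfl
      exact (smul_eq_zero.mp h2).resolve_right hu.ne
    have hcj : c0 = j := by
      rw [h00] at h0
      push_cast at h0
      linarith
    have hadj' : ∀ l, l < j → sg ρ c l u = u := fun l hl => hadj l (Nat.zero_le _) hl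
    have hall := swap_inv_of_adj (ρ := ρ) hc hj hadj'
    set S : Finset X := (Finset.range (j + 1)).image c with hS
    have hcard : S.card = j + 1 := by
      rw [hS, Finset.card_image_of_injOn, Finset.card_range]
      intro a ha b hb hab
      simp only [Finset.coe_range, Set.mem_Iio] at ha hb
      exact hc _ _ (by omega) (by omega) hab
    have hmj : m + 1 ≤ S.card := by
      rw [hcard]
      have : (m : ℝ) - 1 < (j : ℝ) := by rw [← hcj]; exact hcon
      have h4 : (m : ℝ) < (j : ℝ) + 1 := by linarith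
      have h5 : m < j + 1 := by exact_mod_cast h4
      omega
    refine hu.ne (hV S hmj u ?_)
    intro a ha b hb
    simp only [hS, Finset.mem_image, Finset.mem_range] at ha hb
    obtain ⟨a', ha', rfl⟩ := ha
    obtain ⟨b', hb', rfl⟩ := hb
    rcases le_total a' b' with h | h
    · exact hall a' b' h (by omega)
    · rw [swap_comm]; exact hall b' a' h (by omega)

theorem JM_rayleigh [FiniteDimensional ℝ V] [Fintype X] {m : ℕ} (hρ : IsOrth ρ)
    (hc : ChainInj c n) (hV : NoInv ρ m) {j : ℕ} (hj : j < n) (u : V) :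
    ⟪u, JM ρ c j u⟫_ℝ ≤ ((m : ℝ) - 1) * ‖u‖ ^ 2 := by
  let T : {i : ℕ // i < n} → (V →ₗ[ℝ] V) := fun i => (JM ρ c i.1 : V →ₗ[ℝ] V)
  have hT : ∀ i, (T i).IsSymmetric := fun i u v => JM_isSym (c := c) hρ i.1 u v
  have hcomm : Pairwise (Function.onFun Commute T) := by
    intro i l hil
    show Commute (T i) (T l)
    have hne : i.1 ≠ l.1 := fun h => hil (Subtype.ext h)
    have key : Commute (JM ρ c i.1) (JM ρ c l.1) := by
      rcases lt_or_gt_of_ne hne with h | h
      · exact commute_JM_JM hc h l.2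
      · exact (commute_JM_JM hc h i.2).symm
    show (T i) * (T l) = (T l) * (T i)
    ext w
    have := congrArg (fun A : V →L[ℝ] V => A w) key.eq
    exact this
  have htop := LinearMap.IsSymmetric.iSup_iInf_eq_top_of_commute hT hcomm
  refine rayleigh_le_of_eigen (hT ⟨j, hj⟩) _ ?_ u
  intro μ z hz hμ
  by_contra hcon
  rw [not_le] at hcon
  apply hz
  have hle : ⨆ χ : {i : ℕ // i < n} → ℝ, ⨅ i, Module.End.eigenspace (T i) (χ i) ≤
      (Submodule.span ℝ {z})ᗮ := by
    apply iSup_le
    intro χ y hy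
    rw [Submodule.mem_orthogonal_singleton_iff_inner_right]
    by_cases hy0 : y = 0
    · simp [hy0]
    have hy' : ∀ i, T i y = χ i • y := by
      intro i
      have := (Submodule.mem_iInf _).mp hy i
      exact Module.End.mem_eigenspace_iff.mp this
    let γ : ℕ → ℝ := fun l => if h : l < n then χ ⟨l, h⟩ else 0
    have hje : JE ρ c n y γ := ⟨hy0, fun l hl => by
      simp only [γ, dif_pos hl]
      exact hy' ⟨l, hl⟩⟩
    have hle := JE_le hρ hc hV j hj y γ hje
    have hχ : χ ⟨j, hj⟩ ≤ (m : ℝ) - 1 := by simpa only [γ, dif_pos hj] using hle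
    have h1 := hT ⟨j, hj⟩ y z
    rw [hy', hμ, inner_smul_left, inner_smul_right] at h1
    simp only [conj_trivial] at h1
    have h2 : (χ ⟨j, hj⟩ - μ) * ⟪y, z⟫_ℝ = 0 := by linarith
    have h3 : χ ⟨j, hj⟩ - μ ≠ 0 := by
      intro h
      linarith
    have h4 := (mul_eq_zero.mp h2).resolve_left h3
    rw [real_inner_comm]
    exact h4
  rw [htop] at hle
  have := hle (Submodule.mem_top : z ∈ ⊤)
  rw [Submodule.mem_orthogonal_singleton_iff_inner_right] at this
  exact inner_self_eq_zero.mp this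

/-- the star bound -/
theorem star_sum [Fintype X] [FiniteDimensional ℝ V] {m : ℕ} (hρ : IsOrth ρ) (hV : NoInv ρ m)
    (a : X) (u : V) : ∑ b : X, ⟪u, ρ (swap a b) u⟫_ℝ ≤ (m : ℝ) * ‖u‖ ^ 2 := by
  have hpos : 0 < Fintype.card X := Fintype.card_pos_iff.mpr ⟨a⟩
  obtain ⟨N, hN⟩ : ∃ N, Fintype.card X = N + 1 := ⟨Fintype.card X - 1, by omega⟩
  let e0 : X ≃ Fin (N + 1) := Fintype.equivFinOfCardEq hN
  let e : X ≃ Fin (N + 1) := e0.trans (swap (e0 a) (Fin.last N))
  have hea : e a = Fin.last N := by simp [e]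
  let c' : ℕ → X := fun i => if h : i < N + 1 then e.symm ⟨i, h⟩ else a
  have hc' : ChainInj c' (N + 1) := by
    intro i j hi hj h
    simp only [c', dif_pos hi, dif_pos hj] at h
    have := e.symm.injective h
    exact congrArg Fin.val this
  have hcN : c' N = a := by
    simp only [c', dif_pos (Nat.lt_succ_self N)]
    rw [Equiv.symm_apply_eq, hea]
    rfl
  have hR := JM_rayleigh (c := c') hρ hc' hV (Nat.lt_succ_self N) u
  have hsum : ∑ b : X, ⟪u, ρ (swap a b) u⟫_ℝ = ‖u‖ ^ 2 + ⟪u, JM ρ c' N u⟫_ℝ := by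
    rw [← Equiv.sum_comp e.symm, Fin.sum_univ_castSucc]
    have h1 : e.symm (Fin.last N) = a := by rw [Equiv.symm_apply_eq, hea]
    rw [h1, swap_self, add_comm]
    congr 1
    · show ⟪u, ρ 1 u⟫_ℝ = _
      rw [rho_one_apply, real_inner_self_eq_norm_sq]
    · unfold JM
      rw [sum_apply, inner_sum, Finset.sum_range]
      refine Finset.sum_congr rfl fun i _ => ?_
      rw [hcN, swap_comm]
      have h2 : c' i = e.symm (Fin.castSucc i) := by
        simp only [c', dif_pos (Nat.lt_succ_of_lt i.2)]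
        rfl
      rw [h2]
  rw [hsum]
  linarith

/-- lower bound for the Laplacian -/
theorem Lap_lower [Fintype X] [FiniteDimensional ℝ V] {m : ℕ} (hρ : IsOrth ρ) (hV : NoInv ρ m)
    (hX : 0 < Fintype.card X) (u : V) :
    (((Fintype.card X : ℝ) - m) / 2) * ‖u‖ ^ 2 ≤ ⟪u, Lap ρ u⟫_ℝ := by
  rw [inner_Lap]
  have hn : (0 : ℝ) < Fintype.card X := by exact_mod_cast hX
  have h1 : ∀ x : X, ((Fintype.card X : ℝ) - m) * ‖u‖ ^ 2 ≤
      ∑ y : X, (‖u‖ ^ 2 - ⟪u, ρ (swap x y) u⟫_ℝ) := by
    intro x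
    rw [Finset.sum_sub_distrib]
    simp only [Finset.sum_const, Finset.card_univ, nsmul_eq_mul]
    have := star_sum hρ hV x u
    nlinarith
  have h2 : (Fintype.card X : ℝ) * (((Fintype.card X : ℝ) - m) * ‖u‖ ^ 2) ≤
      ∑ x : X, ∑ y : X, (‖u‖ ^ 2 - ⟪u, ρ (swap x y) u⟫_ℝ) := by
    have := Finset.sum_le_sum (fun x (_ : x ∈ Finset.univ) => h1 x)
    simpa only [Finset.sum_const, Finset.card_univ, nsmul_eq_mul] using this
  have h3 : (0 : ℝ) < 1 / (2 * (Fintype.card X : ℝ)) := by positivity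
  calc (((Fintype.card X : ℝ) - m) / 2) * ‖u‖ ^ 2
      = (1 / (2 * (Fintype.card X : ℝ))) *
          ((Fintype.card X : ℝ) * (((Fintype.card X : ℝ) - m) * ‖u‖ ^ 2)) := by
        field_simp
    _ ≤ _ := mul_le_mul_of_nonneg_left h2 h3.le

/-- restriction of a representation to an invariant subspace -/
noncomputable def subRep (ρ : Perm X →* (V →L[ℝ] V)) (W : Submodule ℝ V)
    (hW : ∀ g, ∀ w ∈ W, ρ g w ∈ W) : Perm X →* (W →L[ℝ] W) where
  toFun g := ((ρ g).comp W.subtypeL).codRestrict W (fun w => hW g w w.2)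
  map_one' := by
    ext w
    simp [rho_one_apply]
  map_mul' g h := by
    ext w
    simp [rho_mul_apply]
    rfl

lemma subRep_coe (W : Submodule ℝ V) (hW : ∀ g, ∀ w ∈ W, ρ g w ∈ W) (g : Perm X) (w : W) :
    ((subRep ρ W hW g w : W) : V) = ρ g w := rfl

lemma subRep_isOrth (W : Submodule ℝ V) (hW : ∀ g, ∀ w ∈ W, ρ g w ∈ W) (hρ : IsOrth ρ) :
    IsOrth (subRep ρ W hW) := by
  intro g u v
  exact hρ g u v

/-- lower bound for the Laplacian on an invariant subspace without fixed vectors -/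
theorem Lap_lower_sub [Fintype X] [FiniteDimensional ℝ V] {m : ℕ} (hρ : IsOrth ρ)
    (W : Submodule ℝ V) (hW : ∀ g, ∀ w ∈ W, ρ g w ∈ W)
    (hNo : ∀ S : Finset X, m + 1 ≤ S.card → ∀ w ∈ W, (∀ a ∈ S, ∀ b ∈ S, ρ (swap a b) w = w) → w = 0)
    (hX : 0 < Fintype.card X) {u : V} (hu : u ∈ W) :
    (((Fintype.card X : ℝ) - m) / 2) * ‖u‖ ^ 2 ≤ ⟪u, Lap ρ u⟫_ℝ := by
  have hN : NoInv (subRep ρ W hW) m := by
    intro S hS v hv
    have h0 := hNo S hS v v.2 (fun a ha b hb => by
      have := congrArg (Subtype.val) (hv a ha b hb)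
      exact this)
    exact Subtype.ext h0
  have h := Lap_lower (subRep_isOrth W hW hρ) hN hX (⟨u, hu⟩ : W)
  have e : ⟪(⟨u, hu⟩ : W), Lap (subRep ρ W hW) ⟨u, hu⟩⟫_ℝ = ⟪u, Lap ρ u⟫_ℝ := by
    rw [inner_Lap, inner_Lap]
    rfl
  rw [e] at h
  simpa using h

end Vale.Agent.Lib.P162
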