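import Vale.Agent.Lib.P162.N3

/-!
# Combinatorics of requests: eliminating the frozen marks and the free part of a solution
-/

namespace Vale.Agent.Lib.P162

open Finset

set_option linter.unusedSectionVars false
set_option linter.unusedSimpArgs false
set_option linter.unusedVariables false

variable {ι : Type*} [Fintype ι] [DecidableEq ι] {Z : Type*} [DecidableEq Z]

/-- Elimination of the frozen marks: a map `ξ'` not depending on `A` takes over the role of `ξ`. -/
theorem elim_frozen (P : Z → Prop) [DecidablePred P] (w : ι → Z) (S₁ : Finset ι) :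
    InjF w S₁ → (∀ s ∈ S₁, P (w s)) → ∀ ξ : ι → Z, ∃ ξ' : ι → Z, ∀ A : Finset ι, InjF ξ A →
      (A.image ξ).filter P = (A ∩ S₁).image w →
      InjF ξ' (A \ S₁) ∧ (A \ S₁).image ξ' = (A.image ξ).filter (fun z => ¬ P z) := by
  induction S₁ using Finset.induction_on with
  | empty =>
    intro _ _ ξ
    refine ⟨ξ, fun A hinj himg => ?_⟩
    simp only [sdiff_empty]
    refine ⟨hinj, ?_⟩
    simp only [inter_empty, image_empty] at himg
    ext z
    simp only [mem_filter]
    constructor
    · intro hz
      refine ⟨hz, fun hP => ?_⟩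
      have : z ∈ (A.image ξ).filter P := mem_filter.mpr ⟨hz, hP⟩
      rw [himg] at this
      simp at this
    · exact fun h => h.1
  | insert s T hs ih =>
    intro hw hP ξ
    have hwT : InjF w T := hw.mono (subset_insert _ _)
    have hPT : ∀ t ∈ T, P (w t) := fun t ht => hP t (mem_insert_of_mem ht)
    have hPs : P (w s) := hP s (mem_insert_self _ _)
    set ρ : Z → Z := fun z => if z = w s then ξ s else z with hρ
    obtain ⟨ξ', hξ'⟩ := ih hwT hPT (fun a => ρ (ξ a))
    refine ⟨ξ', fun A hinj himg => ?_⟩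
    have hclaim : InjF (fun a => ρ (ξ a)) (A.erase s) ∧
        (A.erase s).image (fun a => ρ (ξ a)) = (A.image ξ).erase (w s) := by
      by_cases hsA : s ∈ A
      · have h1 : w s ∈ (A.image ξ).filter P := by
          rw [himg]
          exact mem_image_of_mem _ (mem_inter.mpr ⟨hsA, mem_insert_self _ _⟩)
        obtain ⟨a₀, ha₀, hξa₀⟩ := mem_image.mp (mem_filter.mp h1).1
        constructor
        · intro a ha a' ha' hh
          have ha1 := mem_of_mem_erase ha
          have ha1' := mem_of_mem_erase ha'
          simp only at hh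
          by_cases e : ξ a = w s
          · by_cases e' : ξ a' = w s
            · exact hinj a ha1 a' ha1' (e.trans e'.symm)
            · simp only [hρ, if_pos e, if_neg e'] at hh
              have := hinj s hsA a' ha1' hh
              exact absurd this.symm (ne_of_mem_erase ha')
          · by_cases e' : ξ a' = w s
            · simp only [hρ, if_neg e, if_pos e'] at hh
              have := hinj a ha1 s hsA hh
              exact absurd this (ne_of_mem_erase ha)
            · simp only [hρ, if_neg e, if_neg e'] at hh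
              exact hinj a ha1 a' ha1' hh
        · ext z
          simp only [mem_image, mem_erase]
          constructor
          · rintro ⟨a, ⟨hne, ha⟩, rfl⟩
            by_cases e : ξ a = w s
            · simp only [hρ, if_pos e]
              refine ⟨?_, s, hsA, rfl⟩
              intro h3
              exact hne (hinj a ha s hsA (e.trans h3.symm))
            · simp only [hρ, if_neg e]
              exact ⟨e, a, ha, rfl⟩
          · rintro ⟨hne, a, ha, rfl⟩
            by_cases has : a = s
            · subst has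
              refine ⟨a₀, ⟨?_, ha₀⟩, ?_⟩
              · rintro rfl
                exact hne hξa₀
              · simp only [hρ, if_pos hξa₀]
            · exact ⟨a, ⟨has, ha⟩, by simp only [hρ, if_neg hne]⟩
      · have h2 : w s ∉ A.image ξ := by
          intro h3
          have h4 : w s ∈ (A.image ξ).filter P := mem_filter.mpr ⟨h3, hPs⟩
          rw [himg] at h4
          obtain ⟨a, ha, hwa⟩ := mem_image.mp h4
          obtain ⟨h5, h6⟩ := mem_inter.mp ha
          have := hw a h6 s (mem_insert_self _ _) hwa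
          exact hsA (this ▸ h5)
        have h3 : ∀ a ∈ A, ρ (ξ a) = ξ a := by
          intro a ha
          have : ξ a ≠ w s := fun h => h2 (h ▸ mem_image_of_mem _ ha)
          simp only [hρ, if_neg this]
        rw [erase_eq_of_notMem hsA, erase_eq_of_notMem h2]
        constructor
        · intro a ha a' ha' hh
          simp only at hh
          rw [h3 a ha, h3 a' ha'] at hh
          exact hinj a ha a' ha' hh
        · exact image_congr fun a ha => h3 a ha
    obtain ⟨hc1, hc2⟩ := hclaim
    have hfilter : ((A.erase s).image fun a => ρ (ξ a)).filter P = ((A.erase s) ∩ T).image w := by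
      rw [hc2, filter_erase, himg]
      ext z
      simp only [mem_erase, mem_image, mem_inter, mem_insert]
      constructor
      · rintro ⟨hne, a, ⟨ha, h5⟩, rfl⟩
        rcases h5 with rfl | h5
        · exact absurd rfl hne
        · exact ⟨a, ⟨⟨fun h => hs (h ▸ h5), ha⟩, h5⟩, rfl⟩
      · rintro ⟨a, ⟨⟨hne, ha⟩, h5⟩, rfl⟩
        refine ⟨fun h => hne (hw a (mem_insert_of_mem h5) s (mem_insert_self _ _) h), a,
          ⟨ha, Or.inr h5⟩, rfl⟩
    obtain ⟨h1, h2⟩ := hξ' (A.erase s) hc1 hfilter
    have e1 : (A.erase s) \ T = A \ insert s T := by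
      ext a
      simp only [mem_sdiff, mem_erase, mem_insert, not_or]
      tauto
    rw [e1] at h1 h2
    refine ⟨h1, ?_⟩
    rw [h2, hc2, filter_erase, erase_eq_of_notMem]
    simp [hPs]

/-- one arc: `a` points at the frozen mark `s` -/
def arcF (ξ w : ι → Z) (S₁ : Finset ι) (a s : ι) : Prop := ξ a = w s ∧ s ∈ S₁

open Classical in
/-- the frozen marks reached from `A₀` -/
noncomputable def closF (ξ w : ι → Z) (S₁ A₀ : Finset ι) : Finset ι :=
  S₁.filter fun s => ∃ a ∈ A₀, Relation.TransGen (arcF ξ w S₁) a s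

/-- the free part of a solution: the frozen marks not reached from outside -/
noncomputable def freeF (ξ w : ι → Z) (S₁ A : Finset ι) : Finset ι :=
  (A ∩ S₁) \ closF ξ w S₁ (A \ S₁)

lemma mem_closF {ξ w : ι → Z} {S₁ A₀ : Finset ι} {s : ι} :
    s ∈ closF ξ w S₁ A₀ ↔ s ∈ S₁ ∧ ∃ a ∈ A₀, Relation.TransGen (arcF ξ w S₁) a s := by
  simp [closF]

section free

variable (P : Z → Prop) [DecidablePred P] {w ξ : ι → Z} {S₁ A : Finset ι}

lemma arc_stays (hw : InjF w S₁) (hP : ∀ s ∈ S₁, P (w s))
    (himg : (A.image ξ).filter P = (A ∩ S₁).image w) {a s : ι} (ha : a ∈ A)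
    (h : arcF ξ w S₁ a s) : s ∈ A := by
  obtain ⟨h1, h2⟩ := h
  have h3 : w s ∈ (A.image ξ).filter P :=
    mem_filter.mpr ⟨h1 ▸ mem_image_of_mem _ ha, hP s h2⟩
  rw [himg] at h3
  obtain ⟨s', hs', h4⟩ := mem_image.mp h3
  obtain ⟨h5, h6⟩ := mem_inter.mp hs'
  exact (hw s' h6 s h2 h4) ▸ h5

lemma closF_subset (hw : InjF w S₁) (hP : ∀ s ∈ S₁, P (w s))
    (himg : (A.image ξ).filter P = (A ∩ S₁).image w) :
    closF ξ w S₁ (A \ S₁) ⊆ A := by
  intro s hs
  obtain ⟨h1, a, ha, h2⟩ := mem_closF.mp hs
  have ha' : a ∈ A := (mem_sdiff.mp ha).1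
  clear hs h1
  induction h2 with
  | single h => exact arc_stays P hw hP himg ha' h
  | tail _ h ih => exact arc_stays P hw hP himg ih h

/-- a solution is recovered from its part outside `S₁` and its free part -/
lemma free_recover (hw : InjF w S₁) (hP : ∀ s ∈ S₁, P (w s))
    (himg : (A.image ξ).filter P = (A ∩ S₁).image w) :
    A = (A \ S₁) ∪ closF ξ w S₁ (A \ S₁) ∪ freeF ξ w S₁ A := by
  have h1 := closF_subset P hw hP himg
  ext a
  simp only [freeF, mem_union, mem_sdiff, mem_inter]
  constructor
  · intro ha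
    by_cases h2 : a ∈ S₁
    · by_cases h3 : a ∈ closF ξ w S₁ (A \ S₁)
      · exact Or.inl (Or.inr h3)
      · exact Or.inr ⟨⟨ha, h2⟩, h3⟩
    · exact Or.inl (Or.inl ⟨ha, h2⟩)
  · rintro ((h | h) | h)
    · exact h.1
    · exact h1 h
    · exact h.1.1

lemma freeF_subset : freeF ξ w S₁ A ⊆ A ∩ S₁ := sdiff_subset

/-- on the free part, `ξ` and `w` have the same image -/
lemma free_image (hw : InjF w S₁) (hP : ∀ s ∈ S₁, P (w s))
    (himg : (A.image ξ).filter P = (A ∩ S₁).image w) :
    (freeF ξ w S₁ A).image ξ = (freeF ξ w S₁ A).image w := by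
  set F := freeF ξ w S₁ A with hF
  have h1 : ∀ s ∈ F, ∃ a ∈ F, ξ a = w s := by
    intro s hs
    obtain ⟨h2, h3⟩ := mem_sdiff.mp hs
    obtain ⟨hsA, hsS⟩ := mem_inter.mp h2
    have h4 : w s ∈ (A.image ξ).filter P := by
      rw [himg]
      exact mem_image_of_mem _ h2
    obtain ⟨a, ha, hξ⟩ := mem_image.mp (mem_filter.mp h4).1
    have harc : arcF ξ w S₁ a s := ⟨hξ, hsS⟩
    refine ⟨a, ?_, hξ⟩
    have haS : a ∈ S₁ := by
      by_contra hna
      exact h3 (mem_closF.mpr ⟨hsS, a, mem_sdiff.mpr ⟨ha, hna⟩, Relation.TransGen.single harc⟩)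
    refine mem_sdiff.mpr ⟨mem_inter.mpr ⟨ha, haS⟩, fun hcl => h3 ?_⟩
    obtain ⟨_, a', ha', h5⟩ := mem_closF.mp hcl
    exact mem_closF.mpr ⟨hsS, a', ha', h5.tail harc⟩
  choose! pred hpred1 hpred2 using h1
  have hFS : ∀ s ∈ F, s ∈ S₁ := fun s hs => (mem_inter.mp (mem_sdiff.mp hs).1).2
  have hinj : Set.InjOn pred F := by
    intro s hs s' hs' h
    have h2 : w s = w s' := by
      rw [← hpred2 s hs, ← hpred2 s' hs', h]
    exact hw s (hFS s hs) s' (hFS s' hs') h2
  have himgp : F.image pred = F := by
    apply eq_of_subset_of_card_le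
    · intro a ha
      obtain ⟨s, hs, rfl⟩ := mem_image.mp ha
      exact hpred1 s hs
    · rw [card_image_of_injOn hinj]
  calc F.image ξ = (F.image pred).image ξ := by rw [himgp]
    _ = F.image (ξ ∘ pred) := image_image
    _ = F.image w := image_congr fun s hs => hpred2 s hs

end free

end Vale.Agent.Lib.P162
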