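import Vale.Agent.Lib.P162.T1

/-!
# The tilted kernel: a pointwise bound for the two sided density, vanishing, the step identity
-/

namespace Vale.Agent.Lib.P162

open Finset

set_option linter.unusedSectionVars false
set_option linter.unusedSimpArgs false
set_option linter.unusedVariables false

variable {ι : Type*} [Fintype ι] [DecidableEq ι]

lemma wtD_congr_all (D : ℕ) (S : Finset ι) {f f' : ι → Bool} {t t' : ι → Pos D} {a a' : ι → Bool}
    (hf : ∀ i ∈ S, f i = f' i) (ht : ∀ i ∈ S, t i = t' i) (ha : ∀ i ∈ S, a i = a' i) :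
    wtD D S f t a = wtD D S f' t' a' := by
  unfold wtD coinP
  congr 1
  refine avg_congr fun c => ?_
  congr 1
  apply propext
  refine forall₂_congr fun i hi => ?_
  rw [hf i hi, ht i hi, ha i hi]

lemma rrD_congr (D : ℕ) (S : Finset ι) (f₁ : ι → Bool) (t₁ : ι → Pos D) {b b' : ι → Bool}
    {t t' : ι → Pos D} (hb : ∀ i ∈ S, b i = b' i) (ht : ∀ i ∈ S, t i = t' i) :
    rrD D S f₁ t₁ b t = rrD D S f₁ t₁ b' t' := by
  unfold rrD
  refine avg_congr fun a => ?_
  rw [wtD_congr_all D S hb ht (fun _ _ => rfl)]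

/-- the tilted kernel with tilting flags `tq` -/
noncomputable def tB (tq : ℕ → Bool) : (D : ℕ) → Finset ι → (ι → Pos D) → (ι → Pos D) → ℝ
  | 0, _, _, _ => 1
  | D + 1, S, x, y => (if tq D = true then rrD D S (hd x) (tl x) (hd y) (tl y) else 1) *
      avg fun b : ι → Bool => wtD D S (hd x) (tl x) b * wtD D S (hd y) (tl y) b *
        (tB tq D (blk S b false) (tl x) (tl y) * tB tq D (blk S b true) (tl x) (tl y))

lemma tB_zero (tq : ℕ → Bool) (S : Finset ι) (x y : ι → Pos 0) : tB tq 0 S x y = 1 := rfl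

lemma tB_succ (tq : ℕ → Bool) (D : ℕ) (S : Finset ι) (x y : ι → Pos (D + 1)) :
    tB tq (D + 1) S x y = (if tq D = true then rrD D S (hd x) (tl x) (hd y) (tl y) else 1) *
      avg fun b : ι → Bool => wtD D S (hd x) (tl x) b * wtD D S (hd y) (tl y) b *
        (tB tq D (blk S b false) (tl x) (tl y) * tB tq D (blk S b true) (tl x) (tl y)) := rfl

lemma tB_nonneg (tq : ℕ → Bool) (D : ℕ) : ∀ (S : Finset ι) (x y : ι → Pos D), 0 ≤ tB tq D S x y := by
  induction D with
  | zero => intro S x y; rw [tB_zero]; norm_num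
  | succ D ih =>
    intro S x y
    rw [tB_succ]
    apply mul_nonneg
    · split_ifs
      · exact rrD_nonneg _ _ _ _ _ _
      · norm_num
    · exact avg_nonneg fun b => mul_nonneg (mul_nonneg (wtD_nonneg _ _ _ _ _) (wtD_nonneg _ _ _ _ _))
        (mul_nonneg (ih _ _ _) (ih _ _ _))

lemma tl_congr {D : ℕ} {S : Finset ι} {y y' : ι → Pos (D + 1)} (h : ∀ i ∈ S, y i = y' i) :
    ∀ i ∈ S, tl y i = tl y' i := fun i hi => by
  unfold tl
  rw [h i hi]

lemma hd_congr {D : ℕ} {S : Finset ι} {y y' : ι → Pos (D + 1)} (h : ∀ i ∈ S, y i = y' i) :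
    ∀ i ∈ S, hd y i = hd y' i := fun i hi => by
  unfold hd
  rw [h i hi]

lemma tB_congr_right (tq : ℕ → Bool) (D : ℕ) : ∀ (S : Finset ι) (x : ι → Pos D) {y y' : ι → Pos D},
    (∀ i ∈ S, y i = y' i) → tB tq D S x y = tB tq D S x y' := by
  induction D with
  | zero => intro S x y y' _; rfl
  | succ D ih =>
    intro S x y y' h
    rw [tB_succ, tB_succ]
    have h1 := hd_congr h
    have h2 := tl_congr h
    congr 1
    · split_ifs
      · exact rrD_congr D S _ _ h1 h2
      · rfl
    · refine avg_congr fun b => ?_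
      rw [wtD_congr_all D S (f := hd y) (f' := hd y') (t := tl y) (t' := tl y') (a := b) (a' := b)
        h1 h2 (fun _ _ => rfl)]
      rw [ih (blk S b false) (tl x) (y := tl y) (y' := tl y') (fun i hi => h2 i (mem_blk.mp hi).1),
        ih (blk S b true) (tl x) (y := tl y) (y' := tl y') (fun i hi => h2 i (mem_blk.mp hi).1)]

lemma wtD_sep' {D : ℕ} {S : Finset ι} {f : ι → Bool} {t : ι → Pos D} {b : ι → Bool}
    (h : wtD D S f t b ≠ 0) {i j : ι} (hi : i ∈ S) (hj : j ∈ S) (ht : t i = t j) (hf : f i = f j) :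
    b i = b j := by
  obtain ⟨c, hc⟩ := exists_coin_of_wtD_ne h
  rw [← hc i hi, ← hc j hj, ht, hf]

/-- two tuples with the same first bits and tails agree -/
lemma eq_of_hd_tl {D : ℕ} {x : ι → Pos (D + 1)} {i j : ι} (h1 : tl x i = tl x j) (h2 : hd x i = hd x j) :
    x i = x j := by
  rw [← Fin.cons_self_tail (x i), ← Fin.cons_self_tail (x j)]
  show (Fin.cons (hd x i) (tl x i) : Pos (D + 1)) = Fin.cons (hd x j) (tl x j)
  rw [h1, h2]

/-- the tails of an injective tuple are injective on the blocks of a positive weight -/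
lemma tl_inj_blk {D : ℕ} {S : Finset ι} {x : ι → Pos (D + 1)} {b : ι → Bool} (hx : InjF x S)
    (hb : wtD D S (hd x) (tl x) b ≠ 0) (β : Bool) : InjF (tl x) (blk S b β) := by
  intro i hi j hj hij
  obtain ⟨hi1, hi2⟩ := mem_blk.mp hi
  obtain ⟨hj1, hj2⟩ := mem_blk.mp hj
  exact hx i hi1 j hj1 (eq_of_hd_tl hij (wtD_sep hb hi1 hj1 hij (hi2.trans hj2.symm)))

/-- the tilted kernel vanishes on noninjective tuples when the source tuple is injective -/
lemma tB_eq_zero (tq : ℕ → Bool) (D : ℕ) : ∀ (S : Finset ι) {x y : ι → Pos D},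
    InjF x S → ∀ {i j : ι}, i ∈ S → j ∈ S → i ≠ j → y i = y j → tB tq D S x y = 0 := by
  induction D with
  | zero =>
    intro S x y hx i j hi hj hij hy
    exact absurd (hx i hi j hj (Subsingleton.elim _ _)) hij
  | succ D ih =>
    intro S x y hx i j hi hj hij hy
    rw [tB_succ]
    have : (avg fun b : ι → Bool => wtD D S (hd x) (tl x) b * wtD D S (hd y) (tl y) b *
        (tB tq D (blk S b false) (tl x) (tl y) * tB tq D (blk S b true) (tl x) (tl y))) = 0 := by
      have h0 : ∀ b : ι → Bool, wtD D S (hd x) (tl x) b * wtD D S (hd y) (tl y) b *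
          (tB tq D (blk S b false) (tl x) (tl y) * tB tq D (blk S b true) (tl x) (tl y)) = 0 := by
        intro b
        by_cases h1 : wtD D S (hd x) (tl x) b = 0
        · simp [h1]
        by_cases h2 : wtD D S (hd y) (tl y) b = 0
        · simp [h2]
        have hty : tl y i = tl y j := by unfold tl; rw [hy]
        have hhy : hd y i = hd y j := by unfold hd; rw [hy]
        have hbb : b i = b j := wtD_sep' h2 hi hj hty hhy
        have hinj := tl_inj_blk hx h1 (b i)
        have hz : tB tq D (blk S b (b i)) (tl x) (tl y) = 0 :=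
          ih _ hinj (mem_blk.mpr ⟨hi, rfl⟩) (mem_blk.mpr ⟨hj, hbb.symm⟩) hij hty
        cases hbi : b i
        · rw [hbi] at hz
          simp [hz]
        · rw [hbi] at hz
          simp [hz]
      simp only [h0, avg_const]
    rw [this, mul_zero]

/-! ### A Hölder inequality with three factors -/

lemma avg_three {Y : Type*} [Fintype Y] [Nonempty Y] {w u U V : Y → ℝ} (hw : ∀ y, 0 ≤ w y)
    (hu : ∀ y, 0 ≤ u y) (hU : ∀ y, 0 ≤ U y) (hV : ∀ y, 0 ≤ V y) (h : ∀ y, u y ^ 3 ≤ U y * V y) :
    avg (fun y => w y * u y) ^ 3 ≤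
      avg w * avg (fun y => w y * U y) * avg (fun y => w y * V y) := by
  have hA : 0 ≤ avg w := avg_nonneg hw
  have hB : 0 ≤ avg (fun y => w y * U y) := avg_nonneg fun y => mul_nonneg (hw y) (hU y)
  have hC : 0 ≤ avg (fun y => w y * V y) := avg_nonneg fun y => mul_nonneg (hw y) (hV y)
  have hX : 0 ≤ avg (fun y => w y * u y) := avg_nonneg fun y => mul_nonneg (hw y) (hu y)
  have h1 := avg_jensen (p := 3 / 2) (by norm_num) hw hu
  have e1 : (3 / 2 : ℝ) - 1 = 1 / 2 := by norm_num
  rw [e1] at h1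
  -- pointwise
  have h2 : ∀ y, w y * u y ^ (3 / 2 : ℝ) ≤
      (w y * U y) ^ (1 / 2 : ℝ) * (w y * V y) ^ (1 / 2 : ℝ) := by
    intro y
    rw [← Real.mul_rpow (mul_nonneg (hw y) (hU y)) (mul_nonneg (hw y) (hV y))]
    have e2 : u y ^ (3 / 2 : ℝ) = (u y ^ 3) ^ (1 / 2 : ℝ) := by
      rw [← Real.rpow_natCast, ← Real.rpow_mul (hu y)]
      norm_num
    have e3 : w y * U y * (w y * V y) = w y ^ 2 * (U y * V y) := by ring
    rw [e2, e3, Real.mul_rpow (by positivity) (mul_nonneg (hU y) (hV y))]
    have e4 : (w y ^ 2) ^ (1 / 2 : ℝ) = w y := by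
      rw [← Real.rpow_natCast, ← Real.rpow_mul (hw y)]
      norm_num
    rw [e4]
    exact mul_le_mul_of_nonneg_left (Real.rpow_le_rpow (pow_nonneg (hu y) 3) (h y) (by norm_num)) (hw y)
  have hH : (2 : ℝ).HolderConjugate 2 := Real.HolderConjugate.two_two
  have h3 := avg_holder hH (f := fun y => (w y * U y) ^ (1 / 2 : ℝ))
    (g := fun y => (w y * V y) ^ (1 / 2 : ℝ))
    (fun y => Real.rpow_nonneg (mul_nonneg (hw y) (hU y)) _)
    (fun y => Real.rpow_nonneg (mul_nonneg (hw y) (hV y)) _)
  have e5 : ∀ z : ℝ, 0 ≤ z → (z ^ (1 / 2 : ℝ)) ^ (2 : ℝ) = z := by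
    intro z hz
    rw [← Real.rpow_mul hz]
    norm_num
  have e6 : (avg fun y => ((w y * U y) ^ (1 / 2 : ℝ)) ^ (2 : ℝ)) = avg fun y => w y * U y :=
    avg_congr fun y => e5 _ (mul_nonneg (hw y) (hU y))
  have e7 : (avg fun y => ((w y * V y) ^ (1 / 2 : ℝ)) ^ (2 : ℝ)) = avg fun y => w y * V y :=
    avg_congr fun y => e5 _ (mul_nonneg (hw y) (hV y))
  rw [e6, e7] at h3
  have h4 : avg (fun y => w y * u y) ^ (3 / 2 : ℝ) ≤ avg w ^ (1 / 2 : ℝ) *
      (avg (fun y => w y * U y) ^ (1 / (2 : ℝ)) * avg (fun y => w y * V y) ^ (1 / (2 : ℝ))) := by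
    refine h1.trans (mul_le_mul_of_nonneg_left ((avg_mono h2).trans h3) (Real.rpow_nonneg hA _))
  have h5 : ((avg (fun y => w y * u y)) ^ (3 / 2 : ℝ)) ^ 2 = avg (fun y => w y * u y) ^ 3 := by
    rw [← Real.rpow_natCast, ← Real.rpow_mul hX, ← Real.rpow_natCast]
    norm_num
  have e8 : ∀ z : ℝ, 0 ≤ z → (z ^ (1 / 2 : ℝ)) ^ 2 = z := by
    intro z hz
    rw [← Real.rpow_natCast, ← Real.rpow_mul hz]
    norm_num
  rw [← h5]
  have h6 := pow_le_pow_left₀ (Real.rpow_nonneg hX _) h4 2
  refine h6.trans (le_of_eq ?_)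
  rw [mul_pow, mul_pow, e8 _ hA, e8 _ hB, e8 _ hC]
  ring

/-! ### The pointwise bound -/

lemma betaD_zero (S : Finset ι) (x y : ι → Pos 0) : betaD 0 S x y = 1 := by
  unfold betaD
  have h : ∀ (z w : ι → Pos 0), tauD 0 S z w = 1 := by
    intro z w
    unfold tauD hitP
    simp only [pow_zero, one_pow, one_mul]
    show (if ∀ i ∈ S, (1 : Equiv.Perm (Pos 0)) (z i) = w i then (1:ℝ) else 0) = 1
    rw [if_pos]
    intro i _
    exact Subsingleton.elim _ _
  simp only [h, mul_one, avg_const]

/-- the density of two passes is dominated by the geometric mean of two tilted kernels -/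
theorem beta_cube_le (tq : ℕ → Bool) (D : ℕ) : ∀ (S : Finset ι) (x y : ι → Pos D),
    betaD D S x y ^ 3 ≤ tB tq D S x y * tB (fun n => !tq n) D S x y := by
  induction D with
  | zero =>
    intro S x y
    rw [betaD_zero, tB_zero, tB_zero]
    norm_num
  | succ D ih =>
    intro S x y
    rw [betaD_succ, tB_succ, tB_succ]
    set w : (ι → Bool) → ℝ := fun b => wtD D S (hd x) (tl x) b * wtD D S (hd y) (tl y) b with hw
    have hw0 : ∀ b, 0 ≤ w b := fun b => mul_nonneg (wtD_nonneg _ _ _ _ _) (wtD_nonneg _ _ _ _ _)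
    set u : (ι → Bool) → ℝ := fun b => betaD D (blk S b false) (tl x) (tl y) *
      betaD D (blk S b true) (tl x) (tl y) with hu
    set U : (ι → Bool) → ℝ := fun b => tB tq D (blk S b false) (tl x) (tl y) *
      tB tq D (blk S b true) (tl x) (tl y) with hU
    set V : (ι → Bool) → ℝ := fun b => tB (fun n => !tq n) D (blk S b false) (tl x) (tl y) *
      tB (fun n => !tq n) D (blk S b true) (tl x) (tl y) with hV
    have hpt : ∀ b, u b ^ 3 ≤ U b * V b := by
      intro b
      have h1 := ih (blk S b false) (tl x) (tl y)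
      have h2 := ih (blk S b true) (tl x) (tl y)
      have e : u b ^ 3 = betaD D (blk S b false) (tl x) (tl y) ^ 3 *
          betaD D (blk S b true) (tl x) (tl y) ^ 3 := by
        rw [hu]
        ring
      have e' : U b * V b = (tB tq D (blk S b false) (tl x) (tl y) *
          tB (fun n => !tq n) D (blk S b false) (tl x) (tl y)) *
          (tB tq D (blk S b true) (tl x) (tl y) *
          tB (fun n => !tq n) D (blk S b true) (tl x) (tl y)) := by
        rw [hU, hV]
        ring
      rw [e, e']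
      exact mul_le_mul h1 h2 (pow_nonneg (betaD_nonneg _ _ _ _) 3)
        (mul_nonneg (tB_nonneg _ _ _ _ _) (tB_nonneg _ _ _ _ _))
    have h3 := avg_three hw0 (fun b => mul_nonneg (betaD_nonneg _ _ _ _) (betaD_nonneg _ _ _ _))
      (fun b => mul_nonneg (tB_nonneg _ _ _ _ _) (tB_nonneg _ _ _ _ _))
      (fun b => mul_nonneg (tB_nonneg _ _ _ _ _) (tB_nonneg _ _ _ _ _)) hpt
    refine h3.trans (le_of_eq ?_)
    have e : avg w = rrD D S (hd x) (tl x) (hd y) (tl y) := rfl
    rw [e]
    cases hq : tq D <;> simp [hq, hw, hU, hV] <;> ring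

/-! ### The step identity -/

lemma avg_wt_pin (D : ℕ) (S : Finset ι) (u : ι → Pos D) (b : ι → Bool) (F : (ι → Bool) → ℝ)
    (hF : ∀ b₁ b₂ : ι → Bool, (∀ i ∈ S, b₁ i = b₂ i) → F b₁ = F b₂) :
    avg (fun b' => wtD D S b' u b * F b') =
      avg (fun c : Pos D → Bool => F (fun i => xor (b i) (c (u i)))) := by
  unfold wtD coinP
  have h1 : ∀ b' : ι → Bool, (2 : ℝ) ^ S.card * (avg fun c : Pos D → Bool =>
      if ∀ i ∈ S, xor (b' i) (c (u i)) = b i then (1:ℝ) else 0) * F b' =
      avg fun c : Pos D → Bool => (2 : ℝ) ^ S.card *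
        ((if ∀ i ∈ S, xor (b i) (c (u i)) = b' i then (1:ℝ) else 0) * F b') := by
    intro b'
    rw [mul_assoc, ← avg_mul_right, ← avg_mul_left]
    refine avg_congr fun c => ?_
    congr 2
    congr 1
    apply propext
    refine forall₂_congr fun i _ => ?_
    cases b' i <;> cases b i <;> cases c (u i) <;> simp
  simp only [h1]
  rw [avg_comm]
  refine avg_congr fun c => ?_
  rw [avg_mul_left]
  have h2 := avg_pin S (fun i => xor (b i) (c (u i))) F
  rw [Fintype.card_bool] at h2
  push_cast at h2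
  rw [h2]
  have h3 : ∀ y : ι → Bool, F (merge S y fun i => xor (b i) (c (u i))) =
      F fun i => xor (b i) (c (u i)) := fun y => hF _ _ fun i hi => merge_mem hi
  simp only [h3, avg_const]

/-- the step identity for the tilted kernel -/
theorem tB_step (tq : ℕ → Bool) (D : ℕ) (S : Finset ι) (x : ι → Pos (D + 1))
    (G : (ι → Pos (D + 1)) → ℝ) (hG : ∀ y y', (∀ i ∈ S, y i = y' i) → G y = G y') :
    avg (fun y => tB tq (D + 1) S x y * G y) =
      avg fun b : ι → Bool => wtD D S (hd x) (tl x) b * avg fun u : ι → Pos D =>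
        (if tq D = true then rrD D S (hd x) (tl x) b u else 1) *
          (tB tq D (blk S b false) (tl x) u * tB tq D (blk S b true) (tl x) u) *
          avg fun c : Pos D → Bool => G (joinT (fun i => xor (b i) (c (u i))) u) := by
  rw [avg_tup]
  simp only [tB_succ, hd_joinT, tl_joinT]
  -- expand the inner average
  have h1 : ∀ (b' : ι → Bool) (u : ι → Pos D),
      ((if tq D = true then rrD D S (hd x) (tl x) b' u else 1) *
        avg fun b : ι → Bool => wtD D S (hd x) (tl x) b * wtD D S b' u b *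
          (tB tq D (blk S b false) (tl x) u * tB tq D (blk S b true) (tl x) u)) * G (joinT b' u) =
      avg fun b : ι → Bool => wtD D S (hd x) (tl x) b *
        ((if tq D = true then rrD D S (hd x) (tl x) b u else 1) *
          (tB tq D (blk S b false) (tl x) u * tB tq D (blk S b true) (tl x) u) *
          (wtD D S b' u b * G (joinT b' u))) := by
    intro b' u
    rw [← avg_mul_left, ← avg_mul_right]
    refine avg_congr fun b => ?_
    by_cases h : wtD D S b' u b = 0
    · simp [h]
    · have : rrD D S (hd x) (tl x) b' u = rrD D S (hd x) (tl x) b u := by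
        unfold rrD
        refine avg_congr fun a => ?_
        rw [wtD_shift h a]
      rw [this]
      ring
  simp only [h1]
  -- swap the averages
  have h2 : (avg fun b' : ι → Bool => avg fun u : ι → Pos D => avg fun b : ι → Bool =>
      wtD D S (hd x) (tl x) b * ((if tq D = true then rrD D S (hd x) (tl x) b u else 1) *
          (tB tq D (blk S b false) (tl x) u * tB tq D (blk S b true) (tl x) u) *
          (wtD D S b' u b * G (joinT b' u)))) =
      avg fun b : ι → Bool => avg fun u : ι → Pos D => avg fun b' : ι → Bool =>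
      wtD D S (hd x) (tl x) b * ((if tq D = true then rrD D S (hd x) (tl x) b u else 1) *
          (tB tq D (blk S b false) (tl x) u * tB tq D (blk S b true) (tl x) u) *
          (wtD D S b' u b * G (joinT b' u))) := by
    have e1 : ∀ b' : ι → Bool, (avg fun u : ι → Pos D => avg fun b : ι → Bool =>
        wtD D S (hd x) (tl x) b * ((if tq D = true then rrD D S (hd x) (tl x) b u else 1) *
          (tB tq D (blk S b false) (tl x) u * tB tq D (blk S b true) (tl x) u) *
          (wtD D S b' u b * G (joinT b' u)))) =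
        avg fun b : ι → Bool => avg fun u : ι → Pos D =>
        wtD D S (hd x) (tl x) b * ((if tq D = true then rrD D S (hd x) (tl x) b u else 1) *
          (tB tq D (blk S b false) (tl x) u * tB tq D (blk S b true) (tl x) u) *
          (wtD D S b' u b * G (joinT b' u))) := fun b' => avg_comm _
    simp only [e1]
    rw [avg_comm]
    refine avg_congr fun b => ?_
    rw [avg_comm]
  rw [h2]
  refine avg_congr fun b => ?_
  rw [← avg_mul_left]
  refine avg_congr fun u => ?_
  simp only [avg_mul_left]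
  congr 2
  refine avg_wt_pin D S u b (fun b' => G (joinT b' u)) fun b₁ b₂ h => hG _ _ fun i hi => ?_
  show (Fin.cons (b₁ i) (u i) : Pos (D + 1)) = Fin.cons (b₂ i) (u i)
  rw [h i hi]

end Vale.Agent.Lib.P162
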