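import Vale.Agent.Lib.P162.T2

/-!
# The cycle weight is at most the number of closed sets; closed sets as new requests
-/

namespace Vale.Agent.Lib.P162

open Finset

set_option linter.unusedSectionVars false
set_option linter.unusedSimpArgs false
set_option linter.unusedVariables false

variable {ι : Type*} [Fintype ι] [DecidableEq ι]

/-- the sign of a bit -/
def sgB (p : Bool) : ℝ := if p = true then 1 else -1

lemma sgB_not (p : Bool) : sgB (!p) = - sgB p := by cases p <;> simp [sgB]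

lemma abs_sgB (p : Bool) : |sgB p| = 1 := by cases p <;> simp [sgB]

lemma two_ite_eq (p q : Bool) : (if p = q then (2:ℝ) else 0) = 1 + sgB p * sgB q := by
  cases p <;> cases q <;> simp [sgB] <;> norm_num

/-- a set closed under both pairings -/
def ClosedA {Q R : Type*} (t₁ : ι → Q) (u : ι → R) (A : Finset ι) : Prop :=
  ∀ s ∈ A, (∃ s' ∈ A, s' ≠ s ∧ t₁ s' = t₁ s) ∧ (∃ s'' ∈ A, s'' ≠ s ∧ u s'' = u s)

section sign

variable {Q : Type*} [Fintype Q] [DecidableEq Q]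

/-- the sign average vanishes if some mark has no partner -/
lemma avg_sg_zero (t : ι → Q) (A : Finset ι) {s : ι} (hs : s ∈ A)
    (h : ∀ s' ∈ A, s' ≠ s → t s' ≠ t s) :
    avg (fun c : Q → Bool => ∏ i ∈ A, sgB (c (t i))) = 0 := by
  set p := t s with hp
  let e : (Q → Bool) ≃ (Q → Bool) :=
    { toFun := fun c => Function.update c p (!c p)
      invFun := fun c => Function.update c p (!c p)
      left_inv := by
        intro c; funext r; by_cases hr : r = p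
        · subst hr; simp
        · simp [hr]
      right_inv := by
        intro c; funext r; by_cases hr : r = p
        · subst hr; simp
        · simp [hr] }
  have h1 : ∀ c : Q → Bool, ∏ i ∈ A, sgB (e c (t i)) = - ∏ i ∈ A, sgB (c (t i)) := by
    intro c
    rw [← mul_prod_erase A _ hs, ← mul_prod_erase A (fun i => sgB (c (t i))) hs]
    have h2 : e c (t s) = !c (t s) := by
      show Function.update c p (!c p) (t s) = _
      rw [← hp]
      simp
    have h3 : ∏ i ∈ A.erase s, sgB (e c (t i)) = ∏ i ∈ A.erase s, sgB (c (t i)) := by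
      refine prod_congr rfl fun i hi => ?_
      have h4 : t i ≠ p := h i (mem_of_mem_erase hi) (ne_of_mem_erase hi)
      congr 1
      show Function.update c p (!c p) (t i) = _
      rw [Function.update_of_ne h4]
    rw [h2, h3, sgB_not]
    ring
  have h5 := avg_equiv e (fun c : Q → Bool => ∏ i ∈ A, sgB (c (t i)))
  simp only [h1, avg_neg] at h5
  linarith

lemma abs_avg_sg_le (t : ι → Q) (A : Finset ι) :
    |avg (fun c : Q → Bool => ∏ i ∈ A, sgB (c (t i)))| ≤ 1 := by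
  refine (abs_avg_le _).trans ?_
  apply avg_le_of_le
  intro c
  rw [abs_prod]
  simp [abs_sgB]

end sign

/-- the cycle weight is at most the number of closed sets -/
theorem rr_le_closed (D : ℕ) (S : Finset ι) (f : ι → Bool) (t₁ : ι → Pos D) (b : ι → Bool)
    (u : ι → Pos D) (hb : wtD D S f t₁ b ≠ 0) [DecidablePred (ClosedA t₁ u)] :
    rrD D S f t₁ b u ≤ ((S.powerset).filter (ClosedA t₁ u)).card := by
  unfold rrD
  have h1 : ∀ a : ι → Bool, wtD D S f t₁ a * wtD D S b u a = wtD D S a u b * wtD D S b t₁ a := by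
    intro a
    rw [wtD_shift hb a, wtD_symm D S b u a]
    ring
  simp only [h1]
  rw [avg_wt_pin D S u b (fun a => wtD D S b t₁ a)
    (fun b₁ b₂ h => wtD_congr_all D S (fun _ _ => rfl) (fun _ _ => rfl) h)]
  -- expand the weight
  have h2 : ∀ c' : Pos D → Bool, wtD D S b t₁ (fun i => xor (b i) (c' (u i))) =
      ∑ A ∈ S.powerset, avg fun c : Pos D → Bool =>
        (∏ i ∈ A, sgB (c (t₁ i))) * ∏ i ∈ A, sgB (c' (u i)) := by
    intro c'
    unfold wtD coinP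
    rw [← avg_sum, ← avg_mul_left]
    refine avg_congr fun c => ?_
    have h3 : (if ∀ i ∈ S, xor (b i) (c (t₁ i)) = xor (b i) (c' (u i)) then (1:ℝ) else 0) =
        ∏ i ∈ S, (if c (t₁ i) = c' (u i) then (1:ℝ) else 0) := by
      rw [Finset.prod_ite_zero, prod_const_one]
      congr 1
      apply propext
      refine forall₂_congr fun i _ => ?_
      cases b i <;> cases c (t₁ i) <;> cases c' (u i) <;> simp
    rw [h3]
    have h4 : (2:ℝ) ^ S.card = ∏ _i ∈ S, (2:ℝ) := by simp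
    rw [h4, ← prod_mul_distrib]
    have h5 : ∀ i ∈ S, (2:ℝ) * (if c (t₁ i) = c' (u i) then (1:ℝ) else 0) =
        1 + sgB (c (t₁ i)) * sgB (c' (u i)) := by
      intro i _
      rw [← two_ite_eq]
      split_ifs <;> norm_num
    rw [prod_congr rfl h5, prod_one_add]
    refine sum_congr rfl fun A _ => ?_
    rw [prod_mul_distrib]
  simp only [h2]
  rw [avg_sum]
  have h6 : ∀ A ∈ S.powerset, (avg fun c' : Pos D → Bool =>
      avg fun c : Pos D → Bool => (∏ i ∈ A, sgB (c (t₁ i))) * ∏ i ∈ A, sgB (c' (u i))) ≤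
      if ClosedA t₁ u A then (1:ℝ) else 0 := by
    intro A _
    simp only [avg_mul_right]
    rw [avg_mul_left]
    by_cases hA : ClosedA t₁ u A
    · rw [if_pos hA]
      have h7 := abs_avg_sg_le t₁ A
      have h8 := abs_avg_sg_le u A
      set X := avg (fun c : Pos D → Bool => ∏ i ∈ A, sgB (c (t₁ i)))
      set Y := avg (fun c : Pos D → Bool => ∏ i ∈ A, sgB (c (u i)))
      have h9 : |X * Y| ≤ 1 := by
        rw [abs_mul]
        exact mul_le_one₀ h7 (abs_nonneg _) h8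
      exact (abs_le.mp h9).2
    · rw [if_neg hA]
      unfold ClosedA at hA
      push Not at hA
      obtain ⟨s, hs, h10⟩ := hA
      by_cases h11 : ∃ s' ∈ A, s' ≠ s ∧ t₁ s' = t₁ s
      · have h12 := h10 h11
        rw [avg_sg_zero u A hs h12]
        simp
      · push Not at h11
        rw [avg_sg_zero t₁ A hs h11]
        simp
  refine (sum_le_sum h6).trans ?_
  rw [sum_boole]

section closed

variable {Q : Type*} [DecidableEq Q] {t₁ : ι → Q} {Y : Type*} [DecidableEq Y] {u u₁ : ι → Y}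
  {S₀ S₁ L : Finset ι} {mt : ι → ι}

/-- closed sets become new requests on the block `S₀` -/
theorem closed_map (hdisj : ∀ i ∈ S₀, i ∉ S₁) (h0 : InjF t₁ S₀) (h1 : InjF t₁ S₁) (hu0 : InjF u S₀)
    (hu1 : InjF u S₁) (hL : ∀ s, s ∈ L ↔ s ∈ S₀ ∧ ∃ s' ∈ S₁, t₁ s' = t₁ s)
    (hmt : ∀ s ∈ L, mt s ∈ S₁ ∧ t₁ (mt s) = t₁ s) (hu₁ : ∀ s ∈ S₁, u₁ s = u s) {A : Finset ι}
    (hA : A ⊆ S₀ ∪ S₁) (hc : ClosedA t₁ u A) :
    A \ S₁ ⊆ L ∧ InjF (fun s => u₁ (mt s)) (A \ S₁) ∧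
      (A \ S₁).image (fun s => u₁ (mt s)) = (A \ S₁).image u ∧
      A = (A \ S₁) ∪ (A \ S₁).image mt := by
  have hS0 : ∀ s ∈ A, s ∉ S₁ → s ∈ S₀ := by
    intro s hs hn
    rcases mem_union.mp (hA hs) with h | h
    · exact h
    · exact absurd h hn
  -- the `t₁`-partner of a mark on either side lies on the other side
  have hp0 : ∀ s ∈ A, s ∉ S₁ → ∃ s' ∈ A, s' ∈ S₁ ∧ t₁ s' = t₁ s := by
    intro s hs hn
    obtain ⟨⟨s', hs', hne, hst⟩, _⟩ := hc s hs
    refine ⟨s', hs', ?_, hst⟩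
    by_contra hn'
    exact hne (h0 s' (hS0 s' hs' hn') s (hS0 s hs hn) hst)
  have hp1 : ∀ s ∈ A, s ∈ S₁ → ∃ s' ∈ A, s' ∉ S₁ ∧ t₁ s' = t₁ s := by
    intro s hs hn
    obtain ⟨⟨s', hs', hne, hst⟩, _⟩ := hc s hs
    refine ⟨s', hs', ?_, hst⟩
    intro hn'
    exact hne (h1 s' hn' s hn hst)
  have hq0 : ∀ s ∈ A, s ∉ S₁ → ∃ s' ∈ A, s' ∈ S₁ ∧ u s' = u s := by
    intro s hs hn
    obtain ⟨_, ⟨s', hs', hne, hst⟩⟩ := hc s hs
    refine ⟨s', hs', ?_, hst⟩
    by_contra hn'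
    exact hne (hu0 s' (hS0 s' hs' hn') s (hS0 s hs hn) hst)
  have hq1 : ∀ s ∈ A, s ∈ S₁ → ∃ s' ∈ A, s' ∉ S₁ ∧ u s' = u s := by
    intro s hs hn
    obtain ⟨_, ⟨s', hs', hne, hst⟩⟩ := hc s hs
    refine ⟨s', hs', ?_, hst⟩
    intro hn'
    exact hne (hu1 s' hn' s hn hst)
  have hsub : A \ S₁ ⊆ L := by
    intro s hs
    obtain ⟨h2, h3⟩ := mem_sdiff.mp hs
    obtain ⟨s', hs', h4, h5⟩ := hp0 s h2 h3
    exact (hL s).mpr ⟨hS0 s h2 h3, s', h4, h5⟩
  -- the mate lies in `A`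
  have hmA : ∀ s ∈ A \ S₁, mt s ∈ A ∧ mt s ∈ S₁ := by
    intro s hs
    obtain ⟨h2, h3⟩ := mem_sdiff.mp hs
    obtain ⟨s', hs', h4, h5⟩ := hp0 s h2 h3
    obtain ⟨h6, h7⟩ := hmt s (hsub hs)
    have : s' = mt s := h1 s' h4 (mt s) h6 (h5.trans h7.symm)
    exact ⟨this ▸ hs', h6⟩
  have hval : ∀ s ∈ A \ S₁, u₁ (mt s) = u (mt s) := fun s hs => hu₁ _ (hmA s hs).2
  refine ⟨hsub, ?_, ?_, ?_⟩
  · intro s hs s' hs' h
    simp only at h
    rw [hval s hs, hval s' hs'] at h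
    have h2 := hu1 _ (hmA s hs).2 _ (hmA s' hs').2 h
    have h3 := (hmt s (hsub hs)).2
    have h4 := (hmt s' (hsub hs')).2
    rw [h2, h4] at h3
    exact h0 s (hS0 s (mem_sdiff.mp hs).1 (mem_sdiff.mp hs).2) s'
      (hS0 s' (mem_sdiff.mp hs').1 (mem_sdiff.mp hs').2) h3.symm
  · ext y
    simp only [mem_image]
    constructor
    · rintro ⟨s, hs, rfl⟩
      rw [hval s hs]
      obtain ⟨s', hs', h2, h3⟩ := hq1 (mt s) (hmA s hs).1 (hmA s hs).2
      exact ⟨s', mem_sdiff.mpr ⟨hs', h2⟩, h3⟩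
    · rintro ⟨s, hs, rfl⟩
      obtain ⟨h2, h3⟩ := mem_sdiff.mp hs
      obtain ⟨s', hs', h4, h5⟩ := hq0 s h2 h3
      obtain ⟨s'', hs'', h6, h7⟩ := hp1 s' hs' h4
      have h8 : s'' ∈ A \ S₁ := mem_sdiff.mpr ⟨hs'', h6⟩
      refine ⟨s'', h8, ?_⟩
      have h9 := hmt s'' (hsub h8)
      have h10 : mt s'' = s' := h1 _ h9.1 _ h4 (h9.2.trans h7)
      rw [hval s'' h8, h10, h5]
  · ext s
    simp only [mem_union, mem_sdiff, mem_image]
    constructor
    · intro hs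
      by_cases h2 : s ∈ S₁
      · right
        obtain ⟨s', hs', h3, h4⟩ := hp1 s hs h2
        have h8 : s' ∈ A \ S₁ := mem_sdiff.mpr ⟨hs', h3⟩
        have h9 := hmt s' (hsub h8)
        exact ⟨s', ⟨hs', h3⟩, h1 _ h9.1 _ h2 (h9.2.trans h4)⟩
      · exact Or.inl ⟨hs, h2⟩
    · rintro (h | ⟨s', hs', rfl⟩)
      · exact h.1
      · exact (hmA s' (mem_sdiff.mpr hs')).1

open Classical in
/-- the number of closed sets is at most the number of requests on the block `S₀` -/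
theorem closed_count (hdisj : ∀ i ∈ S₀, i ∉ S₁) (h0 : InjF t₁ S₀) (h1 : InjF t₁ S₁) (hu0 : InjF u S₀)
    (hu1 : InjF u S₁) (hL : ∀ s, s ∈ L ↔ s ∈ S₀ ∧ ∃ s' ∈ S₁, t₁ s' = t₁ s)
    (hmt : ∀ s ∈ L, mt s ∈ S₁ ∧ t₁ (mt s) = t₁ s) (hu₁ : ∀ s ∈ S₁, u₁ s = u s) :
    (((S₀ ∪ S₁).powerset).filter (ClosedA t₁ u)).card ≤
      ((L.powerset).filter (fun A₀ => InjF (fun s => u₁ (mt s)) A₀ ∧
        A₀.image (fun s => u₁ (mt s)) = A₀.image u)).card := by
  apply card_le_card_of_injOn (fun A => A \ S₁)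
  · intro A hA
    obtain ⟨h2, h3⟩ := mem_filter.mp hA
    obtain ⟨h4, h5, h6, h7⟩ := closed_map hdisj h0 h1 hu0 hu1 hL hmt hu₁ (mem_powerset.mp h2) h3
    exact mem_coe.mpr (mem_filter.mpr ⟨mem_powerset.mpr h4, h5, h6⟩)
  · intro A hA B hB h
    simp only [mem_coe, mem_filter, mem_powerset] at hA hB
    obtain ⟨_, _, _, h7⟩ := closed_map hdisj h0 h1 hu0 hu1 hL hmt hu₁ hA.1 hA.2
    obtain ⟨_, _, _, h8⟩ := closed_map hdisj h0 h1 hu0 hu1 hL hmt hu₁ hB.1 hB.2
    simp only at h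
    rw [h7, h8, h]

end closed

end Vale.Agent.Lib.P162
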