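import Vale.Agent.Lib.P162.T3

/-!
# Requests: sums over solutions, splitting at a block, the coin factor
-/

namespace Vale.Agent.Lib.P162

open Finset

set_option linter.unusedSectionVars false
set_option linter.unusedSimpArgs false
set_option linter.unusedVariables false

variable {ι : Type*} [Fintype ι] [DecidableEq ι] {I : Type} [Fintype I] [DecidableEq I]

/-- `A` is a solution of the requests `t` for the tuple `y` on the marks `S` -/
def ReqI (D : ℕ) (S : Finset ι) (t : I → ι → Pos D) (y : ι → Pos D) (A : I → Finset ι) : Prop :=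
  ∀ i, A i ⊆ S ∧ InjF (t i) (A i) ∧ (A i).image (t i) = (A i).image y

/-- which requests use the mark `s` -/
def colS (A : I → Finset ι) (s : ι) : I → Bool := fun i => decide (s ∈ A i)

/-- the weight of a solution -/
noncomputable def WWI (S : Finset ι) (d : ι → (I → Bool) → ℝ) (A : I → Finset ι) : ℝ :=
  ∏ s ∈ S, d s (colS A s)

open Classical in
/-- the weighted number of solutions -/
noncomputable def GGI (D : ℕ) (S : Finset ι) (t : I → ι → Pos D) (d : ι → (I → Bool) → ℝ)
    (y : ι → Pos D) : ℝ :=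
  ∑ A : I → Finset ι, if ReqI D S t y A then WWI S d A else 0

/-- the total weight at a mark -/
noncomputable def YYs (d : ι → (I → Bool) → ℝ) (s : ι) : ℝ := ∑ C : I → Bool, d s C

/-- admissible weights -/
structure GoodW (d : ι → (I → Bool) → ℝ) : Prop where
  nonneg : ∀ s C, 0 ≤ d s C
  one : ∀ s, d s (fun _ => false) = 1
  anti : ∀ s C C', (∀ i, C i = true → C' i = true) → d s C' ≤ d s C

lemma WWI_nonneg {d : ι → (I → Bool) → ℝ} (hW : GoodW d) (S : Finset ι) (A : I → Finset ι) :
    0 ≤ WWI S d A := prod_nonneg fun s _ => hW.nonneg s _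

lemma GGI_nonneg {d : ι → (I → Bool) → ℝ} (hW : GoodW d) (D : ℕ) (S : Finset ι) (t : I → ι → Pos D)
    (y : ι → Pos D) : 0 ≤ GGI D S t d y :=
  sum_nonneg fun A _ => by
    split_ifs
    · exact WWI_nonneg hW S A
    · exact le_refl _

lemma YYs_ge {d : ι → (I → Bool) → ℝ} (hW : GoodW d) (s : ι) : 1 ≤ YYs d s := by
  have h := single_le_sum (f := fun C => d s C) (fun C _ => hW.nonneg s C) (mem_univ fun _ => false)
  simp only [hW.one s] at h
  exact h

lemma sum_ite_le_of_inj {α β : Type*} [Fintype α] [Fintype β] (Q : α → Prop) [DecidablePred Q]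
    (f : α → ℝ) (g : β → ℝ) (Φ : α → β) (hg : ∀ b, 0 ≤ g b)
    (hΦ : ∀ a a', Q a → Q a' → Φ a = Φ a' → a = a') (h : ∀ a, Q a → f a ≤ g (Φ a)) :
    (∑ a, if Q a then f a else 0) ≤ ∑ b, g b := by
  classical
  rw [← Finset.sum_filter]
  calc ∑ a ∈ univ.filter Q, f a ≤ ∑ a ∈ univ.filter Q, g (Φ a) :=
        sum_le_sum fun a ha => h a (mem_filter.mp ha).2
    _ = ∑ b ∈ (univ.filter Q).image Φ, g b :=
        (sum_image fun a ha a' ha' e => hΦ a a' (by simpa using ha) (by simpa using ha') e).symm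
    _ ≤ ∑ b, g b := sum_le_sum_of_subset_of_nonneg (subset_univ _) fun b _ _ => hg b

lemma GGI_congr (D : ℕ) (S : Finset ι) (t : I → ι → Pos D) (d : ι → (I → Bool) → ℝ)
    {y y' : ι → Pos D} (h : ∀ i ∈ S, y i = y' i) : GGI D S t d y = GGI D S t d y' := by
  unfold GGI
  refine sum_congr rfl fun A _ => ?_
  have : ReqI D S t y A ↔ ReqI D S t y' A := by
    unfold ReqI
    refine forall_congr' fun i => and_congr_right fun h1 => and_congr_right fun _ => ?_
    rw [image_congr (fun a ha => h a (h1 ha))]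
  by_cases hR : ReqI D S t y A
  · rw [if_pos hR, if_pos (this.mp hR)]
  · rw [if_neg hR, if_neg (fun h2 => hR (this.mpr h2))]

open Classical in
/-- the sum over all choices inside `S` -/
lemma sum_W_le {d : ι → (I → Bool) → ℝ} (hW : GoodW d) (S : Finset ι) :
    (∑ A : I → Finset ι, if ∀ i, A i ⊆ S then WWI S d A else 0) ≤ ∏ s ∈ S, YYs d s := by
  induction S using Finset.induction_on with
  | empty =>
    have := sum_ite_le_of_inj (fun A : I → Finset ι => ∀ i, A i ⊆ (∅ : Finset ι))
      (fun A => WWI ∅ d A) (fun _ : Unit => (1:ℝ)) (fun _ => ()) (fun _ => zero_le_one)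
      (fun A A' h h' _ => by
        funext i
        rw [subset_empty.mp (h i), subset_empty.mp (h' i)])
      (fun A _ => by simp [WWI])
    simpa using this
  | insert s₀ S hs ih =>
    have h1 := sum_ite_le_of_inj (fun A : I → Finset ι => ∀ i, A i ⊆ insert s₀ S)
      (fun A => WWI (insert s₀ S) d A)
      (fun p : (I → Bool) × (I → Finset ι) => d s₀ p.1 *
        (if ∀ i, p.2 i ⊆ S then WWI S d p.2 else 0))
      (fun A => (colS A s₀, fun i => (A i).erase s₀))
      (fun p => mul_nonneg (hW.nonneg _ _) (by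
        split_ifs
        · exact WWI_nonneg hW S _
        · exact le_refl _))
      (fun A A' h h' e => by
        funext i
        have e1 := congrFun (congrArg Prod.fst e) i
        have e2 := congrFun (congrArg Prod.snd e) i
        simp only [colS, decide_eq_decide] at e1 e2
        ext s
        by_cases hss : s = s₀
        · subst hss
          exact e1
        · have e3 := Finset.ext_iff.mp e2 s
          simp only [mem_erase, hss, ne_eq, not_false_eq_true, true_and] at e3
          exact e3)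
      (fun A h => by
        have hsub : ∀ i, (A i).erase s₀ ⊆ S := by
          intro i a ha
          obtain ⟨h2, h3⟩ := mem_erase.mp ha
          rcases mem_insert.mp (h i h3) with h4 | h4
          · exact absurd h4 h2
          · exact h4
        simp only [hsub, implies_true, if_true]
        apply le_of_eq
        unfold WWI
        rw [prod_insert hs]
        congr 1
        refine Finset.prod_congr rfl fun s hs' => ?_
        congr 1
        funext i
        have : s ≠ s₀ := fun h => hs (h ▸ hs')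
        simp [colS, mem_erase, this])
    refine h1.trans ?_
    rw [Fintype.sum_prod_type, prod_insert hs]
    simp only [← mul_sum]
    rw [← sum_mul]
    exact mul_le_mul_of_nonneg_left ih (sum_nonneg fun C _ => hW.nonneg _ _)

/-- the base of the induction -/
theorem GGI_base {d : ι → (I → Bool) → ℝ} (hW : GoodW d) (D : ℕ) (S : Finset ι) (t : I → ι → Pos D)
    (y : ι → Pos D) : GGI D S t d y ≤ Real.exp (∑ s ∈ S, (YYs d s - 1)) := by
  classical
  have h1 : GGI D S t d y ≤ ∑ A : I → Finset ι, if ∀ i, A i ⊆ S then WWI S d A else 0 := by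
    unfold GGI
    refine sum_le_sum fun A _ => ?_
    by_cases h : ReqI D S t y A
    · have h2 : ∀ i, A i ⊆ S := fun i => (h i).1
      rw [if_pos h, if_pos h2]
    · rw [if_neg h]
      split_ifs
      · exact WWI_nonneg hW S A
      · exact le_refl _
  refine h1.trans ((sum_W_le hW S).trans ?_)
  rw [Real.exp_sum]
  refine prod_le_prod (fun s _ => ?_) (fun s _ => ?_)
  · have := YYs_ge hW s
    linarith
  · have := Real.add_one_le_exp (YYs d s - 1)
    linarith

/-! ### the view of a request through a coin -/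

/-- the tail and the coloured first bit of a request -/
def xiF {D : ℕ} (T : ι → Pos (D + 1)) (c : Pos D → Bool) : ι → Pos D × Bool :=
  fun a => (tl T a, xor (hd T a) (c (tl T a)))

lemma xi_facts {D : ℕ} {S : Finset ι} {b : ι → Bool} {β₁ : Bool} {c : Pos D → Bool}
    {u u₁ : ι → Pos D} {T : ι → Pos (D + 1)} {A : Finset ι} (hA : A ⊆ S) (hT : InjF T A)
    (himg : A.image T = A.image (joinT (fun i => xor (b i) (c (u i))) u))
    (hu₁ : ∀ s ∈ blk S b β₁, u₁ s = u s) :
    InjF (xiF T c) A ∧
      (A.image (xiF T c)).filter (fun z => z.2 = β₁) = (A ∩ blk S b β₁).image (fun s => (u₁ s, β₁)) ∧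
      (A.image (xiF T c)).filter (fun z => ¬ z.2 = β₁) =
        (A \ blk S b β₁).image (fun s => (u s, !β₁)) := by
  set τ : Pos (D + 1) → Pos D × Bool := fun p => (Fin.tail p, xor (p 0) (c (Fin.tail p))) with hτ
  have hτinj : Function.Injective τ := by
    intro p q h
    have h1 : Fin.tail p = Fin.tail q := congrArg Prod.fst h
    have h2 : xor (p 0) (c (Fin.tail p)) = xor (q 0) (c (Fin.tail q)) := congrArg Prod.snd h
    rw [h1] at h2
    have key : ∀ x y r : Bool, xor x r = xor y r → x = y := by decide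
    have h3 := key _ _ _ h2
    rw [← Fin.cons_self_tail p, ← Fin.cons_self_tail q, h1, h3]
  have e0 : ∀ a, xiF T c a = τ (T a) := fun a => rfl
  have e1 : ∀ s, τ (joinT (fun i => xor (b i) (c (u i))) u s) = (u s, b s) := by
    intro s
    have key : ∀ x y : Bool, xor (xor x y) y = x := by decide
    simp [hτ, joinT, key]
  have himg2 : A.image (xiF T c) = A.image (fun s => (u s, b s)) := by
    calc A.image (xiF T c) = (A.image T).image τ := by rw [image_image]; rfl
      _ = (A.image (joinT (fun i => xor (b i) (c (u i))) u)).image τ := by rw [himg]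
      _ = A.image (fun s => (u s, b s)) := by
        rw [image_image]
        exact image_congr fun s _ => e1 s
  refine ⟨?_, ?_, ?_⟩
  · intro a ha a' ha' h
    exact hT a ha a' ha' (hτinj h)
  · rw [himg2]
    ext ⟨p, r⟩
    simp only [mem_filter, mem_image, mem_inter, Prod.mk.injEq, mem_blk]
    constructor
    · rintro ⟨⟨s, hs, h1, h2⟩, h3⟩
      subst h3
      refine ⟨s, ⟨hs, hA hs, h2⟩, ?_, rfl⟩
      rw [hu₁ s (mem_blk.mpr ⟨hA hs, h2⟩), h1]
    · rintro ⟨s, ⟨hs, _, h2⟩, h1, h3⟩
      subst h3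
      refine ⟨⟨s, hs, ?_, h2⟩, rfl⟩
      rw [← hu₁ s (mem_blk.mpr ⟨hA hs, h2⟩), h1]
  · rw [himg2]
    ext ⟨p, r⟩
    simp only [mem_filter, mem_image, mem_sdiff, Prod.mk.injEq, mem_blk, not_and]
    have key : ∀ x y : Bool, ¬ x = y → x = !y := by decide
    constructor
    · rintro ⟨⟨s, hs, h1, h2⟩, h3⟩
      subst h2
      refine ⟨s, ⟨hs, fun _ => h3⟩, h1, (key _ _ h3).symm⟩
    · rintro ⟨s, ⟨hs, h2⟩, h1, h3⟩
      have h4 := key _ _ (h2 (hA hs))
      subst h3
      refine ⟨⟨s, hs, h1, h4⟩, ?_⟩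
      simp
  
/-- the request replacing `ξ` after eliminating the frozen marks -/
lemma exists_vprime {D : ℕ} (S₁ : Finset ι) (β₁ : Bool) (u₁ : ι → Pos D) (hu : InjF u₁ S₁)
    (ξ : ι → Pos D × Bool) : ∃ v' : ι → Pos D, ∀ A : Finset ι, InjF ξ A →
      (A.image ξ).filter (fun z => z.2 = β₁) = (A ∩ S₁).image (fun s => (u₁ s, β₁)) →
      ∀ u : ι → Pos D, (A.image ξ).filter (fun z => ¬ z.2 = β₁) =
          (A \ S₁).image (fun s => (u s, !β₁)) →
        InjF v' (A \ S₁) ∧ (A \ S₁).image v' = (A \ S₁).image u := by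
  have hw : InjF (fun s => (u₁ s, β₁)) S₁ := by
    intro a ha a' ha' h
    exact hu a ha a' ha' (congrArg Prod.fst h)
  obtain ⟨ξ', hξ'⟩ := elim_frozen (fun z : Pos D × Bool => z.2 = β₁) (fun s => (u₁ s, β₁)) S₁ hw
    (fun _ _ => rfl) ξ
  refine ⟨fun a => (ξ' a).1, fun A hinj hfil u hfil' => ?_⟩
  obtain ⟨h1, h2⟩ := hξ' A hinj hfil
  rw [hfil'] at h2
  have h3 : ∀ a ∈ A \ S₁, (ξ' a).2 = !β₁ := by
    intro a ha
    have : ξ' a ∈ (A \ S₁).image ξ' := mem_image_of_mem _ ha
    rw [h2] at this
    obtain ⟨s, _, h4⟩ := mem_image.mp this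
    rw [← h4]
  refine ⟨?_, ?_⟩
  · intro a ha a' ha' h
    exact h1 a ha a' ha' (Prod.ext h ((h3 a ha).trans (h3 a' ha').symm))
  · calc (A \ S₁).image (fun a => (ξ' a).1) = ((A \ S₁).image ξ').image Prod.fst := by
          rw [image_image]; rfl
      _ = (A \ S₁).image u := by
          rw [h2, image_image]
          rfl

/-! ### splitting a solution at the frozen block -/

open Classical in
/-- the free solutions on the frozen block -/
noncomputable def GFf {D : ℕ} (S₁ : Finset ι) (β₁ : Bool) (c : Pos D → Bool) (u₁ : ι → Pos D)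
    (t : I → ι → Pos (D + 1)) (d : ι → (I → Bool) → ℝ) : ℝ :=
  ∑ F : I → Finset ι, if ReqI D S₁ (fun i => tl (t i)) u₁ F ∧
      ∀ i, ∀ a ∈ F i, xor (hd (t i) a) (c (tl (t i) a)) = β₁ then WWI S₁ d F else 0

lemma GFf_nonneg {D : ℕ} (S₁ : Finset ι) (β₁ : Bool) (c : Pos D → Bool) (u₁ : ι → Pos D)
    (t : I → ι → Pos (D + 1)) {d : ι → (I → Bool) → ℝ} (hW : GoodW d) : 0 ≤ GFf S₁ β₁ c u₁ t d :=
  sum_nonneg fun A _ => by
    split_ifs
    · exact WWI_nonneg hW S₁ A
    · exact le_refl _

/-- the main splitting inequality -/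
theorem split_G {D : ℕ} (S : Finset ι) (b : ι → Bool) (β₁ : Bool) (c : Pos D → Bool) (u u₁ : ι → Pos D)
    (hu₁ : ∀ s ∈ blk S b β₁, u₁ s = u s) (hinj : InjF u₁ (blk S b β₁)) (t : I → ι → Pos (D + 1))
    {d : ι → (I → Bool) → ℝ} (hW : GoodW d) (v' : I → ι → Pos D)
    (hv' : ∀ i, ∀ A : Finset ι, InjF (xiF (t i) c) A →
      (A.image (xiF (t i) c)).filter (fun z => z.2 = β₁) =
        (A ∩ blk S b β₁).image (fun s => (u₁ s, β₁)) →
      ∀ u : ι → Pos D, (A.image (xiF (t i) c)).filter (fun z => ¬ z.2 = β₁) =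
          (A \ blk S b β₁).image (fun s => (u s, !β₁)) →
        InjF (v' i) (A \ blk S b β₁) ∧ (A \ blk S b β₁).image (v' i) = (A \ blk S b β₁).image u) :
    GGI (D + 1) S t d (joinT (fun i => xor (b i) (c (u i))) u) ≤
      GGI D (blk S b (!β₁)) v' d u * GFf (blk S b β₁) β₁ c u₁ t d := by
  classical
  set S₁ := blk S b β₁ with hS₁
  set S₀ := blk S b (!β₁) with hS₀
  set y := joinT (fun i => xor (b i) (c (u i))) u with hy
  have hw : InjF (fun s => (u₁ s, β₁)) S₁ := by
    intro a ha a' ha' h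
    exact hinj a ha a' ha' (congrArg Prod.fst h)
  have hP : ∀ s ∈ S₁, (fun z : Pos D × Bool => z.2 = β₁) ((fun s => (u₁ s, β₁)) s) := fun _ _ => rfl
  -- the facts of a solution
  have hfacts : ∀ A : I → Finset ι, ReqI (D + 1) S t y A → ∀ i,
      InjF (xiF (t i) c) (A i) ∧
      ((A i).image (xiF (t i) c)).filter (fun z => z.2 = β₁) =
        (A i ∩ S₁).image (fun s => (u₁ s, β₁)) ∧
      ((A i).image (xiF (t i) c)).filter (fun z => ¬ z.2 = β₁) =
        (A i \ S₁).image (fun s => (u s, !β₁)) := by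
    intro A hA i
    obtain ⟨h1, h2, h3⟩ := hA i
    exact xi_facts h1 h2 h3 hu₁
  unfold GFf GGI
  rw [sum_mul_sum, ← Fintype.sum_prod_type']
  refine sum_ite_le_of_inj _ _ (fun p : (I → Finset ι) × (I → Finset ι) =>
      (if ReqI D S₀ v' u p.1 then WWI S₀ d p.1 else 0) *
      (if ReqI D S₁ (fun i => tl (t i)) u₁ p.2 ∧
        ∀ i, ∀ a ∈ p.2 i, xor (hd (t i) a) (c (tl (t i) a)) = β₁ then WWI S₁ d p.2 else 0))
    (fun A => (fun i => A i \ S₁, fun i => freeF (xiF (t i) c) (fun s => (u₁ s, β₁)) S₁ (A i)))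
    ?_ ?_ ?_
  · intro p
    apply mul_nonneg
    · split_ifs
      · exact WWI_nonneg hW _ _
      · exact le_refl _
    · split_ifs
      · exact WWI_nonneg hW _ _
      · exact le_refl _
  · intro A A' hA hA' e
    funext i
    have e1 : A i \ S₁ = A' i \ S₁ := congrFun (congrArg Prod.fst e) i
    have e2 : freeF (xiF (t i) c) (fun s => (u₁ s, β₁)) S₁ (A i) =
        freeF (xiF (t i) c) (fun s => (u₁ s, β₁)) S₁ (A' i) := congrFun (congrArg Prod.snd e) i
    obtain ⟨_, h2, _⟩ := hfacts A hA i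
    obtain ⟨_, h2', _⟩ := hfacts A' hA' i
    rw [free_recover _ hw hP h2, free_recover _ hw hP h2', e1, e2]
  · intro A hA
    have hdec : ∀ a ∈ S, a ∉ S₁ → a ∈ S₀ := by
      intro a ha hn
      have key : ∀ x y : Bool, ¬ x = y → x = !y := by decide
      refine mem_blk.mpr ⟨ha, key _ _ fun h => hn (mem_blk.mpr ⟨ha, h⟩)⟩
    have hdisj : ∀ a ∈ S₀, a ∉ S₁ := by
      intro a ha ha'
      have h1 := (mem_blk.mp ha).2
      have h2 := (mem_blk.mp ha').2
      rw [h2] at h1
      cases β₁ <;> simp at h1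
    -- the request on the active block
    have hR0 : ReqI D S₀ v' u (fun i => A i \ S₁) := by
      intro i
      obtain ⟨h1, h2, h3⟩ := hfacts A hA i
      obtain ⟨h4, h5⟩ := hv' i (A i) h1 h2 u h3
      refine ⟨?_, h4, h5⟩
      intro a ha
      obtain ⟨h6, h7⟩ := mem_sdiff.mp ha
      exact hdec a ((hA i).1 h6) h7
    -- the free part
    have hR1 : ReqI D S₁ (fun i => tl (t i)) u₁
        (fun i => freeF (xiF (t i) c) (fun s => (u₁ s, β₁)) S₁ (A i)) ∧
        ∀ i, ∀ a ∈ freeF (xiF (t i) c) (fun s => (u₁ s, β₁)) S₁ (A i),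
          xor (hd (t i) a) (c (tl (t i) a)) = β₁ := by
      have hfree : ∀ i, (freeF (xiF (t i) c) (fun s => (u₁ s, β₁)) S₁ (A i)).image (xiF (t i) c) =
          (freeF (xiF (t i) c) (fun s => (u₁ s, β₁)) S₁ (A i)).image (fun s => (u₁ s, β₁)) := by
        intro i
        obtain ⟨h1, h2, h3⟩ := hfacts A hA i
        exact free_image _ hw hP h2
      have hval : ∀ i, ∀ a ∈ freeF (xiF (t i) c) (fun s => (u₁ s, β₁)) S₁ (A i),
          xor (hd (t i) a) (c (tl (t i) a)) = β₁ := by
        intro i a ha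
        have h1 : xiF (t i) c a ∈ (freeF (xiF (t i) c) (fun s => (u₁ s, β₁)) S₁ (A i)).image
            (xiF (t i) c) := mem_image_of_mem _ ha
        rw [hfree i] at h1
        obtain ⟨s, _, h2⟩ := mem_image.mp h1
        have h3 := congrArg Prod.snd h2
        exact h3.symm
      refine ⟨fun i => ⟨?_, ?_, ?_⟩, hval⟩
      · exact fun a ha => (mem_inter.mp (freeF_subset ha)).2
      · intro a ha a' ha' h
        obtain ⟨h1, _, _⟩ := hfacts A hA i
        refine h1 a (mem_inter.mp (freeF_subset ha)).1 a' (mem_inter.mp (freeF_subset ha')).1 ?_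
        refine Prod.ext h ?_
        exact (hval i a ha).trans (hval i a' ha').symm
      · calc (freeF (xiF (t i) c) (fun s => (u₁ s, β₁)) S₁ (A i)).image (tl (t i))
            = ((freeF (xiF (t i) c) (fun s => (u₁ s, β₁)) S₁ (A i)).image (xiF (t i) c)).image
                Prod.fst := by rw [image_image]; rfl
          _ = _ := by rw [hfree i, image_image]; rfl
    simp only [if_pos hR0, if_pos hR1]
    -- the weights
    have hsplit : WWI S d A = WWI S₀ d A * WWI S₁ d A := by
      unfold WWI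
      rw [hS₀, hS₁, blk, blk, mul_comm]
      have e : (S.filter fun i => b i = !β₁) = S.filter fun i => ¬ b i = β₁ := by
        apply filter_congr
        intro i _
        cases b i <;> cases β₁ <;> simp
      rw [e, prod_filter_mul_prod_filter_not]
    rw [hsplit]
    have h0 : WWI S₀ d A = WWI S₀ d (fun i => A i \ S₁) := by
      unfold WWI
      refine prod_congr rfl fun s hs => ?_
      congr 1
      funext i
      simp [colS, mem_sdiff, hdisj s hs]
    rw [h0]
    apply mul_le_mul_of_nonneg_left _ (WWI_nonneg hW _ _)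
    unfold WWI
    refine prod_le_prod (fun s _ => hW.nonneg _ _) fun s _ => hW.anti s _ _ ?_
    intro i hi
    simp only [colS, decide_eq_true_eq] at hi ⊢
    exact (mem_inter.mp (freeF_subset hi)).1

end Vale.Agent.Lib.P162
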