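import Vale.Agent.Lib.P162.T4

/-!
# New requests, the coin factor, and the main induction for the tilted kernel
-/

namespace Vale.Agent.Lib.P162

open Finset

set_option linter.unusedSectionVars false
set_option linter.unusedSimpArgs false
set_option linter.unusedVariables false

variable {ι : Type*} [Fintype ι] [DecidableEq ι] {I : Type} [Fintype I] [DecidableEq I]

/-- a family with one more member -/
def extT {X : Type*} (tn : X) (t : I → X) : Option I → X
  | none => tn
  | some i => t i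

/-- the weights for the family with one more request, which may only use the marks in `L` -/
noncomputable def dNew (d : ι → (I → Bool) → ℝ) (L : Finset ι) : ι → (Option I → Bool) → ℝ :=
  fun s C => d s (fun i => C (some i)) * (if C none = true ∧ s ∉ L then 0 else 1)

lemma goodW_dNew {d : ι → (I → Bool) → ℝ} (hW : GoodW d) (L : Finset ι) : GoodW (dNew d L) where
  nonneg s C := mul_nonneg (hW.nonneg _ _) (by split_ifs <;> norm_num)
  one s := by simp [dNew, hW.one]
  anti s C C' h := by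
    unfold dNew
    have h1 := hW.anti s (fun i => C (some i)) (fun i => C' (some i)) (fun i => h (some i))
    by_cases h2 : C none = true ∧ s ∉ L
    · have h3 : C' none = true ∧ s ∉ L := ⟨h none h2.1, h2.2⟩
      simp [h2, h3]
    · rw [if_neg h2, mul_one]
      by_cases h3 : C' none = true ∧ s ∉ L
      · rw [if_pos h3, mul_zero]
        exact hW.nonneg _ _
      · rw [if_neg h3, mul_one]
        exact h1

lemma YYs_dNew (d : ι → (I → Bool) → ℝ) (L : Finset ι) (s : ι) :
    YYs (dNew d L) s = YYs d s * (1 + if s ∈ L then 1 else 0) := by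
  unfold YYs dNew
  rw [← (Equiv.piOptionEquivProd (α := I) (β := fun _ => Bool)).symm.sum_comp,
    Fintype.sum_prod_type, Fintype.sum_bool]
  have e1 : ∀ C : I → Bool, (Equiv.piOptionEquivProd (α := I) (β := fun _ => Bool)).symm (true, C) none
      = true := fun _ => rfl
  have e2 : ∀ C : I → Bool, (Equiv.piOptionEquivProd (α := I) (β := fun _ => Bool)).symm (false, C) none
      = false := fun _ => rfl
  have e3 : ∀ (p : Bool) (C : I → Bool),
      (fun i => (Equiv.piOptionEquivProd (α := I) (β := fun _ => Bool)).symm (p, C) (some i)) = C :=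
    fun _ _ => rfl
  simp only [e1, e2, e3]
  by_cases hs : s ∈ L <;> simp [hs, mul_add]

open Classical in
/-- adding a new request: its solutions multiply the count -/
theorem add_request {D : ℕ} (S₀ L : Finset ι) (hL : L ⊆ S₀) (tn : ι → Pos D) (t : I → ι → Pos D)
    {d : ι → (I → Bool) → ℝ} (hW : GoodW d) (y : ι → Pos D) :
    (((L.powerset).filter (fun A₀ => InjF tn A₀ ∧ A₀.image tn = A₀.image y)).card : ℝ) *
        GGI D S₀ t d y ≤ GGI D S₀ (extT tn t) (dNew d L) y := by
  set 𝒜 := (L.powerset).filter (fun A₀ => InjF tn A₀ ∧ A₀.image tn = A₀.image y) with h𝒜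
  have e : (𝒜.card : ℝ) * GGI D S₀ t d y = ∑ p : Finset ι × (I → Finset ι),
      if p.1 ∈ 𝒜 ∧ ReqI D S₀ t y p.2 then WWI S₀ d p.2 else 0 := by
    rw [Fintype.sum_prod_type]
    have h1 : ∀ A₀ : Finset ι, (∑ A : I → Finset ι,
        if (A₀, A).1 ∈ 𝒜 ∧ ReqI D S₀ t y (A₀, A).2 then WWI S₀ d (A₀, A).2 else 0) =
        if A₀ ∈ 𝒜 then GGI D S₀ t d y else 0 := by
      intro A₀
      by_cases hA : A₀ ∈ 𝒜
      · simp only [hA, if_true, true_and, GGI]
      · simp only [hA, if_false, false_and, sum_const_zero]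
    simp only [h1]
    rw [Finset.sum_ite_mem, univ_inter, sum_const, nsmul_eq_mul]
  rw [e]
  unfold GGI
  refine sum_ite_le_of_inj _ _ (fun A' : Option I → Finset ι =>
    if ReqI D S₀ (extT tn t) y A' then WWI S₀ (dNew d L) A' else 0)
    (fun p => extT p.1 p.2) ?_ ?_ ?_
  · intro A'
    split_ifs
    · exact WWI_nonneg (goodW_dNew hW L) _ _
    · exact le_refl _
  · intro p p' _ _ h
    refine Prod.ext (congrFun h none) (funext fun i => congrFun h (some i))
  · rintro ⟨A₀, A⟩ ⟨h1, h2⟩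
    simp only at h1 h2
    obtain ⟨h3, h4, h5⟩ := mem_filter.mp h1
    have h3' : A₀ ⊆ L := mem_powerset.mp h3
    have hR : ReqI D S₀ (extT tn t) y (extT A₀ A) := by
      intro o
      cases o with
      | none => exact ⟨h3'.trans hL, h4, h5⟩
      | some i => exact h2 i
    simp only [if_pos hR]
    apply le_of_eq
    unfold WWI
    refine prod_congr rfl fun s _ => ?_
    unfold dNew
    have e1 : (fun i => colS (extT A₀ A) s (some i)) = colS A s := rfl
    have e2 : ¬ (colS (extT A₀ A) s none = true ∧ s ∉ L) := by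
      rintro ⟨h6, h7⟩
      have h8 : s ∈ A₀ := of_decide_eq_true h6
      exact h7 (h3' h8)
    rw [e1, if_neg e2, mul_one]

/-- the weights for the frozen block: a used mark pays a factor two -/
noncomputable def dHalf (d : ι → (I → Bool) → ℝ) : ι → (I → Bool) → ℝ :=
  fun s C => (d s C + if ∀ i, C i = false then 1 else 0) / 2

lemma goodW_dHalf {d : ι → (I → Bool) → ℝ} (hW : GoodW d) : GoodW (dHalf d) where
  nonneg s C := by
    unfold dHalf
    have := hW.nonneg s C
    split_ifs <;> linarith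
  one s := by
    unfold dHalf
    rw [hW.one]
    norm_num
  anti s C C' h := by
    unfold dHalf
    have h1 := hW.anti s C C' h
    by_cases h2 : ∀ i, C' i = false
    · have h3 : ∀ i, C i = false := by
        intro i
        cases hc : C i
        · rfl
        · have := h2 i
          rw [h i hc] at this
          exact absurd this (by simp)
      rw [if_pos h2, if_pos h3]
      linarith
    · rw [if_neg h2]
      split_ifs <;> linarith

lemma YYs_dHalf (d : ι → (I → Bool) → ℝ) (s : ι) : YYs (dHalf d) s = (YYs d s + 1) / 2 := by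
  unfold YYs dHalf
  rw [← sum_div, sum_add_distrib]
  congr 2
  have e : ∀ C : I → Bool, (if ∀ i, C i = false then (1:ℝ) else 0) =
      if C = (fun _ => false) then 1 else 0 := by
    intro C
    simp only [funext_iff]
  simp only [e]
  simp

/-- the probability of a coin pattern -/
lemma coin_prob {D : ℕ} (S₁ : Finset ι) (β₁ : Bool) (u₁ : ι → Pos D) (hu : InjF u₁ S₁)
    (t : I → ι → Pos (D + 1)) (F : I → Finset ι) (hR : ReqI D S₁ (fun i => tl (t i)) u₁ F)
    (P : Finset ι) (hP : ∀ s ∈ P, s ∈ S₁ ∧ ∃ i, s ∈ F i) [DecidablePred fun c : Pos D → Bool =>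
      ∀ i, ∀ a ∈ F i, xor (hd (t i) a) (c (tl (t i) a)) = β₁] :
    avg (fun c : Pos D → Bool => if ∀ i, ∀ a ∈ F i, xor (hd (t i) a) (c (tl (t i) a)) = β₁
      then (1:ℝ) else 0) ≤ (1 / 2) ^ P.card := by
  have h1 : ∀ p ∈ P.image u₁, ∃ v : Bool, ∀ c : Pos D → Bool,
      (∀ i, ∀ a ∈ F i, xor (hd (t i) a) (c (tl (t i) a)) = β₁) → c p = v := by
    intro p hp
    obtain ⟨s, hs, rfl⟩ := mem_image.mp hp
    obtain ⟨hs1, i, hi⟩ := hP s hs
    obtain ⟨_, _, h3⟩ := hR i
    have h4 : u₁ s ∈ (F i).image (tl (t i)) := by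
      rw [h3]
      exact mem_image_of_mem _ hi
    obtain ⟨a, ha, h5⟩ := mem_image.mp h4
    refine ⟨xor (hd (t i) a) β₁, fun c hc => ?_⟩
    have h6 := hc i a ha
    rw [h5] at h6
    rw [← h6]
    cases hd (t i) a <;> cases c (u₁ s) <;> simp
  choose! g hg using h1
  have h2 : ∀ c : Pos D → Bool, (if ∀ i, ∀ a ∈ F i, xor (hd (t i) a) (c (tl (t i) a)) = β₁
      then (1:ℝ) else 0) ≤ if ∀ p ∈ P.image u₁, c p = g p then (1:ℝ) else 0 := by
    intro c
    by_cases h3 : ∀ i, ∀ a ∈ F i, xor (hd (t i) a) (c (tl (t i) a)) = β₁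
    · rw [if_pos h3, if_pos]
      exact fun p hp => hg p hp c h3
    · rw [if_neg h3]
      split_ifs <;> norm_num
  refine (avg_mono h2).trans ?_
  rw [avg_hit]
  have hc : (P.image u₁).card = P.card :=
    card_image_of_injOn fun s hs s' hs' h => hu s (hP s hs).1 s' (hP s' hs').1 h
  rw [hc]
  simp

open Classical in
/-- the average over the coins of the free solutions -/
theorem coin_avg {D : ℕ} (S₁ : Finset ι) (β₁ : Bool) (u₁ : ι → Pos D) (hu : InjF u₁ S₁)
    (t : I → ι → Pos (D + 1)) {d : ι → (I → Bool) → ℝ} (hW : GoodW d) :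
    avg (fun c : Pos D → Bool => GFf S₁ β₁ c u₁ t d) ≤
      GGI D S₁ (fun i => tl (t i)) (dHalf d) u₁ := by
  unfold GFf GGI
  rw [avg_sum]
  refine sum_le_sum fun F _ => ?_
  by_cases hR : ReqI D S₁ (fun i => tl (t i)) u₁ F
  · rw [if_pos hR]
    have h1 : ∀ c : Pos D → Bool, (if ReqI D S₁ (fun i => tl (t i)) u₁ F ∧
        ∀ i, ∀ a ∈ F i, xor (hd (t i) a) (c (tl (t i) a)) = β₁ then WWI S₁ d F else 0) =
        WWI S₁ d F * (if ∀ i, ∀ a ∈ F i, xor (hd (t i) a) (c (tl (t i) a)) = β₁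
          then (1:ℝ) else 0) := by
      intro c
      by_cases h2 : ∀ i, ∀ a ∈ F i, xor (hd (t i) a) (c (tl (t i) a)) = β₁
      · rw [if_pos ⟨hR, h2⟩, if_pos h2, mul_one]
      · rw [if_neg (fun h3 => h2 h3.2), if_neg h2, mul_zero]
    simp only [h1, avg_mul_left]
    set P := S₁.filter (fun s => ∃ i, s ∈ F i) with hP
    have h2 := coin_prob S₁ β₁ u₁ hu t F hR P (fun s hs => mem_filter.mp hs)
    have h3 : WWI S₁ (dHalf d) F = WWI S₁ d F * (1 / 2) ^ P.card := by
      unfold WWI
      have h4 : (1 / 2 : ℝ) ^ P.card = ∏ s ∈ S₁, if ∃ i, s ∈ F i then (1 / 2 : ℝ) else 1 := by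
        rw [prod_ite, prod_const, prod_const_one, mul_one]
      rw [h4, ← prod_mul_distrib]
      refine prod_congr rfl fun s _ => ?_
      unfold dHalf
      by_cases h5 : ∃ i, s ∈ F i
      · have h6 : ¬ ∀ i, colS F s i = false := by
          obtain ⟨i, hi⟩ := h5
          intro h7
          have := h7 i
          simp [colS, hi] at this
        rw [if_neg h6, if_pos h5]
        ring
      · push Not at h5
        have h6 : colS F s = fun _ => false := by
          funext i
          simp [colS, h5 i]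
        have h7 : ∀ i, colS F s i = false := fun i => by rw [h6]
        have h8 : ¬ ∃ i, s ∈ F i := by
          push Not
          exact h5
        rw [if_pos h7, if_neg h8, h6, hW.one]
        norm_num
    rw [h3]
    exact mul_le_mul_of_nonneg_left h2 (WWI_nonneg hW _ _)
  · have h1 : ∀ c : Pos D → Bool, (if ReqI D S₁ (fun i => tl (t i)) u₁ F ∧
        ∀ i, ∀ a ∈ F i, xor (hd (t i) a) (c (tl (t i) a)) = β₁ then WWI S₁ d F else 0) = 0 := by
      intro c
      rw [if_neg (fun h3 => hR h3.1)]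
    simp only [h1, avg_const, if_neg hR]
    exact le_refl _

/-! ### the main induction -/

/-- the induction hypothesis for the tilted kernel and all the request families -/
def HypA (ι : Type*) [Fintype ι] [DecidableEq ι] (tq : ℕ → Bool) (D : ℕ) (a l : ℝ) : Prop :=
  ∀ (S : Finset ι) (x : ι → Pos D), InjF x S → ∀ (I : Type) [Fintype I] [DecidableEq I]
    (t : I → ι → Pos D) (d : ι → (I → Bool) → ℝ), GoodW d →
    avg (fun y => tB tq D S x y * GGI D S t d y) ≤
      Real.exp (a * S.card + l * ∑ s ∈ S, (YYs d s - 1))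

theorem HypA_zero (tq : ℕ → Bool) : HypA ι tq 0 0 1 := by
  intro S x _ I _ _ t d hW
  apply avg_le_of_le
  intro y
  rw [tB_zero, one_mul, zero_mul, zero_add, one_mul]
  exact GGI_base hW 0 S t y

open Classical in
/-- the bound for a fixed colouring of the blocks -/
theorem block_bound (tq : ℕ → Bool) (D : ℕ) (a l : ℝ) (h : HypA ι tq D a l) (S : Finset ι)
    (x : ι → Pos (D + 1)) (b : ι → Bool) (β₁ : Bool)
    (hb0 : InjF (tl x) (blk S b (!β₁))) (hb1 : InjF (tl x) (blk S b β₁))
    (R : (ι → Pos D) → ℝ) (hR0 : ∀ u, 0 ≤ R u)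
    (t : I → ι → Pos (D + 1)) {d : ι → (I → Bool) → ℝ} (hW : GoodW d)
    (L : Finset ι) (hL : L ⊆ blk S b (!β₁)) (mt : ι → ι)
    (hR : ∀ u u₁ : ι → Pos D, (∀ s ∈ blk S b β₁, u₁ s = u s) → InjF u₁ (blk S b β₁) →
      InjF u (blk S b (!β₁)) →
      R u ≤ (((L.powerset).filter (fun A₀ => InjF (fun s => u₁ (mt s)) A₀ ∧
        A₀.image (fun s => u₁ (mt s)) = A₀.image u)).card : ℝ)) :
    avg (fun u => R u * (tB tq D (blk S b (!β₁)) (tl x) u * tB tq D (blk S b β₁) (tl x) u) *
        avg fun c : Pos D → Bool => GGI (D + 1) S t d (joinT (fun i => xor (b i) (c (u i))) u)) ≤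
      Real.exp (a * (blk S b (!β₁)).card + l * ∑ s ∈ blk S b (!β₁), (YYs (dNew d L) s - 1)) *
      Real.exp (a * (blk S b β₁).card + l * ∑ s ∈ blk S b β₁, (YYs (dHalf d) s - 1)) := by
  set S₁ := blk S b β₁ with hS₁
  set S₀ := blk S b (!β₁) with hS₀
  set E₀ := a * (S₀.card : ℝ) + l * ∑ s ∈ S₀, (YYs (dNew d L) s - 1) with hE₀
  set E₁ := a * (S₁.card : ℝ) + l * ∑ s ∈ S₁, (YYs (dHalf d) s - 1) with hE₁
  have hdisj : ∀ i, i ∈ S₀ → i ∉ S₁ := by
    intro i hi hi'
    have h1 := (mem_blk.mp hi).2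
    have h2 := (mem_blk.mp hi').2
    rw [h2] at h1
    cases β₁ <;> simp at h1
  set B₀ : (ι → Pos D) → ℝ := fun u => tB tq D S₀ (tl x) u with hB₀
  set B₁ : (ι → Pos D) → ℝ := fun u => tB tq D S₁ (tl x) u with hB₁
  have hB₀0 : ∀ u, 0 ≤ B₀ u := fun u => tB_nonneg _ _ _ _ _
  have hB₁0 : ∀ u, 0 ≤ B₁ u := fun u => tB_nonneg _ _ _ _ _
  have hm0 : ∀ u₀ u₁ : ι → Pos D, B₀ (merge S₁ u₀ u₁) = B₀ u₀ :=
    fun u₀ u₁ => tB_congr_right _ _ _ _ fun i hi => merge_not_mem (hdisj i hi)
  have hm1 : ∀ u₀ u₁ : ι → Pos D, B₁ (merge S₁ u₀ u₁) = B₁ u₁ :=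
    fun u₀ u₁ => tB_congr_right _ _ _ _ fun i hi => merge_mem hi
  rw [← avg_merge S₁, avg_comm]
  -- the inner bound
  have key : ∀ u₁ : ι → Pos D, (avg fun u₀ : ι → Pos D => R (merge S₁ u₀ u₁) *
      (B₀ (merge S₁ u₀ u₁) * B₁ (merge S₁ u₀ u₁)) *
      avg fun c : Pos D → Bool => GGI (D + 1) S t d
        (joinT (fun i => xor (b i) (c (merge S₁ u₀ u₁ i))) (merge S₁ u₀ u₁))) ≤
      Real.exp E₀ * (B₁ u₁ * GGI D S₁ (fun i => tl (t i)) (dHalf d) u₁) := by
    intro u₁
    by_cases hB : B₁ u₁ = 0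
    · have : ∀ u₀ : ι → Pos D, R (merge S₁ u₀ u₁) *
          (B₀ (merge S₁ u₀ u₁) * B₁ (merge S₁ u₀ u₁)) *
          (avg fun c : Pos D → Bool => GGI (D + 1) S t d
            (joinT (fun i => xor (b i) (c (merge S₁ u₀ u₁ i))) (merge S₁ u₀ u₁))) = 0 := by
        intro u₀
        rw [hm1, hB]
        simp
      simp only [this, avg_const, hB, mul_zero, zero_mul]
      exact le_refl _
    have hinj : InjF u₁ S₁ := by
      intro i hi j hj hij
      by_contra hne
      exact hB (tB_eq_zero tq D S₁ hb1 hi hj hne hij)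
    -- the bound for a fixed coin
    have hc : ∀ c : Pos D → Bool, (avg fun u₀ : ι → Pos D => B₀ u₀ * (R (merge S₁ u₀ u₁) *
        GGI (D + 1) S t d (joinT (fun i => xor (b i) (c (merge S₁ u₀ u₁ i))) (merge S₁ u₀ u₁)))) ≤
        Real.exp E₀ * GFf S₁ β₁ c u₁ t d := by
      intro c
      have hex : ∀ i, ∃ v' : ι → Pos D, ∀ A : Finset ι, InjF (xiF (t i) c) A →
          (A.image (xiF (t i) c)).filter (fun z => z.2 = β₁) =
            (A ∩ S₁).image (fun s => (u₁ s, β₁)) →
          ∀ u : ι → Pos D, (A.image (xiF (t i) c)).filter (fun z => ¬ z.2 = β₁) =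
              (A \ S₁).image (fun s => (u s, !β₁)) →
            InjF v' (A \ S₁) ∧ (A \ S₁).image v' = (A \ S₁).image u :=
        fun i => exists_vprime S₁ β₁ u₁ hinj (xiF (t i) c)
      choose v' hv' using hex
      set t' : Option I → ι → Pos D := extT (fun s => u₁ (mt s)) v' with ht'
      have hF0 := GFf_nonneg S₁ β₁ c u₁ t hW
      have hpt : ∀ u₀ : ι → Pos D, B₀ u₀ * (R (merge S₁ u₀ u₁) *
          GGI (D + 1) S t d (joinT (fun i => xor (b i) (c (merge S₁ u₀ u₁ i))) (merge S₁ u₀ u₁))) ≤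
          (B₀ u₀ * GGI D S₀ t' (dNew d L) u₀) * GFf S₁ β₁ c u₁ t d := by
        intro u₀
        by_cases hB0 : B₀ u₀ = 0
        · rw [hB0]
          simp
        have hinj0 : InjF u₀ S₀ := by
          intro i hi j hj hij
          by_contra hne
          exact hB0 (tB_eq_zero tq D S₀ hb0 hi hj hne hij)
        set m := merge S₁ u₀ u₁ with hm
        have hmu₁ : ∀ s ∈ S₁, u₁ s = m s := fun s hs => (merge_mem hs).symm
        have hmu₀ : ∀ s ∈ S₀, m s = u₀ s := fun s hs => merge_not_mem (hdisj s hs)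
        have hinjm : InjF m S₀ := by
          intro i hi j hj hij
          rw [hmu₀ i hi, hmu₀ j hj] at hij
          exact hinj0 i hi j hj hij
        have h1 := split_G S b β₁ c m u₁ hmu₁ hinj t hW v' (fun i A => hv' i A)
        have h2 := hR m u₁ hmu₁ hinj hinjm
        have h3 := add_request S₀ L hL (fun s => u₁ (mt s)) v' hW m
        rw [GGI_congr D S₀ t' (dNew d L) hmu₀] at h3
        rw [mul_assoc]
        apply mul_le_mul_of_nonneg_left _ (hB₀0 u₀)
        set G₀ := GGI D S₀ v' d m with hG₀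
        have hG0 : 0 ≤ G₀ := GGI_nonneg hW _ _ _ _
        set N : ℝ := (((L.powerset).filter (fun A₀ => InjF (fun s => u₁ (mt s)) A₀ ∧
          A₀.image (fun s => u₁ (mt s)) = A₀.image m)).card : ℝ) with hN
        have hN0 : 0 ≤ N := Nat.cast_nonneg _
        have hG1 := GGI_nonneg hW (D + 1) S t (joinT (fun i => xor (b i) (c (m i))) m)
        calc R m * GGI (D + 1) S t d (joinT (fun i => xor (b i) (c (m i))) m)
            ≤ N * (G₀ * GFf S₁ β₁ c u₁ t d) := mul_le_mul h2 h1 hG1 hN0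
          _ = (N * G₀) * GFf S₁ β₁ c u₁ t d := by ring
          _ ≤ _ := mul_le_mul_of_nonneg_right h3 hF0
      refine (avg_mono hpt).trans ?_
      rw [avg_mul_right]
      exact mul_le_mul_of_nonneg_right (h S₀ (tl x) hb0 (Option I) t' (dNew d L) (goodW_dNew hW L)) hF0
    have hexp : ∀ u₀ : ι → Pos D, R (merge S₁ u₀ u₁) *
        (B₀ (merge S₁ u₀ u₁) * B₁ (merge S₁ u₀ u₁)) *
        (avg fun c : Pos D → Bool => GGI (D + 1) S t d
          (joinT (fun i => xor (b i) (c (merge S₁ u₀ u₁ i))) (merge S₁ u₀ u₁))) =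
        B₁ u₁ * avg fun c : Pos D → Bool => B₀ u₀ * (R (merge S₁ u₀ u₁) *
        GGI (D + 1) S t d (joinT (fun i => xor (b i) (c (merge S₁ u₀ u₁ i))) (merge S₁ u₀ u₁))) := by
      intro u₀
      rw [hm0, hm1]
      simp only [avg_mul_left]
      ring
    simp only [hexp]
    rw [avg_mul_left, avg_comm]
    have h5 := avg_mono hc
    rw [avg_mul_left] at h5
    have h6 := coin_avg S₁ β₁ u₁ hinj t hW
    calc B₁ u₁ * _ ≤ B₁ u₁ * (Real.exp E₀ * avg fun c : Pos D → Bool => GFf S₁ β₁ c u₁ t d) :=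
          mul_le_mul_of_nonneg_left h5 (hB₁0 u₁)
      _ ≤ B₁ u₁ * (Real.exp E₀ * GGI D S₁ (fun i => tl (t i)) (dHalf d) u₁) :=
          mul_le_mul_of_nonneg_left (mul_le_mul_of_nonneg_left h6 (Real.exp_pos _).le) (hB₁0 u₁)
      _ = _ := by ring
  refine (avg_mono key).trans ?_
  rw [avg_mul_left]
  exact mul_le_mul_of_nonneg_left (h S₁ (tl x) hb1 I (fun i => tl (t i)) (dHalf d) (goodW_dHalf hW))
    (Real.exp_pos _).le

end Vale.Agent.Lib.P162
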