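import Vale.Agent.Lib.P162.T5

/-!
# The constant moment bound for the two sided kernel
-/

namespace Vale.Agent.Lib.P162

open Finset

set_option linter.unusedSectionVars false
set_option linter.unusedSimpArgs false
set_option linter.unusedVariables false

variable {ι : Type*} [Fintype ι] [DecidableEq ι]

/-- one step of the main induction -/
theorem HypA_step (tq : ℕ → Bool) (D : ℕ) (a l : ℝ) (hl : 0 ≤ l) (h : HypA ι tq D a l) :
    HypA ι tq (D + 1) (a + (if tq D = true then l / 2 else 0))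
      (l * (if tq D = true then 5 / 4 else 3 / 4)) := by
  classical
  intro S x hx I _ _ t d hW
  rw [tB_step tq D S x (GGI (D + 1) S t d) (fun y y' h => GGI_congr (D + 1) S t d h)]
  refine avg_weight_le (fun b => wtD_nonneg _ _ _ _ _) (avg_wtD _ _ _ _) fun b hb => ?_
  set Mf : Bool → ℝ := fun β => ∑ s ∈ blk S b β, (YYs d s - 1) with hMf
  obtain ⟨β₁, hβ⟩ : ∃ β₁, Mf (!β₁) ≤ Mf β₁ := by
    rcases le_total (Mf false) (Mf true) with h1 | h1
    · exact ⟨true, h1⟩
    · exact ⟨false, h1⟩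
  have hb0 := tl_inj_blk hx hb (!β₁)
  have hb1 := tl_inj_blk hx hb β₁
  have hcomm : ∀ u : ι → Pos D, tB tq D (blk S b false) (tl x) u * tB tq D (blk S b true) (tl x) u =
      tB tq D (blk S b (!β₁)) (tl x) u * tB tq D (blk S b β₁) (tl x) u := by
    intro u
    cases β₁
    · simp [mul_comm]
    · simp
  simp only [hcomm]
  set S₁ := blk S b β₁ with hS₁
  set S₀ := blk S b (!β₁) with hS₀
  have hdisj : ∀ i ∈ S₀, i ∉ S₁ := by
    intro i hi hi'
    have h1 := (mem_blk.mp hi).2
    have h2 := (mem_blk.mp hi').2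
    rw [h2] at h1
    cases β₁ <;> simp at h1
  have hS : S = S₀ ∪ S₁ := by
    ext i
    simp only [hS₀, hS₁, mem_union, mem_blk]
    constructor
    · intro hi
      cases h : b i <;> cases β₁ <;> simp_all
    · rintro (h | h) <;> exact h.1
  have hcard : (S.card : ℝ) = S₀.card + S₁.card := by
    have : S.card = S₀.card + S₁.card := by
      rw [hS, card_union_of_disjoint (disjoint_left.mpr hdisj)]
    exact_mod_cast this
  have hMsum : ∑ s ∈ S, (YYs d s - 1) = Mf (!β₁) + Mf β₁ := by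
    rw [hS, sum_union (disjoint_left.mpr hdisj)]
  have hY1 : ∀ s, 0 ≤ YYs d s - 1 := fun s => by linarith [YYs_ge hW s]
  -- the sums of the weights
  have hE0 : ∀ L : Finset ι, L ⊆ S₀ → ∑ s ∈ S₀, (YYs (dNew d L) s - 1) =
      Mf (!β₁) + ∑ s ∈ L, YYs d s := by
    intro L hL
    have e1 : ∀ s ∈ S₀, YYs (dNew d L) s - 1 = (YYs d s - 1) + if s ∈ L then YYs d s else 0 := by
      intro s _
      rw [YYs_dNew]
      split_ifs <;> ring
    rw [sum_congr rfl e1, sum_add_distrib, Finset.sum_ite_mem, inter_eq_right.mpr hL]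
  have hE1 : ∑ s ∈ S₁, (YYs (dHalf d) s - 1) = Mf β₁ / 2 := by
    have e1 : ∀ s ∈ S₁, YYs (dHalf d) s - 1 = (YYs d s - 1) / 2 := by
      intro s _
      rw [YYs_dHalf]
      ring
    rw [sum_congr rfl e1, ← sum_div]
  have hM0 : 0 ≤ Mf (!β₁) := sum_nonneg fun s _ => hY1 s
  have hM1 : 0 ≤ Mf β₁ := sum_nonneg fun s _ => hY1 s
  by_cases hq : tq D = true
  · -- with the tilt
    simp only [if_pos hq]
    set L := S₀.filter (fun s => ∃ s' ∈ S₁, tl x s' = tl x s) with hLdef
    have hLS : L ⊆ S₀ := filter_subset _ _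
    have hL : ∀ s, s ∈ L ↔ s ∈ S₀ ∧ ∃ s' ∈ S₁, tl x s' = tl x s := fun s => by
      simp [hLdef, mem_filter]
    have hm : ∀ s, ∃ m, (∃ s' ∈ S₁, tl x s' = tl x s) → m ∈ S₁ ∧ tl x m = tl x s := by
      intro s
      by_cases h1 : ∃ s' ∈ S₁, tl x s' = tl x s
      · obtain ⟨s', h2, h3⟩ := h1
        exact ⟨s', fun _ => ⟨h2, h3⟩⟩
      · exact ⟨s, fun h2 => absurd h2 h1⟩
    choose mt hmt using hm
    have hmt' : ∀ s ∈ L, mt s ∈ S₁ ∧ tl x (mt s) = tl x s := fun s hs => hmt s ((hL s).mp hs).2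
    have hB := block_bound tq D a l h S x b β₁ hb0 hb1
      (fun u => rrD D S (hd x) (tl x) b u) (fun u => rrD_nonneg _ _ _ _ _ _) t hW L hLS mt
      (by
        intro u u₁ hu₁ hinj₁ hinj₀
        have hu1 : InjF u S₁ := by
          intro i hi j hj hij
          exact hinj₁ i hi j hj (by rw [hu₁ i hi, hu₁ j hj, hij])
        have h1 := rr_le_closed D S (hd x) (tl x) b u hb
        have h2 := closed_count hdisj hb0 hb1 hinj₀ hu1 hL hmt' hu₁
        rw [← hS] at h2
        refine h1.trans ?_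
        exact_mod_cast h2)
    refine hB.trans ?_
    rw [← Real.exp_add]
    apply Real.exp_le_exp.mpr
    rw [hE0 L hLS, hE1, hcard, hMsum]
    have hsumL : ∑ s ∈ L, YYs d s ≤ Mf (!β₁) + L.card := by
      have e1 : ∑ s ∈ L, YYs d s = ∑ s ∈ L, (YYs d s - 1) + L.card := by
        rw [sum_sub_distrib]
        simp
      rw [e1]
      have e2 : ∑ s ∈ L, (YYs d s - 1) ≤ Mf (!β₁) :=
        sum_le_sum_of_subset_of_nonneg hLS fun s _ _ => hY1 s
      linarith
    have hLc : 2 * (L.card : ℝ) ≤ S₀.card + S₁.card := by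
      have h1 : L.card ≤ S₀.card := card_le_card hLS
      have h2 : L.card ≤ S₁.card := by
        apply card_le_card_of_injOn mt
        · intro s hs
          exact (hmt' s hs).1
        · intro s hs s' hs' e
          have h3 := (hmt' s hs).2
          have h4 := (hmt' s' hs').2
          rw [e, h4] at h3
          exact hb0 s (hLS hs) s' (hLS hs') h3.symm
      have : 2 * L.card ≤ S₀.card + S₁.card := by omega
      exact_mod_cast this
    have hkey : Mf (!β₁) + ∑ s ∈ L, YYs d s + Mf β₁ / 2 ≤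
        ((S₀.card : ℝ) + S₁.card) / 2 + 5 / 4 * (Mf (!β₁) + Mf β₁) := by
      linarith
    have h3 := mul_le_mul_of_nonneg_left hkey hl
    nlinarith
  · -- without the tilt
    simp only [if_neg hq]
    have hB := block_bound tq D a l h S x b β₁ hb0 hb1
      (fun _ => (1:ℝ)) (fun _ => zero_le_one) t hW ∅ (empty_subset _) id
      (by
        intro u u₁ _ _ _
        have h1 : (∅ : Finset ι) ∈ ((∅ : Finset ι).powerset).filter
            (fun A₀ => InjF (fun s => u₁ (id s)) A₀ ∧
              A₀.image (fun s => u₁ (id s)) = A₀.image u) := by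
          simp [InjF]
        have h2 := card_pos.mpr ⟨_, h1⟩
        have h3 : (1 : ℝ) ≤ (((∅ : Finset ι).powerset.filter
            (fun A₀ => InjF (fun s => u₁ (id s)) A₀ ∧
              A₀.image (fun s => u₁ (id s)) = A₀.image u)).card : ℝ) := by
          exact_mod_cast h2
        exact h3)
    rw [← hS₀, ← hS₁] at hB
    refine hB.trans ?_
    rw [← Real.exp_add]
    apply Real.exp_le_exp.mpr
    rw [hE0 ∅ (empty_subset _), hE1, hcard, hMsum]
    simp only [sum_empty, add_zero]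
    have hkey : Mf (!β₁) + Mf β₁ / 2 ≤ 3 / 4 * (Mf (!β₁) + Mf β₁) := by linarith
    have h3 := mul_le_mul_of_nonneg_left hkey hl
    nlinarith

/-- the parameters along a potential -/
theorem hypA_potential (tq : ℕ → Bool) (κ : ℕ → ℝ) (hκ0 : ∀ n, 0 ≤ κ n)
    (hκ : ∀ n, (if tq n = true then 1 / 2 + 5 / 4 * κ (n + 1) else 3 / 4 * κ (n + 1)) ≤ κ n)
    (D : ℕ) : ∃ a l : ℝ, 0 ≤ l ∧ a + κ D * l ≤ κ 0 ∧ HypA ι tq D a l := by
  induction D with
  | zero => exact ⟨0, 1, zero_le_one, by simp, HypA_zero tq⟩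
  | succ D ih =>
    obtain ⟨a, l, hl, hp, hH⟩ := ih
    refine ⟨_, _, ?_, ?_, HypA_step tq D a l hl hH⟩
    · split_ifs <;> positivity
    · have h1 := hκ D
      by_cases hq : tq D = true
      · rw [if_pos hq] at h1 ⊢
        rw [if_pos hq]
        have h2 := mul_le_mul_of_nonneg_right h1 hl
        nlinarith
      · rw [if_neg hq] at h1 ⊢
        rw [if_neg hq]
        have h2 := mul_le_mul_of_nonneg_right h1 hl
        nlinarith

/-- the total mass of a tilted kernel from the empty family of requests -/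
theorem tB_mass (tq : ℕ → Bool) (κ : ℕ → ℝ) (hκ0 : ∀ n, 0 ≤ κ n)
    (hκ : ∀ n, (if tq n = true then 1 / 2 + 5 / 4 * κ (n + 1) else 3 / 4 * κ (n + 1)) ≤ κ n)
    (D : ℕ) (S : Finset ι) (x : ι → Pos D) (hx : InjF x S) :
    avg (fun y => tB tq D S x y) ≤ Real.exp (κ 0 * S.card) := by
  obtain ⟨a, l, hl, hp, hH⟩ := hypA_potential (ι := ι) tq κ hκ0 hκ D
  have hgood : GoodW (I := Empty) (fun (_ : ι) (_ : Empty → Bool) => (1:ℝ)) :=
    ⟨fun _ _ => zero_le_one, fun _ => rfl, fun _ _ _ _ => le_refl _⟩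
  have h1 := hH S x hx Empty (fun e => e.elim) _ hgood
  have h2 : ∀ y, GGI D S (fun e : Empty => e.elim) (fun (_ : ι) (_ : Empty → Bool) => (1:ℝ)) y = 1 := by
    intro y
    classical
    unfold GGI
    rw [Fintype.sum_unique]
    have : ∀ A : Empty → Finset ι, ReqI D S (fun e : Empty => e.elim) y A := fun A e => e.elim
    simp only [this, if_true]
    simp [WWI]
  have h3 : ∀ s : ι, YYs (I := Empty) (fun (_ : ι) (_ : Empty → Bool) => (1:ℝ)) s = 1 := by
    intro s
    simp [YYs]
  simp only [h2, h3, mul_one, sub_self, sum_const_zero, mul_zero, add_zero] at h1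
  refine h1.trans (Real.exp_le_exp.mpr ?_)
  have h4 : 0 ≤ κ D * l := mul_nonneg (hκ0 D) hl
  exact mul_le_mul_of_nonneg_right (by linarith) (Nat.cast_nonneg _)

/-- the flags `true` at even levels -/
def tqE : ℕ → Bool := fun n => decide (n % 2 = 0)

theorem tB_mass_even (D : ℕ) (S : Finset ι) (x : ι → Pos D) (hx : InjF x S) :
    avg (fun y => tB tqE D S x y) ≤ Real.exp (8 * S.card) := by
  have := tB_mass (ι := ι) tqE (fun n => if n % 2 = 0 then 8 else 6)
    (fun n => by split_ifs <;> norm_num) (fun n => by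
      rcases Nat.mod_two_eq_zero_or_one n with h | h
      · have h1 : (n + 1) % 2 = 1 := by omega
        simp [tqE, h, h1]
        norm_num
      · have h1 : (n + 1) % 2 = 0 := by omega
        simp [tqE, h, h1]
        norm_num) D S x hx
  simpa using this

theorem tB_mass_odd (D : ℕ) (S : Finset ι) (x : ι → Pos D) (hx : InjF x S) :
    avg (fun y => tB (fun n => !tqE n) D S x y) ≤ Real.exp (6 * S.card) := by
  have := tB_mass (ι := ι) (fun n => !tqE n) (fun n => if n % 2 = 0 then 6 else 8)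
    (fun n => by split_ifs <;> norm_num) (fun n => by
      rcases Nat.mod_two_eq_zero_or_one n with h | h
      · have h1 : (n + 1) % 2 = 1 := by omega
        simp [tqE, h, h1]
        norm_num
      · have h1 : (n + 1) % 2 = 0 := by omega
        simp [tqE, h, h1]
        norm_num) D S x hx
  simpa using this

/-- **The moment bound with a constant exponent.** -/
theorem normP_three_half (D : ℕ) (S : Finset ι) (x : ι → Pos D) (hx : InjF x S) :
    normP D S x (3 / 2) ≤ Real.exp (7 * S.card) := by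
  set T : (ι → Pos D) → ℝ := fun y => tB tqE D S x y with hT
  set T' : (ι → Pos D) → ℝ := fun y => tB (fun n => !tqE n) D S x y with hT'
  have hT0 : ∀ y, 0 ≤ T y := fun y => tB_nonneg _ _ _ _ _
  have hT'0 : ∀ y, 0 ≤ T' y := fun y => tB_nonneg _ _ _ _ _
  have h1 : ∀ y, betaD D S x y ^ (3 / 2 : ℝ) ≤ T y ^ (1 / 2 : ℝ) * T' y ^ (1 / 2 : ℝ) := by
    intro y
    rw [← Real.mul_rpow (hT0 y) (hT'0 y)]
    have h0 := betaD_nonneg D S x y
    have e2 : betaD D S x y ^ (3 / 2 : ℝ) = (betaD D S x y ^ 3) ^ (1 / 2 : ℝ) := by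
      rw [← Real.rpow_natCast, ← Real.rpow_mul h0]
      norm_num
    rw [e2]
    exact Real.rpow_le_rpow (pow_nonneg h0 3) (beta_cube_le tqE D S x y) (by norm_num)
  have hH : (2 : ℝ).HolderConjugate 2 := Real.HolderConjugate.two_two
  have h3 := avg_holder hH (f := fun y => T y ^ (1 / 2 : ℝ)) (g := fun y => T' y ^ (1 / 2 : ℝ))
    (fun y => Real.rpow_nonneg (hT0 y) _) (fun y => Real.rpow_nonneg (hT'0 y) _)
  have e5 : ∀ z : ℝ, 0 ≤ z → (z ^ (1 / 2 : ℝ)) ^ (2 : ℝ) = z := by
    intro z hz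
    rw [← Real.rpow_mul hz]
    norm_num
  have e6 : (avg fun y => (T y ^ (1 / 2 : ℝ)) ^ (2 : ℝ)) = avg T :=
    avg_congr fun y => e5 _ (hT0 y)
  have e7 : (avg fun y => (T' y ^ (1 / 2 : ℝ)) ^ (2 : ℝ)) = avg T' :=
    avg_congr fun y => e5 _ (hT'0 y)
  rw [e6, e7] at h3
  have h4 : normP D S x (3 / 2) ≤ avg T ^ (1 / (2:ℝ)) * avg T' ^ (1 / (2:ℝ)) :=
    (avg_mono h1).trans h3
  refine h4.trans ?_
  have hA : 0 ≤ avg T := avg_nonneg hT0
  have hB : 0 ≤ avg T' := avg_nonneg hT'0
  have h5 := Real.rpow_le_rpow hA (tB_mass_even D S x hx) (by norm_num : (0:ℝ) ≤ 1 / 2)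
  have h6 := Real.rpow_le_rpow hB (tB_mass_odd D S x hx) (by norm_num : (0:ℝ) ≤ 1 / 2)
  refine (mul_le_mul h5 h6 (Real.rpow_nonneg hB _) (Real.rpow_nonneg (Real.exp_pos _).le _)).trans
    (le_of_eq ?_)
  rw [← Real.exp_mul, ← Real.exp_mul, ← Real.exp_add]
  congr 1
  ring

/-- the moments of the density for all exponents up to `3 / 2` -/
theorem moment_bound3 (D : ℕ) (S : Finset ι) (x : ι → Pos D) (hx : InjF x S) {q : ℝ} (hq : 0 < q)
    (hq2 : q ≤ 1 / 2) : normP D S x (1 + q) ≤ Real.exp (S.card * (14 * q)) := by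
  rcases eq_or_lt_of_le hq2 with rfl | hlt
  · have h := normP_three_half D S x hx
    have e : (1 + 1 / 2 : ℝ) = 3 / 2 := by norm_num
    rw [e]
    refine h.trans (le_of_eq ?_)
    congr 1
    ring
  · set p : ℝ := 1 / (2 * q) with hp
    have hp1 : 1 < p := by
      rw [hp, lt_div_iff₀ (by positivity)]
      linarith
    have hpq : q * p = 1 / 2 := by
      rw [hp]
      field_simp
    have hj := avg_jensen (p := p) hp1 (w := fun y => betaD D S x y)
      (u := fun y => betaD D S x y ^ q) (fun y => betaD_nonneg _ _ _ _)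
      (fun y => Real.rpow_nonneg (betaD_nonneg _ _ _ _) _)
    have e1 : (avg fun y => betaD D S x y) = 1 := avg_betaD D S x
    rw [e1, Real.one_rpow, one_mul] at hj
    have e2 : ∀ y, betaD D S x y * betaD D S x y ^ q = betaD D S x y ^ (1 + q) := by
      intro y
      by_cases h0 : betaD D S x y = 0
      · have h1 : (1 + q) ≠ 0 := by linarith
        rw [h0, Real.zero_rpow h1, zero_mul]
      · have hp0 : 0 < betaD D S x y := lt_of_le_of_ne (betaD_nonneg _ _ _ _) (Ne.symm h0)
        rw [Real.rpow_add hp0, Real.rpow_one]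
    have e3 : ∀ y, betaD D S x y * (betaD D S x y ^ q) ^ p = betaD D S x y ^ (3 / 2 : ℝ) := by
      intro y
      rw [← Real.rpow_mul (betaD_nonneg _ _ _ _), hpq]
      by_cases h0 : betaD D S x y = 0
      · rw [h0, Real.zero_rpow (by norm_num), Real.zero_rpow (by norm_num)]
        simp
      · have hp0 : 0 < betaD D S x y := lt_of_le_of_ne (betaD_nonneg _ _ _ _) (Ne.symm h0)
        have : (3 / 2 : ℝ) = 1 + 1 / 2 := by norm_num
        rw [this, Real.rpow_add hp0, Real.rpow_one]
    simp only [e2, e3] at hj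
    have h2 : (avg fun y => betaD D S x y ^ (1 + q)) ^ p ≤ Real.exp (7 * S.card) :=
      hj.trans (normP_three_half D S x hx)
    have hN0 : 0 ≤ avg fun y => betaD D S x y ^ (1 + q) :=
      avg_nonneg fun y => Real.rpow_nonneg (betaD_nonneg _ _ _ _) _
    have hp0 : 0 < p := by linarith
    have h3 := Real.rpow_le_rpow (Real.rpow_nonneg hN0 p) h2 (by positivity : 0 ≤ 1 / p)
    rw [← Real.rpow_mul hN0, mul_one_div_cancel hp0.ne', Real.rpow_one, ← Real.exp_mul] at h3
    unfold normP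
    refine h3.trans (le_of_eq ?_)
    congr 1
    rw [hp]
    field_simp
    ring

end Vale.Agent.Lib.P162
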