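import Vale.Agent.Lib.P162.TupleRep
import Vale.Agent.Lib.P162.Endgame

/-!
# The trace on the regular representation and the spaces of tuples
-/

namespace Vale.Agent.Lib.P162

open Equiv Finset
open scoped InnerProductSpace

set_option linter.unusedSectionVars false
set_option linter.unusedSimpArgs false
set_option linter.unusedVariables false

section linalg

variable {V : Type*} [NormedAddCommGroup V] [InnerProductSpace ℝ V] [FiniteDimensional ℝ V]

/-- the trace of an operator with a spanning family of eigenvectors with nonnegative eigenvalues -/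
theorem trace_le_of_spanning (T : V →ₗ[ℝ] V) {κ : Type*} [Fintype κ] (v : κ → V) (μ : κ → ℝ)
    (hv : ∀ k, T (v k) = μ k • v k) (hμ : ∀ k, 0 ≤ μ k)
    (hs : Submodule.span ℝ (Set.range v) = ⊤) :
    LinearMap.trace ℝ V T ≤ ∑ k, μ k := by
  classical
  obtain ⟨b, hb1, hb2, hb3⟩ := exists_linearIndependent ℝ (Set.range v)
  have hbfin : b.Finite := (Set.finite_range v).subset hb1
  have : Fintype b := hbfin.fintype
  have hspan : ⊤ ≤ Submodule.span ℝ (Set.range ((↑) : b → V)) := by
    rw [Subtype.range_coe, hb2, hs]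
  let B : Module.Basis b ℝ V := Module.Basis.mk hb3 hspan
  have hBapp : ∀ z : b, B z = z.1 := fun z => Module.Basis.mk_apply hb3 hspan z
  choose k hk using fun z : b => hb1 z.2
  have hkinj : Function.Injective k := by
    intro z z' h
    apply Subtype.ext
    rw [← hk z, ← hk z', h]
  rw [LinearMap.trace_eq_matrix_trace ℝ B T]
  have h1 : ∀ z : b, LinearMap.toMatrix B B T z z = μ (k z) := by
    intro z
    rw [LinearMap.toMatrix_apply, hBapp]
    have h2 : T z.1 = μ (k z) • B z := by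
      rw [hBapp, ← hk z, hv]
    rw [h2, map_smul, Module.Basis.repr_self]
    simp
  unfold Matrix.trace
  simp only [Matrix.diag_apply, h1]
  have h3 : ∑ z : b, μ (k z) = ∑ j ∈ (Finset.univ.image k), μ j := by
    rw [sum_image (fun _ _ _ _ h => hkinj h)]
  rw [h3]
  exact sum_le_sum_of_subset_of_nonneg (subset_univ _) fun i _ _ => hμ i

end linalg

section natural

variable {D : ℕ} {V₁ V₂ : Type*} [NormedAddCommGroup V₁] [InnerProductSpace ℝ V₁]
  [NormedAddCommGroup V₂] [InnerProductSpace ℝ V₂]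
  [FiniteDimensional ℝ V₁] [FiniteDimensional ℝ V₂]

/-- a pass is natural with respect to intertwiners -/
lemma Qrec_natural (S : V₁ →L[ℝ] V₂) {ρ₁ : Perm (Pos D) →* (V₁ →L[ℝ] V₁)}
    {ρ₂ : Perm (Pos D) →* (V₂ →L[ℝ] V₂)} (h : ∀ g f, S (ρ₁ g f) = ρ₂ g (S f)) (f : V₁) :
    S (Qrec D ρ₁ f) = Qrec D ρ₂ (S f) := by
  apply ext_inner_left ℝ
  intro u
  have h1 := Exp_Qrec D ρ₁ ((innerSL ℝ u).comp S) f
  have h2 := Exp_Qrec D ρ₂ (innerSL ℝ u) (S f)
  simp only [ContinuousLinearMap.comp_apply, innerSL_apply_apply] at h1 h2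
  rw [h1, h2]
  refine Exp_congr D fun g => ?_
  rw [h]

lemma inner_adjoint_Qrec {V : Type*} [NormedAddCommGroup V] [InnerProductSpace ℝ V]
    [FiniteDimensional ℝ V] {ρ : Perm (Pos D) →* (V →L[ℝ] V)} (hρ : IsOrth ρ) (u f : V) :
    ⟪u, ContinuousLinearMap.adjoint (Qrec D ρ) f⟫_ℝ = Exp D (fun g => ⟪ρ g⁻¹ f, u⟫_ℝ) := by
  have : CompleteSpace V := FiniteDimensional.complete ℝ V
  rw [ContinuousLinearMap.adjoint_inner_right, real_inner_comm, inner_Qrec_left]
  refine Exp_congr D fun g => ?_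
  rw [real_inner_comm, hρ.adj]
  exact real_inner_comm _ _

/-- the adjoint of a pass is natural with respect to intertwiners -/
lemma Qrec_adj_natural (S : V₁ →L[ℝ] V₂) {ρ₁ : Perm (Pos D) →* (V₁ →L[ℝ] V₁)}
    {ρ₂ : Perm (Pos D) →* (V₂ →L[ℝ] V₂)} (hρ₁ : IsOrth ρ₁) (hρ₂ : IsOrth ρ₂)
    (h : ∀ g f, S (ρ₁ g f) = ρ₂ g (S f)) (f : V₁) :
    S (ContinuousLinearMap.adjoint (Qrec D ρ₁) f) = ContinuousLinearMap.adjoint (Qrec D ρ₂) (S f) := by
  have : CompleteSpace V₁ := FiniteDimensional.complete ℝ V₁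
  have : CompleteSpace V₂ := FiniteDimensional.complete ℝ V₂
  apply ext_inner_left ℝ
  intro u
  rw [← ContinuousLinearMap.adjoint_inner_left S, inner_adjoint_Qrec hρ₁, inner_adjoint_Qrec hρ₂]
  refine Exp_congr D fun g => ?_
  rw [ContinuousLinearMap.adjoint_inner_right S, h]

end natural

section span

variable {X : Type*} [Fintype X] [DecidableEq X]

/-- the tuple of values of a permutation at the marks -/
def resT (J : Finset X) (π : Perm X) : J → X := fun j => π j

/-- functions of the values at the marks as functions on the group -/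
noncomputable def iotaL (J : Finset X) : TupSp J X →ₗ[ℝ] RegSpace X where
  toFun φ := WithLp.toLp 2 (fun π => φ (resT J π))
  map_add' u v := by
    ext π
    rfl
  map_smul' c u := by
    ext π
    rfl

noncomputable def iotaJ (J : Finset X) : TupSp J X →L[ℝ] RegSpace X :=
  LinearMap.toContinuousLinearMap (iotaL J)

lemma iotaJ_apply (J : Finset X) (φ : TupSp J X) (π : Perm X) : iotaJ J φ π = φ (resT J π) := rfl

lemma iotaJ_intertwine (J : Finset X) (g : Perm X) (φ : TupSp J X) :
    iotaJ J (tupRep g φ) = lreg g (iotaJ J φ) := by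
  ext π
  rfl

/-- the integral of a function over the fibres of the restriction to the marks -/
noncomputable def fibT (J : Finset X) (f : RegSpace X) : TupSp J X :=
  WithLp.toLp 2 (fun x => ∑ π : Perm X, if resT J π = x then f π else 0)

lemma fibT_apply (J : Finset X) (f : RegSpace X) (x : J → X) :
    fibT J f x = ∑ π : Perm X, if resT J π = x then f π else 0 := rfl

lemma inner_iotaJ (J : Finset X) (f : RegSpace X) (φ : TupSp J X) :
    ⟪f, iotaJ J φ⟫_ℝ = ⟪fibT J f, φ⟫_ℝ := by
  simp only [PiLp.inner_apply, RCLike.inner_apply, conj_trivial]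
  simp only [iotaJ_apply, fibT_apply, mul_sum]
  rw [sum_comm]
  refine sum_congr rfl fun π _ => ?_
  rw [sum_eq_single (resT J π)]
  · simp
  · intro x _ hx
    rw [if_neg (Ne.symm hx)]
    simp
  · simp

lemma resT_injective (J : Finset X) (π : Perm X) : Function.Injective (resT J π) := by
  intro i j h
  exact Subtype.ext (π.injective h)

/-- fibres of a function orthogonal to the images of the spaces `WW` vanish -/
lemma fibT_eq_zero (f : RegSpace X) (hf : ∀ (J : Finset X) (φ : TupSp J X), φ ∈ WW J X → ⟪f, iotaJ J φ⟫_ℝ = 0)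
    (J : Finset X) : fibT J f = 0 := by
  induction J using Finset.strongInduction with
  | H J ih =>
    have hmem : fibT J f ∈ WW J X := by
      refine ⟨fun x hx => ?_, fun x i => ?_⟩
      · rw [fibT_apply]
        refine sum_eq_zero fun π _ => ?_
        rw [if_neg]
        rintro rfl
        exact hx (resT_injective J π)
      · -- the marginal is the fibre for the smaller set
        have hsub : J.erase i.1 ⊂ J := erase_ssubset i.2
        have h0 := ih _ hsub
        set x' : (J.erase i.1 : Finset X) → X := fun j => x ⟨j.1, (mem_erase.mp j.2).2⟩ with hx'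
        have h1 : fibT (J.erase i.1) f x' = 0 := by
          rw [h0]; rfl
        rw [← h1, fibT_apply]
        simp only [fibT_apply]
        rw [sum_comm]
        refine sum_congr rfl fun π _ => ?_
        by_cases hπ : resT (J.erase i.1) π = x'
        · rw [if_pos hπ, sum_eq_single (π i.1)]
          · rw [if_pos]
            funext j
            by_cases hj : j = i
            · subst hj
              simp [resT]
            · rw [Function.update_of_ne hj]
              have hj' : j.1 ≠ i.1 := fun h => hj (Subtype.ext h)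
              have := congrFun hπ ⟨j.1, mem_erase.mpr ⟨hj', j.2⟩⟩
              simpa [resT, hx'] using this
          · intro v _ hv
            rw [if_neg]
            intro h
            have := congrFun h i
            simp only [Function.update_self, resT] at this
            exact hv this.symm
          · simp
        · rw [if_neg hπ]
          refine sum_eq_zero fun v _ => ?_
          rw [if_neg]
          intro h
          apply hπ
          funext j
          have hj' : (⟨j.1, (mem_erase.mp j.2).2⟩ : J) ≠ i := by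
            intro he
            have := congrArg Subtype.val he
            exact (mem_erase.mp j.2).1 this
          have := congrFun h ⟨j.1, (mem_erase.mp j.2).2⟩
          rw [Function.update_of_ne hj'] at this
          simpa [resT, hx'] using this
    have h2 := hf J _ hmem
    rw [inner_iotaJ, real_inner_self_eq_norm_sq] at h2
    have h3 : ‖fibT J f‖ = 0 := by
      have := pow_eq_zero_iff (two_ne_zero) |>.mp h2
      exact this
    exact norm_eq_zero.mp h3

/-- a function orthogonal to all the images vanishes -/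
lemma eq_zero_of_perp (f : RegSpace X)
    (hf : ∀ (J : Finset X) (φ : TupSp J X), φ ∈ WW J X → ⟪f, iotaJ J φ⟫_ℝ = 0) : f = 0 := by
  ext π
  have h := fibT_eq_zero f hf Finset.univ
  have h1 := congrArg (fun φ : TupSp (Finset.univ : Finset X) X => φ (resT Finset.univ π)) h
  simp only [fibT_apply] at h1
  rw [sum_eq_single π] at h1
  · simpa using h1
  · intro σ _ hσ
    rw [if_neg]
    intro he
    apply hσ
    ext a
    have := congrFun he ⟨a, mem_univ _⟩
    simpa [resT] using this
  · simp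

end span

section chi

variable {H : ℕ}

/-- the operator `(A^r)^* A^r` -/
noncomputable def XXop {V : Type*} [NormedAddCommGroup V] [InnerProductSpace ℝ V]
    [CompleteSpace V] (ρ : Perm (Pos H) →* (V →L[ℝ] V)) (r : ℕ) : V →L[ℝ] V :=
  ContinuousLinearMap.adjoint ((Qrec H ρ) ^ r) * (Qrec H ρ) ^ r

lemma adjoint_pow_apply {V : Type*} [NormedAddCommGroup V] [InnerProductSpace ℝ V]
    [CompleteSpace V] (A : V →L[ℝ] V) (r : ℕ) :
    ContinuousLinearMap.adjoint (A ^ r) = (ContinuousLinearMap.adjoint A) ^ r := by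
  induction r with
  | zero =>
    ext x
    apply ext_inner_left ℝ
    intro u
    simp [ContinuousLinearMap.adjoint_inner_right]
  | succ r ih =>
    rw [pow_succ, pow_succ']
    have : ContinuousLinearMap.adjoint (A ^ r * A) =
        ContinuousLinearMap.adjoint A * ContinuousLinearMap.adjoint (A ^ r) :=
      ContinuousLinearMap.adjoint_comp _ _
    rw [this, ih]

lemma XXop_isSym {V : Type*} [NormedAddCommGroup V] [InnerProductSpace ℝ V]
    [CompleteSpace V] (ρ : Perm (Pos H) →* (V →L[ℝ] V)) (r : ℕ) (u v : V) :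
    ⟪XXop ρ r u, v⟫_ℝ = ⟪u, XXop ρ r v⟫_ℝ := by
  unfold XXop
  simp only [mul_ap]
  rw [ContinuousLinearMap.adjoint_inner_left, ContinuousLinearMap.adjoint_inner_right]

lemma XXop_inner {V : Type*} [NormedAddCommGroup V] [InnerProductSpace ℝ V]
    [CompleteSpace V] (ρ : Perm (Pos H) →* (V →L[ℝ] V)) (r : ℕ) (u : V) :
    ⟪u, XXop ρ r u⟫_ℝ = ‖((Qrec H ρ) ^ r) u‖ ^ 2 := by
  unfold XXop
  simp only [mul_ap]
  rw [ContinuousLinearMap.adjoint_inner_right, real_inner_self_eq_norm_sq]

lemma pow_natural {V₁ V₂ : Type*} [NormedAddCommGroup V₁] [InnerProductSpace ℝ V₁]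
    [NormedAddCommGroup V₂] [InnerProductSpace ℝ V₂] (S : V₁ →L[ℝ] V₂) {A₁ : V₁ →L[ℝ] V₁}
    {A₂ : V₂ →L[ℝ] V₂} (h : ∀ f, S (A₁ f) = A₂ (S f)) (r : ℕ) (f : V₁) :
    S ((A₁ ^ r) f) = (A₂ ^ r) (S f) := by
  induction r generalizing f with
  | zero => simp
  | succ r ih =>
    rw [pow_succ, pow_succ, mul_ap, mul_ap, ih, h]

/-- intertwiners also intertwine the operators `(A^r)^* A^r` -/
lemma XXop_natural {V₁ V₂ : Type*} [NormedAddCommGroup V₁] [InnerProductSpace ℝ V₁]
    [NormedAddCommGroup V₂] [InnerProductSpace ℝ V₂] [FiniteDimensional ℝ V₁]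
    [FiniteDimensional ℝ V₂] [CompleteSpace V₁] [CompleteSpace V₂] (S : V₁ →L[ℝ] V₂)
    {ρ₁ : Perm (Pos H) →* (V₁ →L[ℝ] V₁)} {ρ₂ : Perm (Pos H) →* (V₂ →L[ℝ] V₂)}
    (hρ₁ : IsOrth ρ₁) (hρ₂ : IsOrth ρ₂) (h : ∀ g f, S (ρ₁ g f) = ρ₂ g (S f)) (r : ℕ) (f : V₁) :
    S (XXop ρ₁ r f) = XXop ρ₂ r (S f) := by
  unfold XXop
  simp only [mul_ap, adjoint_pow_apply]
  rw [pow_natural S (fun f => Qrec_adj_natural S hρ₁ hρ₂ h f),
    pow_natural S (fun f => Qrec_natural S h f)]

/-- eigenbases of restrictions of symmetric operators -/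
lemma exists_eigen_restrict {V : Type*} [NormedAddCommGroup V] [InnerProductSpace ℝ V]
    [FiniteDimensional ℝ V] (W : Submodule ℝ V) (T : V →L[ℝ] V)
    (hsym : ∀ u v, ⟪T u, v⟫_ℝ = ⟪u, T v⟫_ℝ) (hW : ∀ w ∈ W, T w ∈ W) :
    ∃ (b : OrthonormalBasis (Fin (Module.finrank ℝ W)) ℝ W) (μ : Fin (Module.finrank ℝ W) → ℝ),
      ∀ i, T (b i : V) = μ i • (b i : V) := by
  have hT : (T : V →ₗ[ℝ] V).IsSymmetric := fun u v => hsym u v
  have hR : ((T : V →ₗ[ℝ] V).restrict hW).IsSymmetric := hT.restrict_invariant hW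
  obtain ⟨b, μ, hb⟩ := exists_eigenbasis hR
  refine ⟨b, μ, fun i => ?_⟩
  have := congrArg (Subtype.val) (hb i)
  simpa using this

lemma rreg_delta {X : Type*} [Fintype X] [DecidableEq X] (g : Perm X) :
    rreg g (deltaOne X) = EuclideanSpace.single g⁻¹ (1 : ℝ) := by
  ext π
  rw [rreg_apply]
  unfold deltaOne
  simp only [PiLp.single_apply, EuclideanSpace.single]
  by_cases h : π = g⁻¹
  · subst h; simp
  · have : π * g ≠ 1 := fun e => h (eq_inv_of_mul_eq_one_left e)
    simp [h, this]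

lemma lreg_rreg_commute {X : Type*} [Fintype X] [DecidableEq X] (g h : Perm X) :
    Commute (rreg h) (lreg g) := by
  show rreg h * lreg g = lreg g * rreg h
  ext f π
  show lreg g f (π * h) = rreg h f (g⁻¹ * π)
  rw [lreg_apply, rreg_apply, mul_assoc]

/-- the norm of the image of a delta function does not depend on its position -/
lemma norm_single_eq {r : ℕ} (g : Perm (Pos H)) :
    ‖((Qrec H (lreg (X := Pos H))) ^ r) (EuclideanSpace.single g (1 : ℝ))‖ =
      ‖((Qrec H (lreg (X := Pos H))) ^ r) (deltaOne (Pos H))‖ := by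
  have h1 : (EuclideanSpace.single g (1 : ℝ) : RegSpace (Pos H)) = rreg g⁻¹ (deltaOne (Pos H)) := by
    rw [rreg_delta, inv_inv]
  have hc : Commute (rreg g⁻¹) (Qrec H (lreg (X := Pos H))) :=
    Qrec_commute H _ _ fun h => lreg_rreg_commute h g⁻¹
  have hc2 := hc.pow_right r
  have h2 : ((Qrec H (lreg (X := Pos H))) ^ r) (rreg g⁻¹ (deltaOne (Pos H))) =
      rreg g⁻¹ (((Qrec H (lreg (X := Pos H))) ^ r) (deltaOne (Pos H))) :=
    (congrArg (fun T : RegSpace (Pos H) →L[ℝ] RegSpace (Pos H) => T (deltaOne (Pos H))) hc2.eq).symm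
  rw [h1, h2]
  exact rreg_isOrth.norm _ _

lemma pow_mem_WW {ι : Type*} [Fintype ι] [DecidableEq ι] (s : ℕ) (v : TupSp ι (Pos H))
    (hv : v ∈ WW ι (Pos H)) : ((QT ι H) ^ s) v ∈ WW ι (Pos H) := by
  induction s generalizing v with
  | zero => simpa using hv
  | succ s ih =>
    rw [pow_succ, mul_ap]
    exact ih _ (QT_mem_WW hv)

lemma pow_adj_mem_WW {ι : Type*} [Fintype ι] [DecidableEq ι] (s : ℕ) (v : TupSp ι (Pos H))
    (hv : v ∈ WW ι (Pos H)) : ((QTa ι H) ^ s) v ∈ WW ι (Pos H) := by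
  induction s generalizing v with
  | zero => simpa using hv
  | succ s ih =>
    rw [pow_succ, mul_ap]
    exact ih _ (QTa_mem_WW hv)

lemma XXop_mem_WW {ι : Type*} [Fintype ι] [DecidableEq ι] (r : ℕ) (w : TupSp ι (Pos H))
    (hw : w ∈ WW ι (Pos H)) : XXop (tupRep (ι := ι) (X := Pos H)) r w ∈ WW ι (Pos H) := by
  unfold XXop
  simp only [mul_ap, adjoint_pow_apply]
  exact pow_adj_mem_WW _ _ (pow_mem_WW _ _ hw)

/-- the trace is the norm of the image of the delta function -/
lemma trace_XXop (r : ℕ) :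
    LinearMap.trace ℝ (RegSpace (Pos H)) (XXop (lreg (X := Pos H)) r : RegSpace (Pos H) →L[ℝ] RegSpace (Pos H)) =
      ((Fintype.card (Pos H)).factorial : ℝ) * ‖((Qrec H (lreg (X := Pos H))) ^ r) (deltaOne (Pos H))‖ ^ 2 := by
  rw [LinearMap.trace_eq_sum_inner _ (EuclideanSpace.basisFun (Perm (Pos H)) ℝ)]
  have h1 : ∀ g : Perm (Pos H), ⟪(EuclideanSpace.basisFun (Perm (Pos H)) ℝ) g,
      (XXop (lreg (X := Pos H)) r : RegSpace (Pos H) →L[ℝ] RegSpace (Pos H)) ((EuclideanSpace.basisFun (Perm (Pos H)) ℝ) g)⟫_ℝ =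
      ‖((Qrec H (lreg (X := Pos H))) ^ r) (deltaOne (Pos H))‖ ^ 2 := by
    intro g
    rw [XXop_inner, EuclideanSpace.basisFun_apply, norm_single_eq]
  simp only [ContinuousLinearMap.coe_coe] at h1 ⊢
  rw [sum_congr rfl fun g _ => h1 g]
  simp [Fintype.card_perm]

/-- the images of orthonormal bases of the spaces `WW` span the regular representation -/
lemma span_images {X : Type*} [Fintype X] [DecidableEq X]
    (b : ∀ J : Finset X, OrthonormalBasis (Fin (Module.finrank ℝ (WW J X))) ℝ (WW J X)) :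
    Submodule.span ℝ (Set.range (fun k : (Σ J : Finset X, Fin (Module.finrank ℝ (WW J X))) =>
      iotaJ k.1 (b k.1 k.2 : TupSp k.1 X))) = ⊤ := by
  rw [← Submodule.orthogonal_eq_bot_iff, Submodule.eq_bot_iff]
  intro f hf
  apply eq_zero_of_perp
  intro J φ hφ
  have h1 : ∀ α, ⟪f, iotaJ J (b J α : TupSp J X)⟫_ℝ = 0 := by
    intro α
    have hmem : iotaJ J (b J α : TupSp J X) ∈ Submodule.span ℝ (Set.range (fun k : (Σ J : Finset X, Fin (Module.finrank ℝ (WW J X))) =>
      iotaJ k.1 (b k.1 k.2 : TupSp k.1 X))) :=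
      Submodule.subset_span ⟨⟨J, α⟩, rfl⟩
    have := Submodule.inner_right_of_mem_orthogonal hmem hf
    rw [real_inner_comm]
    exact this
  have h2 : (⟨φ, hφ⟩ : WW J X) = ∑ α, ⟪b J α, (⟨φ, hφ⟩ : WW J X)⟫_ℝ • b J α :=
    ((b J).sum_repr' _).symm
  have h3 : φ = ∑ α, ⟪b J α, (⟨φ, hφ⟩ : WW J X)⟫_ℝ • (b J α : TupSp J X) := by
    have := congrArg Subtype.val h2
    simpa using this
  rw [h3, map_sum, inner_sum]
  refine sum_eq_zero fun α _ => ?_
  rw [map_smul, inner_smul_right, h1, mul_zero]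

/-- eigenvalues in the orthonormal basis are norms -/
lemma eigen_eq_norm {ι : Type*} [Fintype ι] [DecidableEq ι] (r : ℕ) {z : TupSp ι (Pos H)} {c : ℝ}
    (hz : ‖z‖ = 1) (h : XXop (tupRep (ι := ι) (X := Pos H)) r z = c • z) :
    c = ‖((QT ι H) ^ r) z‖ ^ 2 := by
  have h1 := XXop_inner (tupRep (ι := ι) (X := Pos H)) r z
  rw [h, inner_smul_right, real_inner_self_eq_norm_sq, hz] at h1
  simpa using h1

lemma exists_eigen_WW (ι : Type*) [Fintype ι] [DecidableEq ι] (H r : ℕ) :
    ∃ (b : OrthonormalBasis (Fin (Module.finrank ℝ (WW ι (Pos H)))) ℝ (WW ι (Pos H)))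
      (μ : Fin (Module.finrank ℝ (WW ι (Pos H))) → ℝ),
      ∀ i, XXop (tupRep (ι := ι) (X := Pos H)) r (b i : TupSp ι (Pos H)) =
        μ i • (b i : TupSp ι (Pos H)) :=
  exists_eigen_restrict _ _ (XXop_isSym _ r) (XXop_mem_WW r)

/-- the main reduction: the `L²` norm of the law is bounded by the Hilbert-Schmidt norms on the
spaces `WW` -/
theorem chi_le_sum (H r : ℕ) (B : Finset (Pos H) → ℝ)
    (hB : ∀ (J : Finset (Pos H))
      (e : OrthonormalBasis (Fin (Module.finrank ℝ (WW J (Pos H)))) ℝ (WW J (Pos H))),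
      ∑ α, ‖((QT J H) ^ r) (e α : TupSp J (Pos H))‖ ^ 2 ≤ B J) :
    ((Fintype.card (Pos H)).factorial : ℝ) * ‖((Qrec H (lreg (X := Pos H))) ^ r) (deltaOne (Pos H))‖ ^ 2 ≤
      ∑ J, B J := by
  classical
  choose b μ hb using fun J : Finset (Pos H) => exists_eigen_WW J H r
  have hm : ∀ (J : Finset (Pos H)) (α), μ J α = ‖((QT J H) ^ r) (b J α : TupSp J (Pos H))‖ ^ 2 := by
    intro J α
    exact eigen_eq_norm r ((b J).orthonormal.1 α) (hb J α)
  have htr := trace_le_of_spanning ((XXop (lreg (X := Pos H)) r : RegSpace (Pos H) →L[ℝ] RegSpace (Pos H)) :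
    RegSpace (Pos H) →ₗ[ℝ] RegSpace (Pos H))
    (fun k : (Σ J : Finset (Pos H), Fin (Module.finrank ℝ (WW J (Pos H)))) =>
      iotaJ k.1 (b k.1 k.2 : TupSp k.1 (Pos H))) (fun k => μ k.1 k.2)
    (fun k => by
      have h1 := XXop_natural (iotaJ k.1) (tupRep_isOrth) (lreg_isOrth)
        (fun g f => iotaJ_intertwine k.1 g f) r (b k.1 k.2 : TupSp k.1 (Pos H))
      show XXop lreg r (iotaJ k.1 _) = _
      rw [← h1, hb, map_smul])
    (fun k => by
      rw [hm]
      positivity)
    (span_images b)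
  rw [trace_XXop] at htr
  refine htr.trans ?_
  have h5 : ∑ k : (Σ J : Finset (Pos H), Fin (Module.finrank ℝ (WW J (Pos H)))), μ k.1 k.2 =
      ∑ J, ∑ α, μ J α := Fintype.sum_sigma _
  rw [h5]
  refine sum_le_sum fun J _ => ?_
  simp only [hm]
  exact hB J (b J)

end chi

end Vale.Agent.Lib.P162
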